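import Vale.Agent.H20.P309.Meas

open MeasureTheory ProbabilityTheory
open scoped RealInnerProductSpace ENNReal

namespace P309

theorem nl_gibbs_pt (x y : ℝ≥0∞) (hx : x ≤ 1) (hy : y ≤ 1) :
    nl x + 1 ≤ nl y + y / x := by
  by_cases hy0 : y = 0
  · subst hy0
    have : nl (0 : ℝ≥0∞) = ⊤ := by simp [nl]
    rw [this]; simp
  by_cases hx0 : x = 0
  · subst hx0
    rw [ENNReal.div_zero hy0]; simp
  have hxt : x ≠ ⊤ := ne_top_of_le_ne_top ENNReal.one_ne_top hx
  have hyt : y ≠ ⊤ := ne_top_of_le_ne_top ENNReal.one_ne_top hy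
  have hxp : 0 < x.toReal := ENNReal.toReal_pos hx0 hxt
  have hyp : 0 < y.toReal := ENNReal.toReal_pos hy0 hyt
  have hx1 : x.toReal ≤ 1 := by
    have := ENNReal.toReal_mono ENNReal.one_ne_top hx
    simpa using this
  have hy1 : y.toReal ≤ 1 := by
    have := ENNReal.toReal_mono ENNReal.one_ne_top hy
    simpa using this
  have hlx : 0 ≤ -Real.log x.toReal := by
    have := Real.log_nonpos hxp.le hx1; linarith
  have hly : 0 ≤ -Real.log y.toReal := by
    have := Real.log_nonpos hyp.le hy1; linarith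
  have hdiv : y / x = ENNReal.ofReal (y.toReal / x.toReal) := by
    rw [ENNReal.ofReal_div_of_pos hxp, ENNReal.ofReal_toReal hxt, ENNReal.ofReal_toReal hyt]
  unfold nl
  rw [if_neg hx0, if_neg hy0, hdiv, ← ENNReal.ofReal_one, ← ENNReal.ofReal_add hlx zero_le_one,
    ← ENNReal.ofReal_add hly (by positivity)]
  apply ENNReal.ofReal_le_ofReal
  have h := Real.log_le_sub_one_of_pos (div_pos hyp hxp)
  rw [Real.log_div hyp.ne' hxp.ne'] at h
  linarith

/-! ## L0: Gibbs inequality on cells -/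
theorem gibbs_cells {S ι : Type*} [MeasurableSpace S] [Countable ι] [MeasurableSpace ι]
    [MeasurableSingletonClass ι] [DecidableEq ι] (π : Measure S) [IsProbabilityMeasure π]
    (f : S → ℝ≥0∞) (hf : Measurable f) (hf1 : ∀ s, f s ≤ 1) (lb : S → ι) (hlb : Measurable lb)
    (g : ι → ℝ≥0∞) (hg : ∑' i, g i ≤ ∫⁻ s, f s ∂π) :
    ∫⁻ s, f s * nl (∫⁻ s', (if lb s' = lb s then 1 else 0) * f s' ∂π) ∂π
      ≤ ∫⁻ s, f s * nl (g (lb s)) ∂π := by
  classical
  set ν : ι → ℝ≥0∞ := fun i => ∫⁻ s', (if lb s' = i then 1 else 0) * f s' ∂π with hν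
  have hfint : ∫⁻ s, f s ∂π ≤ 1 := by
    calc ∫⁻ s, f s ∂π ≤ ∫⁻ _, 1 ∂π := lintegral_mono hf1
      _ = 1 := by simp
  have hν1 : ∀ i, ν i ≤ 1 := by
    intro i
    refine le_trans (lintegral_mono fun s' => ?_) hfint
    split_ifs <;> simp
  have hg1 : ∀ i, g i ≤ 1 := fun i => (ENNReal.le_tsum i).trans (hg.trans hfint)
  have hmh : ∀ h : ι → ℝ≥0∞, Measurable (fun s => h (lb s)) := fun h =>
    (measurable_of_countable h).comp hlb
  have key : ∫⁻ s, f s * (g (lb s) / ν (lb s)) ∂π ≤ ∫⁻ s, f s ∂π := by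
    have e1 : ∀ s, f s * (g (lb s) / ν (lb s))
        = ∑' i, ((if lb s = i then 1 else 0) * f s) * (g i / ν i) := by
      intro s
      rw [tsum_eq_single (lb s)]
      · simp
      · intro i hi
        rw [if_neg (Ne.symm hi)]; simp
    have hmi : ∀ i, Measurable (fun s => (if lb s = i then (1 : ℝ≥0∞) else 0) * f s) := by
      intro i
      refine Measurable.mul (Measurable.ite ?_ measurable_const measurable_const) hf
      exact hlb (measurableSet_singleton i)
    calc ∫⁻ s, f s * (g (lb s) / ν (lb s)) ∂π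
        = ∫⁻ s, ∑' i, ((if lb s = i then 1 else 0) * f s) * (g i / ν i) ∂π := by
          exact lintegral_congr e1
      _ = ∑' i, ∫⁻ s, ((if lb s = i then 1 else 0) * f s) * (g i / ν i) ∂π :=
          lintegral_tsum fun i => ((hmi i).mul_const _).aemeasurable
      _ = ∑' i, ν i * (g i / ν i) := by
          refine tsum_congr fun i => ?_
          rw [lintegral_mul_const _ (hmi i)]
      _ ≤ ∑' i, g i := ENNReal.tsum_le_tsum fun i => ENNReal.mul_div_le
      _ ≤ ∫⁻ s, f s ∂π := hg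
  have main : ∫⁻ s, f s * nl (ν (lb s)) ∂π + ∫⁻ s, f s ∂π
      ≤ ∫⁻ s, f s * nl (g (lb s)) ∂π + ∫⁻ s, f s ∂π := by
    calc ∫⁻ s, f s * nl (ν (lb s)) ∂π + ∫⁻ s, f s ∂π
        = ∫⁻ s, (f s * nl (ν (lb s)) + f s) ∂π := (lintegral_add_right _ hf).symm
      _ ≤ ∫⁻ s, (f s * nl (g (lb s)) + f s * (g (lb s) / ν (lb s))) ∂π := by
          refine lintegral_mono fun s => ?_
          have h := mul_le_mul_right (nl_gibbs_pt (ν (lb s)) (g (lb s)) (hν1 _) (hg1 _)) (f s)
          rw [mul_add, mul_add, mul_one] at h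
          exact h
      _ = ∫⁻ s, f s * nl (g (lb s)) ∂π + ∫⁻ s, f s * (g (lb s) / ν (lb s)) ∂π :=
          lintegral_add_right _ (hf.mul (hmh fun i => g i / ν i))
      _ ≤ _ := by gcongr
  exact (ENNReal.add_le_add_iff_right (ne_top_of_le_ne_top ENNReal.one_ne_top hfint)).1 main

end P309
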