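import Vale.Agent.H20.P309.L2

/-! # L1: one-dimensional Gaussian facts -/

open MeasureTheory ProbabilityTheory
open scoped RealInnerProductSpace ENNReal

namespace P309

theorem L1.map_inner {d : ℕ} (u : E d) :
    (stdGaussian (E d)).map (fun x => ⟪x, u⟫) = (gaussianReal 0 1).map (fun t : ℝ => t * ‖u‖) := by
  apply Measure.ext_of_charFun
  ext t
  rw [charFun_apply_real, charFun_apply_real, integral_map (by fun_prop)
    (Measurable.aestronglyMeasurable (by fun_prop)), integral_map (by fun_prop)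
    (Measurable.aestronglyMeasurable (by fun_prop))]
  have h1 : ∫ x, Complex.exp ((t : ℂ) * ((⟪x, u⟫ : ℝ) : ℂ) * Complex.I) ∂(stdGaussian (E d)) =
      charFun (stdGaussian (E d)) (t • u) := by
    rw [charFun_apply]
    apply integral_congr_ae
    refine Filter.Eventually.of_forall fun x => ?_
    simp only
    rw [real_inner_smul_right]
    push_cast
    ring_nf
  have h2 : ∫ x : ℝ, Complex.exp ((t : ℂ) * ((x * ‖u‖ : ℝ) : ℂ) * Complex.I) ∂(gaussianReal 0 1) =
      charFun (gaussianReal 0 1) (t * ‖u‖) := by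
    rw [charFun_apply_real]
    apply integral_congr_ae
    refine Filter.Eventually.of_forall fun x => ?_
    simp only
    push_cast
    ring_nf
  rw [h1, h2, charFun_stdGaussian, charFun_gaussianReal]
  congr 1
  rw [norm_smul]
  push_cast
  rw [mul_pow, mul_pow]
  have : ((‖t‖ : ℝ) : ℂ) ^ 2 = (t : ℂ) ^ 2 := by
    rw [Real.norm_eq_abs]
    exact_mod_cast congrArg (fun x : ℝ => (x : ℂ)) (sq_abs t)
  rw [this]
  simp
  ring

theorem gauss_anti {d : ℕ} (u : E d) (hu : u ≠ 0) (a δ : ℝ) (hδ : 0 ≤ δ) :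
    stdGaussian (E d) {x | |a + ⟪x, u⟫| ≤ δ} ≤ ENNReal.ofReal (δ / ‖u‖) := by
  have hS : MeasurableSet {y : ℝ | |a + y| ≤ δ} := measurableSet_le (by fun_prop) (by fun_prop)
  have h1 : stdGaussian (E d) {x | |a + ⟪x, u⟫| ≤ δ} =
      (stdGaussian (E d)).map (fun x => ⟪x, u⟫) {y : ℝ | |a + y| ≤ δ} := by
    rw [Measure.map_apply (by fun_prop) hS]
    rfl
  rw [h1, L1.map_inner, Measure.map_apply (by fun_prop) hS]
  exact L2.gauss_interval a ‖u‖ δ (norm_pos_iff.2 hu) hδ

theorem L1.abs_one : ∫⁻ t : ℝ, ENNReal.ofReal |t| ∂(gaussianReal 0 1) ≤ 1 := by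
  have hint : Integrable (fun t : ℝ => t ^ 2) (gaussianReal 0 1) := by
    have := (memLp_id_gaussianReal (μ := 0) (v := 1) 2).integrable_sq
    simpa using this
  have hvar : ∫ t : ℝ, t ^ 2 ∂(gaussianReal 0 1) = 1 := by
    have h := variance_fun_id_gaussianReal (μ := 0) (v := 1)
    rw [variance_eq_integral (by fun_prop)] at h
    simpa [integral_id_gaussianReal] using h
  calc ∫⁻ t : ℝ, ENNReal.ofReal |t| ∂(gaussianReal 0 1)
      ≤ ∫⁻ t : ℝ, ENNReal.ofReal ((1 + t ^ 2) / 2) ∂(gaussianReal 0 1) := by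
        refine lintegral_mono fun t => ENNReal.ofReal_le_ofReal ?_
        nlinarith [sq_nonneg (|t| - 1), sq_abs t]
    _ = ENNReal.ofReal (∫ t : ℝ, (1 + t ^ 2) / 2 ∂(gaussianReal 0 1)) := by
        rw [ofReal_integral_eq_lintegral_ofReal]
        · exact ((integrable_const 1).add hint).div_const 2
        · exact Filter.Eventually.of_forall fun t => by positivity
    _ = 1 := by
        rw [integral_div, integral_add (integrable_const 1) hint, hvar]
        simp

theorem gauss_abs {d : ℕ} (u : E d) :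
    ∫⁻ x, ENNReal.ofReal |⟪x, u⟫| ∂(stdGaussian (E d)) ≤ ENNReal.ofReal ‖u‖ := by
  have h1 : ∫⁻ x, ENNReal.ofReal |⟪x, u⟫| ∂(stdGaussian (E d)) =
      ∫⁻ y : ℝ, ENNReal.ofReal |y| ∂((stdGaussian (E d)).map (fun x => ⟪x, u⟫)) := by
    rw [lintegral_map (by fun_prop) (by fun_prop)]
  rw [h1, L1.map_inner, lintegral_map (by fun_prop) (by fun_prop)]
  calc ∫⁻ t : ℝ, ENNReal.ofReal |t * ‖u‖| ∂(gaussianReal 0 1)
      = ∫⁻ t : ℝ, ENNReal.ofReal ‖u‖ * ENNReal.ofReal |t| ∂(gaussianReal 0 1) := by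
        refine lintegral_congr fun t => ?_
        rw [← ENNReal.ofReal_mul (norm_nonneg _), abs_mul, abs_norm, mul_comm]
    _ = ENNReal.ofReal ‖u‖ * ∫⁻ t : ℝ, ENNReal.ofReal |t| ∂(gaussianReal 0 1) :=
        lintegral_const_mul _ (by fun_prop)
    _ ≤ ENNReal.ofReal ‖u‖ * 1 := by gcongr; exact L1.abs_one
    _ = _ := mul_one _

end P309
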