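import Vale.Agent.H20.P309.Meas

/-! # L10: Donsker-Varadhan step -/

open MeasureTheory ProbabilityTheory
open scoped RealInnerProductSpace ENNReal

namespace P309

namespace L10

theorem real_ineq (β κ l c B : ℝ) (hβ : 0 < β) (hβ1 : β ≤ 1) (hB : 0 < B) :
    β * l + β ≤ β * κ + β * c + β * (-Real.log B)
      + B / (Real.exp c * Real.exp (-l)) * Real.exp (-κ) := by
  set t : ℝ := B / (Real.exp c * Real.exp (-l)) * Real.exp (-κ) / β with ht
  have hs : 0 < Real.exp c * Real.exp (-l) := by positivity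
  have ht0 : 0 < t := by positivity
  have h1 := Real.log_le_sub_one_of_pos ht0
  have h2 : Real.log t = Real.log B - c + l - κ - Real.log β := by
    rw [ht, Real.log_div (by positivity) hβ.ne', Real.log_mul (by positivity) (by positivity),
      Real.log_div hB.ne' hs.ne', Real.log_mul (by positivity) (by positivity), Real.log_exp,
      Real.log_exp, Real.log_exp]
    ring
  have h3 : β * t = B / (Real.exp c * Real.exp (-l)) * Real.exp (-κ) := by
    rw [ht]; field_simp
  have h4 : Real.log β ≤ 0 := Real.log_nonpos hβ.le hβ1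
  have h5 : β * Real.log β ≤ 0 := mul_nonpos_of_nonneg_of_nonpos hβ.le h4
  have h6 := mul_le_mul_of_nonneg_left h1 hβ.le
  rw [h2] at h6
  have h7 : β * (t - 1) = β * t - β := by ring
  rw [h7, h3] at h6
  nlinarith [h6, h5]

theorem pointwise (b Q l : ℝ≥0∞) (c : ℝ) (hc : 0 ≤ c) (B : ℝ≥0∞) (hb1 : b ≤ 1) (hB : B ≠ 0)
    (hB1 : B ≤ 1) (hl : l ≠ ⊤) :
    b * l + b ≤ b * Q + b * ENNReal.ofReal c + b * nl B
      + B / (ENNReal.ofReal (Real.exp c) * expneg l) * expneg Q := by
  rcases eq_or_ne b 0 with rfl | hb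
  · simp
  rcases eq_or_ne Q ⊤ with rfl | hQ
  · rw [ENNReal.mul_top hb]; simp
  have hbt : b ≠ ⊤ := ne_top_of_le_ne_top ENNReal.one_ne_top hb1
  have hBt : B ≠ ⊤ := ne_top_of_le_ne_top ENNReal.one_ne_top hB1
  have hβ : 0 < b.toReal := ENNReal.toReal_pos hb hbt
  have hβ1 : b.toReal ≤ 1 := by
    have := ENNReal.toReal_mono ENNReal.one_ne_top hb1
    simpa using this
  have hB' : 0 < B.toReal := ENNReal.toReal_pos hB hBt
  have hB1' : B.toReal ≤ 1 := by
    have := ENNReal.toReal_mono ENNReal.one_ne_top hB1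
    simpa using this
  have key := real_ineq b.toReal Q.toReal l.toReal c B.toReal hβ hβ1 hB'
  have hlog : 0 ≤ -Real.log B.toReal := by
    have := Real.log_nonpos hB'.le hB1'
    linarith
  have e1 : b * l + b = ENNReal.ofReal (b.toReal * l.toReal + b.toReal) := by
    rw [ENNReal.ofReal_add (by positivity) hβ.le, ENNReal.ofReal_mul hβ.le, ENNReal.ofReal_toReal hbt,
      ENNReal.ofReal_toReal hl]
  have e2 : b * Q + b * ENNReal.ofReal c + b * nl B
      + B / (ENNReal.ofReal (Real.exp c) * expneg l) * expneg Q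
      = ENNReal.ofReal (b.toReal * Q.toReal + b.toReal * c + b.toReal * (-Real.log B.toReal)
      + B.toReal / (Real.exp c * Real.exp (-l.toReal)) * Real.exp (-Q.toReal)) := by
    have h1 : 0 ≤ b.toReal * Q.toReal := by positivity
    have h2 : 0 ≤ b.toReal * c := by positivity
    have h3 : 0 ≤ b.toReal * (-Real.log B.toReal) := mul_nonneg hβ.le hlog
    have h4 : 0 < Real.exp c * Real.exp (-l.toReal) := by positivity
    rw [ENNReal.ofReal_add (by positivity) (by positivity), ENNReal.ofReal_add (by positivity) h3,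
      ENNReal.ofReal_add h1 h2, ENNReal.ofReal_mul hβ.le, ENNReal.ofReal_mul hβ.le,
      ENNReal.ofReal_mul hβ.le, ENNReal.ofReal_mul (by positivity), ENNReal.ofReal_div_of_pos h4,
      ENNReal.ofReal_mul (Real.exp_pos _).le, ENNReal.ofReal_toReal hbt, ENNReal.ofReal_toReal hQ,
      ENNReal.ofReal_toReal hBt]
    simp only [expneg, if_neg hl, if_neg hQ, nl, if_neg hB]
  rw [e1, e2]
  exact ENNReal.ofReal_le_ofReal key

end L10

/-! ## L10: Donsker-Varadhan step -/
theorem dv_step {Ω : Type*} [MeasurableSpace Ω] (P : Measure Ω) [IsProbabilityMeasure P]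
    (b q : Ω → ℝ≥0∞) (hb : Measurable b) (hb1 : ∀ ω, b ω ≤ 1) (hq : Measurable q) (m : ℕ)
    (L : ℝ≥0∞) (hL : L ≠ ⊤) (c : ℝ) (hc : 0 ≤ c)
    (h : ∫⁻ ω, expneg (m * q ω) ∂P ≤ ENNReal.ofReal (Real.exp c) * expneg (m * L)) :
    (∫⁻ ω, b ω ∂P) * (m * L)
      ≤ m * (∫⁻ ω, b ω * q ω ∂P) + (∫⁻ ω, b ω ∂P) * nl (∫⁻ ω, b ω ∂P)
        + (∫⁻ ω, b ω ∂P) * ENNReal.ofReal c := by
  set B : ℝ≥0∞ := ∫⁻ ω, b ω ∂P with hBdef
  rcases eq_or_ne B 0 with hB | hB
  · rw [hB]; simp
  have hB1 : B ≤ 1 := by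
    calc B ≤ ∫⁻ _, 1 ∂P := lintegral_mono hb1
      _ = 1 := by simp
  have hBt : B ≠ ⊤ := ne_top_of_le_ne_top ENNReal.one_ne_top hB1
  have hmL : (m : ℝ≥0∞) * L ≠ ⊤ := ENNReal.mul_ne_top (ENNReal.natCast_ne_top m) hL
  set S : ℝ≥0∞ := ENNReal.ofReal (Real.exp c) * expneg (m * L) with hS
  have hS0 : S ≠ 0 := by
    rw [hS, expneg, if_neg hmL]
    simp only [ne_eq, mul_eq_zero, ENNReal.ofReal_eq_zero, not_or, not_le]
    exact ⟨Real.exp_pos _, Real.exp_pos _⟩
  have hSt : S ≠ ⊤ := by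
    rw [hS, expneg, if_neg hmL]
    exact ENNReal.mul_ne_top ENNReal.ofReal_ne_top ENNReal.ofReal_ne_top
  have hint := lintegral_mono (μ := P) (fun ω =>
    L10.pointwise (b ω) (m * q ω) (m * L) c hc B (hb1 ω) hB hB1 hmL)
  have hqm : Measurable (fun ω => (m : ℝ≥0∞) * q ω) := hq.const_mul _
  have hem : Measurable (fun ω => expneg ((m : ℝ≥0∞) * q ω)) := measurable_expneg.comp hqm
  have e1 : ∫⁻ ω, (b ω * (m * L) + b ω) ∂P = B * (m * L) + B := by
    rw [lintegral_add_right _ hb, lintegral_mul_const _ hb]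
  have e2 : ∫⁻ ω, (b ω * (m * q ω) + b ω * ENNReal.ofReal c + b ω * nl B
      + B / S * expneg (m * q ω)) ∂P
      = m * (∫⁻ ω, b ω * q ω ∂P) + B * ENNReal.ofReal c + B * nl B
        + B / S * ∫⁻ ω, expneg (m * q ω) ∂P := by
    rw [lintegral_add_right _ (hem.const_mul _), lintegral_add_right _ (hb.mul_const _),
      lintegral_add_right _ (hb.mul_const _), lintegral_mul_const _ hb, lintegral_mul_const _ hb,
      lintegral_const_mul _ hem]
    congr 3
    have h9 := lintegral_const_mul (μ := P) (m : ℝ≥0∞) (hb.mul hq)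
    refine Eq.trans ?_ h9
    refine lintegral_congr fun ω => ?_
    simp only [Pi.mul_apply]
    ring
  rw [e1] at hint
  have h3 : B * (m * L) + B ≤ (m * (∫⁻ ω, b ω * q ω ∂P) + B * ENNReal.ofReal c + B * nl B) + B := by
    refine hint.trans (e2.le.trans ?_)
    gcongr
    calc B / S * ∫⁻ ω, expneg (m * q ω) ∂P ≤ B / S * S := by gcongr
      _ = B := ENNReal.div_mul_cancel hS0 hSt
  have h4 := (ENNReal.add_le_add_iff_right hBt).1 h3
  refine h4.trans (le_of_eq ?_)
  ring

end P309
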