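import Vale.Agent.H20.P309.Law

/-! # P309, row L12: the uniform measure on the sphere -/

open MeasureTheory ProbabilityTheory
open scoped RealInnerProductSpace ENNReal Pointwise

namespace P309

theorem sph_prob (d : ℕ) (hd : 2 ≤ d) : IsProbabilityMeasure (sph d) := by
  have : Nontrivial (E d) := by
    have : Nontrivial (Fin d) := Fin.nontrivial_iff_two_le.2 hd
    infer_instance
  have h0 : (volume : Measure (E d)).toSphere Set.univ ≠ 0 := by
    rw [Ne, Measure.measure_univ_eq_zero]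
    exact Measure.toSphere_ne_zero _
  have h1 : (volume : Measure (E d)).toSphere Set.univ ≠ ⊤ := measure_ne_top _ _
  have : IsProbabilityMeasure
      (((volume : Measure (E d)).toSphere Set.univ)⁻¹ • (volume : Measure (E d)).toSphere) := by
    constructor
    rw [Measure.smul_apply, smul_eq_mul]
    exact ENNReal.inv_mul_cancel h0 h1
  unfold sph
  exact Measure.isProbabilityMeasure_map measurable_subtype_coe.aemeasurable

theorem sph_apply (d : ℕ) (hd : 2 ≤ d) {S : Set (E d)} (hS : MeasurableSet S) :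
    sph d S = (volume (Metric.ball (0 : E d) 1))⁻¹ *
      volume (Set.Ioo (0 : ℝ) 1 • (Metric.sphere (0 : E d) 1 ∩ S)) := by
  have : Nontrivial (E d) := by
    have : Nontrivial (Fin d) := Fin.nontrivial_iff_two_le.2 hd
    infer_instance
  unfold sph
  rw [Measure.map_apply measurable_subtype_coe hS, Measure.smul_apply, smul_eq_mul,
    Measure.toSphere_apply' _ (measurable_subtype_coe hS), Measure.toSphere_apply_univ]
  have hdim : Module.finrank ℝ (E d) = d := by simp
  rw [hdim, Subtype.image_preimage_coe]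
  have hd0 : (d : ℝ≥0∞) ≠ 0 := by
    have : d ≠ 0 := by omega
    exact_mod_cast this
  have hd1 : (d : ℝ≥0∞) ≠ ⊤ := ENNReal.natCast_ne_top d
  rw [ENNReal.mul_inv (Or.inl hd0) (Or.inl hd1)]
  calc (d : ℝ≥0∞)⁻¹ * (volume (Metric.ball (0 : E d) 1))⁻¹ *
        (d * volume (Set.Ioo (0 : ℝ) 1 • (Metric.sphere (0 : E d) 1 ∩ S)))
      = ((d : ℝ≥0∞)⁻¹ * d) * ((volume (Metric.ball (0 : E d) 1))⁻¹ *
        volume (Set.Ioo (0 : ℝ) 1 • (Metric.sphere (0 : E d) 1 ∩ S))) := by ring
    _ = _ := by rw [ENNReal.inv_mul_cancel hd0 hd1, one_mul]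

theorem sph_ball (d : ℕ) (hd : 2 ≤ d) (v : E d) (r : ℝ) (hr : 0 < r) :
    sph d (Metric.closedBall v r) ≤ ENNReal.ofReal ((16 : ℝ) ^ d * r ^ (d - 1)) := by
  have := sph_prob d hd
  have : Nontrivial (E d) := by
    have : Nontrivial (Fin d) := Fin.nontrivial_iff_two_le.2 hd
    infer_instance
  rcases le_or_gt 1 r with h1 | h1
  · refine prob_le_one.trans ?_
    rw [← ENNReal.ofReal_one]
    apply ENNReal.ofReal_le_ofReal
    have e1 : (1 : ℝ) ≤ 16 ^ d := one_le_pow₀ (by norm_num)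
    have e2 : (1 : ℝ) ≤ r ^ (d - 1) := one_le_pow₀ h1
    nlinarith
  · rw [sph_apply d hd Metric.isClosed_closedBall.measurableSet]
    set S := Metric.sphere (0 : E d) 1 ∩ Metric.closedBall v r with hS
    rcases S.eq_empty_or_nonempty with he | ⟨s₀, hs₀⟩
    · rw [he]; simp
    · set K := ⌊1 / r⌋₊ with hK
      have hcov : Set.Ioo (0 : ℝ) 1 • S ⊆
          ⋃ k ∈ Finset.range (K + 1), Metric.closedBall ((k * r : ℝ) • s₀) (3 * r) := by
        rintro y hy
        rw [Set.mem_smul] at hy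
        obtain ⟨t, ht, s, hs, rfl⟩ := hy
        have hkr : (⌊t / r⌋₊ : ℝ) * r ≤ t := by
          have := Nat.floor_le (div_pos ht.1 hr).le
          rwa [le_div_iff₀ hr] at this
        have hkr2 : t < (⌊t / r⌋₊ : ℝ) * r + r := by
          have := Nat.lt_floor_add_one (t / r)
          rw [div_lt_iff₀ hr] at this
          linarith
        have hkK : ⌊t / r⌋₊ < K + 1 := by
          rw [Nat.lt_succ_iff]
          apply Nat.floor_le_floor
          exact div_le_div_of_nonneg_right ht.2.le hr.le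
        simp only [Set.mem_iUnion]
        refine ⟨⌊t / r⌋₊, Finset.mem_range.2 hkK, ?_⟩
        rw [Metric.mem_closedBall, dist_eq_norm]
        have hs0n : ‖s₀‖ = 1 := by simpa using hs₀.1
        have hss : ‖s - s₀‖ ≤ 2 * r := by
          have e1 := Metric.mem_closedBall.1 hs.2
          have e2 := Metric.mem_closedBall.1 hs₀.2
          rw [← dist_eq_norm]
          calc dist s s₀ ≤ dist s v + dist v s₀ := dist_triangle _ _ _
            _ ≤ r + r := add_le_add e1 (by rw [dist_comm]; exact e2)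
            _ = 2 * r := by ring
        have hdecomp : t • s - ((⌊t / r⌋₊ : ℝ) * r) • s₀
            = t • (s - s₀) + (t - (⌊t / r⌋₊ : ℝ) * r) • s₀ := by
          rw [smul_sub, sub_smul]; abel
        rw [hdecomp]
        calc ‖t • (s - s₀) + (t - (⌊t / r⌋₊ : ℝ) * r) • s₀‖
            ≤ ‖t • (s - s₀)‖ + ‖(t - (⌊t / r⌋₊ : ℝ) * r) • s₀‖ := norm_add_le _ _
          _ = t * ‖s - s₀‖ + (t - (⌊t / r⌋₊ : ℝ) * r) := by
              rw [norm_smul, norm_smul, hs0n, mul_one, Real.norm_of_nonneg ht.1.le,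
                Real.norm_of_nonneg (by linarith)]
          _ ≤ 1 * (2 * r) + r := by
              gcongr
              · exact ht.2.le
              · linarith
          _ = 3 * r := by ring
      have hvol : volume (Set.Ioo (0 : ℝ) 1 • S) ≤
          ENNReal.ofReal ((K + 1) * (3 * r) ^ d) * volume (Metric.ball (0 : E d) 1) := by
        refine (measure_mono hcov).trans ((measure_biUnion_finset_le _ _).trans ?_)
        have : ∀ k ∈ Finset.range (K + 1),
            volume (Metric.closedBall ((k * r : ℝ) • s₀) (3 * r)) =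
              ENNReal.ofReal ((3 * r) ^ d) * volume (Metric.ball (0 : E d) 1) := by
          intro k _
          rw [Measure.addHaar_closedBall _ _ (by positivity)]
          simp
        rw [Finset.sum_congr rfl this, Finset.sum_const, Finset.card_range, nsmul_eq_mul,
          ← mul_assoc, ENNReal.ofReal_mul (by positivity)]
        gcongr
        rw [ENNReal.ofReal_add (by positivity) zero_le_one, ENNReal.ofReal_one,
          ENNReal.ofReal_natCast]
        push_cast
        exact le_rfl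
      have hb0 : volume (Metric.ball (0 : E d) 1) ≠ 0 :=
        (Metric.measure_ball_pos _ _ one_pos).ne'
      have hb1 : volume (Metric.ball (0 : E d) 1) ≠ ⊤ := measure_ball_lt_top.ne
      calc (volume (Metric.ball (0 : E d) 1))⁻¹ * volume (Set.Ioo (0 : ℝ) 1 • S)
          ≤ (volume (Metric.ball (0 : E d) 1))⁻¹ *
            (ENNReal.ofReal ((K + 1) * (3 * r) ^ d) * volume (Metric.ball (0 : E d) 1)) := by
            gcongr
        _ = ENNReal.ofReal ((K + 1) * (3 * r) ^ d) *
            ((volume (Metric.ball (0 : E d) 1))⁻¹ * volume (Metric.ball (0 : E d) 1)) := by ring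
        _ = ENNReal.ofReal ((K + 1) * (3 * r) ^ d) := by
            rw [ENNReal.inv_mul_cancel hb0 hb1, mul_one]
        _ ≤ ENNReal.ofReal ((16 : ℝ) ^ d * r ^ (d - 1)) := by
            apply ENNReal.ofReal_le_ofReal
            have hKr : (K : ℝ) * r ≤ 1 := by
              have := Nat.floor_le (div_pos one_pos hr).le
              rwa [le_div_iff₀ hr] at this
            have hd' : r ^ d = r * r ^ (d - 1) := by
              rw [← pow_succ']; congr 1; omega
            have hp : (0 : ℝ) ≤ r ^ (d - 1) := by positivity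
            have h3 : (0 : ℝ) < 3 ^ d := by positivity
            have h316 : (2 : ℝ) * 3 ^ d ≤ 16 ^ d := by
              have e1 : (16 : ℝ) ^ d = 3 ^ d * (16 / 3) ^ d := by rw [← mul_pow]; norm_num
              have e2 : (2 : ℝ) ≤ (16 / 3) ^ d := by
                calc (2 : ℝ) ≤ (16 / 3) ^ 1 := by norm_num
                  _ ≤ (16 / 3) ^ d := pow_le_pow_right₀ (by norm_num) (by omega)
              rw [e1]; nlinarith
            calc ((K : ℝ) + 1) * (3 * r) ^ d = ((K : ℝ) * r + r) * (3 ^ d * r ^ (d - 1)) := by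
                  rw [mul_pow, hd']; ring
              _ ≤ 2 * (3 ^ d * r ^ (d - 1)) := by
                  apply mul_le_mul_of_nonneg_right _ (by positivity)
                  linarith
              _ = (2 * 3 ^ d) * r ^ (d - 1) := by ring
              _ ≤ 16 ^ d * r ^ (d - 1) := mul_le_mul_of_nonneg_right h316 hp

theorem sph_prior (d : ℕ) (hd : 2 ≤ d) : Prior d (sph d) where
  prob := sph_prob d hd
  sphere := by
    unfold sph
    rw [ae_map_iff measurable_subtype_coe.aemeasurable (measurableSet_eq_fun (by fun_prop)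
      measurable_const)]
    exact Filter.Eventually.of_forall fun x => by simp
  ball := sph_ball d hd

/-! ## moments -/

theorem moment_pointwise {d : ℕ} (q : ℕ) (v s : E d) {δ : ℝ} (hδ : 0 < δ) :
    ENNReal.ofReal (((‖s - v‖ + δ) ^ q)⁻¹) ≤
      1 + ∑' k : ℕ, (Metric.closedBall v ((2 : ℝ) ^ k)⁻¹).indicator
        (fun _ => ENNReal.ofReal ((2 : ℝ) ^ (q * (k + 1)))) s := by
  set ρ := ‖s - v‖ + δ with hρ
  have hρ0 : 0 < ρ := by positivity
  rcases le_or_gt 1 ρ with h1 | h1
  · refine le_trans ?_ le_self_add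
    rw [← ENNReal.ofReal_one]
    apply ENNReal.ofReal_le_ofReal
    exact inv_le_one_of_one_le₀ (one_le_pow₀ h1)
  · obtain ⟨k, hk1, hk2⟩ := exists_nat_pow_near_of_lt_one hρ0 h1.le (y := (1 / 2 : ℝ))
      (by norm_num) (by norm_num)
    refine le_trans ?_ le_add_self
    refine le_trans ?_ (ENNReal.le_tsum k)
    have hmem : s ∈ Metric.closedBall v ((2 : ℝ) ^ k)⁻¹ := by
      rw [Metric.mem_closedBall, dist_eq_norm]
      have e1 : (1 / 2 : ℝ) ^ k = ((2 : ℝ) ^ k)⁻¹ := by rw [one_div, inv_pow]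
      rw [← e1]
      linarith
    rw [Set.indicator_of_mem hmem]
    apply ENNReal.ofReal_le_ofReal
    have e2 : ρ⁻¹ ≤ 2 ^ (k + 1) := by
      rw [inv_le_comm₀ hρ0 (by positivity)]
      have e1 : (1 / 2 : ℝ) ^ (k + 1) = ((2 : ℝ) ^ (k + 1))⁻¹ := by rw [one_div, inv_pow]
      rw [← e1]
      exact hk1.le
    calc (ρ ^ q)⁻¹ = (ρ⁻¹) ^ q := by rw [inv_pow]
      _ ≤ (2 ^ (k + 1)) ^ q := pow_le_pow_left₀ (by positivity) e2 q
      _ = 2 ^ (q * (k + 1)) := by rw [← pow_mul, mul_comm]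

theorem prior_moment : ∃ C : ℝ, 1 ≤ C ∧ ∀ (d : ℕ) (π : Measure (E d)), Prior d π →
    ∀ q : ℕ, 2 * q + 2 ≤ d → ∀ (v : E d) (δ : ℝ), 0 < δ →
    ∫⁻ s, ENNReal.ofReal (((‖s - v‖ + δ) ^ q)⁻¹) ∂π ≤ ENNReal.ofReal (C ^ d) := by
  refine ⟨96, by norm_num, fun d π hπ q hq v δ hδ => ?_⟩
  have := hπ.prob
  have hterm : ∀ k : ℕ, ∫⁻ s, (Metric.closedBall v ((2 : ℝ) ^ k)⁻¹).indicator
        (fun _ => ENNReal.ofReal ((2 : ℝ) ^ (q * (k + 1)))) s ∂π
      ≤ ENNReal.ofReal ((32 : ℝ) ^ d) * (2⁻¹ : ℝ≥0∞) ^ k := by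
    intro k
    rw [lintegral_indicator Metric.isClosed_closedBall.measurableSet, lintegral_const,
      Measure.restrict_apply_univ]
    calc ENNReal.ofReal ((2 : ℝ) ^ (q * (k + 1))) * π (Metric.closedBall v ((2 : ℝ) ^ k)⁻¹)
        ≤ ENNReal.ofReal ((2 : ℝ) ^ (q * (k + 1))) *
          ENNReal.ofReal ((16 : ℝ) ^ d * (((2 : ℝ) ^ k)⁻¹) ^ (d - 1)) := by
          gcongr
          exact hπ.ball _ _ (by positivity)
      _ = ENNReal.ofReal ((2 : ℝ) ^ (q * (k + 1)) *
          ((16 : ℝ) ^ d * (((2 : ℝ) ^ k)⁻¹) ^ (d - 1))) := by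
          rw [← ENNReal.ofReal_mul (by positivity)]
      _ ≤ ENNReal.ofReal ((32 : ℝ) ^ d * (2⁻¹ : ℝ) ^ k) := by
          apply ENNReal.ofReal_le_ofReal
          have e1 : (((2 : ℝ) ^ k)⁻¹) ^ (d - 1) ≤ (((2 : ℝ) ^ k)⁻¹) ^ (q + 1) := by
            apply pow_le_pow_of_le_one (by positivity)
            · exact inv_le_one_of_one_le₀ (one_le_pow₀ (by norm_num))
            · omega
          have e2 : (2 : ℝ) ^ (q * (k + 1)) * (((2 : ℝ) ^ k)⁻¹) ^ (q + 1)
              = 2 ^ q * (2⁻¹ : ℝ) ^ k := by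
            have : (2 : ℝ) ^ (q * (k + 1)) = 2 ^ q * (2 ^ k) ^ q := by
              rw [← pow_mul, ← pow_add]; congr 1; ring
            rw [this, pow_succ, inv_pow, inv_pow]
            field_simp
          have e3 : (2 : ℝ) ^ q ≤ 2 ^ d := pow_le_pow_right₀ (by norm_num) (by omega)
          calc (2 : ℝ) ^ (q * (k + 1)) * ((16 : ℝ) ^ d * (((2 : ℝ) ^ k)⁻¹) ^ (d - 1))
              ≤ (2 : ℝ) ^ (q * (k + 1)) * ((16 : ℝ) ^ d * (((2 : ℝ) ^ k)⁻¹) ^ (q + 1)) := by
                gcongr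
            _ = 16 ^ d * ((2 : ℝ) ^ (q * (k + 1)) * (((2 : ℝ) ^ k)⁻¹) ^ (q + 1)) := by ring
            _ = 16 ^ d * (2 ^ q * (2⁻¹ : ℝ) ^ k) := by rw [e2]
            _ ≤ 16 ^ d * (2 ^ d * (2⁻¹ : ℝ) ^ k) := by gcongr
            _ = (32 : ℝ) ^ d * (2⁻¹ : ℝ) ^ k := by
                rw [← mul_assoc, ← mul_pow]; norm_num
      _ = ENNReal.ofReal ((32 : ℝ) ^ d) * (2⁻¹ : ℝ≥0∞) ^ k := by
          rw [ENNReal.ofReal_mul (by positivity),
            ENNReal.ofReal_pow (p := (2⁻¹ : ℝ)) (by norm_num),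
            ENNReal.ofReal_inv_of_pos (by norm_num)]
          simp
  calc ∫⁻ s, ENNReal.ofReal (((‖s - v‖ + δ) ^ q)⁻¹) ∂π
      ≤ ∫⁻ s, (1 + ∑' k : ℕ, (Metric.closedBall v ((2 : ℝ) ^ k)⁻¹).indicator
        (fun _ => ENNReal.ofReal ((2 : ℝ) ^ (q * (k + 1)))) s) ∂π :=
        lintegral_mono fun s => moment_pointwise q v s hδ
    _ = 1 + ∑' k : ℕ, ∫⁻ s, (Metric.closedBall v ((2 : ℝ) ^ k)⁻¹).indicator
        (fun _ => ENNReal.ofReal ((2 : ℝ) ^ (q * (k + 1)))) s ∂π := by
        rw [lintegral_add_left measurable_const, lintegral_const, measure_univ, mul_one,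
          lintegral_tsum]
        intro k
        exact (measurable_const.indicator Metric.isClosed_closedBall.measurableSet).aemeasurable
    _ ≤ 1 + ∑' k : ℕ, ENNReal.ofReal ((32 : ℝ) ^ d) * (2⁻¹ : ℝ≥0∞) ^ k := by
        gcongr with k
        exact hterm k
    _ = 1 + ENNReal.ofReal ((32 : ℝ) ^ d) * 2 := by
        rw [ENNReal.tsum_mul_left, ENNReal.tsum_geometric, ENNReal.one_sub_inv_two, inv_inv]
    _ = ENNReal.ofReal (1 + 32 ^ d * 2) := by
        rw [ENNReal.ofReal_add zero_le_one (by positivity), ENNReal.ofReal_one,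
          ENNReal.ofReal_mul (by positivity)]
        simp
    _ ≤ ENNReal.ofReal (96 ^ d) := by
        apply ENNReal.ofReal_le_ofReal
        have e1 : (96 : ℝ) ^ d = 32 ^ d * 3 ^ d := by rw [← mul_pow]; norm_num
        have e2 : (3 : ℝ) ≤ 3 ^ d := by
          calc (3 : ℝ) = 3 ^ 1 := by norm_num
            _ ≤ 3 ^ d := pow_le_pow_right₀ (by norm_num) (by omega)
        have e3 : (1 : ℝ) ≤ 32 ^ d := one_le_pow₀ (by norm_num)
        rw [e1]
        nlinarith

/-! ## absolute continuity -/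

theorem null_of_deriv_pos {g g' : ℝ → ℝ} (hg : ∀ t, HasDerivAt g (g' t) t)
    (hpos : ∀ t, 0 < g' t) {N : Set ℝ} (hN : MeasurableSet N) (h0 : volume N = 0) :
    volume (g ⁻¹' N) = 0 := by
  have hcont : Continuous g := continuous_iff_continuousAt.2 fun t => (hg t).continuousAt
  have hmono : StrictMono g := strictMono_of_deriv_pos fun t => by
    rw [(hg t).deriv]; exact hpos t
  have hm : MeasurableSet (g ⁻¹' N) := hcont.measurable hN
  have hdm : Measurable g' := by
    have : g' = deriv g := funext fun t => ((hg t).deriv).symm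
    rw [this]
    exact measurable_deriv g
  have h1 := lintegral_image_eq_lintegral_abs_deriv_mul hm
    (fun t _ => (hg t).hasDerivWithinAt) hmono.injective.injOn (fun _ => 1)
  have h2 : ∫⁻ _x in g '' (g ⁻¹' N), (1 : ℝ≥0∞) = 0 := by
    rw [lintegral_const, Measure.restrict_apply_univ, one_mul]
    exact measure_mono_null (Set.image_preimage_subset g N) h0
  rw [h2] at h1
  simp only [mul_one] at h1
  have h3 := (lintegral_eq_zero_iff (hdm.abs.ennreal_ofReal)).1 h1.symm
  rw [Filter.EventuallyEq, ae_restrict_iff' hm] at h3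
  have h4 : ∀ᵐ t, t ∉ g ⁻¹' N := by
    filter_upwards [h3] with t ht hmem
    have := ht hmem
    simp only [Pi.zero_apply, ENNReal.ofReal_eq_zero] at this
    have := abs_pos.2 (hpos t).ne'
    linarith
  have := measure_eq_zero_iff_ae_notMem.2 h4
  exact this

theorem inner_norm_hasDerivAt {d : ℕ} (x y : E d) (hy : ∀ t : ℝ, y + t • x ≠ 0) (t : ℝ) :
    HasDerivAt (fun t : ℝ => ⟪x, y + t • x⟫ / ‖y + t • x‖)
      ((‖x‖ ^ 2 * ‖y + t • x‖ ^ 2 - ⟪x, y + t • x⟫ ^ 2) / ‖y + t • x‖ ^ 3) t := by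
  have hne : ‖y + t • x‖ ≠ 0 := norm_ne_zero_iff.2 (hy t)
  have h1 : HasDerivAt (fun t : ℝ => y + t • x) x t := by
    have := ((hasDerivAt_id t).smul_const x).const_add y
    simpa using this
  have h2 : HasDerivAt (fun t : ℝ => ⟪x, y + t • x⟫) (‖x‖ ^ 2) t := by
    have := (hasDerivAt_const t x).inner ℝ h1
    simpa [real_inner_self_eq_norm_sq] using this
  have h3 : HasDerivAt (fun t : ℝ => ‖y + t • x‖ ^ 2) (2 * ⟪x, y + t • x⟫) t := by
    have := h1.norm_sq
    rw [real_inner_comm] at this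
    exact this
  have h4 : HasDerivAt (fun t : ℝ => ‖y + t • x‖) (⟪x, y + t • x⟫ / ‖y + t • x‖) t := by
    have h5 := h3.sqrt (pow_ne_zero 2 hne)
    simp only [Real.sqrt_sq (norm_nonneg _)] at h5
    convert h5 using 1
    field_simp
  have h6 : HasDerivAt (fun t : ℝ => ⟪x, y + t • x⟫ / ‖y + t • x‖)
      ((‖x‖ ^ 2 * ‖y + t • x‖ - ⟪x, y + t • x⟫ * (⟪x, y + t • x⟫ / ‖y + t • x‖))
        / ‖y + t • x‖ ^ 2) t := h2.div h4 hne
  refine h6.congr_deriv ?_
  field_simp

theorem cone_null (d : ℕ) (hd : 2 ≤ d) (x : E d) (hx : x ≠ 0) {N : Set ℝ} (hN : MeasurableSet N)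
    (h0 : volume N = 0) : volume {y : E d | ⟪x, y⟫ / ‖y‖ ∈ N} = 0 := by
  set L : ℝ →ₗ[ℝ] E d := LinearMap.toSpanSingleton ℝ (E d) x with hL
  have hmeas : MeasurableSet {y : E d | ⟪x, y⟫ / ‖y‖ ∈ N} := by
    have : Measurable (fun y : E d => ⟪x, y⟫ / ‖y‖) := by fun_prop
    exact this hN
  have hspan : volume ((Submodule.span ℝ {x} : Submodule ℝ (E d)) : Set (E d)) = 0 := by
    apply Measure.addHaar_submodule
    intro htop
    have h1 : Module.finrank ℝ (Submodule.span ℝ {x} : Submodule ℝ (E d)) = 1 :=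
      finrank_span_singleton hx
    rw [htop, finrank_top, finrank_euclideanSpace_fin] at h1
    omega
  rw [measure_eq_zero_iff_ae_notMem]
  have key := (ae_ae_add_linearMap_mem_iff L (volume : Measure ℝ) (volume : Measure (E d))
    hmeas.compl).1 ?_
  · exact key
  · filter_upwards [measure_eq_zero_iff_ae_notMem.1 hspan] with y hy
    have hy' : ∀ t : ℝ, y + t • x ≠ 0 := by
      intro t ht
      apply hy
      have : y = (-t) • x := by
        rw [neg_smul]; exact eq_neg_of_add_eq_zero_left ht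
      rw [this]
      exact Submodule.smul_mem _ _ (Submodule.mem_span_singleton_self x)
    have hpos : ∀ t : ℝ, 0 < (‖x‖ ^ 2 * ‖y + t • x‖ ^ 2 - ⟪x, y + t • x⟫ ^ 2) / ‖y + t • x‖ ^ 3 := by
      intro t
      have hn : 0 < ‖y + t • x‖ := norm_pos_iff.2 (hy' t)
      have hlt : |⟪x, y + t • x⟫| < ‖x‖ * ‖y + t • x‖ := by
        refine lt_of_le_of_ne (abs_real_inner_le_norm x (y + t • x)) ?_
        intro heq
        have h1 := (norm_inner_eq_norm_iff (𝕜 := ℝ) hx (hy' t)).1 (by simpa using heq)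
        obtain ⟨r, _, hr⟩ := h1
        apply hy
        have : y = (r - t) • x := by
          rw [sub_smul, ← hr]; abel
        rw [this]
        exact Submodule.smul_mem _ _ (Submodule.mem_span_singleton_self x)
      have h2 : ⟪x, y + t • x⟫ ^ 2 < ‖x‖ ^ 2 * ‖y + t • x‖ ^ 2 := by
        rw [← mul_pow, ← sq_abs]
        exact pow_lt_pow_left₀ hlt (abs_nonneg _) two_ne_zero
      apply div_pos (by linarith) (by positivity)
    have h1 := null_of_deriv_pos (fun t => inner_norm_hasDerivAt x y hy' t) hpos hN h0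
    have h2 := measure_eq_zero_iff_ae_notMem.1 h1
    filter_upwards [h2] with t ht
    exact ht

theorem sph_ac (d : ℕ) (hd : 2 ≤ d) (x : E d) (hx : x ≠ 0) :
    (sph d).map (fun s => ⟪x, s⟫) ≪ volume := by
  refine Measure.AbsolutelyContinuous.mk fun N hN h0 => ?_
  have hm : Measurable (fun s : E d => ⟪x, s⟫) := by fun_prop
  rw [Measure.map_apply hm hN, sph_apply d hd (hm hN)]
  refine mul_eq_zero_of_right _ (measure_mono_null ?_ (cone_null d hd x hx hN h0))
  rintro y hy
  rw [Set.mem_smul] at hy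
  obtain ⟨t, ht, s, hs, rfl⟩ := hy
  have hs1 : ‖s‖ = 1 := by simpa using hs.1
  have hs2 : ⟪x, s⟫ ∈ N := hs.2
  change ⟪x, t • s⟫ / ‖t • s‖ ∈ N
  rw [inner_smul_right, norm_smul, hs1, mul_one, Real.norm_of_nonneg ht.1.le,
    mul_div_cancel_left₀ _ ht.1.ne']
  exact hs2

end P309
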