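import Vale.Agent.H20.P309.Base

open MeasureTheory ProbabilityTheory
open scoped RealInnerProductSpace ENNReal

namespace P309

/-- The uniform probability measure on the unit sphere (as a subtype). -/
noncomputable def unif (d : ℕ) : Measure (Metric.sphere (0 : E d) 1) :=
  ((volume : Measure (E d)).toSphere Set.univ)⁻¹ • (volume : Measure (E d)).toSphere

/-- The uniform probability measure on the unit sphere, as a measure on `E d`. -/
noncomputable def sph (d : ℕ) : Measure (E d) :=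
  (((volume : Measure (E d)).toSphere Set.univ)⁻¹ • (volume : Measure (E d)).toSphere).map
    (Subtype.val : Metric.sphere (0 : E d) 1 → E d)

theorem sph_eq (d : ℕ) : sph d = (unif d).map Subtype.val := rfl

/-- law of the state after `t` samples, real-valued labels. -/
noncomputable def law {d : ℕ} {Z : Type} [Fintype Z] (K : ℕ → Z → E d → ℝ → Z → ℝ≥0∞)
    (p : Z → ℝ≥0∞) : ℕ → E d → Z → ℝ≥0∞
  | 0, _, z => p z
  | t + 1, s, z' => ∑ z, law K p t s z * ∫⁻ x, K t z x ⟪x, s⟫ z' ∂(stdGaussian (E d))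

/-- law of the state after `t` samples, rounded labels. -/
noncomputable def lawR {d : ℕ} {Z : Type} [Fintype Z] (j : ℕ) (K : ℕ → Z → E d → ℤ → Z → ℝ≥0∞)
    (p : Z → ℝ≥0∞) : ℕ → E d → Z → ℝ≥0∞
  | 0, _, z => p z
  | t + 1, s, z' => ∑ z, lawR j K p t s z * ∫⁻ x, K t z x (lab j x s) z' ∂(stdGaussian (E d))

section
variable {d : ℕ} {Z : Type} [Fintype Z]

theorem law_zero (K : ℕ → Z → E d → ℝ → Z → ℝ≥0∞) (p : Z → ℝ≥0∞) (s : E d) (z : Z) :
    law K p 0 s z = p z := rfl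

theorem law_succ (K : ℕ → Z → E d → ℝ → Z → ℝ≥0∞) (p : Z → ℝ≥0∞) (t : ℕ) (s : E d) (z' : Z) :
    law K p (t + 1) s z' = ∑ z, law K p t s z * ∫⁻ x, K t z x ⟪x, s⟫ z' ∂(stdGaussian (E d)) := rfl

theorem lawR_zero (j : ℕ) (K : ℕ → Z → E d → ℤ → Z → ℝ≥0∞) (p : Z → ℝ≥0∞) (s : E d) (z : Z) :
    lawR j K p 0 s z = p z := rfl

theorem lawR_succ (j : ℕ) (K : ℕ → Z → E d → ℤ → Z → ℝ≥0∞) (p : Z → ℝ≥0∞) (t : ℕ) (s : E d)
    (z' : Z) :
    lawR j K p (t + 1) s z'
      = ∑ z, lawR j K p t s z * ∫⁻ x, K t z x (lab j x s) z' ∂(stdGaussian (E d)) := rfl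

end

end P309
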