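import Vale.Agent.H20.P309.Meas
import Vale.Agent.H20.P309.Law

open MeasureTheory ProbabilityTheory Filter Topology
open scoped RealInnerProductSpace ENNReal

namespace P309

namespace L13

/-- average of `g` over the dyadic cell with index `l`. -/
noncomputable def avg (g : ℝ → ℝ≥0∞) (j : ℕ) (l : ℤ) : ℝ≥0∞ :=
  ENNReal.ofReal (2 ^ j) * ∫⁻ y in Set.Icc ((l : ℝ) / 2 ^ j) (((l : ℝ) + 1) / 2 ^ j), g y

theorem vol_cell (j : ℕ) (l : ℤ) :
    volume (Set.Icc ((l : ℝ) / 2 ^ j) (((l : ℝ) + 1) / 2 ^ j)) = ENNReal.ofReal ((2 ^ j)⁻¹) := by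
  rw [Real.volume_Icc]
  congr 1
  field_simp
  ring

theorem ofReal_mul_inv (j : ℕ) :
    ENNReal.ofReal ((2 : ℝ) ^ j) * ENNReal.ofReal (((2 : ℝ) ^ j)⁻¹) = 1 := by
  rw [← ENNReal.ofReal_mul (by positivity), mul_inv_cancel₀ (by positivity), ENNReal.ofReal_one]

theorem avg_le_one {g : ℝ → ℝ≥0∞} (hg1 : ∀ y, g y ≤ 1) (j : ℕ) (l : ℤ) : avg g j l ≤ 1 := by
  unfold avg
  calc ENNReal.ofReal (2 ^ j) * ∫⁻ y in Set.Icc ((l : ℝ) / 2 ^ j) (((l : ℝ) + 1) / 2 ^ j), g y
      ≤ ENNReal.ofReal (2 ^ j) *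
        ∫⁻ _ in Set.Icc ((l : ℝ) / 2 ^ j) (((l : ℝ) + 1) / 2 ^ j), 1 := by
        gcongr with y
        exact hg1 y
    _ = 1 := by
        rw [setLIntegral_const, one_mul, vol_cell, ofReal_mul_inv]

theorem avg_tendsto {g : ℝ → ℝ≥0∞} (hg : Measurable g) (hg1 : ∀ y, g y ≤ 1) :
    ∀ᵐ y ∂(volume : Measure ℝ),
      Tendsto (fun j : ℕ => avg g j ⌊(2 : ℝ) ^ j * y⌋) atTop (𝓝 (g y)) := by
  have hloc : LocallyIntegrable (fun y => (g y).toReal) (volume : Measure ℝ) := by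
    refine (locallyIntegrable_const (1 : ℝ)).mono hg.ennreal_toReal.aestronglyMeasurable
      (Eventually.of_forall fun y => ?_)
    simp only [Real.norm_eq_abs, abs_of_nonneg ENNReal.toReal_nonneg, norm_one]
    calc (g y).toReal ≤ (1 : ℝ≥0∞).toReal := ENNReal.toReal_mono (by simp) (hg1 y)
      _ = 1 := by simp
  filter_upwards [IsUnifLocDoublingMeasure.ae_tendsto_average (volume : Measure ℝ) hloc 1]
    with y hy
  have h := hy (ι := ℕ) (l := atTop) (fun j => ((⌊(2 : ℝ) ^ j * y⌋ : ℝ) + 1 / 2) / 2 ^ j)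
    (fun j => ((2 : ℝ) ^ j)⁻¹ / 2) ?_ ?_
  · have h2 := ENNReal.tendsto_ofReal h
    rw [ENNReal.ofReal_toReal (ne_top_of_le_ne_top ENNReal.one_ne_top (hg1 y))] at h2
    refine h2.congr fun j => ?_
    have hcell : Metric.closedBall (((⌊(2 : ℝ) ^ j * y⌋ : ℝ) + 1 / 2) / 2 ^ j)
        (((2 : ℝ) ^ j)⁻¹ / 2) =
        Set.Icc ((⌊(2 : ℝ) ^ j * y⌋ : ℝ) / 2 ^ j) (((⌊(2 : ℝ) ^ j * y⌋ : ℝ) + 1) / 2 ^ j) := by
      rw [Real.closedBall_eq_Icc]
      congr 1
      · field_simp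
        ring
      · field_simp
        ring
    rw [hcell, setAverage_eq]
    have hvol : (volume : Measure ℝ).real
        (Set.Icc ((⌊(2 : ℝ) ^ j * y⌋ : ℝ) / 2 ^ j) (((⌊(2 : ℝ) ^ j * y⌋ : ℝ) + 1) / 2 ^ j)) =
        ((2 : ℝ) ^ j)⁻¹ := by
      rw [Measure.real, vol_cell, ENNReal.toReal_ofReal (by positivity)]
    rw [hvol, inv_inv, smul_eq_mul, ENNReal.ofReal_mul (by positivity)]
    unfold avg
    congr 1
    have hfin : ∫⁻ y' in Set.Icc ((⌊(2 : ℝ) ^ j * y⌋ : ℝ) / 2 ^ j)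
        (((⌊(2 : ℝ) ^ j * y⌋ : ℝ) + 1) / 2 ^ j), g y' ≠ ⊤ := by
      refine ne_top_of_le_ne_top ?_ (lintegral_mono fun y' => hg1 y')
      rw [setLIntegral_const, one_mul, vol_cell]
      exact ENNReal.ofReal_ne_top
    rw [integral_toReal hg.aemeasurable
      (Eventually.of_forall fun y' => lt_of_le_of_lt (hg1 y') ENNReal.one_lt_top),
      ENNReal.ofReal_toReal hfin]
  · rw [tendsto_nhdsWithin_iff]
    refine ⟨?_, Eventually.of_forall fun j => ?_⟩
    · have h3 : Tendsto (fun j : ℕ => ((2 : ℝ) ^ j)⁻¹) atTop (𝓝 0) := by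
        have := tendsto_pow_atTop_nhds_zero_of_lt_one (r := (1 / 2 : ℝ)) (by norm_num)
          (by norm_num)
        refine this.congr fun j => ?_
        rw [one_div, inv_pow]
      simpa using h3.div_const 2
    · simp only [Set.mem_Ioi]
      positivity
  · refine Eventually.of_forall fun j => ?_
    rw [one_mul, Metric.mem_closedBall, Real.dist_eq, abs_le]
    have hp : (0 : ℝ) < 2 ^ j := by positivity
    have h1 := Int.floor_le ((2 : ℝ) ^ j * y)
    have h2 := Int.lt_floor_add_one ((2 : ℝ) ^ j * y)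
    constructor
    · rw [neg_le_iff_add_nonneg, ← mul_nonneg_iff_of_pos_left hp]
      have : (2 : ℝ) ^ j * (y - ((⌊(2 : ℝ) ^ j * y⌋ : ℝ) + 1 / 2) / 2 ^ j + ((2 : ℝ) ^ j)⁻¹ / 2) =
          2 ^ j * y - ⌊(2 : ℝ) ^ j * y⌋ := by
        field_simp
        ring
      rw [this]; linarith
    · rw [← sub_nonneg, ← mul_nonneg_iff_of_pos_left hp]
      have : (2 : ℝ) ^ j * (((2 : ℝ) ^ j)⁻¹ / 2 - (y - ((⌊(2 : ℝ) ^ j * y⌋ : ℝ) + 1 / 2) / 2 ^ j)) =
          ⌊(2 : ℝ) ^ j * y⌋ + 1 - 2 ^ j * y := by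
        field_simp
        ring
      rw [this]; linarith

theorem sg_zero {d : ℕ} (hd : 0 < d) : stdGaussian (E d) {0} = 0 := by
  rw [← map_pi_eq_stdGaussian, Measure.map_apply (by fun_prop) (measurableSet_singleton _)]
  have h1 : (WithLp.toLp 2 : (Fin d → ℝ) → E d) ⁻¹' {0} = {0} := by
    ext x
    simp only [Set.mem_preimage, Set.mem_singleton_iff]
    constructor
    · intro h
      have := congrArg (WithLp.ofLp) h
      simpa using this
    · rintro rfl
      simp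
  rw [h1]
  have : NullSingletonClass (gaussianReal 0 1) := nullSingletonClass_gaussianReal (by simp)
  have := Measure.pi_nullSingletonClass (μ := fun _ : Fin d => gaussianReal 0 1) ⟨0, hd⟩
  exact measure_singleton _

section
variable {d : ℕ} {f : E d × ℝ → ℝ≥0∞}

theorem meas_avg (hf : Measurable f) (j : ℕ) (l : ℤ) :
    Measurable (fun x : E d => avg (fun y => f (x, y)) j l) := by
  unfold avg
  exact (Measurable.lintegral_prod_right' (f := f) hf).const_mul _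

theorem meas_avg2 (hf : Measurable f) (j : ℕ) :
    Measurable (fun q : E d × E d => avg (fun y => f (q.2, y)) j (lab j q.2 q.1)) := by
  have h1 : Measurable (fun r : E d × ℤ => avg (fun y => f (r.1, y)) j r.2) := by
    apply measurable_from_prod_countable_left
    intro l
    exact meas_avg hf j l
  have h2 : Measurable (fun q : E d × E d => lab j q.2 q.1) :=
    meas_lab j measurable_snd measurable_fst
  have h3 : Measurable (fun q : E d × E d => (q.2, lab j q.2 q.1)) := measurable_snd.prodMk h2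
  have h4 := h1.comp h3
  simpa only [Function.comp_def] using h4

theorem meas_in (hf : Measurable f) :
    Measurable (fun q : E d × E d => f (q.2, ⟪q.2, q.1⟫)) :=
  hf.comp (measurable_snd.prodMk (measurable_snd.inner measurable_fst))

/-- the error tends to zero. -/
theorem err_tendsto (hd : 0 < d) (hf : Measurable f) (hf1 : ∀ q, f q ≤ 1) (π : Measure (E d))
    [IsProbabilityMeasure π]
    (hac : ∀ x : E d, x ≠ 0 → π.map (fun s => ⟪x, s⟫) ≪ volume) :
    Tendsto (fun j : ℕ => ∫⁻ s, ∫⁻ x, (f (x, ⟪x, s⟫) - avg (fun y => f (x, y)) j (lab j x s))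
      ∂(stdGaussian (E d)) ∂π) atTop (𝓝 0) := by
  have hm : ∀ j : ℕ, Measurable (fun q : E d × E d =>
      f (q.2, ⟪q.2, q.1⟫) - avg (fun y => f (q.2, y)) j (lab j q.2 q.1)) :=
    fun j => (meas_in hf).sub (meas_avg2 hf j)
  have hswap : ∀ j : ℕ, ∫⁻ s, ∫⁻ x, (f (x, ⟪x, s⟫) - avg (fun y => f (x, y)) j (lab j x s))
      ∂(stdGaussian (E d)) ∂π =
      ∫⁻ x, ∫⁻ s, (f (x, ⟪x, s⟫) - avg (fun y => f (x, y)) j (lab j x s))
        ∂π ∂(stdGaussian (E d)) := fun j =>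
    lintegral_lintegral_swap (hm j).aemeasurable
  simp only [hswap]
  have hz : (0 : ℝ≥0∞) = ∫⁻ _x : E d, 0 ∂(stdGaussian (E d)) := by simp
  rw [hz]
  refine tendsto_lintegral_of_dominated_convergence (fun _ => 1) (fun j => ?_) (fun j => ?_)
    (by simp) ?_
  · exact Measurable.lintegral_prod_right' (f := fun q : E d × E d =>
      f (q.1, ⟪q.1, q.2⟫) - avg (fun y => f (q.1, y)) j (lab j q.1 q.2))
      ((hm j).comp measurable_swap)
  · refine Eventually.of_forall fun x => ?_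
    calc ∫⁻ s, (f (x, ⟪x, s⟫) - avg (fun y => f (x, y)) j (lab j x s)) ∂π ≤ ∫⁻ _s, 1 ∂π :=
          lintegral_mono fun s => tsub_le_self.trans (hf1 _)
      _ = 1 := by simp
  · have hne : ∀ᵐ x ∂(stdGaussian (E d)), x ≠ 0 := by
      rw [ae_iff]
      simpa using sg_zero hd
    filter_upwards [hne] with x hx
    have hz' : (0 : ℝ≥0∞) = ∫⁻ _s : E d, 0 ∂π := by simp
    rw [hz']
    refine tendsto_lintegral_of_dominated_convergence (fun _ => 1) (fun j => ?_) (fun j => ?_)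
      (by simp) ?_
    · exact (hm j).comp (measurable_id.prodMk measurable_const)
    · exact Eventually.of_forall fun s => tsub_le_self.trans (hf1 _)
    · have h1 := avg_tendsto (g := fun y => f (x, y)) (hf.comp measurable_prodMk_left)
        (fun y => hf1 _)
      have h2 := (hac x hx).ae_le h1
      have h3 := ae_of_ae_map (by fun_prop) h2
      filter_upwards [h3] with s hs
      have h4 := ENNReal.Tendsto.sub (f := atTop)
        (tendsto_const_nhds (x := f (x, ⟪x, s⟫)) (f := atTop (α := ℕ))) hs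
        (Or.inl (ne_top_of_le_ne_top ENNReal.one_ne_top (hf1 _)))
      rw [tsub_self] at h4
      exact h4

end

variable {d : ℕ}

/-- rounded kernel. -/
noncomputable def rk {Z : Type} (K : ℕ → Z → E d → ℝ → Z → ℝ≥0∞) (j : ℕ) (t : ℕ) (z : Z)
    (x : E d) (l : ℤ) (z' : Z) : ℝ≥0∞ := avg (fun y => K t z x y z') j l

theorem K_le_one {Z : Type} [Fintype Z] {K : ℕ → Z → E d → ℝ → Z → ℝ≥0∞}
    (hK1 : ∀ t z x y, ∑ z', K t z x y z' = 1) (t : ℕ) (z : Z) (x : E d) (y : ℝ) (z' : Z) :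
    K t z x y z' ≤ 1 := by
  rw [← hK1 t z x y]
  exact Finset.single_le_sum (f := fun z' => K t z x y z') (fun _ _ => by simp)
    (Finset.mem_univ z')

theorem rk_sum {Z : Type} [Fintype Z] {K : ℕ → Z → E d → ℝ → Z → ℝ≥0∞}
    (hK : ∀ t z z', Measurable (fun q : E d × ℝ => K t z q.1 q.2 z'))
    (hK1 : ∀ t z x y, ∑ z', K t z x y z' = 1) (j t : ℕ) (z : Z) (x : E d) (l : ℤ) :
    ∑ z', rk K j t z x l z' = 1 := by
  unfold rk avg
  rw [← Finset.mul_sum, ← lintegral_finsetSum]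
  · simp only [hK1]
    rw [setLIntegral_const, one_mul, vol_cell, ofReal_mul_inv]
  · intro z' _
    exact (hK t z z').comp measurable_prodMk_left

theorem meas_rk {Z : Type} {K : ℕ → Z → E d → ℝ → Z → ℝ≥0∞}
    (hK : ∀ t z z', Measurable (fun q : E d × ℝ => K t z q.1 q.2 z')) (j t : ℕ) (z : Z) (l : ℤ)
    (z' : Z) : Measurable (fun x => rk K j t z x l z') :=
  meas_avg (f := fun q : E d × ℝ => K t z q.1 q.2 z') (hK t z z') j l

/-- the one step error. -/
noncomputable def dl {Z : Type} (K : ℕ → Z → E d → ℝ → Z → ℝ≥0∞) (j t : ℕ) (z z' : Z)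
    (s : E d) : ℝ≥0∞ :=
  ∫⁻ x, (K t z x ⟪x, s⟫ z' - rk K j t z x (lab j x s) z') ∂(stdGaussian (E d))

theorem meas_rk2 {Z : Type} {K : ℕ → Z → E d → ℝ → Z → ℝ≥0∞}
    (hK : ∀ t z z', Measurable (fun q : E d × ℝ => K t z q.1 q.2 z')) (j t : ℕ) (z z' : Z) :
    Measurable (fun q : E d × E d => rk K j t z q.2 (lab j q.2 q.1) z') :=
  meas_avg2 (f := fun q : E d × ℝ => K t z q.1 q.2 z') (hK t z z') j

theorem meas_K2 {Z : Type} {K : ℕ → Z → E d → ℝ → Z → ℝ≥0∞}
    (hK : ∀ t z z', Measurable (fun q : E d × ℝ => K t z q.1 q.2 z')) (t : ℕ) (z z' : Z) :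
    Measurable (fun q : E d × E d => K t z q.2 ⟪q.2, q.1⟫ z') :=
  meas_in (f := fun q : E d × ℝ => K t z q.1 q.2 z') (hK t z z')

theorem meas_rk1 {Z : Type} {K : ℕ → Z → E d → ℝ → Z → ℝ≥0∞}
    (hK : ∀ t z z', Measurable (fun q : E d × ℝ => K t z q.1 q.2 z')) (j t : ℕ) (z z' : Z)
    (s : E d) : Measurable (fun x : E d => rk K j t z x (lab j x s) z') := by
  have h1 : Measurable (fun x : E d => (s, x)) := measurable_const.prodMk measurable_id
  have h2 := (meas_rk2 hK j t z z').comp h1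
  simpa only [Function.comp_def] using h2

theorem meas_K1 {Z : Type} {K : ℕ → Z → E d → ℝ → Z → ℝ≥0∞}
    (hK : ∀ t z z', Measurable (fun q : E d × ℝ => K t z q.1 q.2 z')) (t : ℕ) (z z' : Z)
    (s : E d) : Measurable (fun x : E d => K t z x ⟪x, s⟫ z') := by
  have h1 : Measurable (fun x : E d => (s, x)) := measurable_const.prodMk measurable_id
  have h2 := (meas_K2 hK t z z').comp h1
  simpa only [Function.comp_def] using h2

theorem meas_dl {Z : Type} {K : ℕ → Z → E d → ℝ → Z → ℝ≥0∞}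
    (hK : ∀ t z z', Measurable (fun q : E d × ℝ => K t z q.1 q.2 z')) (j t : ℕ) (z z' : Z) :
    Measurable (fun s => dl K j t z z' s) := by
  unfold dl
  exact Measurable.lintegral_prod_right'
    (f := fun q : E d × E d => K t z q.2 ⟪q.2, q.1⟫ z' - rk K j t z q.2 (lab j q.2 q.1) z')
    ((meas_K2 hK t z z').sub (meas_rk2 hK j t z z'))

theorem dl_tendsto (hd : 0 < d) {Z : Type} [Fintype Z] {K : ℕ → Z → E d → ℝ → Z → ℝ≥0∞}
    (hK : ∀ t z z', Measurable (fun q : E d × ℝ => K t z q.1 q.2 z'))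
    (hK1 : ∀ t z x y, ∑ z', K t z x y z' = 1) (π : Measure (E d)) [IsProbabilityMeasure π]
    (hac : ∀ x : E d, x ≠ 0 → π.map (fun s => ⟪x, s⟫) ≪ volume) (t : ℕ) (z z' : Z) :
    Tendsto (fun j : ℕ => ∫⁻ s, dl K j t z z' s ∂π) atTop (𝓝 0) :=
  err_tendsto (f := fun q : E d × ℝ => K t z q.1 q.2 z') hd (hK t z z')
    (fun q => K_le_one hK1 t z q.1 q.2 z') π hac

theorem step_le {Z : Type} {K : ℕ → Z → E d → ℝ → Z → ℝ≥0∞}
    (hK : ∀ t z z', Measurable (fun q : E d × ℝ => K t z q.1 q.2 z')) (j t : ℕ) (z z' : Z)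
    (s : E d) :
    ∫⁻ x, K t z x ⟪x, s⟫ z' ∂(stdGaussian (E d)) ≤
      (∫⁻ x, rk K j t z x (lab j x s) z' ∂(stdGaussian (E d))) + dl K j t z z' s := by
  unfold dl
  have hm := meas_rk1 hK j t z z' s
  rw [← lintegral_add_left hm]
  exact lintegral_mono fun x => le_add_tsub

theorem lawR_sum' {Z : Type} [Fintype Z] {K : ℕ → Z → E d → ℝ → Z → ℝ≥0∞} {p : Z → ℝ≥0∞}
    (hp : ∑ z, p z = 1) (hK1 : ∀ t z x y, ∑ z', K t z x y z' = 1)
    (hK : ∀ t z z', Measurable (fun q : E d × ℝ => K t z q.1 q.2 z')) (j t : ℕ) (s : E d) :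
    ∑ z, lawR j (rk K j) p t s z = 1 := by
  induction t with
  | zero => simpa only [lawR_zero] using hp
  | succ t ih =>
    simp only [lawR_succ]
    rw [Finset.sum_comm]
    have : ∀ z, ∑ z', lawR j (rk K j) p t s z *
        ∫⁻ x, rk K j t z x (lab j x s) z' ∂(stdGaussian (E d)) = lawR j (rk K j) p t s z := by
      intro z
      have hm : ∑ z', ∫⁻ x, rk K j t z x (lab j x s) z' ∂(stdGaussian (E d)) =
          ∫⁻ x, ∑ z', rk K j t z x (lab j x s) z' ∂(stdGaussian (E d)) :=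
        (lintegral_finsetSum Finset.univ fun z' _ => meas_rk1 hK j t z z' s).symm
      rw [← Finset.mul_sum, hm]
      simp only [rk_sum hK hK1]
      simp
    simp only [this, ih]

theorem K_sum' {Z : Type} [Fintype Z] {K : ℕ → Z → E d → ℝ → Z → ℝ≥0∞}
    (hK1 : ∀ t z x y, ∑ z', K t z x y z' = 1)
    (hK : ∀ t z z', Measurable (fun q : E d × ℝ => K t z q.1 q.2 z')) (t : ℕ) (z : Z) (s : E d) :
    ∑ z', ∫⁻ x, K t z x ⟪x, s⟫ z' ∂(stdGaussian (E d)) = 1 := by
  have hm : ∑ z', ∫⁻ x, K t z x ⟪x, s⟫ z' ∂(stdGaussian (E d)) =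
      ∫⁻ x, ∑ z', K t z x ⟪x, s⟫ z' ∂(stdGaussian (E d)) :=
    (lintegral_finsetSum Finset.univ fun z' _ => meas_K1 hK t z z' s).symm
  rw [hm]
  simp only [hK1]
  simp

theorem compare {Z : Type} [Fintype Z] {K : ℕ → Z → E d → ℝ → Z → ℝ≥0∞} {p : Z → ℝ≥0∞}
    (hp : ∑ z, p z = 1) (hK1 : ∀ t z x y, ∑ z', K t z x y z' = 1)
    (hK : ∀ t z z', Measurable (fun q : E d × ℝ => K t z q.1 q.2 z')) (j t : ℕ) (s : E d) :
    ∃ D : Z → ℝ≥0∞, (∀ z, law K p t s z ≤ lawR j (rk K j) p t s z + D z) ∧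
      ∑ z, D z ≤ ∑ i ∈ Finset.range t, ∑ z, ∑ z', dl K j i z z' s := by
  induction t with
  | zero => exact ⟨fun _ => 0, fun z => by simp [law_zero, lawR_zero], by simp⟩
  | succ t ih =>
    obtain ⟨D, h1, h2⟩ := ih
    have hR1 : ∀ z, lawR j (rk K j) p t s z ≤ 1 := by
      intro z
      rw [← lawR_sum' hp hK1 hK j t s]
      exact Finset.single_le_sum (f := fun z => lawR j (rk K j) p t s z) (fun _ _ => by simp)
        (Finset.mem_univ z)
    refine ⟨fun z' => ∑ z, (dl K j t z z' s + D z * ∫⁻ x, K t z x ⟪x, s⟫ z'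
      ∂(stdGaussian (E d))), fun z' => ?_, ?_⟩
    · simp only [law_succ, lawR_succ]
      rw [← Finset.sum_add_distrib]
      refine Finset.sum_le_sum fun z _ => ?_
      calc law K p t s z * ∫⁻ x, K t z x ⟪x, s⟫ z' ∂(stdGaussian (E d))
          ≤ (lawR j (rk K j) p t s z + D z) * ∫⁻ x, K t z x ⟪x, s⟫ z' ∂(stdGaussian (E d)) := by
            gcongr
            exact h1 z
        _ = lawR j (rk K j) p t s z * (∫⁻ x, K t z x ⟪x, s⟫ z' ∂(stdGaussian (E d))) +
            D z * ∫⁻ x, K t z x ⟪x, s⟫ z' ∂(stdGaussian (E d)) := by rw [add_mul]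
        _ ≤ lawR j (rk K j) p t s z *
            ((∫⁻ x, rk K j t z x (lab j x s) z' ∂(stdGaussian (E d))) + dl K j t z z' s) +
            D z * ∫⁻ x, K t z x ⟪x, s⟫ z' ∂(stdGaussian (E d)) := by
            gcongr
            exact step_le hK j t z z' s
        _ ≤ (lawR j (rk K j) p t s z *
            (∫⁻ x, rk K j t z x (lab j x s) z' ∂(stdGaussian (E d))) + 1 * dl K j t z z' s) +
            D z * ∫⁻ x, K t z x ⟪x, s⟫ z' ∂(stdGaussian (E d)) := by
            rw [mul_add]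
            gcongr
            exact hR1 z
        _ = lawR j (rk K j) p t s z *
            (∫⁻ x, rk K j t z x (lab j x s) z' ∂(stdGaussian (E d))) +
            (dl K j t z z' s + D z * ∫⁻ x, K t z x ⟪x, s⟫ z' ∂(stdGaussian (E d))) := by
            rw [one_mul, add_assoc]
    · rw [Finset.sum_range_succ, Finset.sum_comm]
      calc ∑ z, ∑ z', (dl K j t z z' s + D z * ∫⁻ x, K t z x ⟪x, s⟫ z' ∂(stdGaussian (E d)))
          = ∑ z, ((∑ z', dl K j t z z' s) + D z) := by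
            refine Finset.sum_congr rfl fun z _ => ?_
            rw [Finset.sum_add_distrib, ← Finset.mul_sum, K_sum' hK1 hK, mul_one]
        _ = (∑ z, ∑ z', dl K j t z z' s) + ∑ z, D z := Finset.sum_add_distrib
        _ ≤ (∑ z, ∑ z', dl K j t z z' s) +
            ∑ i ∈ Finset.range t, ∑ z, ∑ z', dl K j i z z' s := by gcongr
        _ = _ := add_comm _ _

end L13

open L13 in
theorem rounding {d : ℕ} (hd : 0 < d) {Z : Type} [Fintype Z] (K : ℕ → Z → E d → ℝ → Z → ℝ≥0∞)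
    (p : Z → ℝ≥0∞) (hp : ∑ z, p z = 1)
    (hK : ∀ t z z', Measurable (fun q : E d × ℝ => K t z q.1 q.2 z'))
    (hK1 : ∀ t z x y, ∑ z', K t z x y z' = 1) (π : Measure (E d)) [IsProbabilityMeasure π]
    (hac : ∀ x : E d, x ≠ 0 → π.map (fun s => ⟪x, s⟫) ≪ volume) (T : ℕ)
    (B : Z → Set (E d)) (hB : ∀ z, MeasurableSet (B z)) (η : ℝ) (hη : 0 < η) :
    ∃ (j : ℕ) (K' : ℕ → Z → E d → ℤ → Z → ℝ≥0∞),
      (∀ t z l z', Measurable (fun x => K' t z x l z')) ∧
      (∀ t z x l, ∑ z', K' t z x l z' = 1) ∧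
      ∑ z, ∫⁻ s in B z, law K p T s z ∂π
        ≤ (∑ z, ∫⁻ s in B z, lawR j K' p T s z ∂π) + ENNReal.ofReal η := by
  have hlim : Tendsto (fun j : ℕ => (Fintype.card Z : ℝ≥0∞) *
      ∑ i ∈ Finset.range T, ∑ z, ∑ z', ∫⁻ s, dl K j i z z' s ∂π) atTop (𝓝 0) := by
    have h1 : Tendsto (fun j : ℕ => ∑ i ∈ Finset.range T, ∑ z, ∑ z', ∫⁻ s, dl K j i z z' s ∂π)
        atTop (𝓝 (∑ i ∈ Finset.range T, ∑ _z : Z, ∑ _z' : Z, (0 : ℝ≥0∞))) :=
      tendsto_finsetSum _ fun i _ => tendsto_finsetSum _ fun z _ =>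
        tendsto_finsetSum _ fun z' _ => dl_tendsto hd hK hK1 π hac i z z'
    have h2 := ENNReal.Tendsto.const_mul h1 (Or.inr (ENNReal.natCast_ne_top (Fintype.card Z)))
    simpa using h2
  obtain ⟨j, hj⟩ := (hlim.eventually_lt_const
    (show (0 : ℝ≥0∞) < ENNReal.ofReal η from ENNReal.ofReal_pos.mpr hη)).exists
  refine ⟨j, rk K j, fun t z l z' => meas_rk hK j t z l z', rk_sum hK hK1 j, ?_⟩
  set Err : E d → ℝ≥0∞ := fun s => ∑ i ∈ Finset.range T, ∑ z, ∑ z', dl K j i z z' s with hErr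
  have hmE : Measurable Err := Finset.measurable_sum _ fun i _ => Finset.measurable_sum _
    fun z _ => Finset.measurable_sum _ fun z' _ => meas_dl hK j i z z'
  have hpt : ∀ s z, law K p T s z ≤ lawR j (rk K j) p T s z + Err s := by
    intro s z
    obtain ⟨D, h1, h2⟩ := compare hp hK1 hK j T s
    refine (h1 z).trans ?_
    gcongr
    refine le_trans ?_ h2
    exact Finset.single_le_sum (f := D) (fun _ _ => by simp) (Finset.mem_univ z)
  have hint : ∫⁻ s, Err s ∂π = ∑ i ∈ Finset.range T, ∑ z, ∑ z', ∫⁻ s, dl K j i z z' s ∂π := by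
    rw [hErr, lintegral_finsetSum _ fun i _ => Finset.measurable_sum _ fun z _ =>
      Finset.measurable_sum _ fun z' _ => meas_dl hK j i z z']
    refine Finset.sum_congr rfl fun i _ => ?_
    rw [lintegral_finsetSum _ fun z _ => Finset.measurable_sum _ fun z' _ =>
      meas_dl hK j i z z']
    refine Finset.sum_congr rfl fun z _ => ?_
    rw [lintegral_finsetSum _ fun z' _ => meas_dl hK j i z z']
  calc ∑ z, ∫⁻ s in B z, law K p T s z ∂π
      ≤ ∑ z, ((∫⁻ s in B z, lawR j (rk K j) p T s z ∂π) + ∫⁻ s, Err s ∂π) := by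
        refine Finset.sum_le_sum fun z _ => ?_
        calc ∫⁻ s in B z, law K p T s z ∂π
            ≤ ∫⁻ s in B z, (lawR j (rk K j) p T s z + Err s) ∂π := lintegral_mono (hpt · z)
          _ = (∫⁻ s in B z, lawR j (rk K j) p T s z ∂π) + ∫⁻ s in B z, Err s ∂π :=
              lintegral_add_right _ hmE
          _ ≤ _ := by
              gcongr
              exact Measure.restrict_le_self
    _ = (∑ z, ∫⁻ s in B z, lawR j (rk K j) p T s z ∂π) +
        (Fintype.card Z : ℝ≥0∞) * ∫⁻ s, Err s ∂π := by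
        rw [Finset.sum_add_distrib, Finset.sum_const, Finset.card_univ, nsmul_eq_mul]
    _ ≤ (∑ z, ∫⁻ s in B z, lawR j (rk K j) p T s z ∂π) + ENNReal.ofReal η := by
        rw [hint]
        gcongr

end P309
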