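import Vale.Agent.H20.P309.Base

open MeasureTheory ProbabilityTheory
open scoped RealInnerProductSpace ENNReal

namespace P309

instance {n d : ℕ} : IsProbabilityMeasure (rows n d) := by
  unfold rows; infer_instance

section
variable {Ω : Type*} [MeasurableSpace Ω] {d n m : ℕ}

theorem meas_lab (j : ℕ) {f g : Ω → E d} (hf : Measurable f) (hg : Measurable g) :
    Measurable (fun ω => lab j (f ω) (g ω)) := by
  unfold lab
  exact Int.measurable_floor.comp ((hf.inner hg).const_mul _)

theorem meas_labs (j : ℕ) {f : Ω → Fin n → E d} {g : Ω → E d} (hf : Measurable f)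
    (hg : Measurable g) : Measurable (fun ω => labs j (f ω) (g ω)) := by
  unfold labs
  refine measurable_pi_lambda _ fun i => ?_
  exact meas_lab j ((measurable_pi_apply i).comp hf) hg

theorem meas_same (j : ℕ) {f : Ω → Fin n → E d} {g h : Ω → E d} (hf : Measurable f)
    (hg : Measurable g) (hh : Measurable h) : Measurable (fun ω => same j (f ω) (g ω) (h ω)) := by
  unfold same
  exact Measurable.ite (measurableSet_eq_fun (meas_labs j hf hh) (meas_labs j hf hg))
    measurable_const measurable_const

theorem measurable_nl : Measurable nl := by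
  unfold nl
  refine Measurable.ite (measurableSet_singleton 0) measurable_const ?_
  fun_prop

theorem measurable_expneg : Measurable expneg := by
  unfold expneg
  refine Measurable.ite (measurableSet_singleton ⊤) measurable_const ?_
  fun_prop

theorem meas_Wt (j m : ℕ) {f : Ω → E d} (hf : Measurable f) :
    Measurable (fun ω => Wt j m (f ω)) := by
  unfold Wt; fun_prop

theorem meas_vt (j : ℕ) {f : Ω → E d} (hf : Measurable f) :
    Measurable (fun ω => vt j (f ω)) := by
  unfold vt; fun_prop

theorem meas_nu (π : Measure (E d)) [SFinite π] (j : ℕ) {A : E d → ℝ≥0∞} (hA : Measurable A)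
    {f : Ω → Fin n → E d} {g : Ω → Fin m → E d} {h : Ω → E d} (hf : Measurable f)
    (hg : Measurable g) (hh : Measurable h) :
    Measurable (fun ω => nu π j (f ω) (g ω) A (h ω)) := by
  unfold nu
  refine Measurable.lintegral_prod_right'
    (f := fun q : Ω × E d => same j (f q.1) (h q.1) q.2 * same j (g q.1) (h q.1) q.2 * A q.2) ?_
  exact ((meas_same j (hf.comp measurable_fst) (hh.comp measurable_fst) measurable_snd).mul
    (meas_same j (hg.comp measurable_fst) (hh.comp measurable_fst) measurable_snd)).mul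
    (hA.comp measurable_snd)

theorem meas_Jf (π : Measure (E d)) [SFinite π] (j m : ℕ) {A : E d → ℝ≥0∞} (hA : Measurable A)
    {f : Ω → Fin n → E d} {h : Ω → E d} (hf : Measurable f) (hh : Measurable h) :
    Measurable (fun ω => Jf π j m (f ω) A (h ω)) := by
  unfold Jf
  refine Measurable.lintegral_prod_right'
    (f := fun q : Ω × E d => same j (f q.1) (h q.1) q.2 * A q.2 * Wt j m (q.2 - h q.1)) ?_
  exact ((meas_same j (hf.comp measurable_fst) (hh.comp measurable_fst) measurable_snd).mul
    (hA.comp measurable_snd)).mul (meas_Wt j m (measurable_snd.sub (hh.comp measurable_fst)))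

theorem meas_Jf' (π : Measure (E d)) [SFinite π] (j m : ℕ) {A : E d → ℝ≥0∞} (hA : Measurable A)
    {f : Ω → Fin n → E d} {h : Ω → E d} (hf : Measurable f) (hh : Measurable h) :
    Measurable (fun ω => Jf' π j m (f ω) A (h ω)) := by
  unfold Jf'
  refine Measurable.lintegral_prod_right'
    (f := fun q : Ω × E d => same j (f q.1) (h q.1) q.2 * A q.2 *
      (Wt j m (q.2 - h q.1) * vt j (q.2 - h q.1))) ?_
  exact ((meas_same j (hf.comp measurable_fst) (hh.comp measurable_fst) measurable_snd).mul
    (hA.comp measurable_snd)).mul ((meas_Wt j m (measurable_snd.sub (hh.comp measurable_fst))).mul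
      (meas_vt j (measurable_snd.sub (hh.comp measurable_fst))))

/-- `X2, s ↦ ∫ nl (nu ...) dX1`. -/
theorem meas_int_nu (π : Measure (E d)) [SFinite π] (j : ℕ) {A : E d → ℝ≥0∞} (hA : Measurable A)
    {g : Ω → Fin m → E d} {h : Ω → E d} (hg : Measurable g) (hh : Measurable h) :
    Measurable (fun ω => ∫⁻ X1, nl (nu π j X1 (g ω) A (h ω)) ∂(rows n d)) := by
  refine Measurable.lintegral_prod_right'
    (f := fun q : Ω × (Fin n → E d) => nl (nu π j q.2 (g q.1) A (h q.1))) ?_
  exact measurable_nl.comp (meas_nu π j hA measurable_snd (hg.comp measurable_fst)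
    (hh.comp measurable_fst))

theorem meas_int_Jf (π : Measure (E d)) [SFinite π] (j m : ℕ) {A : E d → ℝ≥0∞}
    (hA : Measurable A) {h : Ω → E d} (hh : Measurable h) :
    Measurable (fun ω => ∫⁻ X1, nl (Jf π j m X1 A (h ω)) ∂(rows n d)) := by
  refine Measurable.lintegral_prod_right'
    (f := fun q : Ω × (Fin n → E d) => nl (Jf π j m q.2 A (h q.1))) ?_
  exact measurable_nl.comp (meas_Jf π j m hA measurable_snd (hh.comp measurable_fst))

end

theorem same_le_one {j n d : ℕ} (X : Fin n → E d) (s s' : E d) : same j X s s' ≤ 1 := by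
  unfold same; split <;> simp

theorem nu_le {d : ℕ} (π : Measure (E d)) (j n m : ℕ) (A : E d → ℝ≥0∞) (X1 : Fin n → E d)
    (X2 : Fin m → E d) (s : E d) : nu π j X1 X2 A s ≤ ∫⁻ s', A s' ∂π := by
  unfold nu
  refine lintegral_mono fun s' => ?_
  calc same j X1 s s' * same j X2 s s' * A s' ≤ 1 * 1 * A s' := by
        gcongr <;> exact same_le_one _ _ _
    _ = A s' := by simp

/-- same label implies the differences of the labels are small. -/
theorem same_abs {j d n : ℕ} {X : Fin n → E d} {s s' : E d} (h : labs j X s' = labs j X s)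
    (i : Fin n) : |⟪X i, s' - s⟫| ≤ ((2 : ℝ) ^ j)⁻¹ := by
  have h1 : ⌊(2 : ℝ) ^ j * ⟪X i, s'⟫⌋ = ⌊(2 : ℝ) ^ j * ⟪X i, s⟫⌋ := congrFun h i
  have h2 := Int.abs_sub_lt_one_of_floor_eq_floor h1
  have h3 : (0 : ℝ) < 2 ^ j := by positivity
  rw [← mul_sub, abs_mul, abs_of_pos h3] at h2
  rw [inner_sub_right, ← one_div, le_div_iff₀ h3]
  linarith

end P309
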