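import Vale.Agent.H20.P309.Law
import Vale.Agent.H20.P309.Meas

/-!
# P309, row L14: blocks of transitions
-/

open MeasureTheory ProbabilityTheory
open scoped RealInnerProductSpace ENNReal

namespace P309

theorem meas_countable {α ι : Type*} [MeasurableSpace α] [Countable ι] [MeasurableSpace ι]
    [MeasurableSingletonClass ι] (f : α → ι → ℝ≥0∞) (hf : ∀ i, Measurable (fun a => f a i))
    {β : Type*} [MeasurableSpace β] {a : β → α} {g : β → ι} (ha : Measurable a)
    (hg : Measurable g) : Measurable (fun b => f (a b) (g b)) := by
  have h : Measurable (fun q : α × ι => f q.1 q.2) := measurable_from_prod_countable_left hf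
  exact h.comp (ha.prodMk hg)

theorem lintegral_rows_succ {d m : ℕ} (F : (Fin (m + 1) → E d) → ℝ≥0∞) (hF : Measurable F) :
    ∫⁻ X, F X ∂(rows (m + 1) d)
      = ∫⁻ x, ∫⁻ X', F (Fin.cons x X') ∂(rows m d) ∂(stdGaussian (E d)) := by
  have h := (measurePreserving_piFinSuccAbove
    (fun _ : Fin (m + 1) => stdGaussian (E d)) 0).symm
  have h2 := h.lintegral_comp hF
  have e : ∀ (x : E d) (X' : Fin m → E d),
      (MeasurableEquiv.piFinSuccAbove (fun _ : Fin (m + 1) => E d) 0).symm (x, X')
        = Fin.cons x X' := by
    intro x X'
    have h3 : MeasurableEquiv.piFinSuccAbove (fun _ : Fin (m + 1) => E d) 0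
        (Fin.cons x X' : Fin (m + 1) → E d) = (x, X') := rfl
    rw [← h3, MeasurableEquiv.symm_apply_apply]
  unfold rows
  rw [← h2, lintegral_prod _ (by exact (hF.comp (MeasurableEquiv.measurable _)).aemeasurable)]
  simp only [e]

theorem lawR_sum {d : ℕ} {Z : Type} [Fintype Z] (j : ℕ) (K : ℕ → Z → E d → ℤ → Z → ℝ≥0∞)
    (p : Z → ℝ≥0∞) (hp : ∑ z, p z = 1)
    (hK : ∀ t z l z', Measurable (fun x => K t z x l z'))
    (hK1 : ∀ t z x l, ∑ z', K t z x l z' = 1) (t : ℕ) (s : E d) :
    ∑ z, lawR j K p t s z = 1 := by
  induction t with
  | zero => exact hp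
  | succ t ih =>
    simp only [lawR_succ]
    rw [Finset.sum_comm]
    have h : ∀ z, ∑ z', lawR j K p t s z * ∫⁻ x, K t z x (lab j x s) z' ∂(stdGaussian (E d))
        = lawR j K p t s z := by
      intro z
      rw [← Finset.mul_sum, ← lintegral_finsetSum]
      · simp only [hK1, lintegral_one, measure_univ, mul_one]
      · intro z' _
        exact meas_countable (fun x l => K t z x l z') (fun l => hK t z l z') measurable_id
          (meas_lab j measurable_id measurable_const)
    simp only [h, ih]

theorem lawR_meas {d : ℕ} {Z : Type} [Fintype Z] (j : ℕ) (K : ℕ → Z → E d → ℤ → Z → ℝ≥0∞)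
    (p : Z → ℝ≥0∞)
    (hK : ∀ t z l z', Measurable (fun x => K t z x l z')) (t : ℕ) (z : Z) :
    Measurable (fun s => lawR j K p t s z) := by
  induction t generalizing z with
  | zero => exact measurable_const
  | succ t ih =>
    simp only [lawR_succ]
    refine Finset.measurable_sum _ fun z1 _ => (ih z1).mul ?_
    refine Measurable.lintegral_prod_right'
      (f := fun q : E d × E d => K t z1 q.2 (lab j q.2 q.1) z) ?_
    exact meas_countable (fun x l => K t z1 x l z) (fun l => hK t z1 l z) measurable_snd
      (meas_lab j measurable_snd measurable_fst)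

theorem block {d : ℕ} {Z : Type} [Fintype Z] (j : ℕ) (K : ℕ → Z → E d → ℤ → Z → ℝ≥0∞)
    (p : Z → ℝ≥0∞)
    (hK : ∀ t z l z', Measurable (fun x => K t z x l z'))
    (hK1 : ∀ t z x l, ∑ z', K t z x l z' = 1) (t m : ℕ) :
    ∃ KB : Z → (Fin m → E d) → (Fin m → ℤ) → Z → ℝ≥0∞,
      (∀ z l z', Measurable (fun X => KB z X l z')) ∧ (∀ z X l, ∑ z', KB z X l z' = 1) ∧
      ∀ s z', lawR j K p (t + m) s z'
        = ∫⁻ X, ∑ z, lawR j K p t s z * KB z X (labs j X s) z' ∂(rows m d) := by
  classical
  induction m generalizing t with
  | zero =>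
    refine ⟨fun z _ _ z' => if z = z' then 1 else 0, fun z l z' => measurable_const,
      fun z X l => by simp, fun s z' => ?_⟩
    simp
  | succ m ih =>
    obtain ⟨KB, h1, h2, h3⟩ := ih (t + 1)
    refine ⟨fun z X l z' => ∑ z1, K t z (X 0) (l 0) z1 * KB z1 (Fin.tail X) (Fin.tail l) z',
      ?_, ?_, ?_⟩
    · intro z l z'
      refine Finset.measurable_sum _ fun z1 _ => ?_
      refine ((hK t z (l 0) z1).comp (measurable_pi_apply 0)).mul ?_
      exact (h1 z1 (Fin.tail l) z').comp
        (measurable_pi_lambda _ fun i => measurable_pi_apply i.succ)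
    · intro z X l
      rw [Finset.sum_comm]
      simp only [← Finset.mul_sum, h2, mul_one, hK1]
    · intro s z'
      have e : t + (m + 1) = t + 1 + m := by ring
      rw [e, h3 s z']
      have hmK : ∀ z z1, Measurable (fun x => K t z x (lab j x s) z1) := fun z z1 =>
        meas_countable (fun x l => K t z x l z1) (fun l => hK t z l z1) measurable_id
          (meas_lab j measurable_id measurable_const)
      have hmB : ∀ z1, Measurable (fun X : Fin m → E d => KB z1 X (labs j X s) z') := fun z1 =>
        meas_countable (fun X l => KB z1 X l z') (fun l => h1 z1 l z') measurable_id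
          (meas_labs j measurable_id measurable_const)
      rw [lintegral_rows_succ]
      · have e1 : ∀ (x : E d) (X' : Fin m → E d),
            (∑ z, lawR j K p t s z * ∑ z1, K t z ((Fin.cons x X' : Fin (m + 1) → E d) 0)
              (labs j (Fin.cons x X' : Fin (m + 1) → E d) s 0) z1 *
              KB z1 (Fin.tail (Fin.cons x X' : Fin (m + 1) → E d))
                (Fin.tail (labs j (Fin.cons x X' : Fin (m + 1) → E d) s)) z')
            = ∑ z1, (∑ z, lawR j K p t s z * K t z x (lab j x s) z1) *
                KB z1 X' (labs j X' s) z' := by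
          intro x X'
          have e2 : Fin.tail (labs j (Fin.cons x X' : Fin (m + 1) → E d) s) = labs j X' s := by
            funext i; simp [Fin.tail, labs]
          have e3 : labs j (Fin.cons x X' : Fin (m + 1) → E d) s 0 = lab j x s := by
            simp [labs]
          rw [e2, e3, Fin.tail_cons, Fin.cons_zero]
          simp only [Finset.mul_sum, Finset.sum_mul]
          rw [Finset.sum_comm]
          refine Finset.sum_congr rfl fun z1 _ => Finset.sum_congr rfl fun z _ => ?_
          ring
        simp only [e1]
        have e4 : ∀ x : E d, ∫⁻ X', ∑ z1, (∑ z, lawR j K p t s z * K t z x (lab j x s) z1) *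
                KB z1 X' (labs j X' s) z' ∂(rows m d)
            = ∑ z1, (∑ z, lawR j K p t s z * K t z x (lab j x s) z1) *
                ∫⁻ X', KB z1 X' (labs j X' s) z' ∂(rows m d) := by
          intro x
          rw [lintegral_finsetSum _ (fun z1 _ => (hmB z1).const_mul _)]
          exact Finset.sum_congr rfl fun z1 _ => lintegral_const_mul _ (hmB z1)
        simp only [e4]
        have hmS : ∀ z1, Measurable (fun x => ∑ z, lawR j K p t s z * K t z x (lab j x s) z1) :=
          fun z1 => Finset.measurable_sum _ fun z _ => (hmK z z1).const_mul _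
        rw [lintegral_finsetSum _ (fun z1 _ => (hmS z1).mul_const _)]
        rw [lintegral_finsetSum _ (fun z1 _ => (hmB z1).const_mul _)]
        refine Finset.sum_congr rfl fun z1 _ => ?_
        rw [lintegral_const_mul _ (hmB z1), lintegral_mul_const _ (hmS z1)]
        congr 1
        rw [lintegral_finsetSum _ (fun z _ => (hmK z z1).const_mul _)]
        simp only [lawR_succ]
        refine Finset.sum_congr rfl fun z _ => ?_
        rw [lintegral_const_mul _ (hmK z z1)]
      · refine Finset.measurable_sum _ fun z _ => Measurable.const_mul ?_ _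
        refine Finset.measurable_sum _ fun z1 _ => ?_
        refine Measurable.mul ?_ ?_
        · exact meas_countable (fun (X : E d) l => K t z X l z1) (fun l => hK t z l z1)
            (measurable_pi_apply 0) ((measurable_pi_apply 0).comp
              (meas_labs j measurable_id measurable_const))
        · have hta : Measurable (Fin.tail : (Fin (m + 1) → E d) → (Fin m → E d)) :=
            measurable_pi_lambda _ fun i => measurable_pi_apply i.succ
          have htail : Measurable (Fin.tail : (Fin (m + 1) → ℤ) → (Fin m → ℤ)) :=
            measurable_pi_lambda _ fun i => measurable_pi_apply i.succ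
          exact meas_countable (fun (X : Fin m → E d) l => KB z1 X l z')
            (fun l => h1 z1 l z') hta
            (htail.comp (meas_labs j measurable_id measurable_const))

end P309
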