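import Vale.Agent.H20.P309.Base

/-! # L2: Gaussian small ball for several directions -/

open MeasureTheory ProbabilityTheory
open scoped RealInnerProductSpace ENNReal

namespace P309

/-- the product bound. -/
noncomputable def pb (δ : ℝ) {d : ℕ} : List (E d) → ℝ≥0∞
  | [] => 1
  | u :: l => pb δ l * min 1 (ENNReal.ofReal δ /
      ENNReal.ofReal (Metric.infDist u (Submodule.span ℝ {x | x ∈ l} : Submodule ℝ (E d))))

namespace L2

theorem pdf_le (x : ℝ) : gaussianPDF 0 1 x ≤ ENNReal.ofReal (1 / 2) := by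
  unfold gaussianPDF
  refine ENNReal.ofReal_le_ofReal ?_
  unfold gaussianPDFReal
  have h1 : Real.exp (-(x - 0) ^ 2 / (2 * ((1 : NNReal) : ℝ))) ≤ 1 := by
    rw [Real.exp_le_one_iff]
    have : 0 ≤ (x - 0) ^ 2 := sq_nonneg _
    have h2 : (0:ℝ) < 2 * ((1 : NNReal) : ℝ) := by norm_num
    exact div_nonpos_of_nonpos_of_nonneg (by linarith) h2.le
  have h2 : (2:ℝ) ≤ √(2 * Real.pi * ((1 : NNReal) : ℝ)) := by
    apply Real.le_sqrt_of_sq_le
    have := Real.pi_gt_three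
    norm_num
    linarith
  have h3 : (√(2 * Real.pi * ((1 : NNReal) : ℝ)))⁻¹ ≤ 1 / 2 := by
    rw [one_div]
    exact inv_anti₀ (by norm_num) h2
  calc (√(2 * Real.pi * ((1 : NNReal) : ℝ)))⁻¹ * Real.exp (-(x - 0) ^ 2 / (2 * ((1 : NNReal) : ℝ)))
      ≤ 1 / 2 * 1 := by
        apply mul_le_mul h3 h1 (Real.exp_pos _).le (by norm_num)
    _ = 1 / 2 := by norm_num

theorem gauss_interval (a σ δ : ℝ) (hσ : 0 < σ) (hδ : 0 ≤ δ) :
    gaussianReal 0 1 {t | |a + t * σ| ≤ δ} ≤ ENNReal.ofReal (δ / σ) := by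
  have hset : {t : ℝ | |a + t * σ| ≤ δ} = Set.Icc ((-δ - a) / σ) ((δ - a) / σ) := by
    ext t
    simp only [Set.mem_setOf_eq, abs_le, Set.mem_Icc]
    rw [div_le_iff₀ hσ, le_div_iff₀ hσ]
    constructor <;> rintro ⟨h1, h2⟩ <;> constructor <;> linarith
  rw [hset, gaussianReal_apply 0 one_ne_zero]
  calc ∫⁻ x in Set.Icc ((-δ - a) / σ) ((δ - a) / σ), gaussianPDF 0 1 x
      ≤ ∫⁻ _ in Set.Icc ((-δ - a) / σ) ((δ - a) / σ), ENNReal.ofReal (1 / 2) :=
        lintegral_mono (fun x => pdf_le x)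
    _ = ENNReal.ofReal (1 / 2) * ENNReal.ofReal ((δ - a) / σ - (-δ - a) / σ) := by
        rw [setLIntegral_const, Real.volume_Icc]
    _ = ENNReal.ofReal (δ / σ) := by
        rw [← ENNReal.ofReal_mul (by norm_num)]
        congr 1
        field_simp
        ring

/-- replacing the `e`-coordinate by an independent Gaussian does not change the law -/
theorem resample {d : ℕ} (e : E d) (he : ‖e‖ = 1) :
    ((stdGaussian (E d)).prod (gaussianReal 0 1)).map
      (fun p : E d × ℝ => p.1 + (p.2 - ⟪p.1, e⟫) • e) = stdGaussian (E d) := by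
  have hmeas : Measurable (fun p : E d × ℝ => p.1 + (p.2 - ⟪p.1, e⟫) • e) := by fun_prop
  apply Measure.ext_of_charFun
  ext y
  rw [charFun_stdGaussian, charFun_apply, integral_map hmeas.aemeasurable
    (Measurable.aestronglyMeasurable (by fun_prop))]
  have h1 : ∀ p : E d × ℝ, Complex.exp (((⟪p.1 + (p.2 - ⟪p.1, e⟫) • e, y⟫ : ℝ) : ℂ) * Complex.I)
      = Complex.exp (((⟪p.1, y - ⟪e, y⟫ • e⟫ : ℝ) : ℂ) * Complex.I)
        * Complex.exp (((⟪e, y⟫ : ℝ) : ℂ) * (p.2 : ℂ) * Complex.I) := by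
    intro p
    rw [← Complex.exp_add]
    congr 1
    rw [← add_mul]
    congr 1
    rw [inner_add_left, real_inner_smul_left, inner_sub_right, real_inner_smul_right]
    push_cast
    ring
  simp only [h1]
  rw [integral_prod_mul (μ := stdGaussian (E d)) (ν := gaussianReal 0 1)
    (fun x => Complex.exp (((⟪x, y - ⟪e, y⟫ • e⟫ : ℝ) : ℂ) * Complex.I))
    (fun t => Complex.exp (((⟪e, y⟫ : ℝ) : ℂ) * (t : ℂ) * Complex.I))]
  rw [← charFun_apply, ← charFun_apply_real, charFun_stdGaussian, charFun_gaussianReal,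
    ← Complex.exp_add]
  congr 1
  have h2 : ‖y - ⟪e, y⟫ • e‖ ^ 2 = ‖y‖ ^ 2 - ⟪e, y⟫ ^ 2 := by
    rw [norm_sub_sq_real, norm_smul, he, real_inner_smul_right, real_inner_comm]
    simp
    ring
  have h3 : ((‖y - ⟪e, y⟫ • e‖ : ℝ) : ℂ) ^ 2 = (‖y‖ : ℂ) ^ 2 - ((⟪e, y⟫ : ℝ) : ℂ) ^ 2 := by
    exact_mod_cast h2
  rw [h3]
  push_cast
  ring

theorem single (d : ℕ) (δ : ℝ) (hδ : 0 < δ) (l : List (E d)) :
    stdGaussian (E d) {x | ∀ u ∈ l, |⟪x, u⟫| ≤ δ} ≤ pb δ l := by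
  induction l with
  | nil => simp [pb]
  | cons u l ih =>
    set V : Submodule ℝ (E d) := Submodule.span ℝ {x | x ∈ l} with hV
    have hsub : {x : E d | ∀ v ∈ u :: l, |⟪x, v⟫| ≤ δ} ⊆ {x | ∀ v ∈ l, |⟪x, v⟫| ≤ δ} := by
      intro x hx v hv
      exact hx v (List.mem_cons_of_mem _ hv)
    show _ ≤ pb δ l * min 1 (ENNReal.ofReal δ / ENNReal.ofReal (Metric.infDist u V))
    set w : E d := u - (V.orthogonalProjection u : E d) with hw
    have hwV : ∀ v ∈ V, ⟪v, w⟫ = 0 := by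
      intro v hv
      have := Submodule.sub_starProjection_mem_orthogonal (K := V) u
      exact (Submodule.mem_orthogonal V _).1 this v hv
    have hinf : Metric.infDist u V ≤ ‖w‖ := by
      have := Metric.infDist_le_dist_of_mem (x := u) (s := (V : Set (E d)))
        (V.orthogonalProjection u).2
      rwa [dist_eq_norm] at this
    rcases (Metric.infDist_nonneg (x := u) (s := (V : Set (E d)))).eq_or_lt with h0 | h0
    · rw [← h0, ENNReal.ofReal_zero, ENNReal.div_zero (by simpa using hδ)]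
      rw [min_eq_left le_top, mul_one]
      exact (measure_mono hsub).trans ih
    have hwpos : 0 < ‖w‖ := lt_of_lt_of_le h0 hinf
    set e : E d := (‖w‖)⁻¹ • w with he
    have he1 : ‖e‖ = 1 := by
      rw [he, norm_smul, norm_inv, norm_norm, inv_mul_cancel₀ hwpos.ne']
    have hev : ∀ v ∈ V, ⟪e, v⟫ = 0 := by
      intro v hv
      rw [he, real_inner_smul_left, real_inner_comm, hwV v hv, mul_zero]
    have heu : ⟪e, u⟫ = ‖w‖ := by
      have hu : u = w + (V.orthogonalProjection u : E d) := by rw [hw]; abel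
      rw [hu, inner_add_right, hev _ (V.orthogonalProjection u).2, add_zero, he,
        real_inner_smul_left, real_inner_self_eq_norm_sq]
      field_simp
    have hmeas : Measurable (fun p : E d × ℝ => p.1 + (p.2 - ⟪p.1, e⟫) • e) := by fun_prop
    have hSl : MeasurableSet {x : E d | ∀ v ∈ l, |⟪x, v⟫| ≤ δ} := by
      have : {x : E d | ∀ v ∈ l, |⟪x, v⟫| ≤ δ} = ⋂ v ∈ {v | v ∈ l}, {x : E d | |⟪x, v⟫| ≤ δ} := by
        ext x; simp
      rw [this]
      refine MeasurableSet.biInter (List.finite_toSet l).countable (fun v _ => ?_)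
      exact measurableSet_le (by fun_prop) (by fun_prop)
    have hSu : MeasurableSet {x : E d | |⟪x, u⟫| ≤ δ} :=
      measurableSet_le (by fun_prop) (by fun_prop)
    have hset : {x : E d | ∀ v ∈ u :: l, |⟪x, v⟫| ≤ δ}
        = {x : E d | ∀ v ∈ l, |⟪x, v⟫| ≤ δ} ∩ {x : E d | |⟪x, u⟫| ≤ δ} := by
      ext x
      simp only [List.mem_cons, forall_eq_or_imp, Set.mem_setOf_eq, Set.mem_inter_iff]
      exact and_comm
    rw [hset]
    conv_lhs => rw [← resample e he1]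
    rw [Measure.map_apply hmeas (hSl.inter hSu), Measure.prod_apply (hmeas (hSl.inter hSu))]
    have hb : ∀ x : E d, gaussianReal 0 1 (Prod.mk x ⁻¹'
        ((fun p : E d × ℝ => p.1 + (p.2 - ⟪p.1, e⟫) • e) ⁻¹'
          ({x : E d | ∀ v ∈ l, |⟪x, v⟫| ≤ δ} ∩ {x : E d | |⟪x, u⟫| ≤ δ})))
        ≤ ({x : E d | ∀ v ∈ l, |⟪x, v⟫| ≤ δ}).indicator (fun _ =>
          min 1 (ENNReal.ofReal δ / ENNReal.ofReal (Metric.infDist u V))) x := by
      intro x
      have hin : ∀ t : ℝ, ∀ v ∈ l, ⟪x + (t - ⟪x, e⟫) • e, v⟫ = ⟪x, v⟫ := by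
        intro t v hv
        rw [inner_add_left, real_inner_smul_left, hev v (Submodule.subset_span hv), mul_zero,
          add_zero]
      by_cases hx : x ∈ {x : E d | ∀ v ∈ l, |⟪x, v⟫| ≤ δ}
      · rw [Set.indicator_of_mem hx]
        refine le_min prob_le_one ?_
        have hsub2 : Prod.mk x ⁻¹' ((fun p : E d × ℝ => p.1 + (p.2 - ⟪p.1, e⟫) • e) ⁻¹'
            ({x : E d | ∀ v ∈ l, |⟪x, v⟫| ≤ δ} ∩ {x : E d | |⟪x, u⟫| ≤ δ}))
            ⊆ {t : ℝ | |(⟪x, u⟫ - ⟪x, e⟫ * ‖w‖) + t * ‖w‖| ≤ δ} := by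
          rintro t ⟨-, ht⟩
          have ht' : |⟪x + (t - ⟪x, e⟫) • e, u⟫| ≤ δ := ht
          rw [inner_add_left, real_inner_smul_left, heu] at ht'
          show |(⟪x, u⟫ - ⟪x, e⟫ * ‖w‖) + t * ‖w‖| ≤ δ
          have e1 : (⟪x, u⟫ - ⟪x, e⟫ * ‖w‖) + t * ‖w‖ = ⟪x, u⟫ + (t - ⟪x, e⟫) * ‖w‖ := by ring
          rw [e1]; exact ht'
        refine (measure_mono hsub2).trans ((gauss_interval _ _ _ hwpos hδ.le).trans ?_)
        rw [← ENNReal.ofReal_div_of_pos h0]
        exact ENNReal.ofReal_le_ofReal (div_le_div_of_nonneg_left hδ.le h0 hinf)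
      · rw [Set.indicator_of_notMem hx]
        have hempty : Prod.mk x ⁻¹' ((fun p : E d × ℝ => p.1 + (p.2 - ⟪p.1, e⟫) • e) ⁻¹'
            ({x : E d | ∀ v ∈ l, |⟪x, v⟫| ≤ δ} ∩ {x : E d | |⟪x, u⟫| ≤ δ})) = ∅ := by
          rw [Set.eq_empty_iff_forall_notMem]
          rintro t ⟨ht, -⟩
          apply hx
          intro v hv
          have ht' : |⟪x + (t - ⟪x, e⟫) • e, v⟫| ≤ δ := ht v hv
          rw [hin t v hv] at ht'
          exact ht'
        rw [hempty, measure_empty]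
    refine (lintegral_mono hb).trans ?_
    rw [lintegral_indicator hSl, setLIntegral_const, mul_comm]
    exact mul_le_mul_left ih _

end L2

theorem rows_list {d : ℕ} (m : ℕ) (δ : ℝ) (hδ : 0 < δ) (l : List (E d)) :
    rows m d {X | ∀ i, ∀ u ∈ l, |⟪X i, u⟫| ≤ δ} ≤ (pb δ l) ^ m := by
  have hset : {X : Fin m → E d | ∀ i, ∀ u ∈ l, |⟪X i, u⟫| ≤ δ}
      = Set.pi Set.univ (fun _ => {x : E d | ∀ u ∈ l, |⟪x, u⟫| ≤ δ}) := by
    ext X; simp
  rw [hset, rows, Measure.pi_pi]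
  rw [Finset.prod_const, Finset.card_univ, Fintype.card_fin]
  exact pow_le_pow_left' (L2.single d δ hδ l) m

end P309
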