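import Vale.Agent.H20.P309.L2

/-! # L3: power bound -/

open MeasureTheory ProbabilityTheory
open scoped RealInnerProductSpace ENNReal

namespace P309

namespace L3

/-- the slab of the direction `u` -/
def slab (m : ℕ) {d : ℕ} (δ : ℝ) (u : E d) : Set (Fin m → E d) := {X | ∀ i, |⟪X i, u⟫| ≤ δ}

/-- the intersection of the slabs of a list of directions -/
def slabs (m : ℕ) {d : ℕ} (δ : ℝ) (l : List (E d)) : Set (Fin m → E d) :=
  {X | ∀ i, ∀ u ∈ l, |⟪X i, u⟫| ≤ δ}

theorem meas_slab2 (m : ℕ) {d : ℕ} (δ : ℝ) :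
    MeasurableSet {p : (Fin m → E d) × E d | p.1 ∈ slab m δ p.2} := by
  have : {p : (Fin m → E d) × E d | p.1 ∈ slab m δ p.2}
      = ⋂ i, {p : (Fin m → E d) × E d | |⟪p.1 i, p.2⟫| ≤ δ} := by
    ext p; simp [slab]
  rw [this]
  exact MeasurableSet.iInter (fun i => measurableSet_le (by fun_prop) (by fun_prop))

theorem meas_slabs (m : ℕ) {d : ℕ} (δ : ℝ) (l : List (E d)) : MeasurableSet (slabs m δ l) := by
  have : slabs m δ l = ⋂ i, ⋂ u ∈ {u | u ∈ l}, {X : Fin m → E d | |⟪X i, u⟫| ≤ δ} := by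
    ext X; simp [slabs]
  rw [this]
  refine MeasurableSet.iInter (fun i => MeasurableSet.biInter (List.finite_toSet l).countable
    (fun v _ => ?_))
  exact measurableSet_le (by fun_prop) (by fun_prop)

/-- the integrand -/
noncomputable def g (m : ℕ) {d : ℕ} (δ : ℝ) (X : Fin m → E d) (u : E d) : ℝ≥0∞ :=
  ENNReal.ofReal (‖u‖ / δ + 1) ^ m * (slab m δ u).indicator (fun _ => 1) X

theorem meas_g (m : ℕ) {d : ℕ} (δ : ℝ) :
    Measurable (Function.uncurry (g m (d := d) δ)) := by
  have h1 : Measurable (fun p : (Fin m → E d) × E d => ENNReal.ofReal (‖p.2‖ / δ + 1) ^ m) := by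
    fun_prop
  have h2 : Measurable (fun p : (Fin m → E d) × E d =>
      ({p : (Fin m → E d) × E d | p.1 ∈ slab m δ p.2}).indicator (fun _ => (1 : ℝ≥0∞)) p) :=
    measurable_const.indicator (meas_slab2 m δ)
  exact h1.mul h2

theorem meas_G (m : ℕ) {d : ℕ} (δ : ℝ) (ρ : Measure (E d)) [IsFiniteMeasure ρ] :
    Measurable (fun X : Fin m → E d => ∫⁻ u, g m δ X u ∂ρ) :=
  (meas_g m δ).lintegral_prod_right'

theorem finrank_span_list {d : ℕ} (l : List (E d)) :
    Module.finrank ℝ (Submodule.span ℝ {x | x ∈ l} : Submodule ℝ (E d)) ≤ l.length := by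
  classical
  have h : {x | x ∈ l} = (l.toFinset : Set (E d)) := by ext x; simp
  rw [h]
  exact (finrank_span_finset_le_card _).trans (List.toFinset_card_le l)

theorem main {d : ℕ} (m k : ℕ) (δ : ℝ) (hδ : 0 < δ) (ρ : Measure (E d)) [IsFiniteMeasure ρ]
    (B : ℝ≥0∞)
    (hB : ∀ V : Submodule ℝ (E d), Module.finrank ℝ V < k →
      ∫⁻ u, (ENNReal.ofReal (‖u‖ / δ + 1) *
        min 1 (ENNReal.ofReal δ / ENNReal.ofReal (Metric.infDist u V))) ^ m ∂ρ ≤ B) :
    ∀ (k' : ℕ) (l : List (E d)), k' + l.length ≤ k →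
      ∫⁻ X, (slabs m δ l).indicator (fun _ => 1) X * (∫⁻ u, g m δ X u ∂ρ) ^ k' ∂(rows m d)
        ≤ (pb δ l) ^ m * B ^ k' := by
  have : IsProbabilityMeasure (rows m d) := by unfold rows; infer_instance
  intro k'
  induction k' with
  | zero =>
    intro l _
    simp only [pow_zero, mul_one]
    rw [lintegral_indicator (meas_slabs m δ l), setLIntegral_const, one_mul]
    exact rows_list m δ hδ l
  | succ k' ih =>
    intro l hl
    set V : Submodule ℝ (E d) := Submodule.span ℝ {x | x ∈ l} with hV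
    have hVk : Module.finrank ℝ V < k :=
      lt_of_le_of_lt (finrank_span_list l) (by omega)
    have hmG := meas_G m (d := d) δ ρ
    have hmu := (meas_g m (d := d) δ)
    have hms : Measurable (fun X : Fin m → E d => (slabs m δ l).indicator (fun _ => (1 : ℝ≥0∞)) X) :=
      measurable_const.indicator (meas_slabs m δ l)
    -- pull the last factor inside
    have e1 : ∀ X : Fin m → E d,
        (slabs m δ l).indicator (fun _ => 1) X * (∫⁻ u, g m δ X u ∂ρ) ^ (k' + 1)
        = ∫⁻ u, ((slabs m δ l).indicator (fun _ => 1) X * (∫⁻ u, g m δ X u ∂ρ) ^ k')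
            * g m δ X u ∂ρ := by
      intro X
      rw [lintegral_const_mul _ (hmu.of_uncurry_left (x := X)), pow_succ, mul_assoc]
    have hmeas : Measurable (Function.uncurry (fun (X : Fin m → E d) (u : E d) =>
        ((slabs m δ l).indicator (fun _ => (1 : ℝ≥0∞)) X * (∫⁻ u, g m δ X u ∂ρ) ^ k')
            * g m δ X u)) := by
      exact ((hms.comp measurable_fst).mul ((hmG.comp measurable_fst).pow_const k')).mul hmu
    calc ∫⁻ X, (slabs m δ l).indicator (fun _ => 1) X * (∫⁻ u, g m δ X u ∂ρ) ^ (k' + 1)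
          ∂(rows m d)
        = ∫⁻ X, ∫⁻ u, ((slabs m δ l).indicator (fun _ => 1) X * (∫⁻ u, g m δ X u ∂ρ) ^ k')
            * g m δ X u ∂ρ ∂(rows m d) := lintegral_congr e1
      _ = ∫⁻ u, ∫⁻ X, ((slabs m δ l).indicator (fun _ => 1) X * (∫⁻ u, g m δ X u ∂ρ) ^ k')
            * g m δ X u ∂(rows m d) ∂ρ := lintegral_lintegral_swap hmeas.aemeasurable
      _ = ∫⁻ u, ENNReal.ofReal (‖u‖ / δ + 1) ^ m *
            ∫⁻ X, (slabs m δ (u :: l)).indicator (fun _ => 1) X * (∫⁻ u, g m δ X u ∂ρ) ^ k'
              ∂(rows m d) ∂ρ := by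
          refine lintegral_congr (fun u => ?_)
          have hms' : Measurable (fun X : Fin m → E d =>
              (slabs m δ (u :: l)).indicator (fun _ => (1 : ℝ≥0∞)) X
                * (∫⁻ u, g m δ X u ∂ρ) ^ k') :=
            (measurable_const.indicator (meas_slabs m δ (u :: l))).mul (hmG.pow_const k')
          rw [← lintegral_const_mul _ hms']
          refine lintegral_congr (fun X => ?_)
          have e2 : (slabs m δ (u :: l)).indicator (fun _ => (1 : ℝ≥0∞)) X
              = (slabs m δ l).indicator (fun _ => 1) X * (slab m δ u).indicator (fun _ => 1) X := by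
            have e3 : slabs m δ (u :: l) = slabs m δ l ∩ slab m δ u := by
              ext Y
              simp only [slabs, slab, List.mem_cons, forall_eq_or_imp, Set.mem_inter_iff,
                Set.mem_setOf_eq]
              constructor
              · exact fun h => ⟨fun i => (h i).2, fun i => (h i).1⟩
              · exact fun h i => ⟨h.2 i, h.1 i⟩
            rw [e3, Set.inter_indicator_mul (fun _ => (1 : ℝ≥0∞)) (fun _ => 1) X |>.symm]
            simp
          rw [e2]
          unfold g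
          ring
      _ ≤ ∫⁻ u, ENNReal.ofReal (‖u‖ / δ + 1) ^ m * ((pb δ (u :: l)) ^ m * B ^ k') ∂ρ := by
          refine lintegral_mono (fun u => ?_)
          exact mul_le_mul_right (ih (u :: l) (by simp only [List.length_cons]; omega)) _
      _ = ∫⁻ u, ((pb δ l) ^ m * B ^ k') * (ENNReal.ofReal (‖u‖ / δ + 1) *
            min 1 (ENNReal.ofReal δ / ENNReal.ofReal (Metric.infDist u V))) ^ m ∂ρ := by
          refine lintegral_congr (fun u => ?_)
          have e4 : pb δ (u :: l) = pb δ l * min 1 (ENNReal.ofReal δ /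
            ENNReal.ofReal (Metric.infDist u V)) := rfl
          rw [e4, mul_pow, mul_pow]
          ring
      _ = ((pb δ l) ^ m * B ^ k') * ∫⁻ u, (ENNReal.ofReal (‖u‖ / δ + 1) *
            min 1 (ENNReal.ofReal δ / ENNReal.ofReal (Metric.infDist u V))) ^ m ∂ρ := by
          rw [lintegral_const_mul]
          have h1 : Measurable (fun u : E d => Metric.infDist u (V : Set (E d))) :=
            (Metric.continuous_infDist_pt _).measurable
          have h2 : Measurable (fun u : E d => ENNReal.ofReal δ /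
              ENNReal.ofReal (Metric.infDist u (V : Set (E d)))) :=
            measurable_const.div h1.ennreal_ofReal
          have h3 : Measurable (fun u : E d => ENNReal.ofReal (‖u‖ / δ + 1)) := by fun_prop
          exact (h3.mul (measurable_const.min h2)).pow_const m
      _ ≤ ((pb δ l) ^ m * B ^ k') * B := mul_le_mul_right (hB V hVk) _
      _ = (pb δ l) ^ m * B ^ (k' + 1) := by rw [pow_succ]; ring

end L3

theorem power_bound {d : ℕ} (m k : ℕ) (δ : ℝ) (hδ : 0 < δ) (ρ : Measure (E d)) [IsFiniteMeasure ρ]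
    (B : ℝ≥0∞)
    (hB : ∀ V : Submodule ℝ (E d), Module.finrank ℝ V < k →
      ∫⁻ u, (ENNReal.ofReal (‖u‖ / δ + 1) *
        min 1 (ENNReal.ofReal δ / ENNReal.ofReal (Metric.infDist u V))) ^ m ∂ρ ≤ B) :
    ∫⁻ X, (∫⁻ u, ENNReal.ofReal (‖u‖ / δ + 1) ^ m *
        (if ∀ i, |⟪X i, u⟫| ≤ δ then 1 else 0) ∂ρ) ^ k ∂(rows m d) ≤ B ^ k := by
  have h := L3.main m k δ hδ ρ B hB k [] (by simp)
  have hpb : pb δ ([] : List (E d)) = 1 := rfl
  rw [hpb, one_pow, one_mul] at h
  refine le_trans (le_of_eq ?_) h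
  refine lintegral_congr (fun X => ?_)
  have h1 : (L3.slabs m δ ([] : List (E d))).indicator (fun _ => (1 : ℝ≥0∞)) X = 1 := by
    rw [Set.indicator_of_mem]
    simp [L3.slabs]
  rw [h1, one_mul]
  congr 1
  refine lintegral_congr (fun u => ?_)
  unfold L3.g
  congr 1
  split_ifs with hx
  · rw [Set.indicator_of_mem]; exact hx
  · rw [Set.indicator_of_notMem]; exact hx

end P309
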