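import Vale.Agent.H20.P309.L4c

/-!
P309, row L4: slab bound (operator norm and smallest singular value of Gaussian matrices).
-/

open MeasureTheory ProbabilityTheory Metric
open scoped RealInnerProductSpace ENNReal NNReal

namespace P309

open L4

/-- the numerical part of the bound -/
theorem L4.numeric (m d k : ℕ) (hm : 1 ≤ m) (hd : d ≤ 200 * m) (hk : k < m) :
    ENNReal.ofReal (160 ^ m) * (1 +
      ((ENNReal.ofReal ((m : ℝ) ^ (2 * m) / 32 ^ m))⁻¹ *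
        ((ENNReal.ofReal ((4 * (2 * m : ℕ)) ^ (2 * m)) * 2 ^ d) *
        (ENNReal.ofReal ((4 * (2 * m : ℕ)) ^ (2 * m)) * 2 ^ (30 * m)))
          + ((30 * m : ℕ) : ℝ≥0∞) ^ (2 * m)) / ENNReal.ofReal ((m : ℝ) ^ (2 * m))
      + ENNReal.ofReal ((m : ℝ) ^ (2 * m)) *
        (ENNReal.ofReal ((((30 * m : ℕ) : ℝ) ^ (2 * m))⁻¹) * 12 ^ (30 * m) * 2 ^ k))
      ≤ ENNReal.ofReal (((2 : ℝ) ^ 300) ^ m) := by
  have hm' : (1 : ℝ) ≤ m := by exact_mod_cast hm
  have hm0 : (0 : ℝ) < m := by linarith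
  have e2d : (2 : ℝ≥0∞) ^ d = ENNReal.ofReal ((2 : ℝ) ^ d) := by
    rw [ENNReal.ofReal_pow (by norm_num)]; simp
  have e2n : (2 : ℝ≥0∞) ^ (30 * m) = ENNReal.ofReal ((2 : ℝ) ^ (30 * m)) := by
    rw [ENNReal.ofReal_pow (by norm_num)]; simp
  have e2k : (2 : ℝ≥0∞) ^ k = ENNReal.ofReal ((2 : ℝ) ^ k) := by
    rw [ENNReal.ofReal_pow (by norm_num)]; simp
  have e12 : (12 : ℝ≥0∞) ^ (30 * m) = ENNReal.ofReal ((12 : ℝ) ^ (30 * m)) := by
    rw [ENNReal.ofReal_pow (by norm_num)]; simp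
  have e30 : ((30 * m : ℕ) : ℝ≥0∞) ^ (2 * m) = ENNReal.ofReal (((30 * m : ℕ) : ℝ) ^ (2 * m)) := by
    rw [ENNReal.ofReal_pow (by positivity), ENNReal.ofReal_natCast]
  have e1 : (1 : ℝ≥0∞) = ENNReal.ofReal 1 := by simp
  rw [e2d, e2n, e2k, e12, e30, e1]
  rw [← ENNReal.ofReal_inv_of_pos (by positivity)]
  rw [← ENNReal.ofReal_mul (by positivity), ← ENNReal.ofReal_mul (by positivity),
    ← ENNReal.ofReal_mul (by positivity), ← ENNReal.ofReal_mul (by positivity),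
    ← ENNReal.ofReal_add (by positivity) (by positivity), ← ENNReal.ofReal_div_of_pos (by positivity),
    ← ENNReal.ofReal_mul (by positivity), ← ENNReal.ofReal_mul (by positivity),
    ← ENNReal.ofReal_mul (by positivity),
    ← ENNReal.ofReal_add (by norm_num) (by positivity),
    ← ENNReal.ofReal_add (by positivity) (by positivity),
    ← ENNReal.ofReal_mul (by positivity)]
  apply ENNReal.ofReal_le_ofReal
  push_cast
  set p : ℝ := (m : ℝ) ^ (2 * m) with hp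
  have hp0 : 0 < p := by positivity
  have h8 : ((4 : ℝ) * (2 * m)) ^ (2 * m) = 64 ^ m * p := by
    rw [hp, show (4 : ℝ) * (2 * m) = 8 * m by ring, mul_pow, pow_mul 8 2 m]; norm_num
  have h30 : ((30 : ℝ) * m) ^ (2 * m) = 900 ^ m * p := by
    rw [hp, mul_pow, pow_mul 30 2 m]; norm_num
  have h2d : (2 : ℝ) ^ d ≤ (2 ^ 200) ^ m := by
    rw [← pow_mul]
    exact pow_le_pow_right₀ (by norm_num) hd
  have h2k : (2 : ℝ) ^ k ≤ 2 ^ m := pow_le_pow_right₀ (by norm_num) hk.le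
  have h2n : (2 : ℝ) ^ (30 * m) = (2 ^ 30) ^ m := by rw [← pow_mul]
  have h12 : (12 : ℝ) ^ (30 * m) = (12 ^ 30) ^ m := by rw [← pow_mul]
  rw [h8, h30, h2n, h12]
  have t1 : ((p / 32 ^ m)⁻¹ * (64 ^ m * p * 2 ^ d * (64 ^ m * p * (2 ^ 30) ^ m)) + 900 ^ m * p) / p
      = (32 ^ m * 64 ^ m * 64 ^ m * (2 ^ 30) ^ m) * 2 ^ d + 900 ^ m := by
    field_simp
  have t2 : p * ((900 ^ m * p)⁻¹ * (12 ^ 30) ^ m * 2 ^ k) = (900 ^ m)⁻¹ * (12 ^ 30) ^ m * 2 ^ k := by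
    field_simp
  rw [t1, t2]
  have b1 : (32 ^ m * 64 ^ m * 64 ^ m * (2 ^ 30) ^ m) * (2 : ℝ) ^ d ≤ (2 ^ 250) ^ m := by
    calc (32 ^ m * 64 ^ m * 64 ^ m * (2 ^ 30) ^ m) * (2 : ℝ) ^ d
        ≤ (32 ^ m * 64 ^ m * 64 ^ m * (2 ^ 30) ^ m) * (2 ^ 200) ^ m := by gcongr
      _ = (32 * 64 * 64 * 2 ^ 30 * 2 ^ 200) ^ m := by
          rw [mul_pow, mul_pow, mul_pow, mul_pow]
      _ ≤ (2 ^ 250) ^ m := by
          apply pow_le_pow_left₀ (by norm_num); norm_num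
  have b2 : (900 : ℝ) ^ m ≤ (2 ^ 250) ^ m := pow_le_pow_left₀ (by norm_num) (by norm_num) m
  have b3 : (900 ^ m : ℝ)⁻¹ * (12 ^ 30) ^ m * 2 ^ k ≤ (2 ^ 250) ^ m := by
    calc (900 ^ m : ℝ)⁻¹ * (12 ^ 30) ^ m * 2 ^ k ≤ 1 * (12 ^ 30) ^ m * 2 ^ m := by
          gcongr
          exact inv_le_one_of_one_le₀ (one_le_pow₀ (by norm_num))
      _ = (12 ^ 30 * 2) ^ m := by rw [one_mul, ← mul_pow]
      _ ≤ (2 ^ 250) ^ m := by
          apply pow_le_pow_left₀ (by norm_num); norm_num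
  have b4 : (1 : ℝ) ≤ (2 ^ 250) ^ m := one_le_pow₀ (by norm_num)
  calc 160 ^ m * (1 + ((32 ^ m * 64 ^ m * 64 ^ m * (2 ^ 30) ^ m) * 2 ^ d + 900 ^ m)
        + (900 ^ m)⁻¹ * (12 ^ 30) ^ m * 2 ^ k)
      ≤ (160 : ℝ) ^ m * ((2 ^ 250) ^ m + ((2 ^ 250) ^ m + (2 ^ 250) ^ m) + (2 ^ 250) ^ m) := by
        gcongr
    _ = 160 ^ m * (4 * (2 ^ 250) ^ m) := by ring
    _ ≤ 160 ^ m * (4 ^ m * (2 ^ 250) ^ m) := by
        gcongr
        calc (4 : ℝ) = 4 ^ 1 := (pow_one _).symm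
          _ ≤ 4 ^ m := pow_le_pow_right₀ (by norm_num) hm
    _ = (160 * (4 * 2 ^ 250)) ^ m := by rw [mul_pow, mul_pow]
    _ ≤ (2 ^ 300) ^ m := by
        apply pow_le_pow_left₀ (by norm_num)
        calc (160 : ℝ) * (4 * 2 ^ 250) = 640 * 2 ^ 250 := by ring
          _ ≤ 2 ^ 50 * 2 ^ 250 := by gcongr; norm_num
          _ = 2 ^ 300 := by rw [← pow_add]

/-! ## L4: slab bound (operator norm and smallest singular value of Gaussian matrices) -/
theorem slab_bound : ∃ C : ℝ, 1 ≤ C ∧ ∀ m d : ℕ, 1 ≤ m → 100 * m ≤ d → d ≤ 200 * m →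
    ∀ V : Submodule ℝ (E d), Module.finrank ℝ V < m → ∀ δ : ℝ, 0 < δ →
    ∃ R : (Fin (30 * m) → E d) → ℝ≥0∞, Measurable R ∧
      (∀ X u, (∀ i, |⟪X i, u⟫| ≤ δ) → ENNReal.ofReal (‖u‖ / δ + 1) *
        min 1 (ENNReal.ofReal δ / ENNReal.ofReal (Metric.infDist u V)) ≤ R X) ∧
      ∫⁻ X, R X ^ m ∂(rows (30 * m) d) ≤ ENNReal.ofReal (C ^ m) := by
  refine ⟨2 ^ 300, one_le_pow₀ (by norm_num), ?_⟩
  intro m d hm _ hd V hV δ hδ
  set k := Module.finrank ℝ V with hk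
  let ι : E k →ₗᵢ[ℝ] E d :=
    V.subtypeₗᵢ.comp (stdOrthonormalBasis ℝ V).repr.symm.toLinearIsometry
  have hι : ∀ w ∈ V, ∃ w₀, ι w₀ = w := by
    intro w hw
    refine ⟨(stdOrthonormalBasis ℝ V).repr ⟨w, hw⟩, ?_⟩
    show V.subtypeₗᵢ ((stdOrthonormalBasis ℝ V).repr.symm
      ((stdOrthonormalBasis ℝ V).repr ⟨w, hw⟩)) = w
    rw [LinearIsometryEquiv.symm_apply_apply]
    rfl
  have hprob : IsProbabilityMeasure (rows (30 * m) d) := by unfold rows; infer_instance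
  have hm0 : (m : ℝ) ≠ 0 := by
    have : m ≠ 0 := by omega
    exact_mod_cast this
  have hmpos : (0 : ℝ) < m := by
    have : 0 < m := by omega
    exact_mod_cast this
  set c1 : ℝ≥0∞ := ENNReal.ofReal ((m : ℝ) ^ (2 * m) / 32 ^ m) with hc1
  have hc10 : c1 ≠ 0 := by
    rw [hc1, Ne, ENNReal.ofReal_eq_zero, not_le]; positivity
  have hc1t : c1 ≠ ⊤ := ENNReal.ofReal_ne_top
  let W : (Fin (30 * m) → E d) → ℝ≥0∞ := fun X =>
    c1⁻¹ * Qf m X + ((30 * m : ℕ) : ℝ≥0∞) ^ (2 * m)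
  have hWm : Measurable W := ((measurable_Qf m).const_mul _).add_const _
  let S : (Fin (30 * m) → E d) → ℝ≥0∞ := fun X =>
    ENNReal.ofReal (160 ^ m) * (1 + W X / ENNReal.ofReal ((m : ℝ) ^ (2 * m))
        + ENNReal.ofReal ((m : ℝ) ^ (2 * m)) * (In m ι X / volume (ball (0 : E k) 1)))
  have hm1 : Measurable (fun X => (1 : ℝ≥0∞) + W X / ENNReal.ofReal ((m : ℝ) ^ (2 * m))) :=
    (hWm.div_const _).const_add _
  have hm2 : Measurable (fun X : Fin (30 * m) → E d => ENNReal.ofReal ((m : ℝ) ^ (2 * m)) *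
      (In m ι X / volume (ball (0 : E k) 1))) :=
    ((measurable_In m ι).div_const _).const_mul _
  have hSm : Measurable S := (hm1.add hm2).const_mul _
  refine ⟨fun X => S X ^ ((m : ℝ)⁻¹), hSm.pow_const _, ?_, ?_⟩
  · intro X u hu
    have h1 := slab_det hm hV (by omega : 1 ≤ 30 * m) ι V hι X (W X)
      (by exact le_add_self) (by
        intro v
        have h2 := op_bound m hm X v
        rw [← hc1] at h2
        calc ENNReal.ofReal (qf X v) ^ (2 * m)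
            = c1⁻¹ * (ENNReal.ofReal (qf X v) ^ (2 * m) * c1) := by
              rw [mul_comm _ c1, ← mul_assoc, ENNReal.inv_mul_cancel hc10 hc1t, one_mul]
          _ ≤ c1⁻¹ * (Qf m X * ENNReal.ofReal (‖v‖ ^ (4 * m))) := by gcongr
          _ = (c1⁻¹ * Qf m X) * ENNReal.ofReal (‖v‖ ^ (4 * m)) := by rw [mul_assoc]
          _ ≤ W X * ENNReal.ofReal (‖v‖ ^ (4 * m)) := by
              gcongr
              exact le_self_add)
      ((m : ℝ) ^ (2 * m)) (by positivity) δ hδ u hu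
    change _ ≤ S X at h1
    have h3 := ENNReal.rpow_le_rpow h1 (inv_nonneg.2 hmpos.le)
    rw [← ENNReal.rpow_natCast, ← ENNReal.rpow_mul, mul_inv_cancel₀ hm0, ENNReal.rpow_one] at h3
    exact h3
  · have h1 : ∀ X, (S X ^ ((m : ℝ)⁻¹)) ^ m = S X := by
      intro X
      rw [← ENNReal.rpow_natCast, ← ENNReal.rpow_mul, inv_mul_cancel₀ hm0, ENNReal.rpow_one]
    simp_rw [h1]
    have h2 : ∫⁻ X, S X ∂(rows (30 * m) d)
        = ENNReal.ofReal (160 ^ m) * (1 + (c1⁻¹ * (∫⁻ X, Qf m X ∂(rows (30 * m) d))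
            + ((30 * m : ℕ) : ℝ≥0∞) ^ (2 * m)) / ENNReal.ofReal ((m : ℝ) ^ (2 * m))
          + ENNReal.ofReal ((m : ℝ) ^ (2 * m)) *
            ((∫⁻ X, In m ι X ∂(rows (30 * m) d)) / volume (ball (0 : E k) 1))) := by
      have hW1 : ∫⁻ X, W X ∂(rows (30 * m) d)
          = c1⁻¹ * (∫⁻ X, Qf m X ∂(rows (30 * m) d)) + ((30 * m : ℕ) : ℝ≥0∞) ^ (2 * m) := by
        show ∫⁻ X, (c1⁻¹ * Qf m X + ((30 * m : ℕ) : ℝ≥0∞) ^ (2 * m)) ∂(rows (30 * m) d) = _
        rw [lintegral_add_left ((measurable_Qf m).const_mul _), lintegral_const_mul _ (measurable_Qf m),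
          lintegral_const, measure_univ, mul_one]
      have hA1 : ∫⁻ X, ((1 : ℝ≥0∞) + W X / ENNReal.ofReal ((m : ℝ) ^ (2 * m))) ∂(rows (30 * m) d)
          = 1 + (∫⁻ X, W X ∂(rows (30 * m) d)) / ENNReal.ofReal ((m : ℝ) ^ (2 * m)) := by
        rw [lintegral_add_left measurable_const, lintegral_const, measure_univ, mul_one]
        simp_rw [div_eq_mul_inv]
        rw [lintegral_mul_const _ hWm]
      have hA2 : ∫⁻ X, (ENNReal.ofReal ((m : ℝ) ^ (2 * m)) *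
            (In m ι X / volume (ball (0 : E k) 1))) ∂(rows (30 * m) d)
          = ENNReal.ofReal ((m : ℝ) ^ (2 * m)) *
            ((∫⁻ X, In m ι X ∂(rows (30 * m) d)) / volume (ball (0 : E k) 1)) := by
        rw [lintegral_const_mul _ ((measurable_In m ι).div_const _)]
        simp_rw [div_eq_mul_inv]
        rw [lintegral_mul_const _ (measurable_In m ι)]
      calc ∫⁻ X, S X ∂(rows (30 * m) d)
          = ENNReal.ofReal (160 ^ m) * ∫⁻ X, ((1 + W X / ENNReal.ofReal ((m : ℝ) ^ (2 * m)))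
              + ENNReal.ofReal ((m : ℝ) ^ (2 * m)) *
                (In m ι X / volume (ball (0 : E k) 1))) ∂(rows (30 * m) d) :=
            lintegral_const_mul _ (show Measurable (fun X : Fin (30 * m) → E d =>
              (1 + W X / ENNReal.ofReal ((m : ℝ) ^ (2 * m)))
              + ENNReal.ofReal ((m : ℝ) ^ (2 * m)) *
                (In m ι X / volume (ball (0 : E k) 1))) from hm1.add hm2)
        _ = ENNReal.ofReal (160 ^ m) * ((∫⁻ X, (1 + W X / ENNReal.ofReal ((m : ℝ) ^ (2 * m)))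
              ∂(rows (30 * m) d)) + ∫⁻ X, (ENNReal.ofReal ((m : ℝ) ^ (2 * m)) *
                (In m ι X / volume (ball (0 : E k) 1))) ∂(rows (30 * m) d)) := by
            rw [lintegral_add_left hm1]
        _ = _ := by rw [hA1, hA2, hW1]
    rw [h2]
    refine le_trans ?_ (L4.numeric m d k hm hd hV)
    have hvol0 : volume (ball (0 : E k) 1) ≠ 0 := (measure_ball_pos volume _ one_pos).ne'
    have hvolt : volume (ball (0 : E k) 1) ≠ ⊤ := measure_ball_lt_top.ne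
    have h3 : (∫⁻ X, In m ι X ∂(rows (30 * m) d)) / volume (ball (0 : E k) 1)
        ≤ ENNReal.ofReal ((((30 * m : ℕ) : ℝ) ^ (2 * m))⁻¹) * 12 ^ (30 * m) * 2 ^ k := by
      apply ENNReal.div_le_of_le_mul
      rw [mul_assoc]
      exact In_moment m hm ι
    have h4 := Qf_moment (n := 30 * m) (d := d) m hm
    gcongr

end P309
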