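import Vale.Agent.H20.P309.Meas
import Vale.Agent.H20.P309.L3

/-! # L5: the moment step -/

open MeasureTheory ProbabilityTheory
open scoped RealInnerProductSpace ENNReal

namespace P309

namespace L5

theorem expneg_mul (m : ℕ) (q : ℝ≥0∞) : expneg (m * q) = expneg q ^ m := by
  unfold expneg
  rcases Nat.eq_zero_or_pos m with rfl | hm
  · simp
  · have hm0 : (m : ℝ≥0∞) ≠ 0 := by exact_mod_cast hm.ne'
    by_cases hq : q = ⊤
    · rw [hq, ENNReal.mul_top hm0, if_pos rfl, zero_pow hm.ne']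
    · rw [if_neg (ENNReal.mul_ne_top (ENNReal.natCast_ne_top m) hq), if_neg hq,
        ← ENNReal.ofReal_pow (Real.exp_pos _).le, ← Real.exp_nat_mul, ENNReal.toReal_mul,
        ENNReal.toReal_natCast]
      congr 2
      ring

theorem expneg_ne_top (q : ℝ≥0∞) : expneg q ≠ ⊤ := by
  unfold expneg; split <;> simp

theorem expneg_ne_zero {q : ℝ≥0∞} (h : q ≠ ⊤) : expneg q ≠ 0 := by
  unfold expneg; rw [if_neg h]
  simp [Real.exp_pos]

theorem jensen {Ω : Type*} [MeasurableSpace Ω] (P : Measure Ω) [IsProbabilityMeasure P]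
    (f g : Ω → ℝ≥0∞) (hf : Measurable f) (hg : Measurable g) (hf1 : ∀ ω, f ω ≤ 1)
    (hg1 : ∀ ω, g ω ≤ 1) (hgfin : ∫⁻ ω, nl (g ω) ∂P ≠ ⊤) :
    expneg (∫⁻ ω, nl (f ω) ∂P) ≤ expneg (∫⁻ ω, nl (g ω) ∂P) * ∫⁻ ω, f ω / g ω ∂P := by
  by_cases hF : ∫⁻ ω, nl (f ω) ∂P = ⊤
  · rw [hF]; unfold expneg; simp
  by_cases hM : ∫⁻ ω, f ω / g ω ∂P = ⊤
  · rw [hM, ENNReal.mul_top (expneg_ne_zero hgfin)]; exact le_top
  have key : ∀ h : Ω → ℝ≥0∞, Measurable h → (∀ ω, h ω ≤ 1) → ∫⁻ ω, nl (h ω) ∂P ≠ ⊤ →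
      (∀ᵐ ω ∂P, h ω ≠ 0) ∧ Integrable (fun ω => -Real.log (h ω).toReal) P ∧
      (∫⁻ ω, nl (h ω) ∂P).toReal = ∫ ω, -Real.log (h ω).toReal ∂P := by
    intro h hh h1 hfin
    have hae : ∀ᵐ ω ∂P, h ω ≠ 0 := by
      have h2 := ae_lt_top (measurable_nl.comp hh) hfin
      filter_upwards [h2] with ω hω h0
      simp only [Function.comp, h0, nl, if_true] at hω
      exact lt_irrefl _ hω
    have hnn : ∀ ω, 0 ≤ -Real.log (h ω).toReal := by
      intro ω
      have h2 : (h ω).toReal ≤ 1 := by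
        have := ENNReal.toReal_mono ENNReal.one_ne_top (h1 ω); simpa using this
      have := Real.log_nonpos ENNReal.toReal_nonneg h2
      linarith
    have heq : ∫⁻ ω, nl (h ω) ∂P = ∫⁻ ω, ENNReal.ofReal (-Real.log (h ω).toReal) ∂P := by
      refine lintegral_congr_ae ?_
      filter_upwards [hae] with ω hω
      unfold nl; rw [if_neg hω]
    have hmeas : Measurable (fun ω => -Real.log (h ω).toReal) := by fun_prop
    refine ⟨hae, ?_, ?_⟩
    · refine ⟨hmeas.aestronglyMeasurable, ?_⟩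
      rw [hasFiniteIntegral_iff_ofReal (Filter.Eventually.of_forall hnn), ← heq]
      exact lt_top_iff_ne_top.2 hfin
    · rw [heq, integral_eq_lintegral_of_nonneg_ae (Filter.Eventually.of_forall hnn)
        hmeas.aestronglyMeasurable]
  obtain ⟨hf0, hfi, hfe⟩ := key f hf hf1 hF
  obtain ⟨hg0, hgi, hge⟩ := key g hg hg1 hgfin
  -- the real-valued exponential Jensen inequality
  have hr0 : ∀ᵐ ω ∂P, Real.exp (Real.log (f ω).toReal - Real.log (g ω).toReal)
      = (f ω / g ω).toReal := by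
    filter_upwards [hf0, hg0] with ω h1 h2
    have hft : f ω ≠ ⊤ := ne_top_of_le_ne_top ENNReal.one_ne_top (hf1 ω)
    have hgt : g ω ≠ ⊤ := ne_top_of_le_ne_top ENNReal.one_ne_top (hg1 ω)
    rw [Real.exp_sub, Real.exp_log (ENNReal.toReal_pos h1 hft),
      Real.exp_log (ENNReal.toReal_pos h2 hgt), ENNReal.toReal_div]
  have hdm : Measurable (fun ω => f ω / g ω) := hf.div hg
  have hri : Integrable (fun ω => (f ω / g ω).toReal) P :=
    integrable_toReal_of_lintegral_ne_top hdm.aemeasurable hM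
  have hji : Integrable (fun ω => Real.log (f ω).toReal - Real.log (g ω).toReal) P := by
    have := hgi.sub hfi
    refine this.congr (Filter.Eventually.of_forall fun ω => ?_)
    simp only [Pi.sub_apply]; ring
  have hei : Integrable (Real.exp ∘ fun ω => Real.log (f ω).toReal - Real.log (g ω).toReal) P := by
    refine hri.congr ?_
    filter_upwards [hr0] with ω h; simp only [Function.comp]; exact h.symm
  have hJ := convexOn_exp.map_integral_le (μ := P) Real.continuous_exp.continuousOn isClosed_univ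
    (Filter.Eventually.of_forall fun ω => Set.mem_univ _) hji hei
  have hM2 : ∫ ω, Real.exp (Real.log (f ω).toReal - Real.log (g ω).toReal) ∂P
      = (∫⁻ ω, f ω / g ω ∂P).toReal := by
    rw [integral_congr_ae hr0, integral_toReal hdm.aemeasurable (ae_lt_top hdm hM)]
  have hL : ∫ ω, (Real.log (f ω).toReal - Real.log (g ω).toReal) ∂P
      = (∫⁻ ω, nl (g ω) ∂P).toReal - (∫⁻ ω, nl (f ω) ∂P).toReal := by
    rw [hfe, hge, ← integral_sub hgi hfi]
    congr 1; ext ω; ring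
  rw [hL, hM2] at hJ
  unfold expneg
  rw [if_neg hF, if_neg hgfin, ← ENNReal.ofReal_toReal hM, ← ENNReal.ofReal_mul (Real.exp_pos _).le]
  refine ENNReal.ofReal_le_ofReal ?_
  calc Real.exp (-(∫⁻ ω, nl (f ω) ∂P).toReal)
      = Real.exp (-(∫⁻ ω, nl (g ω) ∂P).toReal) *
        Real.exp ((∫⁻ ω, nl (g ω) ∂P).toReal - (∫⁻ ω, nl (f ω) ∂P).toReal) := by
        rw [← Real.exp_add]; congr 1; ring
    _ ≤ _ := by gcongr

/-- the density of the law of `s' - s`. -/
noncomputable def D {d : ℕ} (π : Measure (E d)) (j m : ℕ) {n : ℕ} (A : E d → ℝ≥0∞) (s : E d)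
    (q : (Fin n → E d) × E d) : ℝ≥0∞ :=
  same j q.1 s q.2 * A q.2 * Wt j m (q.2 - s) / Jf π j m q.1 A s

theorem meas_D {d : ℕ} (π : Measure (E d)) [SFinite π] (j m : ℕ) {n : ℕ} {A : E d → ℝ≥0∞}
    (hA : Measurable A) (s : E d) : Measurable (D π j m (n := n) A s) := by
  unfold D
  refine Measurable.div ?_ ?_
  · exact ((meas_same j measurable_fst measurable_const measurable_snd).mul
      (hA.comp measurable_snd)).mul (meas_Wt j m (measurable_snd.sub measurable_const))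
  · exact meas_Jf π j m hA measurable_fst measurable_const

theorem int_D_le {d : ℕ} (π : Measure (E d)) [SFinite π] (j m : ℕ) {n : ℕ} {A : E d → ℝ≥0∞}
    (hA : Measurable A) (s : E d) (X : Fin n → E d) :
    ∫⁻ s', D π j m A s (X, s') ∂π ≤ 1 := by
  unfold D
  simp only [div_eq_mul_inv]
  rw [lintegral_mul_const]
  · have : ∫⁻ s', same j X s s' * A s' * Wt j m (s' - s) ∂π = Jf π j m X A s := rfl
    rw [this, ← div_eq_mul_inv]
    exact ENNReal.div_self_le_one
  · exact ((meas_same j measurable_const measurable_const measurable_id).mul hA).mul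
      (meas_Wt j m (measurable_id.sub measurable_const))

/-- the law of `s' - s`. -/
noncomputable def rho {d : ℕ} (π : Measure (E d)) (j m n : ℕ) (A : E d → ℝ≥0∞) (s : E d) :
    Measure (E d) :=
  (((rows n d).prod π).withDensity (D π j m A s)).map (fun q => q.2 - s)

theorem lint_rho {d : ℕ} (π : Measure (E d)) [SFinite π] (j m n : ℕ) {A : E d → ℝ≥0∞}
    (hA : Measurable A) (s : E d) (φ : E d → ℝ≥0∞) (hφ : Measurable φ) :
    ∫⁻ u, φ u ∂(rho π j m n A s)
      = ∫⁻ X, ∫⁻ s', D π j m A s (X, s') * φ (s' - s) ∂π ∂(rows n d) := by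
  unfold rho
  have h1 : Measurable (fun q : (Fin n → E d) × E d => q.2 - s) :=
    measurable_snd.sub measurable_const
  have h2 := lintegral_withDensity_eq_lintegral_mul ((rows n d).prod π) (meas_D π j m hA s)
    (hφ.comp h1)
  have h3 := lintegral_prod (μ := rows n d) (ν := π)
    (D π j m A s * (φ ∘ fun q : (Fin n → E d) × E d => q.2 - s))
    ((meas_D π j m hA s).mul (hφ.comp h1)).aemeasurable
  rw [lintegral_map hφ h1]
  exact h2.trans h3

theorem rho_univ {d : ℕ} (π : Measure (E d)) [SFinite π] (j m n : ℕ) {A : E d → ℝ≥0∞}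
    (hA : Measurable A) (s : E d) : rho π j m n A s Set.univ ≤ 1 := by
  rw [← lintegral_one, lint_rho π j m n hA s _ measurable_const]
  calc ∫⁻ X, ∫⁻ s', D π j m A s (X, s') * 1 ∂π ∂(rows n d)
      ≤ ∫⁻ X, 1 ∂(rows n d) := by
        refine lintegral_mono fun X => ?_
        simp only [mul_one]
        exact int_D_le π j m hA s X
    _ = 1 := by simp

theorem Wt_mul (j m : ℕ) {d : ℕ} (u : E d) :
    Wt j m u * ENNReal.ofReal (‖u‖ / ((2 : ℝ) ^ j)⁻¹ + 1) ^ m = 1 := by
  unfold Wt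
  have h1 : ‖u‖ / ((2 : ℝ) ^ j)⁻¹ + 1 = (2 : ℝ) ^ j * ‖u‖ + 1 := by
    rw [div_inv_eq_mul]; ring
  have h2 : (0 : ℝ) < (2 : ℝ) ^ j * ‖u‖ + 1 := by positivity
  rw [h1, ← ENNReal.ofReal_pow h2.le, ← ENNReal.ofReal_mul (by positivity),
    inv_mul_cancel₀ (by positivity), ENNReal.ofReal_one]

theorem ind_meas {d m : ℕ} (δ : ℝ) (X : Fin m → E d) :
    Measurable (fun u : E d => if ∀ i, |⟪X i, u⟫| ≤ δ then (1 : ℝ≥0∞) else 0) := by
  refine Measurable.ite ?_ measurable_const measurable_const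
  have : {u : E d | ∀ i, |⟪X i, u⟫| ≤ δ} = ⋂ i, {u : E d | |⟪X i, u⟫| ≤ δ} := by
    ext u; simp
  rw [this]
  exact MeasurableSet.iInter fun i => measurableSet_le (by fun_prop) (by fun_prop)

theorem nu_div_le {d : ℕ} (π : Measure (E d)) [SFinite π] (j m : ℕ) {n : ℕ} {A : E d → ℝ≥0∞}
    (hA : Measurable A) (s : E d) (X1 : Fin n → E d) (X2 : Fin m → E d) :
    nu π j X1 X2 A s / Jf π j m X1 A s
      ≤ ∫⁻ s', D π j m A s (X1, s') * (ENNReal.ofReal (‖s' - s‖ / ((2 : ℝ) ^ j)⁻¹ + 1) ^ m *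
        (if ∀ i, |⟪X2 i, s' - s⟫| ≤ ((2 : ℝ) ^ j)⁻¹ then 1 else 0)) ∂π := by
  unfold nu
  rw [div_eq_mul_inv, ← lintegral_mul_const]
  · refine lintegral_mono fun s' => ?_
    have hs2 : same j X2 s s' ≤ (if ∀ i, |⟪X2 i, s' - s⟫| ≤ ((2 : ℝ) ^ j)⁻¹ then 1 else 0) := by
      unfold same
      by_cases h : labs j X2 s' = labs j X2 s
      · rw [if_pos h, if_pos (fun i => same_abs h i)]
      · rw [if_neg h]; exact zero_le
    calc same j X1 s s' * same j X2 s s' * A s' * (Jf π j m X1 A s)⁻¹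
        ≤ same j X1 s s' * (if ∀ i, |⟪X2 i, s' - s⟫| ≤ ((2 : ℝ) ^ j)⁻¹ then 1 else 0) * A s'
          * (Jf π j m X1 A s)⁻¹ * 1 := by rw [mul_one]; gcongr
      _ = same j X1 s s' * (if ∀ i, |⟪X2 i, s' - s⟫| ≤ ((2 : ℝ) ^ j)⁻¹ then 1 else 0) * A s'
          * (Jf π j m X1 A s)⁻¹ * (Wt j m (s' - s) *
            ENNReal.ofReal (‖s' - s‖ / ((2 : ℝ) ^ j)⁻¹ + 1) ^ m) := by rw [Wt_mul]
      _ = _ := by
          unfold D
          simp only [div_eq_mul_inv]
          ring
  · exact ((meas_same j measurable_const measurable_const measurable_id).mul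
      (meas_same j measurable_const measurable_const measurable_id)).mul hA

end L5

/-- Statement of L4 (`slab_bound`). -/
def SlabBound (C : ℝ) : Prop := ∀ m d : ℕ, 1 ≤ m → 100 * m ≤ d → d ≤ 200 * m →
    ∀ V : Submodule ℝ (E d), Module.finrank ℝ V < m → ∀ δ : ℝ, 0 < δ →
    ∃ R : (Fin (30 * m) → E d) → ℝ≥0∞, Measurable R ∧
      (∀ X u, (∀ i, |⟪X i, u⟫| ≤ δ) → ENNReal.ofReal (‖u‖ / δ + 1) *
        min 1 (ENNReal.ofReal δ / ENNReal.ofReal (Metric.infDist u V)) ≤ R X) ∧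
      ∫⁻ X, R X ^ m ∂(rows (30 * m) d) ≤ ENNReal.ofReal (C ^ m)

theorem moment_step_of (C : ℝ) (hC : 1 ≤ C) (hS : SlabBound C) :
    ∀ m d : ℕ, 1 ≤ m → 100 * m ≤ d → d ≤ 200 * m →
    ∀ (π : Measure (E d)), Prior d π → ∀ (j : ℕ) (A : E d → ℝ≥0∞), Measurable A →
    (∀ s, A s ≤ 1) → ∀ s : E d,
    ∫⁻ X1, nl (Jf π j m X1 A s) ∂(rows (30 * m) d) ≠ ⊤ →
    ∫⁻ X2, expneg (m * ∫⁻ X1, nl (nu π j X1 X2 A s) ∂(rows (30 * m) d)) ∂(rows m d)
      ≤ ENNReal.ofReal (C ^ (m * m)) *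
        expneg (m * ∫⁻ X1, nl (Jf π j m X1 A s) ∂(rows (30 * m) d)) := by
  intro m d hm hd1 hd2 π hπ j A hA hA1 s hfin
  have hprob := hπ.prob
  set δ : ℝ := ((2 : ℝ) ^ j)⁻¹ with hδ
  have hδ0 : 0 < δ := by positivity
  have hfinm : IsFiniteMeasure (L5.rho π j m (30 * m) A s) :=
    ⟨lt_of_le_of_lt (L5.rho_univ π j m (30 * m) hA s) ENNReal.one_lt_top⟩
  have hB : ∀ V : Submodule ℝ (E d), Module.finrank ℝ V < m →
      ∫⁻ u, (ENNReal.ofReal (‖u‖ / δ + 1) *
        min 1 (ENNReal.ofReal δ / ENNReal.ofReal (Metric.infDist u V))) ^ m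
          ∂(L5.rho π j m (30 * m) A s) ≤ ENNReal.ofReal (C ^ m) := by
    intro V hV
    obtain ⟨R, hR, hR1, hR2⟩ := hS m d hm hd1 hd2 V hV δ hδ0
    rw [L5.lint_rho π j m (30 * m) hA s]
    · refine le_trans (lintegral_mono fun X => ?_) hR2
      calc ∫⁻ s', L5.D π j m A s (X, s') * (ENNReal.ofReal (‖s' - s‖ / δ + 1) *
              min 1 (ENNReal.ofReal δ / ENNReal.ofReal (Metric.infDist (s' - s) V))) ^ m ∂π
          ≤ ∫⁻ s', L5.D π j m A s (X, s') * R X ^ m ∂π := by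
            refine lintegral_mono fun s' => ?_
            by_cases h : labs j X s' = labs j X s
            · have := hR1 X (s' - s) (fun i => same_abs h i)
              gcongr
            · have h0 : L5.D π j m A s (X, s') = 0 := by
                unfold L5.D same
                simp [h]
              simp [h0]
        _ = (∫⁻ s', L5.D π j m A s (X, s') ∂π) * R X ^ m := by
            rw [lintegral_mul_const]
            exact (L5.meas_D π j m hA s).comp (measurable_const.prodMk measurable_id)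
        _ ≤ 1 * R X ^ m := by
            gcongr
            exact L5.int_D_le π j m hA s X
        _ = R X ^ m := one_mul _
    · have h3 : Measurable (fun u : E d => Metric.infDist u (V : Set (E d))) :=
        (Metric.continuous_infDist_pt _).measurable
      fun_prop
  have hP := power_bound m m δ hδ0 (L5.rho π j m (30 * m) A s) (ENNReal.ofReal (C ^ m)) hB
  set L := ∫⁻ X1, nl (Jf π j m X1 A s) ∂(rows (30 * m) d) with hL
  set Q : (Fin m → E d) → ℝ≥0∞ := fun X => ∫⁻ u, ENNReal.ofReal (‖u‖ / δ + 1) ^ m *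
        (if ∀ i, |⟪X i, u⟫| ≤ δ then 1 else 0) ∂(L5.rho π j m (30 * m) A s) with hQ
  have hAint : ∫⁻ s', A s' ∂π ≤ 1 := by
    calc ∫⁻ s', A s' ∂π ≤ ∫⁻ s', 1 ∂π := lintegral_mono hA1
      _ = 1 := by simp
  have hstep : ∀ X2 : Fin m → E d,
      expneg (∫⁻ X1, nl (nu π j X1 X2 A s) ∂(rows (30 * m) d)) ≤ expneg L * Q X2 := by
    intro X2
    refine le_trans (L5.jensen (rows (30 * m) d) (fun X1 => nu π j X1 X2 A s)
      (fun X1 => Jf π j m X1 A s) (meas_nu π j hA measurable_id measurable_const measurable_const)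
      (meas_Jf π j m hA measurable_id measurable_const)
      (fun X1 => (nu_le π j _ _ A X1 X2 s).trans hAint) (fun X1 => ?_) hfin) ?_
    · refine le_trans (lintegral_mono fun s' => ?_) hAint
      have hW : Wt j m (s' - s) ≤ 1 := by
        unfold Wt
        rw [ENNReal.ofReal_le_one]
        refine inv_le_one_of_one_le₀ (one_le_pow₀ ?_)
        have : 0 ≤ (2 : ℝ) ^ j * ‖s' - s‖ := by positivity
        linarith
      calc same j X1 s s' * A s' * Wt j m (s' - s) ≤ 1 * A s' * 1 := by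
            gcongr
            exact same_le_one _ _ _
        _ = A s' := by simp
    · gcongr
      rw [hQ]
      simp only
      rw [L5.lint_rho π j m (30 * m) hA s]
      · exact lintegral_mono fun X1 => L5.nu_div_le π j m hA s X1 X2
      · exact (by fun_prop : Measurable fun u : E d => ENNReal.ofReal (‖u‖ / δ + 1) ^ m).mul
          (L5.ind_meas δ X2)
  calc ∫⁻ X2, expneg (m * ∫⁻ X1, nl (nu π j X1 X2 A s) ∂(rows (30 * m) d)) ∂(rows m d)
      ≤ ∫⁻ X2, (expneg L) ^ m * (Q X2) ^ m ∂(rows m d) := by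
        refine lintegral_mono fun X2 => ?_
        simp only
        rw [L5.expneg_mul, ← mul_pow]
        gcongr
        exact hstep X2
    _ = (expneg L) ^ m * ∫⁻ X2, (Q X2) ^ m ∂(rows m d) :=
        lintegral_const_mul' _ _ (ENNReal.pow_ne_top (L5.expneg_ne_top L))
    _ ≤ (expneg L) ^ m * (ENNReal.ofReal (C ^ m)) ^ m := by gcongr
    _ = ENNReal.ofReal (C ^ (m * m)) * expneg (m * L) := by
        rw [L5.expneg_mul, ← ENNReal.ofReal_pow (by positivity), ← pow_mul, mul_comm]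

end P309
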