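import Vale.Agent.H20.P309.Base
import Vale.Agent.H20.P309.Meas
import Vale.Agent.H20.P309.L0
import Vale.Agent.H20.P309.L1

/-! # L6: the coding step -/

open MeasureTheory ProbabilityTheory
open scoped RealInnerProductSpace ENNReal

namespace P309

namespace L6

/-! ### `nl` -/

theorem nl_anti {x y : ℝ≥0∞} (h : x ≤ y) : nl y ≤ nl x := by
  unfold nl
  by_cases hx : x = 0
  · rw [if_pos hx]; exact le_top
  have hy : y ≠ 0 := fun h0 => hx (le_antisymm (h0 ▸ h) zero_le)
  rw [if_neg hx, if_neg hy]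
  by_cases hyt : y = ⊤
  · subst hyt; simp
  refine ENNReal.ofReal_le_ofReal ?_
  have hxr : 0 < x.toReal := ENNReal.toReal_pos hx (ne_top_of_le_ne_top hyt h)
  have h1 : x.toReal ≤ y.toReal := ENNReal.toReal_mono hyt h
  have := Real.log_le_log hxr h1
  linarith

theorem nl_ofReal_exp {t : ℝ} : nl (ENNReal.ofReal (Real.exp (-t))) = ENNReal.ofReal t := by
  unfold nl
  rw [if_neg, ENNReal.toReal_ofReal (Real.exp_pos _).le, Real.log_exp, neg_neg]
  simpa using Real.exp_pos (-t)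

theorem nl_ofReal {x : ℝ} (hx : 0 < x) : nl (ENNReal.ofReal x) = ENNReal.ofReal (-Real.log x) := by
  unfold nl
  rw [if_neg, ENNReal.toReal_ofReal hx.le]
  simpa using hx

/-! ### kernels on `ℤ` -/

/-- scale `i` kernel on `ℤ` -/
noncomputable def pk (i : ℕ) (l : ℤ) : ℝ≥0∞ :=
  ENNReal.ofReal ((1 / 4) * ((2 : ℝ) ^ i)⁻¹ * Real.exp (-(Real.log 2 * |(l : ℝ)| / 2 ^ i)))

theorem exp_bound (i : ℕ) :
    Real.exp (-(Real.log 2 / 2 ^ i)) ≤ 1 - ((2 : ℝ) ^ i)⁻¹ / 2 := by
  set t : ℝ := ((2 : ℝ) ^ i)⁻¹ with ht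
  have ht0 : 0 ≤ t := by positivity
  have ht1 : t ≤ 1 := inv_le_one_of_one_le₀ (one_le_pow₀ (by norm_num))
  have h := convexOn_exp.2 (Set.mem_univ (0 : ℝ)) (Set.mem_univ (-Real.log 2))
    (sub_nonneg.2 ht1) ht0 (by ring : (1 - t) + t = 1)
  simp only [smul_eq_mul, mul_zero, zero_add, Real.exp_zero, mul_one] at h
  have h2 : Real.exp (-Real.log 2) = 1 / 2 := by
    rw [Real.exp_neg, Real.exp_log (by norm_num)]; norm_num
  have h3 : t * -Real.log 2 = -(Real.log 2 / 2 ^ i) := by rw [ht]; field_simp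
  rw [h2, h3] at h
  linarith

theorem pk_nat (i n : ℕ) : pk i (n : ℤ) = ENNReal.ofReal ((1 / 4) * ((2 : ℝ) ^ i)⁻¹)
    * ENNReal.ofReal (Real.exp (-(Real.log 2 / 2 ^ i))) ^ n := by
  unfold pk
  rw [← ENNReal.ofReal_pow (Real.exp_pos _).le, ← ENNReal.ofReal_mul (by positivity),
    ← Real.exp_nat_mul]
  congr 3
  have : |((n : ℤ) : ℝ)| = (n : ℝ) := by simp
  rw [this]
  ring

theorem pk_neg (i : ℕ) (l : ℤ) : pk i (-l) = pk i l := by
  unfold pk; simp

theorem tsum_pk (i : ℕ) : ∑' l : ℤ, pk i l ≤ 1 := by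
  set c : ℝ := (1 / 4) * ((2 : ℝ) ^ i)⁻¹ with hc
  set x : ℝ := Real.exp (-(Real.log 2 / 2 ^ i)) with hx
  have hx1 := exp_bound i
  rw [← hx] at hx1
  have hc0 : 0 < c := by positivity
  have hx0 : 0 < x := Real.exp_pos _
  have hlt : x < 1 := by
    have : 0 < ((2 : ℝ) ^ i)⁻¹ := by positivity
    linarith
  have hgeo : ∑' n : ℕ, ENNReal.ofReal c * ENNReal.ofReal x ^ n
      = ENNReal.ofReal (c / (1 - x)) := by
    rw [ENNReal.tsum_mul_left, ENNReal.tsum_geometric]
    rw [show (1 : ℝ≥0∞) = ENNReal.ofReal 1 by simp, ← ENNReal.ofReal_sub _ hx0.le,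
      ← ENNReal.ofReal_inv_of_pos (by linarith), ← ENNReal.ofReal_mul hc0.le]
    rfl
  have h1 : HasSum (fun n : ℕ => pk i (n : ℤ)) (∑' n : ℕ, pk i (n : ℤ)) :=
    ENNReal.summable.hasSum
  have h2 : HasSum (fun n : ℕ => pk i (-((n : ℤ) + 1))) (∑' n : ℕ, pk i (-((n : ℤ) + 1))) :=
    ENNReal.summable.hasSum
  have h3 := (HasSum.of_nat_of_neg_add_one h1 h2).tsum_eq
  rw [h3]
  have e1 : ∑' n : ℕ, pk i (n : ℤ) = ENNReal.ofReal (c / (1 - x)) := by
    rw [← hgeo]
    exact tsum_congr (fun n => pk_nat i n)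
  have e2 : ∑' n : ℕ, pk i (-((n : ℤ) + 1)) ≤ ENNReal.ofReal (c / (1 - x)) := by
    rw [← hgeo]
    refine ENNReal.tsum_le_tsum (fun n => ?_)
    rw [pk_neg]
    have := pk_nat i (n + 1)
    push_cast at this
    rw [this]
    rw [pow_succ, ← mul_assoc]
    refine mul_le_of_le_one_right zero_le ?_
    rw [show (1 : ℝ≥0∞) = ENNReal.ofReal 1 by simp]
    exact ENNReal.ofReal_le_ofReal hlt.le
  rw [e1]
  refine (add_le_add_right e2 _).trans ?_
  have hpos : 0 ≤ c / (1 - x) := div_nonneg hc0.le (by linarith)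
  rw [← ENNReal.ofReal_add hpos hpos, show (1 : ℝ≥0∞) = ENNReal.ofReal 1 by simp]
  refine ENNReal.ofReal_le_ofReal ?_
  rw [← two_mul, ← mul_div_assoc, div_le_one (by linarith)]
  rw [hc]
  linarith

theorem tsum_prod (p : ℤ → ℝ≥0∞) (m : ℕ) :
    ∑' l : Fin m → ℤ, ∏ r, p (l r) = (∑' l, p l) ^ m := by
  induction m with
  | zero => simp
  | succ m ih =>
    rw [← (Fin.consEquiv (fun _ : Fin (m + 1) => ℤ)).tsum_eq, ENNReal.tsum_prod']
    have : ∀ (a : ℤ) (b : Fin m → ℤ), ∏ r, p ((Fin.consEquiv (fun _ : Fin (m + 1) => ℤ)) (a, b) r)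
        = p a * ∏ r, p (b r) := by
      intro a b
      rw [Fin.prod_univ_succ]
      simp [Fin.consEquiv]
    simp only [this]
    simp only [ENNReal.tsum_mul_left, ih, ENNReal.tsum_mul_right]
    rw [pow_succ, mul_comm]

/-- the mixed kernel -/
noncomputable def kap (j : ℕ) {m : ℕ} (l : Fin m → ℤ) : ℝ≥0∞ :=
  ∑ i ∈ Finset.range (j + 3), ENNReal.ofReal ((2 : ℝ) ^ i / 2 ^ (j + 3)) * ∏ r, pk i (l r)

theorem geom_two (k : ℕ) : ∑ i ∈ Finset.range k, (2 : ℝ) ^ i = 2 ^ k - 1 := by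
  induction k with
  | zero => simp
  | succ k ih => rw [Finset.sum_range_succ, ih, pow_succ]; ring

theorem tsum_kap (j m : ℕ) : ∑' l : Fin m → ℤ, kap j l ≤ 1 := by
  unfold kap
  rw [Summable.tsum_finsetSum (fun _ _ => ENNReal.summable)]
  calc ∑ i ∈ Finset.range (j + 3), ∑' l : Fin m → ℤ,
        ENNReal.ofReal ((2 : ℝ) ^ i / 2 ^ (j + 3)) * ∏ r, pk i (l r)
      ≤ ∑ i ∈ Finset.range (j + 3), ENNReal.ofReal ((2 : ℝ) ^ i / 2 ^ (j + 3)) := by
        refine Finset.sum_le_sum (fun i _ => ?_)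
        rw [ENNReal.tsum_mul_left, tsum_prod]
        exact mul_le_of_le_one_right zero_le (pow_le_one' (tsum_pk i) m)
    _ = ENNReal.ofReal (∑ i ∈ Finset.range (j + 3), (2 : ℝ) ^ i / 2 ^ (j + 3)) := by
        rw [ENNReal.ofReal_sum_of_nonneg (fun i _ => by positivity)]
    _ ≤ 1 := by
        rw [show (1 : ℝ≥0∞) = ENNReal.ofReal 1 by simp]
        refine ENNReal.ofReal_le_ofReal ?_
        rw [← Finset.sum_div, geom_two, div_le_one (by positivity)]
        linarith

theorem kap_le_one (j : ℕ) {m : ℕ} (l : Fin m → ℤ) : kap j l ≤ 1 :=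
  (ENNReal.le_tsum l).trans (tsum_kap j m)

/-- the exponent of the `i`-th term -/
noncomputable def ex (j m i : ℕ) (l : Fin m → ℤ) : ℝ :=
  ((j : ℝ) + 3 - i) * Real.log 2 + m * ((i + 2) * Real.log 2)
    + ∑ r, Real.log 2 * |(l r : ℝ)| / 2 ^ i

theorem kap_ge (j : ℕ) {m : ℕ} (l : Fin m → ℤ) {i : ℕ} (hi : i ≤ j + 2) :
    ENNReal.ofReal (Real.exp (-(ex j m i l))) ≤ kap j l := by
  have h1 : ENNReal.ofReal ((2 : ℝ) ^ i / 2 ^ (j + 3)) * ∏ r, pk i (l r) ≤ kap j l := by
    unfold kap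
    exact Finset.single_le_sum
      (f := fun i => ENNReal.ofReal ((2 : ℝ) ^ i / 2 ^ (j + 3)) * ∏ r, pk i (l r))
      (fun _ _ => zero_le) (Finset.mem_range.2 (by omega))
  refine le_trans (le_of_eq ?_) h1
  unfold pk
  rw [← ENNReal.ofReal_prod_of_nonneg (fun r _ => by positivity),
    ← ENNReal.ofReal_mul (by positivity)]
  congr 1
  unfold ex
  have e1 : (2 : ℝ) ^ i / 2 ^ (j + 3) = Real.exp (-(((j : ℝ) + 3 - i) * Real.log 2)) := by
    rw [show -(((j : ℝ) + 3 - i) * Real.log 2) = (i : ℝ) * Real.log 2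
      - ((j + 3 : ℕ) : ℝ) * Real.log 2 by push_cast; ring, Real.exp_sub, Real.exp_nat_mul,
      Real.exp_nat_mul, Real.exp_log (by norm_num)]
  have e2 : ∀ r, (1 / 4) * ((2 : ℝ) ^ i)⁻¹ * Real.exp (-(Real.log 2 * |(l r : ℝ)| / 2 ^ i))
      = Real.exp (-((i + 2) * Real.log 2)) * Real.exp (-(Real.log 2 * |(l r : ℝ)| / 2 ^ i)) := by
    intro r
    congr 1
    rw [show -(((i : ℝ) + 2) * Real.log 2) = -(((i + 2 : ℕ) : ℝ) * Real.log 2) by push_cast; ring,
      Real.exp_neg, Real.exp_nat_mul, Real.exp_log (by norm_num), pow_add, mul_inv]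
    norm_num
    ring
  rw [e1, Finset.prod_congr rfl (fun r _ => e2 r), Finset.prod_mul_distrib, Finset.prod_const,
    Finset.card_univ, Fintype.card_fin, ← Real.exp_nat_mul, ← Real.exp_sum, ← Real.exp_add,
    ← Real.exp_add]
  congr 1
  rw [Finset.sum_neg_distrib]
  ring

theorem kap_pos (j : ℕ) {m : ℕ} (l : Fin m → ℤ) : kap j l ≠ 0 := by
  have h := kap_ge j l (i := 0) (by omega)
  intro h0
  rw [h0] at h
  have h2 : 0 < ENNReal.ofReal (Real.exp (-(ex j m 0 l))) := by
    simpa using Real.exp_pos _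
  exact absurd h (not_le.2 h2)

theorem nl_kap (j : ℕ) {m : ℕ} (l : Fin m → ℤ) {i : ℕ} (hi : i ≤ j + 2) :
    nl (kap j l) ≤ ENNReal.ofReal (ex j m i l) := by
  rw [← nl_ofReal_exp]
  exact nl_anti (kap_ge j l hi)


/-! ### the Gaussian estimate -/

theorem floor_diff (a b : ℝ) : |((⌊a⌋ - ⌊b⌋ : ℤ) : ℝ)| ≤ |a - b| + 1 := by
  push_cast
  have h1 := Int.floor_le a
  have h2 := Int.lt_floor_add_one a
  have h3 := Int.floor_le b
  have h4 := Int.lt_floor_add_one b
  have h5 := le_abs_self (a - b)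
  have h6 := neg_abs_le (a - b)
  rw [abs_le]
  constructor <;> linarith

theorem lab_diff_int {d : ℕ} (j : ℕ) (s s' : E d) :
    ∫⁻ x, ENNReal.ofReal |((lab j x s - lab j x s' : ℤ) : ℝ)| ∂(stdGaussian (E d))
      ≤ ENNReal.ofReal (2 ^ j * ‖s' - s‖ + 1) := by
  have h2 : (0 : ℝ) < 2 ^ j := by positivity
  calc ∫⁻ x, ENNReal.ofReal |((lab j x s - lab j x s' : ℤ) : ℝ)| ∂(stdGaussian (E d))
      ≤ ∫⁻ x, (ENNReal.ofReal (2 ^ j) * ENNReal.ofReal |⟪x, s' - s⟫| + 1) ∂(stdGaussian (E d)) := by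
        refine lintegral_mono (fun x => ?_)
        rw [← ENNReal.ofReal_mul h2.le, show (1 : ℝ≥0∞) = ENNReal.ofReal 1 by simp,
          ← ENNReal.ofReal_add (by positivity) (by norm_num)]
        refine ENNReal.ofReal_le_ofReal ?_
        refine (floor_diff _ _).trans ?_
        rw [← mul_sub, ← inner_sub_right, abs_mul, abs_of_pos h2, ← neg_sub s' s, inner_neg_right,
          abs_neg]
    _ = ENNReal.ofReal (2 ^ j) * ∫⁻ x, ENNReal.ofReal |⟪x, s' - s⟫| ∂(stdGaussian (E d)) + 1 := by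
        rw [lintegral_add_right _ measurable_const, lintegral_const_mul _ (by fun_prop)]
        simp
    _ ≤ ENNReal.ofReal (2 ^ j) * ENNReal.ofReal ‖s' - s‖ + 1 := by
        gcongr
        exact gauss_abs _
    _ = ENNReal.ofReal (2 ^ j * ‖s' - s‖ + 1) := by
        rw [← ENNReal.ofReal_mul h2.le, ENNReal.ofReal_add (by positivity) (by norm_num)]
        simp

/-- difference of the labels -/
noncomputable def dl (j : ℕ) {m d : ℕ} (X : Fin m → E d) (s s' : E d) : Fin m → ℤ :=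
  fun r => labs j X s r - labs j X s' r

theorem int_row {d m : ℕ} (j : ℕ) (s s' : E d) (r : Fin m) :
    ∫⁻ X, ENNReal.ofReal |((dl j X s s' r : ℤ) : ℝ)| ∂(rows m d)
      ≤ ENNReal.ofReal (2 ^ j * ‖s' - s‖ + 1) := by
  have h := measurePreserving_eval (fun _ : Fin m => stdGaussian (E d)) r
  have hm : Measurable (fun x : E d => ENNReal.ofReal |((lab j x s - lab j x s' : ℤ) : ℝ)|) := by
    have h1 : Measurable (fun x : E d => lab j x s) := meas_lab j measurable_id measurable_const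
    have h2 : Measurable (fun x : E d => lab j x s') := meas_lab j measurable_id measurable_const
    have h3 : Measurable (fun x : E d => lab j x s - lab j x s') := h1.sub h2
    have h4 : Measurable (fun z : ℤ => ENNReal.ofReal |(z : ℝ)|) := measurable_of_countable _
    exact h4.comp h3
  have h4 := h.lintegral_comp hm
  exact (le_of_eq h4).trans (lab_diff_int j s s')

theorem meas_dl {Ω : Type*} [MeasurableSpace Ω] {d m : ℕ} (j : ℕ) {f : Ω → Fin m → E d}
    {g h : Ω → E d} (hf : Measurable f) (hg : Measurable g) (hh : Measurable h) :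
    Measurable (fun ω => dl j (f ω) (g ω) (h ω)) := by
  unfold dl
  have h1 := meas_labs j hf hg
  have h2 := meas_labs j hf hh
  refine measurable_pi_lambda _ (fun r => ?_)
  have h3 : Measurable (fun p : ℤ × ℤ => p.1 - p.2) := measurable_of_countable _
  exact h3.comp (((measurable_pi_apply r).comp h1).prodMk ((measurable_pi_apply r).comp h2))

theorem int_nl_kap {d m : ℕ} (j : ℕ) (s s' : E d) {i : ℕ} (hi : i ≤ j + 2)
    (hq : 2 ^ j * ‖s' - s‖ + 1 ≤ (2 : ℝ) ^ i) :
    ∫⁻ X, nl (kap j (dl j X s s')) ∂(rows m d)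
      ≤ ENNReal.ofReal (((j : ℝ) + 3 - i) * Real.log 2 + m * ((i + 3) * Real.log 2)) := by
  have hl2 : 0 < Real.log 2 := Real.log_pos (by norm_num)
  have hij : (0 : ℝ) ≤ (j : ℝ) + 3 - i := by
    have : (i : ℝ) ≤ (j : ℝ) + 2 := by exact_mod_cast hi
    linarith
  have h2i : (0 : ℝ) < 2 ^ i := by positivity
  calc ∫⁻ X, nl (kap j (dl j X s s')) ∂(rows m d)
      ≤ ∫⁻ X, (ENNReal.ofReal (((j : ℝ) + 3 - i) * Real.log 2 + m * ((i + 2) * Real.log 2))
          + ∑ r, ENNReal.ofReal (Real.log 2 / 2 ^ i) *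
              ENNReal.ofReal |((dl j X s s' r : ℤ) : ℝ)|) ∂(rows m d) := by
        refine lintegral_mono (fun X => (nl_kap j _ hi).trans ?_)
        unfold ex
        rw [ENNReal.ofReal_add (by positivity) (Finset.sum_nonneg (fun r _ => by positivity))]
        refine add_le_add_right (le_of_eq ?_) _
        rw [ENNReal.ofReal_sum_of_nonneg (fun r _ => by positivity)]
        refine Finset.sum_congr rfl (fun r _ => ?_)
        rw [← ENNReal.ofReal_mul (by positivity)]
        congr 1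
        ring
    _ = ENNReal.ofReal (((j : ℝ) + 3 - i) * Real.log 2 + m * ((i + 2) * Real.log 2))
          + ∑ r, ENNReal.ofReal (Real.log 2 / 2 ^ i) *
              ∫⁻ X, ENNReal.ofReal |((dl j X s s' r : ℤ) : ℝ)| ∂(rows m d) := by
        have hm : ∀ r : Fin m, Measurable (fun X : Fin m → E d =>
            ENNReal.ofReal |((dl j X s s' r : ℤ) : ℝ)|) := by
          intro r
          have h1 : Measurable (fun X : Fin m → E d => dl j X s s') :=
            meas_dl j measurable_id measurable_const measurable_const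
          have h2 : Measurable (fun l : Fin m → ℤ => ENNReal.ofReal |((l r : ℤ) : ℝ)|) :=
            measurable_of_countable _
          exact h2.comp h1
        rw [lintegral_add_left measurable_const, lintegral_const, measure_univ, mul_one,
          lintegral_finsetSum _ (fun r _ => (hm r).const_mul _)]
        congr 1
        exact Finset.sum_congr rfl (fun r _ => lintegral_const_mul _ (hm r))
    _ ≤ ENNReal.ofReal (((j : ℝ) + 3 - i) * Real.log 2 + m * ((i + 2) * Real.log 2))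
          + ∑ _r : Fin m, ENNReal.ofReal (Real.log 2) := by
        gcongr with r _
        calc ENNReal.ofReal (Real.log 2 / 2 ^ i) *
              ∫⁻ X, ENNReal.ofReal |((dl j X s s' r : ℤ) : ℝ)| ∂(rows m d)
            ≤ ENNReal.ofReal (Real.log 2 / 2 ^ i) * ENNReal.ofReal (2 ^ i) := by
              gcongr
              exact (int_row j s s' r).trans (ENNReal.ofReal_le_ofReal hq)
          _ = ENNReal.ofReal (Real.log 2) := by
              rw [← ENNReal.ofReal_mul (by positivity)]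
              congr 1
              field_simp
    _ = ENNReal.ofReal (((j : ℝ) + 3 - i) * Real.log 2 + m * ((i + 3) * Real.log 2)) := by
        rw [← ENNReal.ofReal_sum_of_nonneg (fun _ _ => hl2.le),
          ← ENNReal.ofReal_add (by positivity) (Finset.sum_nonneg (fun _ _ => hl2.le))]
        congr 1
        rw [Finset.sum_const, Finset.card_univ, Fintype.card_fin, nsmul_eq_mul]
        ring

theorem exists_scale (j : ℕ) {q : ℝ} (hq1 : 1 ≤ q) (hq2 : q ≤ 2 ^ (j + 2)) :
    ∃ i ≤ j + 2, q ≤ 2 ^ i ∧ (2 : ℝ) ^ i ≤ 2 * q := by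
  classical
  have hex : ∃ i : ℕ, q ≤ 2 ^ i := ⟨j + 2, hq2⟩
  refine ⟨Nat.find hex, Nat.find_le hq2, Nat.find_spec hex, ?_⟩
  rcases Nat.eq_zero_or_pos (Nat.find hex) with h0 | h0
  · rw [h0]; norm_num; linarith
  · have h1 := Nat.find_min hex (m := Nat.find hex - 1) (by omega)
    have h2 : Nat.find hex = (Nat.find hex - 1) + 1 := by omega
    rw [h2, pow_succ]
    push Not at h1
    linarith

/-- the weight `W' = Wt * vt` -/
noncomputable def wv (j m : ℕ) {d : ℕ} (u : E d) : ℝ≥0∞ := Wt j m u * vt j u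

theorem wv_eq (j m : ℕ) {d : ℕ} (u : E d) :
    wv j m u = ENNReal.ofReal (((((2 : ℝ) ^ j * ‖u‖ + 1) ^ m)⁻¹)
      * ((2 ^ j * ‖u‖ + 1) / 2 ^ (j + 2))) := by
  unfold wv Wt vt
  rw [← ENNReal.ofReal_mul (by positivity)]
  congr 2
  rw [pow_add]
  field_simp
  norm_num

theorem wv_ne_zero (j m : ℕ) {d : ℕ} (u : E d) : wv j m u ≠ 0 := by
  rw [wv_eq]
  simp only [ne_eq, ENNReal.ofReal_eq_zero, not_le]
  positivity

theorem nl_wv (j m : ℕ) {d : ℕ} (u : E d) :
    nl (wv j m u) = ENNReal.ofReal (m * Real.log (2 ^ j * ‖u‖ + 1)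
      - Real.log (2 ^ j * ‖u‖ + 1) + (j + 2) * Real.log 2) := by
  rw [wv_eq, nl_ofReal (by positivity)]
  congr 1
  have hq : (0 : ℝ) < 2 ^ j * ‖u‖ + 1 := by positivity
  rw [Real.log_mul (by positivity) (by positivity), Real.log_inv, Real.log_pow,
    Real.log_div hq.ne' (by positivity), Real.log_pow]
  push_cast
  ring

theorem wv_le_one {j m : ℕ} {d : ℕ} {u : E d} (hu : ‖u‖ ≤ 2) : wv j m u ≤ 1 := by
  rw [wv_eq, show (1 : ℝ≥0∞) = ENNReal.ofReal 1 by simp]
  refine ENNReal.ofReal_le_ofReal ?_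
  have hq : (1 : ℝ) ≤ 2 ^ j * ‖u‖ + 1 := by
    have : (0 : ℝ) ≤ 2 ^ j * ‖u‖ := by positivity
    linarith
  have h1 : (((2 : ℝ) ^ j * ‖u‖ + 1) ^ m)⁻¹ ≤ 1 := inv_le_one_of_one_le₀ (one_le_pow₀ hq)
  have h2 : (2 ^ j * ‖u‖ + 1) / (2 : ℝ) ^ (j + 2) ≤ 1 := by
    rw [div_le_one (by positivity), pow_add]
    have h3 : (1 : ℝ) ≤ 2 ^ j := one_le_pow₀ (by norm_num)
    nlinarith
  calc _ ≤ (1 : ℝ) * 1 := mul_le_mul h1 h2 (by positivity) (by norm_num)
    _ = 1 := by norm_num

theorem int_nl_kap' {d m : ℕ} (hm : 1 ≤ m) (j : ℕ) (s s' : E d) (hu : ‖s' - s‖ ≤ 2) :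
    ∫⁻ X, nl (kap j (dl j X s s')) ∂(rows m d)
      ≤ nl (wv j m (s' - s)) + ENNReal.ofReal (5 * m) := by
  have hl2 : 0 < Real.log 2 := Real.log_pos (by norm_num)
  have hl21 : Real.log 2 ≤ 1 := by
    have := Real.log_le_sub_one_of_pos (show (0 : ℝ) < 2 by norm_num)
    linarith
  have h2j : (1 : ℝ) ≤ 2 ^ j := one_le_pow₀ (by norm_num)
  set q : ℝ := 2 ^ j * ‖s' - s‖ + 1 with hq
  have hq1 : 1 ≤ q := by
    have : (0 : ℝ) ≤ 2 ^ j * ‖s' - s‖ := by positivity
    linarith
  have hq2 : q ≤ 2 ^ (j + 2) := by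
    rw [pow_add, hq]
    nlinarith
  obtain ⟨i, hi, hi1, hi2⟩ := exists_scale j hq1 hq2
  refine (int_nl_kap j s s' hi (by rw [← hq]; exact hi1)).trans ?_
  rw [nl_wv, ← hq]
  refine le_trans ?_ ENNReal.ofReal_add_le
  refine ENNReal.ofReal_le_ofReal ?_
  have e1 : Real.log q ≤ i * Real.log 2 := by
    rw [← Real.log_pow]; exact Real.log_le_log (by linarith) hi1
  have e2 : i * Real.log 2 ≤ Real.log 2 + Real.log q := by
    rw [← Real.log_pow, ← Real.log_mul (by norm_num) (by linarith)]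
    exact Real.log_le_log (by positivity) hi2
  have hm' : (1 : ℝ) ≤ m := by exact_mod_cast hm
  have e3 : (m : ℝ) * (i * Real.log 2) ≤ m * (Real.log 2 + Real.log q) :=
    mul_le_mul_of_nonneg_left e2 (by linarith)
  have e4 : 5 * (m : ℝ) * Real.log 2 ≤ 5 * m := by nlinarith
  have e5 : Real.log 2 ≤ m * Real.log 2 := by nlinarith
  nlinarith

/-! ### Jensen -/

theorem pt_ineq_real {w k g J : ℝ} (hw : 0 < w) (hk : 0 < k) (hg : 0 < g) (hJ : 0 < J) :
    w * (-Real.log g) + w * (-Real.log w) + w ≤ w * (-Real.log J) + w * (-Real.log k)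
      + k * (J / g) := by
  have h := Real.log_le_sub_one_of_pos (show 0 < k * J / (w * g) by positivity)
  rw [Real.log_div (by positivity) (by positivity), Real.log_mul hk.ne' hJ.ne',
    Real.log_mul hw.ne' hg.ne'] at h
  have h2 := mul_le_mul_of_nonneg_left h hw.le
  have h3 : w * (k * J / (w * g) - 1) = k * (J / g) - w := by field_simp
  rw [h3] at h2
  linarith

theorem exists_real {x : ℝ≥0∞} (h0 : x ≠ 0) (h1 : x ≤ 1) :
    ∃ y : ℝ, 0 < y ∧ y ≤ 1 ∧ x = ENNReal.ofReal y := by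
  have ht : x ≠ ⊤ := ne_top_of_le_ne_top ENNReal.one_ne_top h1
  refine ⟨x.toReal, ENNReal.toReal_pos h0 ht, ?_, (ENNReal.ofReal_toReal ht).symm⟩
  have := ENNReal.toReal_mono ENNReal.one_ne_top h1
  simpa using this

theorem pt_ineq {w k g J : ℝ≥0∞} (hw : w ≠ 0) (hw1 : w ≤ 1) (hk : k ≠ 0) (hk1 : k ≤ 1)
    (hg : g ≠ 0) (hg1 : g ≤ 1) (hJ : J ≠ 0) (hJ1 : J ≤ 1) :
    w * nl g + w * nl w + w ≤ w * nl J + w * nl k + k * (J / g) := by
  obtain ⟨w, pw, pw1, rfl⟩ := exists_real hw hw1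
  obtain ⟨k, pk, pk1, rfl⟩ := exists_real hk hk1
  obtain ⟨g, pg, pg1, rfl⟩ := exists_real hg hg1
  obtain ⟨J, pJ, pJ1, rfl⟩ := exists_real hJ hJ1
  have lw : 0 ≤ -Real.log w := by have := Real.log_nonpos pw.le pw1; linarith
  have lk : 0 ≤ -Real.log k := by have := Real.log_nonpos pk.le pk1; linarith
  have lg : 0 ≤ -Real.log g := by have := Real.log_nonpos pg.le pg1; linarith
  have lJ : 0 ≤ -Real.log J := by have := Real.log_nonpos pJ.le pJ1; linarith
  rw [nl_ofReal pw, nl_ofReal pk, nl_ofReal pg, nl_ofReal pJ, ← ENNReal.ofReal_div_of_pos pg,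
    ← ENNReal.ofReal_mul pw.le, ← ENNReal.ofReal_mul pw.le, ← ENNReal.ofReal_mul pw.le,
    ← ENNReal.ofReal_mul pw.le, ← ENNReal.ofReal_mul pk.le,
    ← ENNReal.ofReal_add (by positivity) (by positivity),
    ← ENNReal.ofReal_add (by positivity) (by positivity),
    ← ENNReal.ofReal_add (by positivity) (by positivity),
    ← ENNReal.ofReal_add (by positivity) (by positivity)]
  exact ENNReal.ofReal_le_ofReal (pt_ineq_real pw pk pg pJ)

theorem jensen {S : Type*} [MeasurableSpace S] (π : Measure S) [IsProbabilityMeasure π]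
    (F w k : S → ℝ≥0∞) (hF : Measurable F) (hw : Measurable w) (hk : Measurable k)
    (hF1 : ∀ s, F s ≤ 1) (hw0 : ∀ s, w s ≠ 0) (hw1 : ∀ᵐ s ∂π, w s ≤ 1)
    (hk0 : ∀ s, k s ≠ 0) (hk1 : ∀ s, k s ≤ 1) :
    (∫⁻ s, F s * w s ∂π) * nl (∫⁻ s, F s * k s ∂π) + ∫⁻ s, F s * w s * nl (w s) ∂π
      ≤ (∫⁻ s, F s * w s ∂π) * nl (∫⁻ s, F s * w s ∂π) + ∫⁻ s, F s * w s * nl (k s) ∂π := by
  have m1 : Measurable (fun s => F s * w s) := hF.mul hw
  have m2 : Measurable (fun s => F s * k s) := hF.mul hk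
  have m3 : Measurable (fun s => F s * w s * nl (w s)) := m1.mul (measurable_nl.comp hw)
  set J := ∫⁻ s, F s * w s ∂π with hJdef
  set g := ∫⁻ s, F s * k s ∂π with hgdef
  by_cases hJ : J = 0
  · have h0 : ∀ᵐ s ∂π, F s * w s = 0 := by
      rw [hJdef, lintegral_eq_zero_iff m1] at hJ
      exact hJ
    have h1 : ∫⁻ s, F s * w s * nl (w s) ∂π = 0 := by
      rw [lintegral_eq_zero_iff m3]
      filter_upwards [h0] with s hs
      simp [hs]
    rw [hJ, h1]; simp
  have hJ1 : J ≤ 1 := by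
    calc J ≤ ∫⁻ _, 1 ∂π := by
          refine lintegral_mono_ae ?_
          filter_upwards [hw1] with s hs
          exact mul_le_one' (hF1 s) hs
      _ = 1 := by simp
  have hg1 : g ≤ 1 := by
    calc g ≤ ∫⁻ _, 1 ∂π := lintegral_mono (fun s => mul_le_one' (hF1 s) (hk1 s))
      _ = 1 := by simp
  have hg : g ≠ 0 := by
    intro h
    rw [hgdef, lintegral_eq_zero_iff m2] at h
    apply hJ
    rw [hJdef, lintegral_eq_zero_iff m1]
    filter_upwards [h] with s hs
    have h2 : F s = 0 := by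
      rcases mul_eq_zero.1 hs with h3 | h3
      · exact h3
      · exact absurd h3 (hk0 s)
    simp [h2]
  have hgt : g ≠ ⊤ := ne_top_of_le_ne_top ENNReal.one_ne_top hg1
  have hJt : J ≠ ⊤ := ne_top_of_le_ne_top ENNReal.one_ne_top hJ1
  have hpt : ∀ᵐ s ∂π, F s * w s * nl g + F s * w s * nl (w s) + F s * w s
      ≤ F s * w s * nl J + F s * w s * nl (k s) + F s * k s * (J / g) := by
    filter_upwards [hw1] with s hs
    have h := pt_ineq (hw0 s) hs (hk0 s) (hk1 s) hg hg1 hJ hJ1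
    calc F s * w s * nl g + F s * w s * nl (w s) + F s * w s
        = F s * (w s * nl g + w s * nl (w s) + w s) := by ring
      _ ≤ F s * (w s * nl J + w s * nl (k s) + k s * (J / g)) := by gcongr
      _ = _ := by ring
  have hint := lintegral_mono_ae hpt
  rw [lintegral_add_right _ m1, lintegral_add_left (m1.mul_const _),
    lintegral_mul_const _ m1, lintegral_add_right _ (m2.mul_const _),
    lintegral_add_left (m1.mul_const _), lintegral_mul_const _ m1, lintegral_mul_const _ m2] at hint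
  rw [← hJdef, ← hgdef] at hint
  have hc : g * (J / g) = J := ENNReal.mul_div_cancel hg hgt
  rw [hc] at hint
  exact (ENNReal.add_le_add_iff_right hJt).1 hint

theorem mul_nl_le_one {x : ℝ≥0∞} (h0 : x ≠ 0) (h1 : x ≤ 1) : x * nl x ≤ 1 := by
  obtain ⟨y, hy, hy1, rfl⟩ := exists_real h0 h1
  rw [nl_ofReal hy, ← ENNReal.ofReal_mul hy.le, show (1 : ℝ≥0∞) = ENNReal.ofReal 1 by simp]
  refine ENNReal.ofReal_le_ofReal ?_
  have h := Real.log_le_sub_one_of_pos (inv_pos.2 hy)
  rw [Real.log_inv] at h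
  have h2 := mul_le_mul_of_nonneg_left h hy.le
  have h3 : y * (y⁻¹ - 1) = 1 - y := by field_simp
  linarith

/-! ### the coded mass -/

/-- the coded mass -/
noncomputable def gc {d : ℕ} (π : Measure (E d)) (j : ℕ) {n m : ℕ} (X1 : Fin n → E d)
    (X2 : Fin m → E d) (A : E d → ℝ≥0∞) (s : E d) : ℝ≥0∞ :=
  ∫⁻ s', same j X1 s s' * A s' * kap j (dl j X2 s s') ∂π

theorem meas_kap (j m : ℕ) : Measurable (fun l : Fin m → ℤ => kap j l) := measurable_of_countable _

theorem meas_gc {Ω : Type*} [MeasurableSpace Ω] {d n m : ℕ} (π : Measure (E d)) [SFinite π]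
    (j : ℕ) {A : E d → ℝ≥0∞} (hA : Measurable A)
    {f : Ω → Fin n → E d} {g : Ω → Fin m → E d} {h : Ω → E d} (hf : Measurable f)
    (hg : Measurable g) (hh : Measurable h) :
    Measurable (fun ω => gc π j (f ω) (g ω) A (h ω)) := by
  unfold gc
  refine Measurable.lintegral_prod_right'
    (f := fun q : Ω × E d => same j (f q.1) (h q.1) q.2 * A q.2 *
      kap j (dl j (g q.1) (h q.1) q.2)) ?_
  exact ((meas_same j (hf.comp measurable_fst) (hh.comp measurable_fst) measurable_snd).mul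
    (hA.comp measurable_snd)).mul ((meas_kap j m).comp
      (meas_dl j (hg.comp measurable_fst) (hh.comp measurable_fst) measurable_snd))

theorem gibbs_step {d n m : ℕ} (π : Measure (E d)) [IsProbabilityMeasure π] (j : ℕ)
    (A : E d → ℝ≥0∞) (hA : Measurable A) (hA1 : ∀ s, A s ≤ 1)
    (X1 : Fin n → E d) (X2 : Fin m → E d) :
    ∫⁻ s, A s * nl (nu π j X1 X2 A s) ∂π ≤ ∫⁻ s, A s * nl (gc π j X1 X2 A s) ∂π := by
  set lb : E d → (Fin n → ℤ) × (Fin m → ℤ) := fun s => (labs j X1 s, labs j X2 s) with hlb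
  have hlbm : Measurable lb := (meas_labs j measurable_const measurable_id).prodMk
    (meas_labs j measurable_const measurable_id)
  set g : (Fin n → ℤ) × (Fin m → ℤ) → ℝ≥0∞ := fun i =>
    ∫⁻ s', (if labs j X1 s' = i.1 then 1 else 0) * A s' * kap j (i.2 - labs j X2 s') ∂π with hg
  have hmeas : ∀ i : (Fin n → ℤ) × (Fin m → ℤ), Measurable (fun s' =>
      (if labs j X1 s' = i.1 then 1 else 0) * A s' * kap j (i.2 - labs j X2 s')) := by
    intro i
    have h1 : Measurable (fun s' : E d => labs j X1 s') := meas_labs j measurable_const measurable_id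
    have h2 : Measurable (fun s' : E d => labs j X2 s') := meas_labs j measurable_const measurable_id
    have h3 : Measurable (fun l : Fin n → ℤ => (if l = i.1 then (1 : ℝ≥0∞) else 0)) :=
      measurable_of_countable _
    have h4 : Measurable (fun l : Fin m → ℤ => kap j (i.2 - l)) := measurable_of_countable _
    exact ((h3.comp h1).mul hA).mul (h4.comp h2)
  have hgsum : ∑' i, g i ≤ ∫⁻ s, A s ∂π := by
    rw [hg, ← lintegral_tsum (fun i => (hmeas i).aemeasurable)]
    refine lintegral_mono (fun s' => ?_)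
    rw [ENNReal.tsum_prod']
    have e1 : ∀ a : Fin n → ℤ, ∑' b : Fin m → ℤ,
        (if labs j X1 s' = (a, b).1 then 1 else 0) * A s' * kap j ((a, b).2 - labs j X2 s')
        ≤ (if labs j X1 s' = a then 1 else 0) * A s' := by
      intro a
      show ∑' b : Fin m → ℤ, (if labs j X1 s' = a then 1 else 0) * A s' *
        kap j (b - labs j X2 s') ≤ _
      rw [ENNReal.tsum_mul_left]
      refine mul_le_of_le_one_right zero_le ?_
      have e2 := (Equiv.subRight (labs j X2 s')).tsum_eq (fun l : Fin m → ℤ => kap j l)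
      refine le_trans (le_of_eq ?_) (tsum_kap j m)
      exact e2
    refine (ENNReal.tsum_le_tsum e1).trans ?_
    rw [ENNReal.tsum_mul_right, tsum_eq_single (labs j X1 s')]
    · simp
    · intro b hb
      rw [if_neg (fun h => hb h.symm)]
  have h := gibbs_cells π A hA hA1 lb hlbm g hgsum
  have e1 : ∀ s, nu π j X1 X2 A s
      = ∫⁻ s', (if lb s' = lb s then 1 else 0) * A s' ∂π := by
    intro s
    unfold nu
    refine lintegral_congr (fun s' => ?_)
    congr 1
    unfold same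
    simp only [hlb, Prod.mk.injEq]
    split_ifs <;> simp_all
  simp only [e1]
  exact h

theorem jensen_step {d n m : ℕ} (hm : 1 ≤ m) (π : Measure (E d)) (hπ : Prior d π) (j : ℕ)
    (A : E d → ℝ≥0∞) (hA : Measurable A) (hA1 : ∀ s, A s ≤ 1)
    (X1 : Fin n → E d) (s : E d) (hs : ‖s‖ = 1) :
    ∫⁻ X2, nl (gc π j X1 X2 A s) ∂(rows m d)
      ≤ nl (Jf' π j m X1 A s) + ENNReal.ofReal (5 * m) := by
  have := hπ.prob
  set F : E d → ℝ≥0∞ := fun s' => same j X1 s s' * A s' with hF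
  set w : E d → ℝ≥0∞ := fun s' => wv j m (s' - s) with hw
  have hFm : Measurable F :=
    (meas_same j measurable_const measurable_const measurable_id).mul hA
  have hwm : Measurable w := by
    have h1 : Measurable (fun s' : E d => s' - s) := measurable_id.sub_const s
    exact (meas_Wt j m h1).mul (meas_vt j h1)
  have hF1 : ∀ s', F s' ≤ 1 := fun s' => mul_le_one' (same_le_one _ _ _) (hA1 s')
  have hw0 : ∀ s', w s' ≠ 0 := fun s' => wv_ne_zero _ _ _
  have hu2 : ∀ᵐ s' ∂π, ‖s' - s‖ ≤ 2 := by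
    filter_upwards [hπ.sphere] with s' hs'
    refine (norm_sub_le _ _).trans ?_
    rw [hs, hs']; norm_num
  have hw1 : ∀ᵐ s' ∂π, w s' ≤ 1 := by
    filter_upwards [hu2] with s' hs'
    exact wv_le_one hs'
  set J := Jf' π j m X1 A s with hJ
  have hJ' : J = ∫⁻ s', F s' * w s' ∂π := rfl
  set I := ∫⁻ s', F s' * w s' * nl (w s') ∂π with hI
  have hI1 : I ≤ 1 := by
    calc I ≤ ∫⁻ _, 1 ∂π := by
          refine lintegral_mono_ae ?_
          filter_upwards [hw1] with s' hs'
          rw [mul_assoc]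
          exact mul_le_one' (hF1 s') (mul_nl_le_one (hw0 s') hs')
      _ = 1 := by simp
  have hIt : I ≠ ⊤ := ne_top_of_le_ne_top ENNReal.one_ne_top hI1
  by_cases hJ0 : J = 0
  · have : nl J = ⊤ := by rw [hJ0]; simp [nl]
    rw [this]; simp
  have hJ1 : J ≤ 1 := by
    rw [hJ']
    calc ∫⁻ s', F s' * w s' ∂π ≤ ∫⁻ _, 1 ∂π := by
          refine lintegral_mono_ae ?_
          filter_upwards [hw1] with s' hs'
          exact mul_le_one' (hF1 s') hs'
      _ = 1 := by simp
  have hJt : J ≠ ⊤ := ne_top_of_le_ne_top ENNReal.one_ne_top hJ1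
  -- Jensen for each `X2`
  have hpt : ∀ X2 : Fin m → E d, J * nl (gc π j X1 X2 A s) + I
      ≤ J * nl J + ∫⁻ s', F s' * w s' * nl (kap j (dl j X2 s s')) ∂π := by
    intro X2
    have hk : Measurable (fun s' : E d => kap j (dl j X2 s s')) :=
      (meas_kap j m).comp (meas_dl j measurable_const measurable_const measurable_id)
    exact jensen π F w (fun s' => kap j (dl j X2 s s')) hFm hwm hk hF1 hw0 hw1
      (fun s' => kap_pos j _) (fun s' => kap_le_one j _)
  have hint := lintegral_mono (μ := rows m d) hpt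
  have mg : Measurable (fun X2 : Fin m → E d => nl (gc π j X1 X2 A s)) :=
    measurable_nl.comp (meas_gc π j hA measurable_const measurable_id measurable_const)
  have mjoint : Measurable (Function.uncurry (fun (X2 : Fin m → E d) (s' : E d) =>
      F s' * w s' * nl (kap j (dl j X2 s s')))) := by
    have h1 : Measurable (fun q : (Fin m → E d) × E d => F q.2 * w q.2) :=
      (hFm.mul hwm).comp measurable_snd
    have h2 : Measurable (fun q : (Fin m → E d) × E d => nl (kap j (dl j q.1 s q.2))) :=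
      measurable_nl.comp ((meas_kap j m).comp
        (meas_dl j measurable_fst measurable_const measurable_snd))
    exact h1.mul h2
  rw [lintegral_add_right _ measurable_const, lintegral_const_mul _ mg, lintegral_const,
    measure_univ, mul_one, lintegral_add_left measurable_const, lintegral_const, measure_univ,
    mul_one, lintegral_lintegral_swap mjoint.aemeasurable] at hint
  have hlast : ∫⁻ s', ∫⁻ X2, F s' * w s' * nl (kap j (dl j X2 s s')) ∂(rows m d) ∂π
      ≤ I + J * ENNReal.ofReal (5 * m) := by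
    calc ∫⁻ s', ∫⁻ X2, F s' * w s' * nl (kap j (dl j X2 s s')) ∂(rows m d) ∂π
        ≤ ∫⁻ s', (F s' * w s' * nl (w s') + F s' * w s' * ENNReal.ofReal (5 * m)) ∂π := by
          refine lintegral_mono_ae ?_
          filter_upwards [hu2] with s' hs'
          have mk : Measurable (fun X2 : Fin m → E d => nl (kap j (dl j X2 s s'))) :=
            measurable_nl.comp ((meas_kap j m).comp
              (meas_dl j measurable_id measurable_const measurable_const))
          rw [lintegral_const_mul _ mk, ← mul_add]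
          exact mul_le_mul_right (int_nl_kap' hm j s s' hs') _
      _ = I + J * ENNReal.ofReal (5 * m) := by
          have m1 : Measurable (fun s' => F s' * w s') := hFm.mul hwm
          rw [lintegral_add_right _ (m1.mul_const _), lintegral_mul_const _ m1, hJ']
  have h2 : J * (∫⁻ X2, nl (gc π j X1 X2 A s) ∂(rows m d)) + I
      ≤ (J * nl J + J * ENNReal.ofReal (5 * m)) + I := by
    refine hint.trans ?_
    calc J * nl J + ∫⁻ s', ∫⁻ X2, F s' * w s' * nl (kap j (dl j X2 s s')) ∂(rows m d) ∂π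
        ≤ J * nl J + (I + J * ENNReal.ofReal (5 * m)) := by gcongr
      _ = _ := by ring
  have h3 := (ENNReal.add_le_add_iff_right hIt).1 h2
  rw [← mul_add] at h3
  exact (ENNReal.mul_le_mul_iff_right hJ0 hJt).1 h3

end L6

open L6 in
theorem coding_step : ∃ C : ℝ, 1 ≤ C ∧ ∀ m n d : ℕ, 1 ≤ m →
    ∀ (π : Measure (E d)), Prior d π → ∀ (j : ℕ) (A : E d → ℝ≥0∞), Measurable A →
    (∀ s, A s ≤ 1) →
    ∫⁻ s, A s * ∫⁻ X1, ∫⁻ X2, nl (nu π j X1 X2 A s) ∂(rows m d) ∂(rows n d) ∂π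
      ≤ (∫⁻ s, A s * ∫⁻ X1, nl (Jf' π j m X1 A s) ∂(rows n d) ∂π)
        + ENNReal.ofReal (C * m) * ∫⁻ s, A s ∂π := by
  refine ⟨5, by norm_num, ?_⟩
  intro m n d hm π hπ j A hA hA1
  have := hπ.prob
  -- product measure
  have swap : ∀ h : (Fin n → E d) → (Fin m → E d) → E d → ℝ≥0∞,
      Measurable (fun q : ((Fin n → E d) × (Fin m → E d)) × E d => h q.1.1 q.1.2 q.2) →
      ∫⁻ s, A s * ∫⁻ X1, ∫⁻ X2, h X1 X2 s ∂(rows m d) ∂(rows n d) ∂π
        = ∫⁻ q, ∫⁻ s, A s * h q.1 q.2 s ∂π ∂((rows n d).prod (rows m d)) := by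
    intro h hh
    have e1 : ∀ s, A s * ∫⁻ X1, ∫⁻ X2, h X1 X2 s ∂(rows m d) ∂(rows n d)
        = ∫⁻ q, A s * h q.1 q.2 s ∂((rows n d).prod (rows m d)) := by
      intro s
      have hs : Measurable (fun q : (Fin n → E d) × (Fin m → E d) => h q.1 q.2 s) :=
        hh.comp (measurable_id.prodMk measurable_const)
      rw [lintegral_const_mul _ hs, lintegral_prod _ hs.aemeasurable]
    rw [lintegral_congr e1]
    refine lintegral_lintegral_swap ?_
    have h1 : Measurable (fun p : E d × ((Fin n → E d) × (Fin m → E d)) => A p.1) :=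
      hA.comp measurable_fst
    have h2 : Measurable (fun p : E d × ((Fin n → E d) × (Fin m → E d)) => h p.2.1 p.2.2 p.1) :=
      hh.comp (measurable_snd.prodMk measurable_fst)
    exact (h1.mul h2).aemeasurable
  have mnu : Measurable (fun q : ((Fin n → E d) × (Fin m → E d)) × E d =>
      nl (nu π j q.1.1 q.1.2 A q.2)) :=
    measurable_nl.comp (meas_nu π j hA (measurable_fst.comp measurable_fst)
      (measurable_snd.comp measurable_fst) measurable_snd)
  have mgc : Measurable (fun q : ((Fin n → E d) × (Fin m → E d)) × E d =>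
      nl (gc π j q.1.1 q.1.2 A q.2)) :=
    measurable_nl.comp (meas_gc π j hA (measurable_fst.comp measurable_fst)
      (measurable_snd.comp measurable_fst) measurable_snd)
  calc ∫⁻ s, A s * ∫⁻ X1, ∫⁻ X2, nl (nu π j X1 X2 A s) ∂(rows m d) ∂(rows n d) ∂π
      = ∫⁻ q, ∫⁻ s, A s * nl (nu π j q.1 q.2 A s) ∂π ∂((rows n d).prod (rows m d)) :=
        swap (fun X1 X2 s => nl (nu π j X1 X2 A s)) mnu
    _ ≤ ∫⁻ q, ∫⁻ s, A s * nl (gc π j q.1 q.2 A s) ∂π ∂((rows n d).prod (rows m d)) :=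
        lintegral_mono (fun q => gibbs_step π j A hA hA1 q.1 q.2)
    _ = ∫⁻ s, A s * ∫⁻ X1, ∫⁻ X2, nl (gc π j X1 X2 A s) ∂(rows m d) ∂(rows n d) ∂π :=
        (swap (fun X1 X2 s => nl (gc π j X1 X2 A s)) mgc).symm
    _ ≤ ∫⁻ s, (A s * ∫⁻ X1, nl (Jf' π j m X1 A s) ∂(rows n d)
          + ENNReal.ofReal (5 * m) * A s) ∂π := by
        refine lintegral_mono_ae ?_
        filter_upwards [hπ.sphere] with s hs
        have h1 : ∫⁻ X1, ∫⁻ X2, nl (gc π j X1 X2 A s) ∂(rows m d) ∂(rows n d)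
            ≤ (∫⁻ X1, nl (Jf' π j m X1 A s) ∂(rows n d)) + ENNReal.ofReal (5 * m) := by
          refine (lintegral_mono (fun X1 => jensen_step hm π hπ j A hA hA1 X1 s hs)).trans ?_
          rw [lintegral_add_right _ measurable_const]
          simp
        calc A s * ∫⁻ X1, ∫⁻ X2, nl (gc π j X1 X2 A s) ∂(rows m d) ∂(rows n d)
            ≤ A s * ((∫⁻ X1, nl (Jf' π j m X1 A s) ∂(rows n d)) + ENNReal.ofReal (5 * m)) := by
              gcongr
          _ = _ := by rw [mul_add, mul_comm (A s) (ENNReal.ofReal (5 * m))]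
    _ = _ := by
        rw [lintegral_add_right _ (hA.const_mul _), lintegral_const_mul _ hA]

end P309
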