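import Vale.Agent.H20.P309.Meas
import Vale.Agent.H20.P309.L1
import Vale.Agent.H20.P309.L0

/-! # L8: entropy of the rounded labels -/

open MeasureTheory ProbabilityTheory
open scoped RealInnerProductSpace ENNReal

namespace P309

namespace L8

theorem nl_mul_le (a b : ℝ≥0∞) : nl (a * b) ≤ nl a + nl b := by
  by_cases ha : a = 0
  · simp [nl, ha]
  by_cases hb : b = 0
  · simp [nl, hb]
  have hab : a * b ≠ 0 := mul_ne_zero ha hb
  by_cases hat : a = ⊤
  · subst hat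
    rw [ENNReal.top_mul hb]
    simp [nl]
  by_cases hbt : b = ⊤
  · subst hbt
    rw [ENNReal.mul_top ha]
    simp [nl]
  have ha0 : a.toReal ≠ 0 := (ENNReal.toReal_pos ha hat).ne'
  have hb0 : b.toReal ≠ 0 := (ENNReal.toReal_pos hb hbt).ne'
  simp only [nl, hab, ha, hb, if_false]
  rw [ENNReal.toReal_mul, Real.log_mul ha0 hb0, neg_add]
  exact ENNReal.ofReal_add_le

theorem nl_prod_le {ι : Type*} (S : Finset ι) (f : ι → ℝ≥0∞) :
    nl (∏ i ∈ S, f i) ≤ ∑ i ∈ S, nl (f i) := by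
  classical
  induction S using Finset.induction_on with
  | empty => simp [nl]
  | insert i S hi ih =>
    rw [Finset.prod_insert hi, Finset.sum_insert hi]
    exact (nl_mul_le _ _).trans (by gcongr)

/-- the ratio -/
noncomputable def q (j : ℕ) : ℝ := (2 : ℝ) ^ (-((2 : ℝ) ^ j)⁻¹)

theorem q_pos (j : ℕ) : 0 < q j := by unfold q; positivity

/-- the code -/
noncomputable def pc (j : ℕ) (l : ℤ) : ℝ≥0∞ :=
  ENNReal.ofReal ((1 / 4) * ((2 : ℝ) ^ j)⁻¹ * q j ^ l.natAbs)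

theorem q_bound (j : ℕ) : ((2 : ℝ) ^ j)⁻¹ / 2 ≤ 1 - q j := by
  -- `2^(-t) ≤ 1 - t/2` on `[0,1]` by convexity
  set t : ℝ := ((2 : ℝ) ^ j)⁻¹ with ht
  have ht0 : 0 ≤ t := by positivity
  have ht1 : t ≤ 1 := by
    rw [ht]
    exact inv_le_one_of_one_le₀ (one_le_pow₀ (by norm_num))
  have hconv := Real.rpow_le_rpow_of_exponent_le (show (1 : ℝ) ≤ 2 by norm_num) ht1
  -- `2^(-t) = (1/2)^t ≤ (1-t)*1 + t*(1/2)` (weighted AM-GM)
  have h := Real.geom_mean_le_arith_mean2_weighted (show 0 ≤ 1 - t by linarith) ht0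
    (show (0 : ℝ) ≤ 1 by norm_num) (show (0 : ℝ) ≤ 1 / 2 by norm_num) (by ring)
  rw [Real.one_rpow, one_mul] at h
  have e : q j = (1 / 2 : ℝ) ^ t := by
    rw [q, ← ht, Real.rpow_neg (by norm_num), one_div, Real.inv_rpow (by norm_num)]
  rw [e]
  linarith

theorem pc_sum (j : ℕ) : ∑' l : ℤ, pc j l ≤ 1 := by
  have hq0 := q_pos j
  have hqb := q_bound j
  have ht0 : 0 < ((2 : ℝ) ^ j)⁻¹ := by positivity
  have hq1 : q j < 1 := by linarith
  set c : ℝ := (1 / 4) * ((2 : ℝ) ^ j)⁻¹ with hc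
  have hc0 : 0 ≤ c := by positivity
  rw [tsum_of_nat_of_neg_add_one ENNReal.summable ENNReal.summable]
  have h1 : ∀ k : ℕ, pc j (k : ℤ) = ENNReal.ofReal c * ENNReal.ofReal (q j) ^ k := by
    intro k
    rw [pc, Int.natAbs_natCast, ENNReal.ofReal_mul hc0, ENNReal.ofReal_pow hq0.le]
  have h2 : ∀ k : ℕ, pc j (-((k : ℤ) + 1)) ≤ ENNReal.ofReal c * ENNReal.ofReal (q j) ^ k := by
    intro k
    rw [pc, ← ENNReal.ofReal_pow hq0.le, ← ENNReal.ofReal_mul hc0]
    apply ENNReal.ofReal_le_ofReal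
    have e : (-((k : ℤ) + 1)).natAbs = k + 1 := by omega
    rw [e, pow_succ]
    have h0 : 0 ≤ q j ^ k := by positivity
    have h9 : q j ^ k * q j ≤ q j ^ k := mul_le_of_le_one_right h0 hq1.le
    exact mul_le_mul_of_nonneg_left h9 hc0
  have h3 : ∑' k : ℕ, ENNReal.ofReal c * ENNReal.ofReal (q j) ^ k =
      ENNReal.ofReal (c / (1 - q j)) := by
    rw [ENNReal.tsum_mul_left, ENNReal.tsum_geometric, div_eq_mul_inv, ENNReal.ofReal_mul hc0,
      ENNReal.ofReal_inv_of_pos (by linarith), ENNReal.ofReal_sub _ hq0.le, ENNReal.ofReal_one]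
  calc ∑' k : ℕ, pc j (k : ℤ) + ∑' k : ℕ, pc j (-((k : ℤ) + 1))
      ≤ ENNReal.ofReal (c / (1 - q j)) + ENNReal.ofReal (c / (1 - q j)) := by
        apply add_le_add
        · rw [← h3]
          exact (tsum_congr h1).le
        · rw [← h3]
          exact ENNReal.tsum_le_tsum h2
    _ ≤ 1 := by
        rw [← ENNReal.ofReal_add (by apply div_nonneg hc0; linarith)
          (by apply div_nonneg hc0; linarith), ← ENNReal.ofReal_one]
        apply ENNReal.ofReal_le_ofReal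
        rw [← add_div, div_le_one (by linarith)]
        rw [hc]
        linarith

theorem pc_prod_sum (j n : ℕ) : ∑' l : Fin n → ℤ, ∏ i, pc j (l i) ≤ 1 := by
  induction n with
  | zero => simp
  | succ n ih =>
    rw [← (Fin.consEquiv (fun _ : Fin (n + 1) => ℤ)).tsum_eq, ENNReal.tsum_prod']
    calc ∑' a : ℤ, ∑' l : Fin n → ℤ, ∏ i, pc j (Fin.consEquiv (fun _ : Fin (n + 1) => ℤ) (a, l) i)
        = ∑' a : ℤ, ∑' l : Fin n → ℤ, pc j a * ∏ i, pc j (l i) := by
          refine tsum_congr fun a => tsum_congr fun l => ?_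
          rw [Fin.prod_univ_succ]
          simp [Fin.consEquiv]
      _ = (∑' a : ℤ, pc j a) * ∑' l : Fin n → ℤ, ∏ i, pc j (l i) := by
          simp_rw [ENNReal.tsum_mul_left, ENNReal.tsum_mul_right]
      _ ≤ 1 * 1 := mul_le_mul' (pc_sum j) ih
      _ = 1 := one_mul 1

/-- cost of a row -/
noncomputable def cst (j : ℕ) {d : ℕ} (x s : E d) : ℝ≥0∞ :=
  ENNReal.ofReal (j * Real.log 2 + 3 * Real.log 2) + ENNReal.ofReal (Real.log 2) * ENNReal.ofReal |⟪x, s⟫|

theorem nl_pc (j : ℕ) {d : ℕ} (x s : E d) : nl (pc j (lab j x s)) ≤ cst j x s := by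
  have hq0 := q_pos j
  set l := lab j x s with hl
  have h2j : (0 : ℝ) < 2 ^ j := by positivity
  have hpos : 0 < (1 / 4) * ((2 : ℝ) ^ j)⁻¹ * q j ^ l.natAbs := by positivity
  have hl2 : 0 ≤ Real.log 2 := Real.log_nonneg (by norm_num)
  rw [nl, if_neg (by rw [pc]; exact (ENNReal.ofReal_pos.2 hpos).ne'), pc,
    ENNReal.toReal_ofReal hpos.le, cst, ← ENNReal.ofReal_mul hl2,
    ← ENNReal.ofReal_add (by positivity) (by positivity)]
  apply ENNReal.ofReal_le_ofReal
  rw [Real.log_mul (by positivity) (by positivity), Real.log_mul (by norm_num) (by positivity),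
    Real.log_inv, Real.log_pow, Real.log_pow, q, Real.log_rpow (by norm_num)]
  have h4 : Real.log (1 / 4) = -(2 * Real.log 2) := by
    rw [one_div, Real.log_inv, show (4 : ℝ) = 2 ^ 2 by norm_num, Real.log_pow]
    push_cast
    ring
  rw [h4]
  have hlab : ((l.natAbs : ℕ) : ℝ) ≤ 2 ^ j * |⟪x, s⟫| + 1 := by
    have e : ((l.natAbs : ℕ) : ℝ) = |(l : ℝ)| := by
      rw [Nat.cast_natAbs, Int.cast_abs]
    rw [e, hl, lab]
    set y := (2 : ℝ) ^ j * ⟪x, s⟫ with hy
    have hy' : 2 ^ j * |⟪x, s⟫| = |y| := by rw [hy, abs_mul, abs_of_pos h2j]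
    rw [hy']
    have h1 := Int.floor_le y
    have h2 := Int.lt_floor_add_one y
    rw [abs_le]
    constructor
    · have := neg_abs_le y
      linarith
    · have := le_abs_self y
      linarith
  have h5 : ((l.natAbs : ℕ) : ℝ) * ((2 : ℝ) ^ j)⁻¹ ≤ |⟪x, s⟫| + 1 := by
    calc ((l.natAbs : ℕ) : ℝ) * ((2 : ℝ) ^ j)⁻¹ ≤ (2 ^ j * |⟪x, s⟫| + 1) * ((2 : ℝ) ^ j)⁻¹ := by
          gcongr
      _ = |⟪x, s⟫| + ((2 : ℝ) ^ j)⁻¹ := by field_simp
      _ ≤ |⟪x, s⟫| + 1 := by
          gcongr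
          exact inv_le_one_of_one_le₀ (one_le_pow₀ (by norm_num))
  nlinarith [mul_le_mul_of_nonneg_left h5 hl2]

theorem cst_int (j : ℕ) {d n : ℕ} (s : E d) (hs : ‖s‖ = 1) (r : Fin n) :
    ∫⁻ X, cst j (X r) s ∂(rows n d) ≤ ENNReal.ofReal (j * Real.log 2 + 4) := by
  have hmp : MeasurePreserving (Function.eval r) (rows n d) (stdGaussian (E d)) :=
    measurePreserving_eval _ r
  have hm : Measurable (fun x : E d => cst j x s) := by
    unfold cst
    fun_prop
  have hl2 : 0 ≤ Real.log 2 := Real.log_nonneg (by norm_num)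
  calc ∫⁻ X, cst j (X r) s ∂(rows n d) = ∫⁻ x, cst j x s ∂(stdGaussian (E d)) :=
        hmp.lintegral_comp hm
    _ = ENNReal.ofReal (j * Real.log 2 + 3 * Real.log 2) +
          ENNReal.ofReal (Real.log 2) * ∫⁻ x, ENNReal.ofReal |⟪x, s⟫| ∂(stdGaussian (E d)) := by
        unfold cst
        rw [lintegral_add_left measurable_const, lintegral_const_mul _ (by fun_prop)]
        simp
    _ ≤ ENNReal.ofReal (j * Real.log 2 + 3 * Real.log 2) +
          ENNReal.ofReal (Real.log 2) * ENNReal.ofReal ‖s‖ := by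
        gcongr
        exact gauss_abs s
    _ ≤ _ := by
        rw [hs, ENNReal.ofReal_one, mul_one, ← ENNReal.ofReal_add (by positivity) hl2]
        apply ENNReal.ofReal_le_ofReal
        have := Real.log_two_lt_d9
        linarith

/-- the pointwise (in the rows) coding bound, two blocks -/
theorem coding {d : ℕ} (n m : ℕ) (π : Measure (E d)) [IsProbabilityMeasure π] (j : ℕ)
    (X1 : Fin n → E d) (X2 : Fin m → E d) :
    ∫⁻ s, nl (nu π j X1 X2 (fun _ => 1) s) ∂π ≤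
      ∫⁻ s, ((∑ r, cst j (X1 r) s) + ∑ r, cst j (X2 r) s) ∂π := by
  classical
  have key := gibbs_cells π (fun _ => 1) measurable_const (fun _ => le_rfl)
    (fun s => (labs j X1 s, labs j X2 s))
    ((meas_labs j measurable_const measurable_id).prodMk
      (meas_labs j measurable_const measurable_id))
    (fun i => (∏ r, pc j (i.1 r)) * ∏ r, pc j (i.2 r)) (by
      rw [ENNReal.tsum_prod' (f := fun i : (Fin n → ℤ) × (Fin m → ℤ) =>
        (∏ r, pc j (i.1 r)) * ∏ r, pc j (i.2 r))]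
      simp_rw [ENNReal.tsum_mul_left, ENNReal.tsum_mul_right]
      simp only [lintegral_const, measure_univ, mul_one]
      calc (∑' l : Fin n → ℤ, ∏ i, pc j (l i)) * ∑' l : Fin m → ℤ, ∏ i, pc j (l i)
          ≤ 1 * 1 := mul_le_mul' (pc_prod_sum j n) (pc_prod_sum j m)
        _ = 1 := one_mul 1)
  simp only [one_mul, mul_one] at key
  have e : ∀ s, nu π j X1 X2 (fun _ => 1) s =
      ∫⁻ s', (if (labs j X1 s', labs j X2 s') = (labs j X1 s, labs j X2 s) then 1 else 0) ∂π := by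
    intro s
    unfold nu same
    refine lintegral_congr fun s' => ?_
    simp only [Prod.mk.injEq, mul_one]
    by_cases h1 : labs j X1 s' = labs j X1 s <;> by_cases h2 : labs j X2 s' = labs j X2 s <;>
      simp [h1, h2]
  simp only [e]
  refine key.trans (lintegral_mono fun s => ?_)
  refine (nl_mul_le _ _).trans (add_le_add ?_ ?_)
  · exact (nl_prod_le _ _).trans (Finset.sum_le_sum fun r _ => nl_pc j (X1 r) s)
  · exact (nl_prod_le _ _).trans (Finset.sum_le_sum fun r _ => nl_pc j (X2 r) s)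

theorem meas_cst (j : ℕ) {d : ℕ} {Ω : Type*} [MeasurableSpace Ω] {f g : Ω → E d}
    (hf : Measurable f) (hg : Measurable g) : Measurable (fun ω => cst j (f ω) (g ω)) := by
  unfold cst
  have := hf.inner (𝕜 := ℝ) hg
  fun_prop

theorem sum_cst_int (j : ℕ) {d n : ℕ} (s : E d) (hs : ‖s‖ = 1) :
    ∫⁻ X, ∑ r, cst j (X r) s ∂(rows n d) ≤ n * ENNReal.ofReal (j * Real.log 2 + 4) := by
  rw [lintegral_finsetSum _ (fun r _ => meas_cst j (measurable_pi_apply r) measurable_const)]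
  calc ∑ r : Fin n, ∫⁻ X, cst j (X r) s ∂(rows n d)
      ≤ ∑ r : Fin n, ENNReal.ofReal (j * Real.log 2 + 4) :=
        Finset.sum_le_sum fun r _ => cst_int j s hs r
    _ = _ := by simp

end L8

theorem cell_entropy {d : ℕ} (n m : ℕ) (π : Measure (E d)) (hπ : Prior d π) (j : ℕ) :
    ∫⁻ s, ∫⁻ X1, ∫⁻ X2, nl (nu π j X1 X2 (fun _ => 1) s) ∂(rows m d) ∂(rows n d) ∂π
      ≤ ENNReal.ofReal ((n + m : ℕ) * (j * Real.log 2 + 4)) := by
  have := hπ.prob
  have hl2 : 0 ≤ Real.log 2 := Real.log_nonneg (by norm_num)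
  have hm1 : Measurable (fun p : E d × (Fin n → E d) × (Fin m → E d) =>
      nl (nu π j p.2.1 p.2.2 (fun _ => 1) p.1)) :=
    measurable_nl.comp (meas_nu π j measurable_const (by fun_prop) (by fun_prop) (by fun_prop))
  have hm2 : Measurable (fun p : E d × (Fin n → E d) × (Fin m → E d) =>
      (∑ r, L8.cst j (p.2.1 r) p.1) + ∑ r, L8.cst j (p.2.2 r) p.1) := by
    apply Measurable.add
    · exact Finset.measurable_sum _ fun r _ => L8.meas_cst j (by fun_prop) (by fun_prop)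
    · exact Finset.measurable_sum _ fun r _ => L8.meas_cst j (by fun_prop) (by fun_prop)
  have swap : ∀ F : E d × (Fin n → E d) × (Fin m → E d) → ℝ≥0∞, Measurable F →
      ∫⁻ s, ∫⁻ X1, ∫⁻ X2, F (s, X1, X2) ∂(rows m d) ∂(rows n d) ∂π =
      ∫⁻ X1, ∫⁻ X2, ∫⁻ s, F (s, X1, X2) ∂π ∂(rows m d) ∂(rows n d) := by
    intro F hF
    have h1 : ∀ s, ∫⁻ X1, ∫⁻ X2, F (s, X1, X2) ∂(rows m d) ∂(rows n d) =
        ∫⁻ q, F (s, q) ∂((rows n d).prod (rows m d)) := by
      intro s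
      exact (lintegral_prod (fun q => F (s, q)) (hF.comp measurable_prodMk_left).aemeasurable).symm
    simp_rw [h1]
    rw [lintegral_lintegral_swap (f := fun s q => F (s, q)) hF.aemeasurable]
    exact lintegral_prod (fun q => ∫⁻ s, F (s, q) ∂π)
      (Measurable.lintegral_prod_left' (μ := π) hF).aemeasurable
  rw [swap (fun p => nl (nu π j p.2.1 p.2.2 (fun _ => 1) p.1)) hm1]
  calc ∫⁻ X1, ∫⁻ X2, ∫⁻ s, nl (nu π j X1 X2 (fun _ => 1) s) ∂π ∂(rows m d) ∂(rows n d)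
      ≤ ∫⁻ X1, ∫⁻ X2, ∫⁻ s, ((∑ r, L8.cst j (X1 r) s) + ∑ r, L8.cst j (X2 r) s) ∂π
          ∂(rows m d) ∂(rows n d) :=
        lintegral_mono fun X1 => lintegral_mono fun X2 => L8.coding n m π j X1 X2
    _ = ∫⁻ s, ∫⁻ X1, ∫⁻ X2, ((∑ r, L8.cst j (X1 r) s) + ∑ r, L8.cst j (X2 r) s)
          ∂(rows m d) ∂(rows n d) ∂π :=
        (swap (fun p => (∑ r, L8.cst j (p.2.1 r) p.1) + ∑ r, L8.cst j (p.2.2 r) p.1) hm2).symm
    _ ≤ ∫⁻ s, ENNReal.ofReal ((n + m : ℕ) * (j * Real.log 2 + 4)) ∂π := by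
        apply lintegral_mono_ae
        filter_upwards [hπ.sphere] with s hs
        have hc1 : ∀ X1 : Fin n → E d,
            ∫⁻ X2, ((∑ r, L8.cst j (X1 r) s) + ∑ r, L8.cst j (X2 r) s) ∂(rows m d) =
              (∑ r, L8.cst j (X1 r) s) + ∫⁻ X2, ∑ r, L8.cst j (X2 r) s ∂(rows m d) := by
          intro X1
          rw [lintegral_add_left measurable_const]
          simp
        simp_rw [hc1]
        rw [lintegral_add_right _ measurable_const]
        simp only [lintegral_const, measure_univ, mul_one]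
        calc ∫⁻ X1, ∑ r, L8.cst j (X1 r) s ∂(rows n d) +
              ∫⁻ X2, ∑ r, L8.cst j (X2 r) s ∂(rows m d)
            ≤ n * ENNReal.ofReal (j * Real.log 2 + 4) + m * ENNReal.ofReal (j * Real.log 2 + 4) :=
              add_le_add (L8.sum_cst_int j s hs) (L8.sum_cst_int j s hs)
          _ = ENNReal.ofReal ((n + m : ℕ) * (j * Real.log 2 + 4)) := by
              rw [← add_mul, ENNReal.ofReal_mul (by positivity), ENNReal.ofReal_natCast]
              push_cast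
              rfl
    _ = _ := by simp

/-- the same for one block of rows -/
theorem cell_entropy_one {d : ℕ} (n : ℕ) (π : Measure (E d)) (hπ : Prior d π) (j : ℕ) :
    ∫⁻ s, ∫⁻ X, nl (∫⁻ s', same j X s s' ∂π) ∂(rows n d) ∂π
      ≤ ENNReal.ofReal (n * (j * Real.log 2 + 4)) := by
  have := hπ.prob
  have h := cell_entropy n 0 π hπ j
  have e : ∀ (X1 : Fin n → E d) (X2 : Fin 0 → E d) (s : E d),
      nu π j X1 X2 (fun _ => 1) s = ∫⁻ s', same j X1 s s' ∂π := by
    intro X1 X2 s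
    unfold nu
    refine lintegral_congr fun s' => ?_
    have : same j X2 s s' = 1 := by
      unfold same
      rw [if_pos (Subsingleton.elim _ _)]
    rw [this, mul_one, mul_one]
  simp only [e, lintegral_const, measure_univ, mul_one, add_zero] at h
  exact h

/-- the code on `ℤ` -/
noncomputable def pj (j : ℕ) (l : ℤ) : ℝ≥0∞ :=
  ENNReal.ofReal ((1/4) * ((2:ℝ)^j)⁻¹ * (2:ℝ) ^ (-(|(l:ℝ)|) / (2:ℝ)^j))

theorem pj_eq (j : ℕ) (l : ℤ) : pj j l = L8.pc j l := by
  have e : ((2 : ℝ) ^ (-((2 : ℝ) ^ j)⁻¹)) ^ l.natAbs = (2:ℝ) ^ (-(|(l:ℝ)|) / (2:ℝ)^j) := by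
    rw [← Real.rpow_natCast ((2 : ℝ) ^ (-((2 : ℝ) ^ j)⁻¹)) l.natAbs, ← Real.rpow_mul (by norm_num),
      Nat.cast_natAbs, Int.cast_abs]
    congr 1
    ring
  rw [pj, L8.pc, L8.q, e]

theorem pj_prod_sum (j n : ℕ) : ∑' l : Fin n → ℤ, ∏ r, pj j (l r) ≤ 1 := by
  simp only [pj_eq]
  exact L8.pc_prod_sum j n

theorem code_len {d : ℕ} (j n : ℕ) (s : E d) (hs : ‖s‖ = 1) :
    ∫⁻ X, nl (∏ r, pj j (labs j X s r)) ∂(rows n d) ≤
      ENNReal.ofReal (n * (j * Real.log 2 + 4)) := by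
  calc ∫⁻ X, nl (∏ r, pj j (labs j X s r)) ∂(rows n d)
      ≤ ∫⁻ X, ∑ r, L8.cst j (X r) s ∂(rows n d) := by
        refine lintegral_mono fun X => ?_
        refine (L8.nl_prod_le _ _).trans (Finset.sum_le_sum fun r _ => ?_)
        rw [pj_eq]
        exact L8.nl_pc j (X r) s
    _ ≤ n * ENNReal.ofReal (j * Real.log 2 + 4) := L8.sum_cst_int j s hs
    _ = _ := by
        rw [ENNReal.ofReal_mul (by positivity), ENNReal.ofReal_natCast]

end P309
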