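import Vale.Agent.H20.P309.Meas
import Vale.Agent.H20.P309.L0
import Vale.Agent.H20.P309.L1
import Vale.Agent.H20.P309.L8
import Vale.Agent.H20.P309.L12

open MeasureTheory ProbabilityTheory
open scoped RealInnerProductSpace ENNReal

namespace P309
namespace L7

/-! ## facts on `nl` -/

theorem nl_anti {a b : ℝ≥0∞} (h : a ≤ b) : nl b ≤ nl a := by
  unfold nl
  by_cases ha : a = 0
  · rw [if_pos ha]; exact le_top
  have hb : b ≠ 0 := fun hb => ha (le_antisymm (hb ▸ h) bot_le)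
  rw [if_neg ha, if_neg hb]
  by_cases hbt : b = ⊤
  · rw [hbt]; simp
  have hat : a ≠ ⊤ := fun hat => hbt (top_le_iff.mp (hat ▸ h))
  refine ENNReal.ofReal_le_ofReal (neg_le_neg ?_)
  exact Real.log_le_log (ENNReal.toReal_pos ha hat) ((ENNReal.toReal_le_toReal hat hbt).mpr h)

theorem nl_ofReal {x : ℝ} (hx : 0 < x) : nl (ENNReal.ofReal x) = ENNReal.ofReal (-Real.log x) := by
  unfold nl
  rw [if_neg (by simpa using hx), ENNReal.toReal_ofReal hx.le]

theorem nl_mul {a b : ℝ≥0∞} (ha : a ≤ 1) (hb : b ≤ 1) : nl (a * b) = nl a + nl b := by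
  unfold nl
  by_cases h0 : a = 0
  · rw [h0]; simp
  by_cases h1 : b = 0
  · rw [h1]; simp
  have hat : a ≠ ⊤ := ne_top_of_le_ne_top ENNReal.one_ne_top ha
  have hbt : b ≠ ⊤ := ne_top_of_le_ne_top ENNReal.one_ne_top hb
  have hap := ENNReal.toReal_pos h0 hat
  have hbp := ENNReal.toReal_pos h1 hbt
  have ha1 : a.toReal ≤ 1 := by
    have := (ENNReal.toReal_le_toReal hat ENNReal.one_ne_top).mpr ha
    simpa using this
  have hb1 : b.toReal ≤ 1 := by
    have := (ENNReal.toReal_le_toReal hbt ENNReal.one_ne_top).mpr hb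
    simpa using this
  rw [if_neg (mul_ne_zero h0 h1), if_neg h0, if_neg h1, ENNReal.toReal_mul,
    Real.log_mul hap.ne' hbp.ne', ← ENNReal.ofReal_add]
  · congr 1; ring
  · have := Real.log_nonpos hap.le ha1; linarith
  · have := Real.log_nonpos hbp.le hb1; linarith

/-- the key pointwise inequality -/
theorem key_pt (m : ℕ) (hm : 1 ≤ m) (J J' JJ : ℝ≥0∞) (hJ1 : J ≤ 1) (hJ'1 : J' ≤ 1)
    (h : J ≤ JJ ^ ((1 : ℝ) / (m + 1)) * J' ^ ((m : ℝ) / (m + 1))) (T : ℝ) (hT : 0 < T)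
    (c1 c2 : ℝ) (hc1 : 0 ≤ c1) (hc2 : 0 ≤ c2) (hc : c1 = 1 - Real.log T + c2) :
    (m : ℝ≥0∞) * nl J' + ENNReal.ofReal c1
      ≤ ((m : ℝ≥0∞) + 1) * nl J + ENNReal.ofReal c2 + JJ / ENNReal.ofReal T := by
  have hm0 : (0 : ℝ) < m := by exact_mod_cast hm
  by_cases hJ0 : J = 0
  · have : nl J = ⊤ := by unfold nl; rw [if_pos hJ0]
    rw [this, ENNReal.mul_top (by simp)]
    simp
  by_cases hJJt : JJ = ⊤
  · rw [hJJt, ENNReal.top_div_of_ne_top ENNReal.ofReal_ne_top]
    simp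
  have hJ'0 : J' ≠ 0 := by
    rintro rfl
    rw [ENNReal.zero_rpow_of_pos (by positivity), mul_zero] at h
    exact hJ0 (le_antisymm h bot_le)
  have hJJ0 : JJ ≠ 0 := by
    rintro rfl
    rw [ENNReal.zero_rpow_of_pos (by positivity), zero_mul] at h
    exact hJ0 (le_antisymm h bot_le)
  have hJt : J ≠ ⊤ := ne_top_of_le_ne_top ENNReal.one_ne_top hJ1
  have hJ't : J' ≠ ⊤ := ne_top_of_le_ne_top ENNReal.one_ne_top hJ'1
  set x := J.toReal with hx
  set y := J'.toReal with hy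
  set z := JJ.toReal with hz
  have hxp : 0 < x := ENNReal.toReal_pos hJ0 hJt
  have hyp : 0 < y := ENNReal.toReal_pos hJ'0 hJ't
  have hzp : 0 < z := ENNReal.toReal_pos hJJ0 hJJt
  have hx1 : x ≤ 1 := by
    have := (ENNReal.toReal_le_toReal hJt ENNReal.one_ne_top).mpr hJ1
    simpa using this
  have hy1 : y ≤ 1 := by
    have := (ENNReal.toReal_le_toReal hJ't ENNReal.one_ne_top).mpr hJ'1
    simpa using this
  have hreal : x ≤ z ^ ((1 : ℝ) / (m + 1)) * y ^ ((m : ℝ) / (m + 1)) := by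
    have h1 : (JJ ^ ((1 : ℝ) / (m + 1)) * J' ^ ((m : ℝ) / (m + 1))) ≠ ⊤ :=
      ENNReal.mul_ne_top (ENNReal.rpow_ne_top_of_nonneg (by positivity) hJJt)
        (ENNReal.rpow_ne_top_of_nonneg (by positivity) hJ't)
    have h2 := (ENNReal.toReal_le_toReal hJt h1).mpr h
    rw [ENNReal.toReal_mul, ← ENNReal.toReal_rpow, ← ENNReal.toReal_rpow] at h2
    exact h2
  have hlog : Real.log x ≤ (1 : ℝ) / (m + 1) * Real.log z + (m : ℝ) / (m + 1) * Real.log y := by
    have h1 := Real.log_le_log hxp hreal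
    rw [Real.log_mul (Real.rpow_pos_of_pos hzp _).ne' (Real.rpow_pos_of_pos hyp _).ne',
      Real.log_rpow hzp, Real.log_rpow hyp] at h1
    exact h1
  have hlog2 : ((m : ℝ) + 1) * Real.log x ≤ Real.log z + m * Real.log y := by
    have h1 := mul_le_mul_of_nonneg_left hlog (by positivity : (0 : ℝ) ≤ (m : ℝ) + 1)
    have h2 : ((m : ℝ) + 1) * ((1 : ℝ) / (m + 1) * Real.log z + (m : ℝ) / (m + 1) * Real.log y)
        = Real.log z + m * Real.log y := by
      field_simp
    rwa [h2] at h1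
  have hlz : Real.log z ≤ Real.log T + z / T - 1 := by
    have h1 := Real.log_le_sub_one_of_pos (div_pos hzp hT)
    rw [Real.log_div hzp.ne' hT.ne'] at h1
    linarith
  have hfin : (m : ℝ) * (-Real.log y) + c1 ≤ ((m : ℝ) + 1) * (-Real.log x) + c2 + z / T := by
    rw [hc]; linarith
  have hnx : 0 ≤ -Real.log x := by have := Real.log_nonpos hxp.le hx1; linarith
  have hny : 0 ≤ -Real.log y := by have := Real.log_nonpos hyp.le hy1; linarith
  have e1 : nl J = ENNReal.ofReal (-Real.log x) := by unfold nl; rw [if_neg hJ0]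
  have e2 : nl J' = ENNReal.ofReal (-Real.log y) := by unfold nl; rw [if_neg hJ'0]
  have e3 : JJ / ENNReal.ofReal T = ENNReal.ofReal (z / T) := by
    rw [ENNReal.ofReal_div_of_pos hT, hz, ENNReal.ofReal_toReal hJJt]
  have e4 : (m : ℝ≥0∞) = ENNReal.ofReal (m : ℝ) := by simp
  have e5 : (m : ℝ≥0∞) + 1 = ENNReal.ofReal ((m : ℝ) + 1) := by
    rw [ENNReal.ofReal_add hm0.le zero_le_one]; simp
  rw [e1, e2, e3, e5, e4, ← ENNReal.ofReal_mul hm0.le, ← ENNReal.ofReal_mul (by positivity),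
    ← ENNReal.ofReal_add (by positivity) hc1, ← ENNReal.ofReal_add (by positivity) hc2,
    ← ENNReal.ofReal_add (by positivity) (by positivity)]
  exact ENNReal.ofReal_le_ofReal hfin

theorem holder_k (k v : ℝ≥0∞) (hv0 : v ≠ 0) (hv : v ≠ ⊤) (m : ℕ) :
    (k * (v ^ m)⁻¹) ^ ((1 : ℝ) / (m + 1)) * (k * v) ^ ((m : ℝ) / (m + 1)) = k := by
  have hp : (0 : ℝ) ≤ 1 / (m + 1) := by positivity
  have hq : (0 : ℝ) ≤ (m : ℝ) / (m + 1) := by positivity
  rw [ENNReal.mul_rpow_of_nonneg _ _ hp, ENNReal.mul_rpow_of_nonneg _ _ hq]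
  have h1 : k ^ ((1 : ℝ) / (m + 1)) * k ^ ((m : ℝ) / (m + 1)) = k := by
    rw [← ENNReal.rpow_add_of_nonneg _ _ hp hq]
    have : (1 : ℝ) / (m + 1) + (m : ℝ) / (m + 1) = 1 := by field_simp; ring
    rw [this, ENNReal.rpow_one]
  have h2 : ((v ^ m)⁻¹) ^ ((1 : ℝ) / (m + 1)) * v ^ ((m : ℝ) / (m + 1)) = 1 := by
    rw [ENNReal.inv_rpow]
    have h3 : (v ^ m) ^ ((1 : ℝ) / (m + 1)) = v ^ ((m : ℝ) / (m + 1)) := by
      rw [← ENNReal.rpow_natCast v m, ← ENNReal.rpow_mul]
      congr 1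
      ring
    rw [h3]
    refine ENNReal.inv_mul_cancel ?_ ?_
    · exact (ENNReal.rpow_pos (pos_iff_ne_zero.mpr hv0) hv).ne'
    · exact ENNReal.rpow_ne_top_of_nonneg hq hv
  calc _ = (k ^ ((1 : ℝ) / (m + 1)) * k ^ ((m : ℝ) / (m + 1)))
        * (((v ^ m)⁻¹) ^ ((1 : ℝ) / (m + 1)) * v ^ ((m : ℝ) / (m + 1))) := by ring
    _ = k := by rw [h1, h2, mul_one]

/-- The functional `JJ`. -/
noncomputable def JJf {d : ℕ} (π : Measure (E d)) (j m : ℕ) {n : ℕ} (X1 : Fin n → E d)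
    (A : E d → ℝ≥0∞) (s : E d) : ℝ≥0∞ :=
  ∫⁻ s', same j X1 s s' * A s' * (Wt j m (s' - s) * (vt j (s' - s) ^ m)⁻¹) ∂π

theorem vt_ne_zero (j : ℕ) {d : ℕ} (u : E d) : vt j u ≠ 0 := by
  unfold vt
  have : 0 < (‖u‖ + ((2 : ℝ) ^ j)⁻¹) / 4 := by positivity
  simpa using this

theorem vt_ne_top (j : ℕ) {d : ℕ} (u : E d) : vt j u ≠ ⊤ := ENNReal.ofReal_ne_top

theorem holder_J {d : ℕ} (π : Measure (E d)) [SFinite π] (j m : ℕ) {n : ℕ} (X1 : Fin n → E d)
    (A : E d → ℝ≥0∞) (hA : Measurable A) (s : E d) :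
    Jf π j m X1 A s ≤ (JJf π j m X1 A s) ^ ((1 : ℝ) / (m + 1))
      * (Jf' π j m X1 A s) ^ ((m : ℝ) / (m + 1)) := by
  have hk : Measurable (fun s' => same j X1 s s' * A s' * Wt j m (s' - s)) :=
    ((meas_same j measurable_const measurable_const measurable_id).mul hA).mul
      (meas_Wt j m (measurable_id.sub measurable_const))
  have hv : Measurable (fun s' : E d => vt j (s' - s)) :=
    meas_vt j (measurable_id.sub measurable_const)
  have key := ENNReal.lintegral_mul_norm_pow_le (μ := π)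
    (f := fun s' => same j X1 s s' * A s' * Wt j m (s' - s) * (vt j (s' - s) ^ m)⁻¹)
    (g := fun s' => same j X1 s s' * A s' * Wt j m (s' - s) * vt j (s' - s))
    (hk.mul (hv.pow_const m).inv).aemeasurable (hk.mul hv).aemeasurable
    (p := (1 : ℝ) / (m + 1)) (q := (m : ℝ) / (m + 1)) (by positivity) (by positivity)
    (by field_simp; ring)
  have e1 : Jf π j m X1 A s = ∫⁻ s', (same j X1 s s' * A s' * Wt j m (s' - s)
      * (vt j (s' - s) ^ m)⁻¹) ^ ((1 : ℝ) / (m + 1)) *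
      (same j X1 s s' * A s' * Wt j m (s' - s) * vt j (s' - s)) ^ ((m : ℝ) / (m + 1)) ∂π := by
    unfold Jf
    refine lintegral_congr fun s' => ?_
    rw [holder_k _ _ (vt_ne_zero j _) (vt_ne_top j _)]
  rw [e1]
  refine key.trans (le_of_eq ?_)
  unfold JJf Jf'
  congr 2
  · refine lintegral_congr fun s' => ?_
    ring
  · refine lintegral_congr fun s' => ?_
    ring

/-! ## the integrated bound for `JJ` -/

theorem lab_same_small {j d : ℕ} {x s s' : E d} (h : lab j x s' = lab j x s) :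
    |⟪x, s' - s⟫| ≤ ((2 : ℝ) ^ j)⁻¹ := by
  have h1 : ⌊(2 : ℝ) ^ j * ⟪x, s'⟫⌋ = ⌊(2 : ℝ) ^ j * ⟪x, s⟫⌋ := h
  have h2 := Int.abs_sub_lt_one_of_floor_eq_floor h1
  have h3 : (0 : ℝ) < 2 ^ j := by positivity
  rw [← mul_sub, abs_mul, abs_of_pos h3] at h2
  rw [inner_sub_right, ← one_div, le_div_iff₀ h3]
  linarith

theorem prob_lab (j : ℕ) {d : ℕ} (s s' : E d) :
    stdGaussian (E d) {x | lab j x s' = lab j x s}
      ≤ ENNReal.ofReal (2 * ((2 : ℝ) ^ j)⁻¹ / (‖s' - s‖ + ((2 : ℝ) ^ j)⁻¹)) := by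
  set δ : ℝ := ((2 : ℝ) ^ j)⁻¹ with hδ
  have hδ0 : 0 < δ := by positivity
  have hn := norm_nonneg (s' - s)
  rcases le_or_gt ‖s' - s‖ δ with h | h
  · refine prob_le_one.trans ?_
    rw [ENNReal.one_le_ofReal, le_div_iff₀ (by positivity)]
    linarith
  · have hu : s' - s ≠ 0 := by
      rw [← norm_pos_iff]; linarith
    calc stdGaussian (E d) {x | lab j x s' = lab j x s}
        ≤ stdGaussian (E d) {x | |0 + ⟪x, s' - s⟫| ≤ δ} := by
          refine measure_mono fun x hx => ?_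
          have hx' : lab j x s' = lab j x s := hx
          show |0 + ⟪x, s' - s⟫| ≤ δ
          rw [zero_add]
          exact lab_same_small hx'
      _ ≤ ENNReal.ofReal (δ / ‖s' - s‖) := gauss_anti _ hu _ _ hδ0.le
      _ ≤ _ := by
          refine ENNReal.ofReal_le_ofReal ?_
          rw [div_le_div_iff₀ (by linarith) (by linarith)]
          nlinarith

theorem int_same (j n : ℕ) {d : ℕ} (s s' : E d) :
    ∫⁻ X, same j X s s' ∂(rows n d)
      ≤ ENNReal.ofReal ((2 * ((2 : ℝ) ^ j)⁻¹ / (‖s' - s‖ + ((2 : ℝ) ^ j)⁻¹)) ^ n) := by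
  have hmeas : MeasurableSet {x : E d | lab j x s' = lab j x s} :=
    measurableSet_eq_fun (meas_lab j measurable_id measurable_const)
      (meas_lab j measurable_id measurable_const)
  have e1 : ∀ X : Fin n → E d, same j X s s'
      = (Set.pi Set.univ (fun _ : Fin n => {x : E d | lab j x s' = lab j x s})).indicator
        (fun _ => (1 : ℝ≥0∞)) X := by
    intro X
    unfold same
    by_cases h : labs j X s' = labs j X s
    · rw [if_pos h, Set.indicator_of_mem]
      intro i _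
      exact congrFun h i
    · rw [if_neg h, Set.indicator_of_notMem]
      intro h2
      exact h (funext fun i => h2 i (Set.mem_univ i))
  rw [lintegral_congr e1, lintegral_indicator_const (MeasurableSet.univ_pi fun _ => hmeas), one_mul]
  unfold rows
  rw [Measure.pi_pi, Finset.prod_const, Finset.card_univ, Fintype.card_fin,
    ENNReal.ofReal_pow (by positivity)]
  exact pow_le_pow_left' (prob_lab j s s') n

theorem W2_eq (j m : ℕ) {d : ℕ} (u : E d) :
    Wt j m u * (vt j u ^ m)⁻¹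
      = ENNReal.ofReal ((4 * ((2 : ℝ) ^ j)⁻¹) ^ m * ((‖u‖ + ((2 : ℝ) ^ j)⁻¹) ^ (2 * m))⁻¹) := by
  have hp : 0 < ‖u‖ + ((2 : ℝ) ^ j)⁻¹ := by positivity
  unfold Wt vt
  rw [← ENNReal.ofReal_pow (by positivity), ← ENNReal.ofReal_inv_of_pos (by positivity),
    ← ENNReal.ofReal_mul (by positivity)]
  congr 1
  have e : (2 : ℝ) ^ j * ‖u‖ + 1 = (2 : ℝ) ^ j * (‖u‖ + ((2 : ℝ) ^ j)⁻¹) := by
    rw [mul_add, mul_inv_cancel₀ (by positivity)]
  rw [e, mul_pow, div_pow, mul_pow, pow_mul', sq]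
  rw [inv_pow]
  have h2 : ((2 : ℝ) ^ j) ^ m ≠ 0 := by positivity
  have h3 : (‖u‖ + ((2 : ℝ) ^ j)⁻¹) ^ m ≠ 0 := by positivity
  field_simp

theorem int_JJ {C : ℝ} (hC1 : 1 ≤ C) {m d : ℕ} (hm : 1 ≤ m) (hd1 : 100 * m ≤ d)
    (hd2 : d ≤ 200 * m) (π : Measure (E d)) (hπ : Prior d π)
    (hC : ∀ q : ℕ, 2 * q + 2 ≤ d → ∀ (v : E d) (δ : ℝ), 0 < δ →
      ∫⁻ s, ENNReal.ofReal (((‖s - v‖ + δ) ^ q)⁻¹) ∂π ≤ ENNReal.ofReal (C ^ d)) (j : ℕ) (s : E d) :
    ∫⁻ X, ∫⁻ s', same j X s s' * (Wt j m (s' - s) * (vt j (s' - s) ^ m)⁻¹) ∂π ∂(rows (30 * m) d)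
      ≤ ENNReal.ofReal ((2 ^ 32 * C ^ 200) ^ m * (((2 : ℝ) ^ j)⁻¹) ^ (31 * m)) := by
  have := hπ.prob
  set δ : ℝ := ((2 : ℝ) ^ j)⁻¹ with hδ
  have hδ0 : 0 < δ := by positivity
  have hW : Measurable (fun s' : E d => Wt j m (s' - s) * (vt j (s' - s) ^ m)⁻¹) :=
    (meas_Wt j m (measurable_id.sub measurable_const)).mul
      (((meas_vt j (measurable_id.sub measurable_const)).pow_const m).inv)
  rw [lintegral_lintegral_swap]
  · calc ∫⁻ s', ∫⁻ X, same j X s s' * (Wt j m (s' - s) * (vt j (s' - s) ^ m)⁻¹)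
          ∂(rows (30 * m) d) ∂π
        ≤ ∫⁻ s', ENNReal.ofReal (2 ^ (30 * m) * 4 ^ m * δ ^ (31 * m)) *
            ENNReal.ofReal (((‖s' - s‖ + δ) ^ (32 * m))⁻¹) ∂π := by
          refine lintegral_mono fun s' => ?_
          have hms : Measurable (fun X : Fin (30 * m) → E d => same j X s s') :=
            meas_same j measurable_id measurable_const measurable_const
          rw [lintegral_mul_const _ hms, W2_eq, ← ENNReal.ofReal_mul (by positivity)]
          refine (mul_le_mul_left (int_same j (30 * m) s s') _).trans ?_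
          rw [← ENNReal.ofReal_mul (by positivity), ← hδ]
          refine ENNReal.ofReal_le_ofReal (le_of_eq ?_)
          have hp : 0 < ‖s' - s‖ + δ := by positivity
          have e1 : (‖s' - s‖ + δ) ^ (32 * m)
              = (‖s' - s‖ + δ) ^ (30 * m) * (‖s' - s‖ + δ) ^ (2 * m) := by
            rw [← pow_add]; congr 1; ring
          have e2 : δ ^ (31 * m) = δ ^ (30 * m) * δ ^ m := by
            rw [← pow_add]; congr 1; ring
          rw [e1, e2, div_pow, mul_pow, mul_pow, mul_inv]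
          clear_value δ
          field_simp
      _ = ENNReal.ofReal (2 ^ (30 * m) * 4 ^ m * δ ^ (31 * m)) *
            ∫⁻ s', ENNReal.ofReal (((‖s' - s‖ + δ) ^ (32 * m))⁻¹) ∂π := by
          rw [lintegral_const_mul]
          fun_prop
      _ ≤ ENNReal.ofReal (2 ^ (30 * m) * 4 ^ m * δ ^ (31 * m)) * ENNReal.ofReal (C ^ d) :=
          mul_le_mul_right (hC (32 * m) (by omega) s δ hδ0) _
      _ ≤ _ := by
          rw [← ENNReal.ofReal_mul (by positivity)]
          refine ENNReal.ofReal_le_ofReal ?_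
          have h1 : C ^ d ≤ C ^ (200 * m) := pow_le_pow_right₀ hC1 hd2
          have h2 : (2 : ℝ) ^ (30 * m) * 4 ^ m = (2 ^ 32) ^ m := by
            rw [pow_mul, show (4 : ℝ) = 2 ^ 2 by norm_num, ← pow_mul, ← pow_mul, ← pow_mul,
              ← pow_add]
            congr 1; ring
          rw [h2, mul_pow, ← pow_mul C]
          calc (2 ^ 32 : ℝ) ^ m * δ ^ (31 * m) * C ^ d
              ≤ (2 ^ 32 : ℝ) ^ m * δ ^ (31 * m) * C ^ (200 * m) :=
                mul_le_mul_of_nonneg_left h1 (by positivity)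
            _ = _ := by ring
  · refine Measurable.aemeasurable ?_
    exact (meas_same j measurable_fst measurable_const measurable_snd).mul
      (hW.comp measurable_snd)

/-! ## the entropy bound -/

theorem sum_entropy {Z : Type} [Fintype Z] [Nonempty Z] (a : Z → ℝ≥0∞) (ha : ∑ z, a z = 1) :
    ∑ z, a z * nl (a z) ≤ ENNReal.ofReal (Real.log (Fintype.card Z)) := by
  have hc : (0 : ℝ) < Fintype.card Z := by exact_mod_cast Fintype.card_pos
  have hc1 : (1 : ℝ) ≤ Fintype.card Z := by exact_mod_cast Fintype.card_pos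
  have hlog : 0 ≤ Real.log (Fintype.card Z) := Real.log_nonneg hc1
  have ha1 : ∀ z, a z ≤ 1 := fun z => by
    rw [← ha]; exact Finset.single_le_sum (fun _ _ => bot_le) (Finset.mem_univ z)
  have hpt : ∀ z, a z * nl (a z) + a z
      ≤ ENNReal.ofReal (1 / Fintype.card Z) + a z * ENNReal.ofReal (Real.log (Fintype.card Z)) := by
    intro z
    by_cases h0 : a z = 0
    · rw [h0]; simp
    have ht : a z ≠ ⊤ := ne_top_of_le_ne_top ENNReal.one_ne_top (ha1 z)
    set x := (a z).toReal with hx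
    have hxp : 0 < x := ENNReal.toReal_pos h0 ht
    have hx1 : x ≤ 1 := by
      have := (ENNReal.toReal_le_toReal ht ENNReal.one_ne_top).mpr (ha1 z)
      simpa using this
    have e1 : nl (a z) = ENNReal.ofReal (-Real.log x) := by unfold nl; rw [if_neg h0]
    have e2 : a z = ENNReal.ofReal x := by rw [hx, ENNReal.ofReal_toReal ht]
    have hnx : 0 ≤ -Real.log x := by have := Real.log_nonpos hxp.le hx1; linarith
    rw [e1, e2, ← ENNReal.ofReal_mul hxp.le, ← ENNReal.ofReal_add (by positivity) hxp.le,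
      ← ENNReal.ofReal_mul hxp.le, ← ENNReal.ofReal_add (by positivity) (by positivity)]
    refine ENNReal.ofReal_le_ofReal ?_
    have h1 := Real.log_le_sub_one_of_pos (show 0 < 1 / (Fintype.card Z * x) by positivity)
    rw [Real.log_div one_ne_zero (by positivity), Real.log_one, Real.log_mul hc.ne' hxp.ne'] at h1
    have h2 := mul_le_mul_of_nonneg_left h1 hxp.le
    have h3 : x * (1 / (Fintype.card Z * x) - 1) = 1 / Fintype.card Z - x := by
      field_simp
    rw [h3] at h2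
    linarith
  have hsum := Finset.sum_le_sum (s := Finset.univ) fun z (_ : z ∈ Finset.univ) => hpt z
  rw [Finset.sum_add_distrib, Finset.sum_add_distrib, ← Finset.sum_mul, ha, one_mul,
    Finset.sum_const, Finset.card_univ, nsmul_eq_mul] at hsum
  have h4 : (Fintype.card Z : ℝ≥0∞) * ENNReal.ofReal (1 / Fintype.card Z) = 1 := by
    rw [← ENNReal.ofReal_natCast, ← ENNReal.ofReal_mul hc.le, mul_one_div_cancel hc.ne',
      ENNReal.ofReal_one]
  rw [h4, add_comm (1 : ℝ≥0∞)] at hsum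
  exact (ENNReal.add_le_add_iff_right ENNReal.one_ne_top).mp hsum

theorem Jf_ge {d : ℕ} (π : Measure (E d)) (hπ : Prior d π) (j m : ℕ) {n : ℕ} (X1 : Fin n → E d)
    (A : E d → ℝ≥0∞) (hA : Measurable A) (s : E d) (hs : ‖s‖ = 1) :
    (∫⁻ s', same j X1 s s' * A s' ∂π) * ENNReal.ofReal ((((2 : ℝ) ^ (j + 2)) ^ m)⁻¹)
      ≤ Jf π j m X1 A s := by
  unfold Jf
  have hmm : Measurable (fun s' => same j X1 s s' * A s') :=
    (meas_same j measurable_const measurable_const measurable_id).mul hA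
  rw [← lintegral_mul_const _ hmm]
  refine lintegral_mono_ae ?_
  filter_upwards [hπ.sphere] with s' hs'
  refine mul_le_mul_right ?_ _
  unfold Wt
  refine ENNReal.ofReal_le_ofReal ?_
  refine inv_anti₀ (by positivity) ?_
  refine pow_le_pow_left₀ (by positivity) ?_ m
  have h1 : ‖s' - s‖ ≤ 2 := by
    have := norm_sub_le s' s
    rw [hs', hs] at this
    linarith
  have h2 : (1 : ℝ) ≤ 2 ^ j := one_le_pow₀ (by norm_num)
  have h3 : (2 : ℝ) ^ (j + 2) = 4 * 2 ^ j := by rw [pow_add]; ring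
  rw [h3]
  nlinarith

theorem Jf_le_one {d : ℕ} (π : Measure (E d)) (hπ : Prior d π) (j m : ℕ) {n : ℕ}
    (X1 : Fin n → E d) (A : E d → ℝ≥0∞) (hA1 : ∀ s, A s ≤ 1) (s : E d) :
    Jf π j m X1 A s ≤ 1 := by
  have := hπ.prob
  unfold Jf
  calc ∫⁻ s', same j X1 s s' * A s' * Wt j m (s' - s) ∂π ≤ ∫⁻ _, 1 ∂π := by
        refine lintegral_mono fun s' => ?_
        have h1 : Wt j m (s' - s) ≤ 1 := by
          unfold Wt
          rw [← ENNReal.ofReal_one]
          refine ENNReal.ofReal_le_ofReal ?_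
          refine inv_le_one_of_one_le₀ (one_le_pow₀ ?_)
          have : 0 ≤ (2 : ℝ) ^ j * ‖s' - s‖ := by positivity
          linarith
        calc same j X1 s s' * A s' * Wt j m (s' - s) ≤ 1 * 1 * 1 := by
              gcongr
              · exact same_le_one _ _ _
              · exact hA1 s'
          _ = 1 := by simp
    _ = 1 := by simp

theorem Jf'_le_one {d : ℕ} (π : Measure (E d)) (hπ : Prior d π) (j m : ℕ) {n : ℕ}
    (X1 : Fin n → E d) (A : E d → ℝ≥0∞) (hA1 : ∀ s, A s ≤ 1) (s : E d) (hs : ‖s‖ = 1) :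
    Jf' π j m X1 A s ≤ 1 := by
  refine le_trans ?_ (Jf_le_one π hπ j m X1 A hA1 s)
  unfold Jf' Jf
  refine lintegral_mono_ae ?_
  filter_upwards [hπ.sphere] with s' hs'
  refine mul_le_mul_right ?_ _
  have h1 : vt j (s' - s) ≤ 1 := by
    unfold vt
    rw [← ENNReal.ofReal_one]
    refine ENNReal.ofReal_le_ofReal ?_
    have h1 : ‖s' - s‖ ≤ 2 := by
      have := norm_sub_le s' s
      rw [hs', hs] at this
      linarith
    have h2 : ((2 : ℝ) ^ j)⁻¹ ≤ 1 := inv_le_one_of_one_le₀ (one_le_pow₀ (by norm_num))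
    linarith
  calc Wt j m (s' - s) * vt j (s' - s) ≤ Wt j m (s' - s) * 1 := by gcongr
    _ = _ := mul_one _

theorem lint_sum_weights {d : ℕ} {Z : Type} [Fintype Z] (π : Measure (E d)) (A : Z → E d → ℝ≥0∞)
    (hA : ∀ z, Measurable (A z)) (hA1 : ∀ s, ∑ z, A z s = 1) (g : E d → ℝ≥0∞)
    (hg : Measurable g) : ∑ z, ∫⁻ s, A z s * g s ∂π = ∫⁻ s, g s ∂π := by
  have h := lintegral_finsetSum (μ := π) Finset.univ (f := fun z s => A z s * g s)
    (fun z _ => (hA z).mul hg)
  rw [← h]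
  refine lintegral_congr fun s => ?_
  rw [← Finset.sum_mul, hA1, one_mul]

theorem swap_aux {S X : Type*} [MeasurableSpace S] [MeasurableSpace X] (π : Measure S) [SFinite π]
    (ρ : Measure X) [SFinite ρ] (A : S → ℝ≥0∞) (hA : Measurable A) (G : S × X → ℝ≥0∞)
    (hG : Measurable G) :
    ∫⁻ s, A s * ∫⁻ x, G (s, x) ∂ρ ∂π = ∫⁻ x, ∫⁻ s, A s * G (s, x) ∂π ∂ρ := by
  have h := lintegral_lintegral_swap (μ := π) (ν := ρ) (f := fun s x => A s * G (s, x))
    ((hA.comp measurable_fst).mul hG).aemeasurable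
  rw [← h]
  refine lintegral_congr fun s => ?_
  have hGs : Measurable (fun x => G (s, x)) := hG.comp measurable_prodMk_left
  rw [lintegral_const_mul _ hGs]

/-- entropy bound for `ν` -/
theorem ent_nu {d : ℕ} (n : ℕ) (π : Measure (E d)) (hπ : Prior d π) (j : ℕ) {Z : Type} [Fintype Z]
    [Nonempty Z] (A : Z → E d → ℝ≥0∞) (hA : ∀ z, Measurable (A z)) (hA1 : ∀ s, ∑ z, A z s = 1) :
    ∑ z, ∫⁻ s, A z s * ∫⁻ X, nl (∫⁻ s', same j X s s' * A z s' ∂π) ∂(rows n d) ∂π
      ≤ ENNReal.ofReal (Real.log (Fintype.card Z)) + ENNReal.ofReal (n * (j * Real.log 2 + 4)) := by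
  have := hπ.prob
  have hAle : ∀ z s, A z s ≤ 1 := fun z s => by
    rw [← hA1 s]; exact Finset.single_le_sum (f := fun z => A z s) (fun _ _ => bot_le)
      (Finset.mem_univ z)
  set a : Z → ℝ≥0∞ := fun z => ∫⁻ s, A z s ∂π with ha
  have hasum : ∑ z, a z = 1 := by
    have := lint_sum_weights π A hA hA1 (fun _ => 1) measurable_const
    simpa using this
  have ha1 : ∀ z, a z ≤ 1 := fun z => by
    rw [← hasum]; exact Finset.single_le_sum (fun _ _ => bot_le) (Finset.mem_univ z)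
  have hp1 : ∀ l : Fin n → ℤ, ∏ r, pj j (l r) ≤ 1 := fun l =>
    (ENNReal.le_tsum (f := fun l : Fin n → ℤ => ∏ r, pj j (l r)) l).trans (pj_prod_sum j n)
  -- joint measurability of `ν`
  have hnu : ∀ z, Measurable (fun q : E d × (Fin n → E d) =>
      ∫⁻ s', same j q.2 q.1 s' * A z s' ∂π) := by
    intro z
    refine Measurable.lintegral_prod_right'
      (f := fun w : (E d × (Fin n → E d)) × E d => same j w.1.2 w.1.1 w.2 * A z w.2) ?_
    exact (meas_same j (measurable_snd.comp measurable_fst) (measurable_fst.comp measurable_fst)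
      measurable_snd).mul ((hA z).comp measurable_snd)
  have hcode : Measurable (fun q : E d × (Fin n → E d) => nl (∏ r, pj j (labs j q.2 q.1 r))) := by
    have h1 : Measurable (fun l : Fin n → ℤ => nl (∏ r, pj j (l r))) := measurable_of_countable _
    exact h1.comp (meas_labs j measurable_snd measurable_fst)
  -- one `z`
  have hz : ∀ z, ∫⁻ s, A z s * ∫⁻ X, nl (∫⁻ s', same j X s s' * A z s' ∂π) ∂(rows n d) ∂π
      ≤ a z * nl (a z) + ∫⁻ s, A z s * ∫⁻ X, nl (∏ r, pj j (labs j X s r)) ∂(rows n d) ∂π := by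
    intro z
    have e1 := swap_aux π (rows n d) (A z) (hA z)
      (fun q => nl (∫⁻ s', same j q.2 q.1 s' * A z s' ∂π)) (measurable_nl.comp (hnu z))
    have e2 := swap_aux π (rows n d) (A z) (hA z) (fun q => nl (∏ r, pj j (labs j q.2 q.1 r))) hcode
    simp only at e1 e2
    rw [e1, e2]
    have e3 : a z * nl (a z) = ∫⁻ _, a z * nl (a z) ∂(rows n d) := by simp
    rw [e3, ← lintegral_add_left measurable_const]
    refine lintegral_mono fun X => ?_
    have key := gibbs_cells π (A z) (hA z) (hAle z) (fun s => labs j X s)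
      (meas_labs j measurable_const measurable_id) (fun l => a z * ∏ r, pj j (l r)) (by
        rw [ENNReal.tsum_mul_left]
        calc a z * ∑' l : Fin n → ℤ, ∏ r, pj j (l r) ≤ a z * 1 :=
              mul_le_mul_right (pj_prod_sum j n) _
          _ = a z := mul_one _)
    refine le_trans (le_of_eq ?_) (key.trans (le_of_eq ?_))
    · rfl
    · have e4 : ∀ s, A z s * nl (a z * ∏ r, pj j (labs j X s r))
          = A z s * nl (a z) + A z s * nl (∏ r, pj j (labs j X s r)) := fun s => by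
        rw [nl_mul (ha1 z) (hp1 _), mul_add]
      rw [lintegral_congr e4, lintegral_add_left ((hA z).mul_const _),
        lintegral_mul_const _ (hA z)]
  calc ∑ z, ∫⁻ s, A z s * ∫⁻ X, nl (∫⁻ s', same j X s s' * A z s' ∂π) ∂(rows n d) ∂π
      ≤ ∑ z, (a z * nl (a z)
        + ∫⁻ s, A z s * ∫⁻ X, nl (∏ r, pj j (labs j X s r)) ∂(rows n d) ∂π) :=
        Finset.sum_le_sum fun z _ => hz z
    _ = ∑ z, a z * nl (a z) + ∫⁻ s, ∫⁻ X, nl (∏ r, pj j (labs j X s r)) ∂(rows n d) ∂π := by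
        rw [Finset.sum_add_distrib, lint_sum_weights π A hA hA1 _ (Measurable.lintegral_prod_right'
          (f := fun q : E d × (Fin n → E d) => nl (∏ r, pj j (labs j q.2 q.1 r))) hcode)]
    _ ≤ _ := by
        refine add_le_add (sum_entropy a hasum) ?_
        calc ∫⁻ s, ∫⁻ X, nl (∏ r, pj j (labs j X s r)) ∂(rows n d) ∂π
            ≤ ∫⁻ _, ENNReal.ofReal (n * (j * Real.log 2 + 4)) ∂π := by
              refine lintegral_mono_ae ?_
              filter_upwards [hπ.sphere] with s hs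
              exact code_len j n s hs
          _ = _ := by simp

/-- entropy bound for `J` -/
theorem ent_J {d : ℕ} (n m : ℕ) (π : Measure (E d)) (hπ : Prior d π) (j : ℕ) {Z : Type} [Fintype Z]
    [Nonempty Z] (A : Z → E d → ℝ≥0∞) (hA : ∀ z, Measurable (A z)) (hA1 : ∀ s, ∑ z, A z s = 1) :
    ∑ z, ∫⁻ s, A z s * ∫⁻ X, nl (Jf π j m X (A z) s) ∂(rows n d) ∂π
      ≤ ENNReal.ofReal (Real.log (Fintype.card Z)) + ENNReal.ofReal (n * (j * Real.log 2 + 4))
        + ENNReal.ofReal (m * ((j + 2) * Real.log 2)) := by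
  have := hπ.prob
  have hAle : ∀ z s, A z s ≤ 1 := fun z s => by
    rw [← hA1 s]; exact Finset.single_le_sum (f := fun z => A z s) (fun _ _ => bot_le)
      (Finset.mem_univ z)
  have hl2 : 0 < Real.log 2 := Real.log_pos (by norm_num)
  set c : ℝ≥0∞ := ENNReal.ofReal (m * ((j + 2) * Real.log 2)) with hc
  have hcn : nl (ENNReal.ofReal ((((2 : ℝ) ^ (j + 2)) ^ m)⁻¹)) = c := by
    rw [nl_ofReal (by positivity), hc]
    congr 1
    rw [Real.log_inv, Real.log_pow, Real.log_pow]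
    push_cast
    ring
  have hc1 : ENNReal.ofReal ((((2 : ℝ) ^ (j + 2)) ^ m)⁻¹) ≤ 1 := by
    rw [← ENNReal.ofReal_one]
    refine ENNReal.ofReal_le_ofReal ?_
    exact inv_le_one_of_one_le₀ (one_le_pow₀ (one_le_pow₀ (by norm_num)))
  have hnu1 : ∀ z s (X : Fin n → E d), ∫⁻ s', same j X s s' * A z s' ∂π ≤ 1 := by
    intro z s X
    calc ∫⁻ s', same j X s s' * A z s' ∂π ≤ ∫⁻ _, 1 ∂π := by
          refine lintegral_mono fun s' => ?_
          calc same j X s s' * A z s' ≤ 1 * 1 := by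
                gcongr
                · exact same_le_one _ _ _
                · exact hAle z s'
            _ = 1 := by simp
      _ = 1 := by simp
  have hz : ∀ z, ∫⁻ s, A z s * ∫⁻ X, nl (Jf π j m X (A z) s) ∂(rows n d) ∂π
      ≤ (∫⁻ s, A z s * ∫⁻ X, nl (∫⁻ s', same j X s s' * A z s' ∂π) ∂(rows n d) ∂π)
        + c * ∫⁻ s, A z s ∂π := by
    intro z
    rw [← lintegral_const_mul _ (hA z), ← lintegral_add_right _ ((hA z).const_mul _)]
    refine lintegral_mono_ae ?_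
    filter_upwards [hπ.sphere] with s hs
    have h1 : ∫⁻ X, nl (Jf π j m X (A z) s) ∂(rows n d)
        ≤ (∫⁻ X, nl (∫⁻ s', same j X s s' * A z s' ∂π) ∂(rows n d)) + c := by
      calc ∫⁻ X, nl (Jf π j m X (A z) s) ∂(rows n d)
          ≤ ∫⁻ X, (nl (∫⁻ s', same j X s s' * A z s' ∂π) + c) ∂(rows n d) := by
            refine lintegral_mono fun X => ?_
            refine (nl_anti (Jf_ge π hπ j m X (A z) (hA z) s hs)).trans ?_
            rw [nl_mul (hnu1 z s X) hc1, hcn]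
        _ = _ := by
            rw [lintegral_add_right _ measurable_const]
            simp
    calc A z s * ∫⁻ X, nl (Jf π j m X (A z) s) ∂(rows n d)
        ≤ A z s * ((∫⁻ X, nl (∫⁻ s', same j X s s' * A z s' ∂π) ∂(rows n d)) + c) := by gcongr
      _ = _ := by ring
  have hsum : ∑ z, ∫⁻ s, A z s ∂π = 1 := by
    have := lint_sum_weights π A hA hA1 (fun _ => 1) measurable_const
    simpa using this
  calc ∑ z, ∫⁻ s, A z s * ∫⁻ X, nl (Jf π j m X (A z) s) ∂(rows n d) ∂π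
      ≤ ∑ z, ((∫⁻ s, A z s * ∫⁻ X, nl (∫⁻ s', same j X s s' * A z s' ∂π) ∂(rows n d) ∂π)
        + c * ∫⁻ s, A z s ∂π) := Finset.sum_le_sum fun z _ => hz z
    _ = (∑ z, ∫⁻ s, A z s * ∫⁻ X, nl (∫⁻ s', same j X s s' * A z s' ∂π) ∂(rows n d) ∂π) + c := by
        rw [Finset.sum_add_distrib, ← Finset.mul_sum, hsum, mul_one]
    _ ≤ _ := by
        gcongr
        exact ent_nu n π hπ j A hA hA1

end L7

open L7 in
theorem compare_step : ∃ C : ℝ, 1 ≤ C ∧ ∀ m d : ℕ, 1 ≤ m → 100 * m ≤ d → d ≤ 200 * m →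
    ∀ (π : Measure (E d)), Prior d π → ∀ (j : ℕ) (Z : Type) [Fintype Z] [Nonempty Z]
    (A : Z → E d → ℝ≥0∞), (∀ z, Measurable (A z)) → (∀ s, ∑ z, A z s = 1) →
    (∑ z, ∫⁻ s, A z s * ∫⁻ X1, nl (Jf' π j m X1 (A z) s) ∂(rows (30 * m) d) ∂π
      ≤ (∑ z, ∫⁻ s, A z s * ∫⁻ X1, nl (Jf π j m X1 (A z) s) ∂(rows (30 * m) d) ∂π)
        + ENNReal.ofReal (Real.log (Fintype.card Z) / m + C * m)) ∧
    (∑ z, ∫⁻ s, A z s * ∫⁻ X1, nl (Jf π j m X1 (A z) s) ∂(rows (30 * m) d) ∂π) ≠ ⊤ := by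
  obtain ⟨C, hC1, hC⟩ := prior_moment
  have hl2 : 0 < Real.log 2 := Real.log_pos (by norm_num)
  have hl2' : Real.log 2 ≤ 1 := by
    have := Real.log_two_lt_d9
    linarith
  set L0 : ℝ := Real.log (2 ^ 32 * C ^ 200) with hL0
  have hbase : (1 : ℝ) ≤ 2 ^ 32 * C ^ 200 := by
    have : (1 : ℝ) ≤ C ^ 200 := one_le_pow₀ hC1
    nlinarith
  have hL00 : 0 ≤ L0 := Real.log_nonneg hbase
  refine ⟨122 + L0, by linarith, ?_⟩
  intro m d hm hd1 hd2 π hπ j Z _ _ A hA hA1
  have := hπ.prob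
  have hm0 : (0 : ℝ) < m := by exact_mod_cast hm
  have hm1 : (1 : ℝ) ≤ m := by exact_mod_cast hm
  have hcard : (0 : ℝ) ≤ Real.log (Fintype.card Z) :=
    Real.log_nonneg (by exact_mod_cast Fintype.card_pos)
  have hAle : ∀ z s, A z s ≤ 1 := fun z s => by
    rw [← hA1 s]; exact Finset.single_le_sum (f := fun z => A z s) (fun _ _ => bot_le)
      (Finset.mem_univ z)
  have hsum : ∑ z, ∫⁻ s, A z s ∂π = 1 := by
    have := lint_sum_weights π A hA hA1 (fun _ => 1) measurable_const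
    simpa using this
  have hent := ent_J (30 * m) m π hπ j A hA hA1
  set EJ := ∑ z, ∫⁻ s, A z s * ∫⁻ X1, nl (Jf π j m X1 (A z) s) ∂(rows (30 * m) d) ∂π with hEJ
  set EJ' := ∑ z, ∫⁻ s, A z s * ∫⁻ X1, nl (Jf' π j m X1 (A z) s) ∂(rows (30 * m) d) ∂π with hEJ'
  have hEJt : EJ ≠ ⊤ := by
    refine ne_top_of_le_ne_top ?_ hent
    exact ENNReal.add_ne_top.mpr ⟨ENNReal.add_ne_top.mpr ⟨ENNReal.ofReal_ne_top,
      ENNReal.ofReal_ne_top⟩, ENNReal.ofReal_ne_top⟩
  refine ⟨?_, hEJt⟩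
  -- constants
  set T : ℝ := (2 ^ 32 * C ^ 200) ^ m * (((2 : ℝ) ^ j)⁻¹) ^ (31 * m) with hT
  have hT0 : 0 < T := by positivity
  have hlogT : Real.log T = m * L0 - 31 * m * (j * Real.log 2) := by
    rw [hT, Real.log_mul (by positivity) (by positivity), Real.log_pow, Real.log_pow,
      Real.log_inv, Real.log_pow]
    push_cast
    ring
  set c2 : ℝ := m * L0 with hc2
  set c1 : ℝ := 1 + 31 * m * (j * Real.log 2) with hc1
  have hc20 : 0 ≤ c2 := by positivity
  have hc10 : 0 ≤ c1 := by positivity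
  have hcc : c1 = 1 - Real.log T + c2 := by rw [hlogT, hc1, hc2]; ring
  -- integrated inequality for one `z`
  have hmain : ∀ z, (m : ℝ≥0∞) * (∫⁻ s, A z s * ∫⁻ X1, nl (Jf' π j m X1 (A z) s)
        ∂(rows (30 * m) d) ∂π) + ENNReal.ofReal c1 * ∫⁻ s, A z s ∂π
      ≤ ((m : ℝ≥0∞) + 1) * (∫⁻ s, A z s * ∫⁻ X1, nl (Jf π j m X1 (A z) s)
        ∂(rows (30 * m) d) ∂π) + ENNReal.ofReal c2 * (∫⁻ s, A z s ∂π)
        + ∫⁻ s, A z s ∂π := by
    intro z
    have hmJ : Measurable (fun s => ∫⁻ X1, nl (Jf π j m X1 (A z) s) ∂(rows (30 * m) d)) :=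
      meas_int_Jf π j m (hA z) measurable_id
    have hmJ' : Measurable (fun s => ∫⁻ X1, nl (Jf' π j m X1 (A z) s) ∂(rows (30 * m) d)) := by
      refine Measurable.lintegral_prod_right'
        (f := fun q : E d × (Fin (30 * m) → E d) => nl (Jf' π j m q.2 (A z) q.1)) ?_
      exact measurable_nl.comp (meas_Jf' π j m (hA z) measurable_snd measurable_fst)
    have hAJ : Measurable (fun s => A z s * ∫⁻ X1, nl (Jf π j m X1 (A z) s)
        ∂(rows (30 * m) d)) := (hA z).mul hmJ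
    have hAJ' : Measurable (fun s => A z s * ∫⁻ X1, nl (Jf' π j m X1 (A z) s)
        ∂(rows (30 * m) d)) := (hA z).mul hmJ'
    rw [← lintegral_const_mul _ hAJ', ← lintegral_const_mul _ (hA z),
      ← lintegral_add_right _ ((hA z).const_mul _), ← lintegral_const_mul _ hAJ,
      ← lintegral_const_mul _ (hA z), ← lintegral_add_right _ ((hA z).const_mul _),
      ← lintegral_add_right _ (hA z)]
    refine lintegral_mono_ae ?_
    filter_upwards [hπ.sphere] with s hs
    -- inner integrals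
    have hJm : Measurable (fun X1 : Fin (30 * m) → E d => nl (Jf π j m X1 (A z) s)) :=
      measurable_nl.comp (meas_Jf π j m (hA z) measurable_id measurable_const)
    have hJ'm : Measurable (fun X1 : Fin (30 * m) → E d => nl (Jf' π j m X1 (A z) s)) :=
      measurable_nl.comp (meas_Jf' π j m (hA z) measurable_id measurable_const)
    have hJJle : ∫⁻ X1, JJf π j m X1 (A z) s / ENNReal.ofReal T ∂(rows (30 * m) d) ≤ 1 := by
      have hTne : ENNReal.ofReal T ≠ 0 := by simpa using hT0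
      have h1 : ∫⁻ X1, JJf π j m X1 (A z) s / ENNReal.ofReal T ∂(rows (30 * m) d)
          ≤ ∫⁻ X1, (∫⁻ s', same j X1 s s' * (Wt j m (s' - s) * (vt j (s' - s) ^ m)⁻¹) ∂π)
            * (ENNReal.ofReal T)⁻¹ ∂(rows (30 * m) d) := by
        refine lintegral_mono fun X1 => ?_
        show JJf π j m X1 (A z) s / ENNReal.ofReal T ≤ _
        rw [div_eq_mul_inv]
        refine mul_le_mul_left ?_ _
        unfold JJf
        refine lintegral_mono fun s' => ?_
        refine mul_le_mul_left ?_ _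
        calc same j X1 s s' * A z s' ≤ same j X1 s s' * 1 := by gcongr; exact hAle z s'
          _ = _ := mul_one _
      refine h1.trans ?_
      rw [lintegral_mul_const']
      · calc _ ≤ ENNReal.ofReal T * (ENNReal.ofReal T)⁻¹ := by
              gcongr
              exact int_JJ hC1 hm hd1 hd2 π hπ (fun q hq v δ hδ => hC d π hπ q hq v δ hδ) j s
          _ = 1 := ENNReal.mul_inv_cancel hTne ENNReal.ofReal_ne_top
      · exact ENNReal.inv_ne_top.mpr hTne
    have hinner : (m : ℝ≥0∞) * (∫⁻ X1, nl (Jf' π j m X1 (A z) s) ∂(rows (30 * m) d))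
        + ENNReal.ofReal c1
        ≤ ((m : ℝ≥0∞) + 1) * (∫⁻ X1, nl (Jf π j m X1 (A z) s) ∂(rows (30 * m) d))
          + ENNReal.ofReal c2 + 1 := by
      calc (m : ℝ≥0∞) * (∫⁻ X1, nl (Jf' π j m X1 (A z) s) ∂(rows (30 * m) d))
            + ENNReal.ofReal c1
          = ∫⁻ X1, ((m : ℝ≥0∞) * nl (Jf' π j m X1 (A z) s) + ENNReal.ofReal c1)
              ∂(rows (30 * m) d) := by
            rw [lintegral_add_right _ measurable_const, lintegral_const_mul _ hJ'm]
            simp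
        _ ≤ ∫⁻ X1, (((m : ℝ≥0∞) + 1) * nl (Jf π j m X1 (A z) s) + ENNReal.ofReal c2
              + JJf π j m X1 (A z) s / ENNReal.ofReal T) ∂(rows (30 * m) d) := by
            refine lintegral_mono fun X1 => ?_
            exact key_pt m hm _ _ _ (Jf_le_one π hπ j m X1 (A z) (hAle z) s)
              (Jf'_le_one π hπ j m X1 (A z) (hAle z) s hs) (holder_J π j m X1 (A z) (hA z) s)
              T hT0 c1 c2 hc10 hc20 hcc
        _ = ((m : ℝ≥0∞) + 1) * (∫⁻ X1, nl (Jf π j m X1 (A z) s) ∂(rows (30 * m) d))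
              + ENNReal.ofReal c2
              + ∫⁻ X1, JJf π j m X1 (A z) s / ENNReal.ofReal T ∂(rows (30 * m) d) := by
            rw [lintegral_add_left ((hJm.const_mul _).add_const _),
              lintegral_add_right _ measurable_const, lintegral_const_mul _ hJm]
            simp
        _ ≤ _ := by gcongr
    calc (m : ℝ≥0∞) * (A z s * ∫⁻ X1, nl (Jf' π j m X1 (A z) s) ∂(rows (30 * m) d))
          + ENNReal.ofReal c1 * A z s
        = A z s * ((m : ℝ≥0∞) * (∫⁻ X1, nl (Jf' π j m X1 (A z) s) ∂(rows (30 * m) d))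
          + ENNReal.ofReal c1) := by ring
      _ ≤ A z s * (((m : ℝ≥0∞) + 1) * (∫⁻ X1, nl (Jf π j m X1 (A z) s) ∂(rows (30 * m) d))
          + ENNReal.ofReal c2 + 1) := by gcongr
      _ = _ := by ring
  have hall := Finset.sum_le_sum (s := Finset.univ) fun z (_ : z ∈ Finset.univ) => hmain z
  rw [Finset.sum_add_distrib, Finset.sum_add_distrib, Finset.sum_add_distrib, ← Finset.mul_sum,
    ← Finset.mul_sum, ← Finset.mul_sum, ← Finset.mul_sum, hsum, ← hEJ, ← hEJ', mul_one,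
    mul_one] at hall
  -- combine
  have h30 : ((30 * m : ℕ) : ℝ) = 30 * m := by push_cast; ring
  have hfin : (m : ℝ≥0∞) * EJ' + ENNReal.ofReal c1
      ≤ (m : ℝ≥0∞) * EJ + ENNReal.ofReal (Real.log (Fintype.card Z) + (122 + L0) * m)
        + ENNReal.ofReal c1 := by
    refine hall.trans ?_
    have h1 : ((m : ℝ≥0∞) + 1) * EJ = (m : ℝ≥0∞) * EJ + EJ := by ring
    rw [h1, add_assoc, add_assoc, add_assoc]
    refine add_le_add le_rfl ?_
    refine (add_le_add hent le_rfl).trans ?_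
    rw [h30, ← ENNReal.ofReal_add hcard (by positivity),
      ← ENNReal.ofReal_add (by positivity) (by positivity), ← ENNReal.ofReal_one,
      ← ENNReal.ofReal_add hc20 zero_le_one, ← ENNReal.ofReal_add (by positivity) (by positivity),
      ← ENNReal.ofReal_add (by positivity) hc10]
    refine ENNReal.ofReal_le_ofReal ?_
    rw [hc1, hc2]
    nlinarith
  have hfin2 : (m : ℝ≥0∞) * EJ'
      ≤ (m : ℝ≥0∞) * EJ + ENNReal.ofReal (Real.log (Fintype.card Z) + (122 + L0) * m) :=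
    (ENNReal.add_le_add_iff_right ENNReal.ofReal_ne_top).mp hfin
  have hmne : (m : ℝ≥0∞) ≠ 0 := by
    simp; omega
  have hmt : (m : ℝ≥0∞) ≠ ⊤ := ENNReal.natCast_ne_top m
  have hmul : (m : ℝ≥0∞) * EJ' ≤ (m : ℝ≥0∞) * (EJ
      + ENNReal.ofReal (Real.log (Fintype.card Z) / m + (122 + L0) * m)) := by
    refine hfin2.trans ?_
    rw [mul_add]
    refine add_le_add le_rfl ?_
    rw [← ENNReal.ofReal_natCast, ← ENNReal.ofReal_mul hm0.le]
    refine ENNReal.ofReal_le_ofReal ?_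
    rw [mul_add, mul_div_cancel₀ _ hm0.ne']
    have : (122 + L0) * m ≤ m * ((122 + L0) * m) := by
      nlinarith [mul_nonneg (by linarith : (0 : ℝ) ≤ 122 + L0) hm0.le]
    linarith
  exact (ENNReal.mul_le_mul_iff_right hmne hmt).mp hmul

end P309
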