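import Vale.Agent.H20.P309.Base

/-!
# P309, row L9: data processing
-/

open MeasureTheory ProbabilityTheory
open scoped RealInnerProductSpace ENNReal

namespace P309

theorem L9_nl_pos {x : ℝ≥0∞} (h0 : x ≠ 0) : nl x = ENNReal.ofReal (-Real.log x.toReal) := by
  simp [nl, h0]

theorem L9_nl_meas : Measurable nl := by
  unfold nl
  refine Measurable.ite (measurableSet_singleton _) measurable_const ?_
  exact ENNReal.measurable_ofReal.comp ((Real.measurable_log.comp ENNReal.measurable_toReal).neg)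

/-- pointwise logarithmic inequality -/
theorem L9_pt (x y x' y' k : ℝ≥0∞) (hx : x ≤ 1) (hy : y ≤ 1) (hx' : x' ≤ 1) (hy' : y' ≤ 1)
    (hk : k ≤ 1) :
    x * k * nl y' + x * k * nl x + x * k
      ≤ x * k * nl y + x * k * nl x' + k * x' * (y / y') := by
  by_cases hx0 : x = 0
  · simp [hx0]
  by_cases hk0 : k = 0
  · simp [hk0]
  have hxk : x * k ≠ 0 := mul_ne_zero hx0 hk0
  by_cases hy0 : y = 0
  · have : nl y = ⊤ := by simp [nl, hy0]
    rw [this, ENNReal.mul_top hxk]
    simp
  by_cases hx'0 : x' = 0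
  · have : nl x' = ⊤ := by simp [nl, hx'0]
    rw [this, ENNReal.mul_top hxk]
    simp
  by_cases hy'0 : y' = 0
  · have : y / y' = ⊤ := by rw [hy'0]; exact ENNReal.div_zero hy0
    rw [this, ENNReal.mul_top (mul_ne_zero hk0 hx'0)]
    simp
  have ht : ∀ {u : ℝ≥0∞}, u ≤ 1 → u ≠ ⊤ := fun h => (h.trans_lt ENNReal.one_lt_top).ne
  have hrew : k * x' * (y / y') = x * k * (x' * (y / y') / x) := by
    rw [mul_comm x k, mul_assoc k x, ENNReal.mul_div_cancel hx0 (ht hx), mul_assoc]
  rw [hrew, ← mul_add, ← mul_add]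
  have hone : x * k = x * k * 1 := (mul_one _).symm
  conv_lhs => rw [hone, mul_one]
  have hgoal : nl y' + nl x + 1 ≤ nl y + nl x' + x' * (y / y') / x := by
    rw [L9_nl_pos hx0, L9_nl_pos hy0, L9_nl_pos hx'0, L9_nl_pos hy'0]
    have pos : ∀ {u : ℝ≥0∞}, u ≤ 1 → u ≠ 0 → 0 < u.toReal := fun h h0 =>
      ENNReal.toReal_pos h0 (ht h)
    have le1 : ∀ {u : ℝ≥0∞}, u ≤ 1 → u.toReal ≤ 1 := fun h => by
      have := ENNReal.toReal_mono ENNReal.one_ne_top h
      simpa using this
    have lg : ∀ {u : ℝ≥0∞}, u ≤ 1 → u ≠ 0 → 0 ≤ -Real.log u.toReal := fun h h0 => by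
      have := Real.log_nonpos (pos h h0).le (le1 h)
      linarith
    have hr : x' * (y / y') / x
        = ENNReal.ofReal (x'.toReal * (y.toReal / y'.toReal) / x.toReal) := by
      rw [ENNReal.ofReal_div_of_pos (pos hx hx0), ENNReal.ofReal_mul (pos hx' hx'0).le,
        ENNReal.ofReal_div_of_pos (pos hy' hy'0), ENNReal.ofReal_toReal (ht hx),
        ENNReal.ofReal_toReal (ht hx'), ENNReal.ofReal_toReal (ht hy),
        ENNReal.ofReal_toReal (ht hy')]
    have p1 := pos hx hx0
    have p2 := pos hy hy0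
    have p3 := pos hx' hx'0
    have p4 := pos hy' hy'0
    rw [hr, ← ENNReal.ofReal_one, ← ENNReal.ofReal_add (lg hy' hy'0) (lg hx hx0),
      ← ENNReal.ofReal_add (add_nonneg (lg hy' hy'0) (lg hx hx0)) zero_le_one,
      ← ENNReal.ofReal_add (lg hy hy0) (lg hx' hx'0),
      ← ENNReal.ofReal_add (add_nonneg (lg hy hy0) (lg hx' hx'0)) (by positivity)]
    refine ENNReal.ofReal_le_ofReal ?_
    have hlog := Real.log_le_sub_one_of_pos
      (show 0 < x'.toReal * (y.toReal / y'.toReal) / x.toReal by positivity)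
    rw [Real.log_div (by positivity) p1.ne', Real.log_mul p3.ne' (by positivity),
      Real.log_div p2.ne' p4.ne'] at hlog
    linarith
  calc x * k * (nl y' + nl x) + x * k = x * k * (nl y' + nl x + 1) := by
        rw [mul_add (x * k) (nl y' + nl x) 1, mul_one]
    _ ≤ x * k * (nl y + nl x' + x' * (y / y') / x) := by gcongr
    _ = _ := by rw [mul_add (x * k) (nl y + nl x')]

section abstract_
variable {S Λ : Type*} [MeasurableSpace S] [Countable Λ] [MeasurableSpace Λ]
  [MeasurableSingletonClass Λ]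

theorem L9_cells (π : Measure S) (lb : S → Λ) (hlb : Measurable lb) (g : S → ℝ≥0∞) :
    ∫⁻ s, g s ∂π = ∑' l, ∫⁻ s in lb ⁻¹' {l}, g s ∂π := by
  have hU : ⋃ l, lb ⁻¹' {l} = Set.univ := by
    ext s; simp
  rw [← lintegral_iUnion (fun l => hlb (measurableSet_singleton l)), hU, Measure.restrict_univ]
  intro l l' hll'
  refine Set.disjoint_left.2 fun s h1 h2 => hll' ?_
  have h1' : lb s = l := h1
  have h2' : lb s = l' := h2
  rw [← h1', h2']

/-- mass of a cell -/
noncomputable def L9M (π : Measure S) (lb : S → Λ) (A : S → ℝ≥0∞) (l : Λ) : ℝ≥0∞ :=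
  ∫⁻ s in lb ⁻¹' {l}, A s ∂π

theorem L9_abs (π : Measure S) [IsProbabilityMeasure π] (lb : S → Λ) (hlb : Measurable lb)
    {Z : Type*} [Fintype Z] (a : S → Z → ℝ≥0∞) (ha : ∀ z, Measurable (fun s => a s z))
    (ha1 : ∀ s, ∑ z, a s z = 1) (k : Z → Λ → Z → ℝ≥0∞)
    (hk1 : ∀ z l, ∑ z', k z l z' = 1) (b : S → Z → ℝ≥0∞)
    (hb : ∀ s z', b s z' = ∑ z, a s z * k z (lb s) z')
    (a' : S → Z → ℝ≥0∞) (ha' : ∀ z, Measurable (fun s => a' s z)) (ha'1 : ∀ s z, a' s z ≤ 1) :
    (∑ z, ∫⁻ s, b s z * nl (L9M π lb (fun s => a' s z) (lb s)) ∂π)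
        + ∑ z, ∫⁻ s, a s z * nl (a s z) ∂π
      ≤ (∑ z, ∫⁻ s, a s z * nl (L9M π lb (fun s => a s z) (lb s)) ∂π)
        + ∑ z, ∫⁻ s, b s z * nl (a' s z) ∂π := by
  classical
  have hale : ∀ s z, a s z ≤ 1 := fun s z => by
    rw [← ha1 s]; exact Finset.single_le_sum (f := fun z => a s z) (fun _ _ => zero_le) (Finset.mem_univ z)
  have hkle : ∀ z l z', k z l z' ≤ 1 := fun z l z' => by
    rw [← hk1 z l]
    exact Finset.single_le_sum (f := fun z' => k z l z') (fun _ _ => zero_le) (Finset.mem_univ z')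
  have hMle : ∀ (A : S → ℝ≥0∞), (∀ s, A s ≤ 1) → ∀ l, L9M π lb A l ≤ 1 := by
    intro A hA l
    calc L9M π lb A l ≤ ∫⁻ s, A s ∂π := setLIntegral_le_lintegral _ _
      _ ≤ ∫⁻ _s, 1 ∂π := lintegral_mono fun s => hA s
      _ = 1 := by simp
  have hMm : ∀ A : S → ℝ≥0∞, Measurable fun s => L9M π lb A (lb s) := fun A =>
    (measurable_of_countable (L9M π lb A)).comp hlb
  have hkm : ∀ z z', Measurable fun s => k z (lb s) z' := fun z z' =>
    (measurable_of_countable (fun l => k z l z')).comp hlb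
  -- pointwise inequality, summed
  have hpt : ∀ s, (∑ z', b s z' * nl (L9M π lb (fun s => a' s z') (lb s)))
        + (∑ z, a s z * nl (a s z)) + 1
      ≤ (∑ z, a s z * nl (L9M π lb (fun s => a s z) (lb s)))
        + (∑ z', b s z' * nl (a' s z'))
        + ∑ z, ∑ z', k z (lb s) z' * a' s z'
            * (L9M π lb (fun s => a s z) (lb s) / L9M π lb (fun s => a' s z') (lb s)) := by
    intro s
    have h := Finset.sum_le_sum (s := (Finset.univ : Finset Z)) fun z _ =>
      Finset.sum_le_sum (s := (Finset.univ : Finset Z)) fun z' _ =>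
        L9_pt (a s z) (L9M π lb (fun s => a s z) (lb s)) (a' s z')
          (L9M π lb (fun s => a' s z') (lb s)) (k z (lb s) z') (hale s z)
          (hMle _ (fun s => hale s z) _) (ha'1 s z') (hMle _ (fun s => ha'1 s z') _)
          (hkle z (lb s) z')
    simp only [Finset.sum_add_distrib] at h
    have e1 : ∑ z, ∑ z', a s z * k z (lb s) z' * nl (L9M π lb (fun s => a' s z') (lb s))
        = ∑ z', b s z' * nl (L9M π lb (fun s => a' s z') (lb s)) := by
      rw [Finset.sum_comm]
      refine Finset.sum_congr rfl fun z' _ => ?_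
      rw [hb, Finset.sum_mul]
    have e2 : ∑ z, ∑ z', a s z * k z (lb s) z' * nl (a s z) = ∑ z, a s z * nl (a s z) := by
      refine Finset.sum_congr rfl fun z _ => ?_
      rw [← Finset.sum_mul, ← Finset.mul_sum, hk1, mul_one]
    have e3 : ∑ z, ∑ z', a s z * k z (lb s) z' = 1 := by
      rw [← ha1 s]
      refine Finset.sum_congr rfl fun z _ => ?_
      rw [← Finset.mul_sum, hk1, mul_one]
    have e4 : ∑ z, ∑ z', a s z * k z (lb s) z' * nl (L9M π lb (fun s => a s z) (lb s))
        = ∑ z, a s z * nl (L9M π lb (fun s => a s z) (lb s)) := by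
      refine Finset.sum_congr rfl fun z _ => ?_
      rw [← Finset.sum_mul, ← Finset.mul_sum, hk1, mul_one]
    have e5 : ∑ z, ∑ z', a s z * k z (lb s) z' * nl (a' s z')
        = ∑ z', b s z' * nl (a' s z') := by
      rw [Finset.sum_comm]
      refine Finset.sum_congr rfl fun z' _ => ?_
      rw [hb, Finset.sum_mul]
    rw [e1, e2, e3, e4, e5] at h
    exact h
  have hbm : ∀ z', Measurable fun s => b s z' := fun z' => by
    simp_rw [hb]
    exact Finset.measurable_sum _ fun z _ => (ha z).mul (hkm z z')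
  have m1 : Measurable fun s => ∑ z', b s z' * nl (L9M π lb (fun s => a' s z') (lb s)) :=
    Finset.measurable_sum _ fun z' _ => (hbm z').mul (L9_nl_meas.comp (hMm _))
  have m2 : Measurable fun s => ∑ z, a s z * nl (a s z) :=
    Finset.measurable_sum _ fun z _ => (ha z).mul (L9_nl_meas.comp (ha z))
  have m3 : Measurable fun s => ∑ z, a s z * nl (L9M π lb (fun s => a s z) (lb s)) :=
    Finset.measurable_sum _ fun z _ => (ha z).mul (L9_nl_meas.comp (hMm _))
  have m4 : Measurable fun s => ∑ z', b s z' * nl (a' s z') :=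
    Finset.measurable_sum _ fun z _ => (hbm z).mul (L9_nl_meas.comp (ha' z))
  have n1 : ∀ z, Measurable fun s => b s z * nl (L9M π lb (fun s => a' s z) (lb s)) :=
    fun z' => (hbm z').mul (L9_nl_meas.comp (hMm _))
  have n2 : ∀ z, Measurable fun s => a s z * nl (a s z) :=
    fun z => (ha z).mul (L9_nl_meas.comp (ha z))
  have n3 : ∀ z, Measurable fun s => a s z * nl (L9M π lb (fun s => a s z) (lb s)) :=
    fun z => (ha z).mul (L9_nl_meas.comp (hMm _))
  have n4 : ∀ z, Measurable fun s => b s z * nl (a' s z) :=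
    fun z => (hbm z).mul (L9_nl_meas.comp (ha' z))
  rw [← lintegral_finsetSum _ (fun z _ => n1 z), ← lintegral_finsetSum _ (fun z _ => n2 z),
    ← lintegral_finsetSum _ (fun z _ => n3 z), ← lintegral_finsetSum _ (fun z _ => n4 z)]
  have hlast : ∫⁻ s, ∑ z, ∑ z', k z (lb s) z' * a' s z'
      * (L9M π lb (fun s => a s z) (lb s) / L9M π lb (fun s => a' s z') (lb s)) ∂π ≤ 1 := by
    have hterm : ∀ z z', ∫⁻ s, k z (lb s) z' * a' s z'
        * (L9M π lb (fun s => a s z) (lb s) / L9M π lb (fun s => a' s z') (lb s)) ∂π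
        ≤ ∑' l, k z l z' * L9M π lb (fun s => a s z) l := by
      intro z z'
      rw [L9_cells π lb hlb]
      refine ENNReal.tsum_le_tsum fun l => ?_
      have h1 : ∫⁻ s in lb ⁻¹' {l}, k z (lb s) z' * a' s z'
          * (L9M π lb (fun s => a s z) (lb s) / L9M π lb (fun s => a' s z') (lb s)) ∂π
          = ∫⁻ s in lb ⁻¹' {l}, k z l z' * a' s z'
          * (L9M π lb (fun s => a s z) l / L9M π lb (fun s => a' s z') l) ∂π := by
        refine setLIntegral_congr_fun (hlb (measurableSet_singleton l)) fun s hs => ?_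
        have : lb s = l := hs
        simp only [this]
      rw [h1, lintegral_mul_const _ ((ha' z').const_mul _), lintegral_const_mul _ (ha' z')]
      rw [mul_assoc]
      refine mul_le_mul_right ?_ _
      exact ENNReal.mul_div_le
    have n5 : ∀ z z', Measurable fun s => k z (lb s) z' * a' s z'
        * (L9M π lb (fun s => a s z) (lb s) / L9M π lb (fun s => a' s z') (lb s)) :=
      fun z z' => ((hkm z z').mul (ha' z')).mul ((hMm _).div (hMm _))
    rw [lintegral_finsetSum _ fun z _ => Finset.measurable_sum _ fun z' _ => n5 z z']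
    calc ∑ z, ∫⁻ s, ∑ z', k z (lb s) z' * a' s z'
          * (L9M π lb (fun s => a s z) (lb s) / L9M π lb (fun s => a' s z') (lb s)) ∂π
        = ∑ z, ∑ z', ∫⁻ s, k z (lb s) z' * a' s z'
          * (L9M π lb (fun s => a s z) (lb s) / L9M π lb (fun s => a' s z') (lb s)) ∂π := by
          refine Finset.sum_congr rfl fun z _ => ?_
          rw [lintegral_finsetSum _ fun z' _ => n5 z z']
      _ ≤ ∑ z, ∑ z', ∑' l, k z l z' * L9M π lb (fun s => a s z) l :=
          Finset.sum_le_sum fun z _ => Finset.sum_le_sum fun z' _ => hterm z z'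
      _ = ∑ z, ∫⁻ s, a s z ∂π := by
          refine Finset.sum_congr rfl fun z _ => ?_
          rw [L9_cells π lb hlb, ← Summable.tsum_finsetSum fun _ _ => ENNReal.summable]
          refine tsum_congr fun l => ?_
          rw [← Finset.sum_mul, hk1, one_mul, L9M]
      _ = 1 := by
          rw [← lintegral_finsetSum _ fun z _ => ha z]
          simp_rw [ha1]
          simp
  refine (ENNReal.add_le_add_iff_right ENNReal.one_ne_top).1 ?_
  calc (∫⁻ s, ∑ z', b s z' * nl (L9M π lb (fun s => a' s z') (lb s)) ∂π)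
        + (∫⁻ s, ∑ z, a s z * nl (a s z) ∂π) + 1
      = ∫⁻ s, ((∑ z', b s z' * nl (L9M π lb (fun s => a' s z') (lb s)))
        + (∑ z, a s z * nl (a s z)) + 1) ∂π := by
        rw [lintegral_add_right _ measurable_const, lintegral_add_right _ m2]
        simp
    _ ≤ ∫⁻ s, ((∑ z, a s z * nl (L9M π lb (fun s => a s z) (lb s)))
        + (∑ z', b s z' * nl (a' s z'))
        + ∑ z, ∑ z', k z (lb s) z' * a' s z'
            * (L9M π lb (fun s => a s z) (lb s) / L9M π lb (fun s => a' s z') (lb s))) ∂π :=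
        lintegral_mono hpt
    _ = (∫⁻ s, ∑ z, a s z * nl (L9M π lb (fun s => a s z) (lb s)) ∂π)
        + (∫⁻ s, ∑ z', b s z' * nl (a' s z') ∂π)
        + ∫⁻ s, ∑ z, ∑ z', k z (lb s) z' * a' s z'
            * (L9M π lb (fun s => a s z) (lb s) / L9M π lb (fun s => a' s z') (lb s)) ∂π := by
        have m5 : Measurable fun s => ∑ z, ∑ z', k z (lb s) z' * a' s z'
            * (L9M π lb (fun s => a s z) (lb s) / L9M π lb (fun s => a' s z') (lb s)) :=
          Finset.measurable_sum _ fun z _ => Finset.measurable_sum _ fun z' _ =>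
            ((hkm z z').mul (ha' z')).mul ((hMm _).div (hMm _))
        rw [lintegral_add_right _ m5, lintegral_add_right _ m4]
    _ ≤ _ := by gcongr

end abstract_

theorem L9_lab_comp (j : ℕ) {d n : ℕ} {Ω : Type*} [MeasurableSpace Ω] {X : Ω → (Fin n → E d)}
    {s : Ω → E d} (hX : Measurable X) (hs : Measurable s) :
    Measurable fun ω => labs j (X ω) (s ω) := by
  refine measurable_pi_lambda _ fun i => ?_
  simp only [labs, lab]
  have h1 : Measurable fun ω => X ω i := (measurable_pi_apply i).comp hX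
  have h2 : Measurable fun ω => ⟪X ω i, s ω⟫ := h1.inner hs
  have h3 : Measurable fun ω => (2 : ℝ) ^ j * ⟪X ω i, s ω⟫ := h2.const_mul _
  exact Int.measurable_floor.comp h3

theorem L9_same_comp (j : ℕ) {d n : ℕ} {Ω : Type*} [MeasurableSpace Ω] {X : Ω → (Fin n → E d)}
    {s s' : Ω → E d} (hX : Measurable X) (hs : Measurable s) (hs' : Measurable s') :
    Measurable fun ω => same j (X ω) (s ω) (s' ω) := by
  unfold same
  exact Measurable.ite (measurableSet_eq_fun (L9_lab_comp j hX hs') (L9_lab_comp j hX hs))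
    measurable_const measurable_const

theorem L9_nu_comp {d : ℕ} (π : Measure (E d)) [IsProbabilityMeasure π] (j : ℕ) {n m : ℕ}
    {A : E d → ℝ≥0∞} (hA : Measurable A) {Ω : Type*} [MeasurableSpace Ω]
    {X1 : Ω → (Fin n → E d)} {X2 : Ω → (Fin m → E d)} {s : Ω → E d}
    (hX1 : Measurable X1) (hX2 : Measurable X2) (hs : Measurable s) :
    Measurable fun ω => nu π j (X1 ω) (X2 ω) A (s ω) := by
  have h : Measurable fun p : Ω × E d =>
      same j (X1 p.1) (s p.1) p.2 * same j (X2 p.1) (s p.1) p.2 * A p.2 :=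
    ((L9_same_comp j (hX1.comp measurable_fst) (hs.comp measurable_fst) measurable_snd).mul
      (L9_same_comp j (hX2.comp measurable_fst) (hs.comp measurable_fst) measurable_snd)).mul
      (hA.comp measurable_snd)
  exact Measurable.lintegral_prod_right' h

theorem L9_nu_eq {d : ℕ} (π : Measure (E d)) (j : ℕ) {n m : ℕ}
    (X1 : Fin n → E d) (X2 : Fin m → E d) (A : E d → ℝ≥0∞) (s : E d) :
    nu π j X1 X2 A s
      = L9M π (fun s => (labs j X1 s, labs j X2 s)) A (labs j X1 s, labs j X2 s) := by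
  have hm : MeasurableSet ((fun s => (labs j X1 s, labs j X2 s)) ⁻¹'
      {(labs j X1 s, labs j X2 s)}) := by
    have h1 : Measurable fun s => (labs j X1 s, labs j X2 s) :=
      (L9_lab_comp j measurable_const measurable_id).prodMk
        (L9_lab_comp j measurable_const measurable_id)
    exact h1 (measurableSet_singleton _)
  unfold nu L9M
  rw [← lintegral_indicator hm]
  refine lintegral_congr fun s' => ?_
  unfold same
  by_cases h1 : labs j X1 s' = labs j X1 s <;> by_cases h2 : labs j X2 s' = labs j X2 s <;>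
    simp [h1, h2, Set.indicator]

theorem data_processing {d : ℕ} (n m : ℕ) (π : Measure (E d)) (hπ : Prior d π) (j : ℕ)
    {Z : Type} [Fintype Z] [Nonempty Z] (a : E d → Z → ℝ≥0∞) (ha : ∀ z, Measurable (fun s => a s z))
    (ha1 : ∀ s, ∑ z, a s z = 1)
    (K : Z → (Fin m → E d) → (Fin m → ℤ) → Z → ℝ≥0∞)
    (hK : ∀ z l z', Measurable (fun X => K z X l z')) (hK1 : ∀ z X l, ∑ z', K z X l z' = 1)
    (b : E d → (Fin m → E d) → Z → ℝ≥0∞)
    (hb : ∀ s X z', b s X z' = ∑ z, a s z * K z X (labs j X s) z')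
    (a' : E d → Z → ℝ≥0∞) (ha' : ∀ s z', a' s z' = ∫⁻ X, b s X z' ∂(rows m d)) :
    (∑ z, ∫⁻ s, ∫⁻ X1, ∫⁻ X2, b s X2 z * nl (nu π j X1 X2 (fun s => a' s z) s)
        ∂(rows m d) ∂(rows n d) ∂π) + ∑ z, ∫⁻ s, a s z * nl (a s z) ∂π
      ≤ (∑ z, ∫⁻ s, ∫⁻ X1, ∫⁻ X2, a s z * nl (nu π j X1 X2 (fun s => a s z) s)
        ∂(rows m d) ∂(rows n d) ∂π) + ∑ z, ∫⁻ s, a' s z * nl (a' s z) ∂π := by
  classical
  have hprob := hπ.prob
  have hr1 : IsProbabilityMeasure (rows n d) := by unfold rows; infer_instance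
  have hr2 : IsProbabilityMeasure (rows m d) := by unfold rows; infer_instance
  -- measurability
  have hKm : ∀ z z' {Ω : Type} [MeasurableSpace Ω] (X : Ω → (Fin m → E d)) (s : Ω → E d),
      Measurable X → Measurable s → Measurable fun ω => K z (X ω) (labs j (X ω) (s ω)) z' := by
    intro z z' Ω _ X s hX hs
    have h1 : Measurable fun p : (Fin m → ℤ) × (Fin m → E d) => K z p.2 p.1 z' :=
      measurable_from_prod_countable_right fun l => hK z l z'
    have h2 : Measurable fun ω => (labs j (X ω) (s ω), X ω) := (L9_lab_comp j hX hs).prodMk hX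
    exact h1.comp h2
  have hbm : ∀ z' {Ω : Type} [MeasurableSpace Ω] (X : Ω → (Fin m → E d)) (s : Ω → E d),
      Measurable X → Measurable s → Measurable fun ω => b (s ω) (X ω) z' := by
    intro z' Ω _ X s hX hs
    simp_rw [hb]
    exact Finset.measurable_sum _ fun z _ => ((ha z).comp hs).mul (hKm z z' X s hX hs)
  have ha'm : ∀ z', Measurable fun s => a' s z' := by
    intro z'
    simp_rw [ha']
    have h1 : Measurable fun p : E d × (Fin m → E d) => b p.1 p.2 z' :=
      hbm z' _ _ measurable_snd measurable_fst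
    exact Measurable.lintegral_prod_right' h1
  have hb1 : ∀ s X, ∑ z', b s X z' = 1 := by
    intro s X
    simp_rw [hb]
    rw [Finset.sum_comm]
    rw [← ha1 s]
    refine Finset.sum_congr rfl fun z _ => ?_
    rw [← Finset.mul_sum, hK1, mul_one]
  have ha'1 : ∀ s z, a' s z ≤ 1 := by
    intro s z
    rw [ha']
    calc ∫⁻ X, b s X z ∂(rows m d) ≤ ∫⁻ _X, 1 ∂(rows m d) := by
          refine lintegral_mono fun X => ?_
          rw [← hb1 s X]
          exact Finset.single_le_sum (f := fun z' => b s X z') (fun _ _ => zero_le)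
            (Finset.mem_univ z)
      _ = 1 := by simp
  -- the inequality for fixed rows
  have hfix : ∀ (X1 : Fin n → E d) (X2 : Fin m → E d),
      (∑ z, ∫⁻ s, b s X2 z * nl (nu π j X1 X2 (fun s => a' s z) s) ∂π)
        + ∑ z, ∫⁻ s, a s z * nl (a s z) ∂π
      ≤ (∑ z, ∫⁻ s, a s z * nl (nu π j X1 X2 (fun s => a s z) s) ∂π)
        + ∑ z, ∫⁻ s, b s X2 z * nl (a' s z) ∂π := by
    intro X1 X2
    have h1 : Measurable fun s => (labs j X1 s, labs j X2 s) :=
      (L9_lab_comp j measurable_const measurable_id).prodMk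
        (L9_lab_comp j measurable_const measurable_id)
    have h := L9_abs π (fun s => (labs j X1 s, labs j X2 s)) h1 a ha ha1
      (fun z l z' => K z X2 l.2 z') (fun z l => hK1 z X2 l.2) (fun s z' => b s X2 z')
      (fun s z' => hb s X2 z') a' ha'm ha'1
    simp_rw [← L9_nu_eq] at h
    exact h
  -- measurability of the integrands
  have M1 : ∀ z {Ω : Type} [MeasurableSpace Ω] (X1 : Ω → (Fin n → E d)) (X2 : Ω → (Fin m → E d))
      (s : Ω → E d), Measurable X1 → Measurable X2 → Measurable s →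
      Measurable fun ω => b (s ω) (X2 ω) z * nl (nu π j (X1 ω) (X2 ω) (fun s => a' s z) (s ω)) :=
    fun z Ω _ X1 X2 s h1 h2 h3 =>
      (hbm z X2 s h2 h3).mul (L9_nl_meas.comp (L9_nu_comp π j (ha'm z) h1 h2 h3))
  have M2 : ∀ z {Ω : Type} [MeasurableSpace Ω] (X1 : Ω → (Fin n → E d)) (X2 : Ω → (Fin m → E d))
      (s : Ω → E d), Measurable X1 → Measurable X2 → Measurable s →
      Measurable fun ω => a (s ω) z * nl (nu π j (X1 ω) (X2 ω) (fun s => a s z) (s ω)) :=
    fun z Ω _ X1 X2 s h1 h2 h3 =>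
      ((ha z).comp h3).mul (L9_nl_meas.comp (L9_nu_comp π j (ha z) h1 h2 h3))
  have M3 : ∀ z {Ω : Type} [MeasurableSpace Ω] (X2 : Ω → (Fin m → E d))
      (s : Ω → E d), Measurable X2 → Measurable s →
      Measurable fun ω => b (s ω) (X2 ω) z * nl (a' (s ω) z) :=
    fun z Ω _ X2 s h2 h3 => (hbm z X2 s h2 h3).mul (L9_nl_meas.comp ((ha'm z).comp h3))
  -- exchange of the integrals
  have swap : ∀ F : (Fin n → E d) → (Fin m → E d) → E d → ℝ≥0∞,
      Measurable (fun p : (E d × (Fin n → E d)) × (Fin m → E d) => F p.1.2 p.2 p.1.1) →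
      (∀ X1, Measurable fun p : E d × (Fin m → E d) => F X1 p.2 p.1) →
      ∫⁻ s, ∫⁻ X1, ∫⁻ X2, F X1 X2 s ∂(rows m d) ∂(rows n d) ∂π
        = ∫⁻ X1, ∫⁻ X2, ∫⁻ s, F X1 X2 s ∂π ∂(rows m d) ∂(rows n d) := by
    intro F hF hF2
    have e1 : ∫⁻ s, ∫⁻ X1, ∫⁻ X2, F X1 X2 s ∂(rows m d) ∂(rows n d) ∂π
        = ∫⁻ X1, ∫⁻ s, ∫⁻ X2, F X1 X2 s ∂(rows m d) ∂π ∂(rows n d) :=
      lintegral_lintegral_swap (Measurable.aemeasurable (Measurable.lintegral_prod_right' hF))
    rw [e1]
    exact lintegral_congr fun X1 => lintegral_lintegral_swap (hF2 X1).aemeasurable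
  have T1 : ∑ z, ∫⁻ s, ∫⁻ X1, ∫⁻ X2, b s X2 z * nl (nu π j X1 X2 (fun s => a' s z) s)
        ∂(rows m d) ∂(rows n d) ∂π
      = ∫⁻ X1, ∫⁻ X2, ∑ z, ∫⁻ s, b s X2 z * nl (nu π j X1 X2 (fun s => a' s z) s) ∂π
        ∂(rows m d) ∂(rows n d) := by
    have hin1 : ∀ z X1, Measurable fun X2 : Fin m → E d =>
        ∫⁻ s, b s X2 z * nl (nu π j X1 X2 (fun s => a' s z) s) ∂π := fun z X1 =>
      Measurable.lintegral_prod_right' (M1 z (Ω := (Fin m → E d) × E d) (fun _ => X1)
        (fun p => p.1) (fun p => p.2) measurable_const measurable_fst measurable_snd)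
    have hin2 : ∀ z, Measurable fun X1 : Fin n → E d =>
        ∫⁻ X2, ∫⁻ s, b s X2 z * nl (nu π j X1 X2 (fun s => a' s z) s) ∂π ∂(rows m d) := fun z =>
      Measurable.lintegral_prod_right' (Measurable.lintegral_prod_right'
        (M1 z (Ω := ((Fin n → E d) × (Fin m → E d)) × E d) (fun p => p.1.1)
        (fun p => p.1.2) (fun p => p.2) (measurable_fst.comp measurable_fst)
        (measurable_snd.comp measurable_fst) measurable_snd))
    have h1 : ∀ X1, ∫⁻ X2, ∑ z, ∫⁻ s, b s X2 z * nl (nu π j X1 X2 (fun s => a' s z) s) ∂π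
        ∂(rows m d) = ∑ z, ∫⁻ X2, ∫⁻ s, b s X2 z * nl (nu π j X1 X2 (fun s => a' s z) s) ∂π
        ∂(rows m d) := fun X1 => lintegral_finsetSum _ fun z _ => hin1 z X1
    simp_rw [h1]
    rw [lintegral_finsetSum _ fun z _ => hin2 z]
    refine Finset.sum_congr rfl fun z _ => swap _ ?_ ?_
    · exact M1 z (fun p : (E d × (Fin n → E d)) × (Fin m → E d) => p.1.2) (fun p => p.2)
        (fun p => p.1.1) (measurable_snd.comp measurable_fst) measurable_snd
        (measurable_fst.comp measurable_fst)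
    · intro X1
      exact M1 z (fun _ => X1) (fun p : E d × (Fin m → E d) => p.2) (fun p => p.1)
        measurable_const measurable_snd measurable_fst
  have T3 : ∑ z, ∫⁻ s, ∫⁻ X1, ∫⁻ X2, a s z * nl (nu π j X1 X2 (fun s => a s z) s)
        ∂(rows m d) ∂(rows n d) ∂π
      = ∫⁻ X1, ∫⁻ X2, ∑ z, ∫⁻ s, a s z * nl (nu π j X1 X2 (fun s => a s z) s) ∂π
        ∂(rows m d) ∂(rows n d) := by
    have hin1 : ∀ z X1, Measurable fun X2 : Fin m → E d =>
        ∫⁻ s, a s z * nl (nu π j X1 X2 (fun s => a s z) s) ∂π := fun z X1 =>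
      Measurable.lintegral_prod_right' (M2 z (Ω := (Fin m → E d) × E d) (fun _ => X1)
        (fun p => p.1) (fun p => p.2) measurable_const measurable_fst measurable_snd)
    have hin2 : ∀ z, Measurable fun X1 : Fin n → E d =>
        ∫⁻ X2, ∫⁻ s, a s z * nl (nu π j X1 X2 (fun s => a s z) s) ∂π ∂(rows m d) := fun z =>
      Measurable.lintegral_prod_right' (Measurable.lintegral_prod_right'
        (M2 z (Ω := ((Fin n → E d) × (Fin m → E d)) × E d) (fun p => p.1.1)
        (fun p => p.1.2) (fun p => p.2) (measurable_fst.comp measurable_fst)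
        (measurable_snd.comp measurable_fst) measurable_snd))
    have h1 : ∀ X1, ∫⁻ X2, ∑ z, ∫⁻ s, a s z * nl (nu π j X1 X2 (fun s => a s z) s) ∂π
        ∂(rows m d) = ∑ z, ∫⁻ X2, ∫⁻ s, a s z * nl (nu π j X1 X2 (fun s => a s z) s) ∂π
        ∂(rows m d) := fun X1 => lintegral_finsetSum _ fun z _ => hin1 z X1
    simp_rw [h1]
    rw [lintegral_finsetSum _ fun z _ => hin2 z]
    refine Finset.sum_congr rfl fun z _ => swap _ ?_ ?_
    · exact M2 z (fun p : (E d × (Fin n → E d)) × (Fin m → E d) => p.1.2) (fun p => p.2)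
        (fun p => p.1.1) (measurable_snd.comp measurable_fst) measurable_snd
        (measurable_fst.comp measurable_fst)
    · intro X1
      exact M2 z (fun _ => X1) (fun p : E d × (Fin m → E d) => p.2) (fun p => p.1)
        measurable_const measurable_snd measurable_fst
  have hin3 : ∀ z, Measurable fun X2 : Fin m → E d => ∫⁻ s, b s X2 z * nl (a' s z) ∂π := fun z =>
    Measurable.lintegral_prod_right' (M3 z (Ω := (Fin m → E d) × E d)
      (fun p => p.1) (fun p => p.2) measurable_fst measurable_snd)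
  have T4 : ∑ z, ∫⁻ s, a' s z * nl (a' s z) ∂π
      = ∫⁻ _X1, ∫⁻ X2, ∑ z, ∫⁻ s, b s X2 z * nl (a' s z) ∂π ∂(rows m d) ∂(rows n d) := by
    rw [lintegral_const, measure_univ, mul_one, lintegral_finsetSum _ fun z _ => hin3 z]
    refine Finset.sum_congr rfl fun z _ => ?_
    have e1 : ∫⁻ X2, ∫⁻ s, b s X2 z * nl (a' s z) ∂π ∂(rows m d)
        = ∫⁻ s, ∫⁻ X2, b s X2 z * nl (a' s z) ∂(rows m d) ∂π :=
      lintegral_lintegral_swap (M3 z (Ω := (Fin m → E d) × E d)
        (fun p => p.1) (fun p => p.2) measurable_fst measurable_snd).aemeasurable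
    rw [e1]
    refine lintegral_congr fun s => ?_
    rw [lintegral_mul_const _ (hbm z (Ω := Fin m → E d) (fun X => X) (fun _ => s) measurable_id
      measurable_const), ← ha']
  rw [T1, T3, T4]
  calc (∫⁻ X1, ∫⁻ X2, ∑ z, ∫⁻ s, b s X2 z * nl (nu π j X1 X2 (fun s => a' s z) s) ∂π
        ∂(rows m d) ∂(rows n d)) + ∑ z, ∫⁻ s, a s z * nl (a s z) ∂π
      = ∫⁻ X1, ∫⁻ X2, ((∑ z, ∫⁻ s, b s X2 z * nl (nu π j X1 X2 (fun s => a' s z) s) ∂π)
        + ∑ z, ∫⁻ s, a s z * nl (a s z) ∂π) ∂(rows m d) ∂(rows n d) := by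
        simp_rw [lintegral_add_right _ measurable_const]
        simp
    _ ≤ ∫⁻ X1, ∫⁻ X2, ((∑ z, ∫⁻ s, a s z * nl (nu π j X1 X2 (fun s => a s z) s) ∂π)
        + ∑ z, ∫⁻ s, b s X2 z * nl (a' s z) ∂π) ∂(rows m d) ∂(rows n d) :=
        lintegral_mono fun X1 => lintegral_mono fun X2 => hfix X1 X2
    _ = _ := by
        have hsm : Measurable fun X2 : Fin m → E d => ∑ z, ∫⁻ s, b s X2 z * nl (a' s z) ∂π :=
          Finset.measurable_sum _ fun z _ => hin3 z
        simp_rw [lintegral_add_right _ hsm]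
        rw [lintegral_add_right _ measurable_const]

end P309
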