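import Vale.Agent.H20.P309.Base
import Vale.Agent.H20.P309.Law
import Vale.Agent.H20.P309.Meas
import Vale.Agent.H20.P309.L0
import Vale.Agent.H20.P309.L1
import Vale.Agent.H20.P309.L2
import Vale.Agent.H20.P309.L3
import Vale.Agent.H20.P309.L4
import Vale.Agent.H20.P309.L5
import Vale.Agent.H20.P309.L6
import Vale.Agent.H20.P309.L7
import Vale.Agent.H20.P309.L8
import Vale.Agent.H20.P309.L9
import Vale.Agent.H20.P309.L10
import Vale.Agent.H20.P309.L11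
import Vale.Agent.H20.P309.L12
import Vale.Agent.H20.P309.L13
import Vale.Agent.H20.P309.L14

open MeasureTheory ProbabilityTheory
open scoped RealInnerProductSpace ENNReal

namespace P309

theorem moment_step : ∃ C : ℝ, 1 ≤ C ∧ ∀ m d : ℕ, 1 ≤ m → 100 * m ≤ d → d ≤ 200 * m →
    ∀ (π : Measure (E d)), Prior d π → ∀ (j : ℕ) (A : E d → ℝ≥0∞), Measurable A →
    (∀ s, A s ≤ 1) → ∀ s : E d,
    ∫⁻ X1, nl (Jf π j m X1 A s) ∂(rows (30 * m) d) ≠ ⊤ →
    ∫⁻ X2, expneg (m * ∫⁻ X1, nl (nu π j X1 X2 A s) ∂(rows (30 * m) d)) ∂(rows m d)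
      ≤ ENNReal.ofReal (C ^ (m * m)) *
        expneg (m * ∫⁻ X1, nl (Jf π j m X1 A s) ∂(rows (30 * m) d)) := by
  obtain ⟨C, hC, h⟩ := slab_bound
  exact ⟨C, hC, moment_step_of C hC h⟩

end P309
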