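import Mathlib

/-!
# P309: base definitions shared by all the lemma files

`E d` is Euclidean space, `rows n d` is the law of `n` independent standard Gaussian rows,
`lab j x s` the label `⟪x,s⟫` rounded down to a multiple of `2^(-j)` (as an integer),
`nu π X1 X2 A s` the `A dπ`-mass of the set of `s'` having the same rounded labels as `s` on all rows.
-/

open MeasureTheory ProbabilityTheory
open scoped RealInnerProductSpace ENNReal

namespace P309

/-- Euclidean space. -/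
abbrev E (d : ℕ) := EuclideanSpace ℝ (Fin d)

/-- the law of `n` independent standard Gaussian rows in `E d`. -/
noncomputable def rows (n d : ℕ) : Measure (Fin n → E d) :=
  Measure.pi (fun _ => stdGaussian (E d))

/-- rounded label. -/
noncomputable def lab (j : ℕ) {d : ℕ} (x s : E d) : ℤ := ⌊(2 : ℝ) ^ j * ⟪x, s⟫⌋

/-- rounded labels on `n` rows. -/
noncomputable def labs (j : ℕ) {n d : ℕ} (X : Fin n → E d) (s : E d) : Fin n → ℤ :=
  fun i => lab j (X i) s

/-- indicator that `s` and `s'` have the same rounded labels on the rows `X`. -/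
noncomputable def same (j : ℕ) {n d : ℕ} (X : Fin n → E d) (s s' : E d) : ℝ≥0∞ :=
  if labs j X s' = labs j X s then 1 else 0

/-- `-log x` for `x ≤ 1` (`⊤` at `0`, and `0` for `x ≥ 1`). -/
noncomputable def nl (x : ℝ≥0∞) : ℝ≥0∞ := if x = 0 then ⊤ else ENNReal.ofReal (-Real.log x.toReal)

/-- `exp (-x)`. -/
noncomputable def expneg (x : ℝ≥0∞) : ℝ≥0∞ :=
  if x = ⊤ then 0 else ENNReal.ofReal (Real.exp (-x.toReal))

/-- The weight `(2^j ‖u‖ + 1)^(-m)`. -/
noncomputable def Wt (j m : ℕ) {d : ℕ} (u : E d) : ℝ≥0∞ :=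
  ENNReal.ofReal ((((2 : ℝ) ^ j * ‖u‖ + 1) ^ m)⁻¹)

/-- `(‖u‖ + 2^(-j)) / 4`. -/
noncomputable def vt (j : ℕ) {d : ℕ} (u : E d) : ℝ≥0∞ :=
  ENNReal.ofReal ((‖u‖ + ((2 : ℝ) ^ j)⁻¹) / 4)

/-- mass of the cell of `s` (rows `X1`, `X2`) for the measure `A dπ`. -/
noncomputable def nu {d : ℕ} (π : Measure (E d)) (j : ℕ) {n m : ℕ} (X1 : Fin n → E d) (X2 : Fin m → E d)
    (A : E d → ℝ≥0∞) (s : E d) : ℝ≥0∞ :=
  ∫⁻ s', same j X1 s s' * same j X2 s s' * A s' ∂π

/-- The functional `J`. -/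
noncomputable def Jf {d : ℕ} (π : Measure (E d)) (j m : ℕ) {n : ℕ} (X1 : Fin n → E d)
    (A : E d → ℝ≥0∞) (s : E d) : ℝ≥0∞ :=
  ∫⁻ s', same j X1 s s' * A s' * Wt j m (s' - s) ∂π

/-- The functional `J'`. -/
noncomputable def Jf' {d : ℕ} (π : Measure (E d)) (j m : ℕ) {n : ℕ} (X1 : Fin n → E d)
    (A : E d → ℝ≥0∞) (s : E d) : ℝ≥0∞ :=
  ∫⁻ s', same j X1 s s' * A s' * (Wt j m (s' - s) * vt j (s' - s)) ∂π

/-- The hypotheses on the prior: a probability measure on the unit sphere of `E d` which gives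
mass at most `16^d r^(d-1)` to each ball of radius `r`. -/
structure Prior (d : ℕ) (π : Measure (E d)) : Prop where
  prob : IsProbabilityMeasure π
  sphere : ∀ᵐ s ∂π, ‖s‖ = 1
  ball : ∀ (v : E d) (r : ℝ), 0 < r →
    π (Metric.closedBall v r) ≤ ENNReal.ofReal ((16 : ℝ) ^ d * r ^ (d - 1))

end P309
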