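import Vale.Agent.H20.P309.Meas
import Vale.Agent.H20.P309.Law
import Vale.Agent.H20.P309.All

open MeasureTheory ProbabilityTheory
open scoped RealInnerProductSpace ENNReal

namespace P309

/-- the potential. -/
noncomputable def Ufun {d : ℕ} (π : Measure (E d)) (j n m : ℕ) {Z : Type} [Fintype Z]
    (a : E d → Z → ℝ≥0∞) : ℝ≥0∞ :=
  ∑ z, ∫⁻ s, ∫⁻ X1, ∫⁻ X2, a s z * nl (nu π j X1 X2 (fun s => a s z) s)
        ∂(rows m d) ∂(rows n d) ∂π

/-- the conditional entropy of the state. -/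
noncomputable def Efun {d : ℕ} (π : Measure (E d)) {Z : Type} [Fintype Z]
    (a : E d → Z → ℝ≥0∞) : ℝ≥0∞ :=
  ∑ z, ∫⁻ s, a s z * nl (a s z) ∂π

/-- the entropy of the cells. -/
noncomputable def Hfun {d : ℕ} (π : Measure (E d)) (j n m : ℕ) : ℝ≥0∞ :=
  ∫⁻ s, ∫⁻ X1, ∫⁻ X2, nl (nu π j X1 X2 (fun _ => 1) s) ∂(rows m d) ∂(rows n d) ∂π

theorem mul_nl_eq (a : ℝ≥0∞) (ha : a ≤ 1) :
    a * nl a = ENNReal.ofReal (Real.negMulLog a.toReal) := by
  unfold nl
  split_ifs with h
  · simp [h]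
  · have ha' : a ≠ ⊤ := ne_top_of_le_ne_top ENNReal.one_ne_top ha
    conv_lhs => rw [← ENNReal.ofReal_toReal ha']
    rw [ENNReal.toReal_ofReal ENNReal.toReal_nonneg, ← ENNReal.ofReal_mul ENNReal.toReal_nonneg]
    congr 1
    unfold Real.negMulLog; ring

theorem le_one_of_sum {Z : Type} [Fintype Z] {a : Z → ℝ≥0∞} (ha : ∑ z, a z = 1) (z : Z) :
    a z ≤ 1 := by
  rw [← ha]
  exact Finset.single_le_sum (f := a) (fun _ _ => by simp) (Finset.mem_univ z)

theorem ent_le {Z : Type} [Fintype Z] [Nonempty Z] (a : Z → ℝ≥0∞) (ha : ∑ z, a z = 1) :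
    ∑ z, a z * nl (a z) ≤ ENNReal.ofReal (Real.log (Fintype.card Z)) := by
  have h1 : ∀ z, a z ≤ 1 := le_one_of_sum ha
  have hne : ∀ z, a z ≠ ⊤ := fun z => ne_top_of_le_ne_top ENNReal.one_ne_top (h1 z)
  rw [Finset.sum_congr rfl (fun z _ => mul_nl_eq (a z) (h1 z)),
    ← ENNReal.ofReal_sum_of_nonneg]
  · apply ENNReal.ofReal_le_ofReal
    have hN : (0 : ℝ) < Fintype.card Z := by exact_mod_cast Fintype.card_pos
    have hsum : ∑ z, (a z).toReal = 1 := by
      rw [← ENNReal.toReal_sum (fun z _ => hne z), ha, ENNReal.toReal_one]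
    have key : ∀ z, Real.negMulLog (a z).toReal ≤
        (a z).toReal * Real.log (Fintype.card Z) + ((Fintype.card Z : ℝ)⁻¹ - (a z).toReal) := by
      intro z
      rcases eq_or_lt_of_le (ENNReal.toReal_nonneg (a := a z)) with h | h
      · rw [← h]; simp [Real.negMulLog]
      · have h2 : -Real.log ((a z).toReal * Fintype.card Z)
            ≤ ((a z).toReal * Fintype.card Z)⁻¹ - 1 := by
          rw [← Real.log_inv]
          exact Real.log_le_sub_one_of_pos (by positivity)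
        rw [Real.log_mul h.ne' hN.ne'] at h2
        have h3 := mul_le_mul_of_nonneg_left h2 h.le
        have h4 : (a z).toReal * (((a z).toReal * Fintype.card Z)⁻¹ - 1)
            = (Fintype.card Z : ℝ)⁻¹ - (a z).toReal := by
          field_simp
        rw [h4] at h3
        unfold Real.negMulLog
        nlinarith
    calc ∑ z, Real.negMulLog (a z).toReal
        ≤ ∑ z, ((a z).toReal * Real.log (Fintype.card Z)
            + ((Fintype.card Z : ℝ)⁻¹ - (a z).toReal)) := Finset.sum_le_sum (fun z _ => key z)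
      _ = Real.log (Fintype.card Z) := by
          rw [Finset.sum_add_distrib, ← Finset.sum_mul, hsum, Finset.sum_sub_distrib, hsum,
            Finset.sum_const, Finset.card_univ, nsmul_eq_mul, mul_inv_cancel₀ hN.ne']
          ring
  · intro z _
    exact Real.negMulLog_nonneg ENNReal.toReal_nonneg
      (by simpa using ENNReal.toReal_mono ENNReal.one_ne_top (h1 z))

section
variable {d : ℕ} {Z : Type} [Fintype Z] [Nonempty Z]

theorem Efun_le (π : Measure (E d)) [IsProbabilityMeasure π] (a : E d → Z → ℝ≥0∞)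
    (ha : ∀ z, Measurable (fun s => a s z)) (ha1 : ∀ s, ∑ z, a s z = 1) :
    Efun π a ≤ ENNReal.ofReal (Real.log (Fintype.card Z)) := by
  unfold Efun
  rw [← lintegral_finsetSum]
  · calc ∫⁻ s, ∑ z, a s z * nl (a s z) ∂π
        ≤ ∫⁻ _, ENNReal.ofReal (Real.log (Fintype.card Z)) ∂π :=
          lintegral_mono (fun s => ent_le _ (ha1 s))
      _ = _ := by simp
  · intro z _
    exact (ha z).mul (measurable_nl.comp (ha z))

omit [Nonempty Z] in
theorem sum_int_one (π : Measure (E d)) [IsProbabilityMeasure π] (a : E d → Z → ℝ≥0∞)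
    (ha : ∀ z, Measurable (fun s => a s z)) (ha1 : ∀ s, ∑ z, a s z = 1) :
    ∑ z, ∫⁻ s, a s z ∂π = 1 := by
  rw [← lintegral_finsetSum _ (fun z _ => ha z)]
  simp [ha1]

theorem meas_KB {m : ℕ} (j : ℕ) (K : (Fin m → E d) → (Fin m → ℤ) → ℝ≥0∞)
    (hK : ∀ l, Measurable (fun X => K X l)) (s : E d) :
    Measurable (fun X => K X (labs j X s)) := by
  have h1 : Measurable (fun p : (Fin m → E d) × (Fin m → ℤ) => K p.1 p.2) :=
    measurable_from_prod_countable_left hK
  exact h1.comp (measurable_id.prodMk (meas_labs j measurable_id measurable_const))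

/-- One block. -/
theorem dv_int (π : Measure (E d)) [IsProbabilityMeasure π] (j n m : ℕ) (C5 : ℝ)
    (hC5 : 1 ≤ C5) (b : E d → (Fin m → E d) → ℝ≥0∞) (hb : ∀ s, Measurable (b s))
    (hb1 : ∀ s X, b s X ≤ 1)
    (A : E d → ℝ≥0∞) (hA : Measurable A) (hA' : ∀ s, A s = ∫⁻ X, b s X ∂(rows m d))
    (h5 : ∀ s, ∫⁻ X1, nl (Jf π j m X1 A s) ∂(rows n d) ≠ ⊤ →
      ∫⁻ X2, expneg (m * ∫⁻ X1, nl (nu π j X1 X2 A s) ∂(rows n d)) ∂(rows m d)
      ≤ ENNReal.ofReal (C5 ^ (m * m)) *
        expneg (m * ∫⁻ X1, nl (Jf π j m X1 A s) ∂(rows n d)))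
    (h7 : ∫⁻ s, A s * ∫⁻ X1, nl (Jf π j m X1 A s) ∂(rows n d) ∂π ≠ ⊤) :
    m * ∫⁻ s, A s * ∫⁻ X1, nl (Jf π j m X1 A s) ∂(rows n d) ∂π
      ≤ m * (∫⁻ s, ∫⁻ X1, ∫⁻ X2, b s X2 * nl (nu π j X1 X2 A s) ∂(rows m d) ∂(rows n d) ∂π)
        + (∫⁻ s, A s * nl (A s) ∂π)
        + (∫⁻ s, A s ∂π) * ENNReal.ofReal ((m * m : ℕ) * Real.log C5) := by
  have hmJ : Measurable (fun s => A s * ∫⁻ X1, nl (Jf π j m X1 A s) ∂(rows n d)) :=
    hA.mul (meas_int_Jf π j m hA measurable_id)
  have hae := ae_lt_top hmJ h7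
  have hswap : ∀ s, ∫⁻ X1, ∫⁻ X2, b s X2 * nl (nu π j X1 X2 A s) ∂(rows m d) ∂(rows n d)
      = ∫⁻ X2, b s X2 * ∫⁻ X1, nl (nu π j X1 X2 A s) ∂(rows n d) ∂(rows m d) := by
    intro s
    rw [lintegral_lintegral_swap]
    · refine lintegral_congr fun X2 => ?_
      rw [lintegral_const_mul' _ _ (ne_top_of_le_ne_top ENNReal.one_ne_top (hb1 s X2))]
    · refine Measurable.aemeasurable ?_
      exact ((hb s).comp measurable_snd).mul (measurable_nl.comp
        (meas_nu π j hA measurable_fst measurable_snd measurable_const))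
  rw [lintegral_congr hswap]
  have key : ∀ᵐ s ∂π, m * (A s * ∫⁻ X1, nl (Jf π j m X1 A s) ∂(rows n d))
      ≤ m * (∫⁻ X2, b s X2 * ∫⁻ X1, nl (nu π j X1 X2 A s) ∂(rows n d) ∂(rows m d))
        + (A s * nl (A s) + A s * ENNReal.ofReal ((m * m : ℕ) * Real.log C5)) := by
    filter_upwards [hae] with s hs
    by_cases hL : ∫⁻ X1, nl (Jf π j m X1 A s) ∂(rows n d) = ⊤
    · have : A s = 0 := by
        by_contra h0
        rw [hL, ENNReal.mul_top h0] at hs
        exact lt_irrefl _ hs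
      simp [this]
    · have hc : 0 ≤ ((m * m : ℕ) : ℝ) * Real.log C5 :=
        mul_nonneg (Nat.cast_nonneg _) (Real.log_nonneg hC5)
      have h := dv_step (rows m d) (b s)
        (fun X2 => ∫⁻ X1, nl (nu π j X1 X2 A s) ∂(rows n d)) (hb s) (hb1 s)
        (meas_int_nu π j hA measurable_id measurable_const) m _ hL _ hc ?_
      · rw [← hA' s] at h
        calc _ = A s * (m * ∫⁻ X1, nl (Jf π j m X1 A s) ∂(rows n d)) := by ring
          _ ≤ _ := h
          _ = _ := by ring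
      · refine (h5 s hL).trans_eq ?_
        congr 2
        rw [← Real.log_pow, Real.exp_log (by positivity)]
  calc m * ∫⁻ s, A s * ∫⁻ X1, nl (Jf π j m X1 A s) ∂(rows n d) ∂π
      = ∫⁻ s, m * (A s * ∫⁻ X1, nl (Jf π j m X1 A s) ∂(rows n d)) ∂π := by
        rw [lintegral_const_mul _ hmJ]
    _ ≤ ∫⁻ s, (m * (∫⁻ X2, b s X2 * ∫⁻ X1, nl (nu π j X1 X2 A s) ∂(rows n d) ∂(rows m d))
        + (A s * nl (A s) + A s * ENNReal.ofReal ((m * m : ℕ) * Real.log C5))) ∂π :=
        lintegral_mono_ae key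
    _ = _ := by
        have hm2 : Measurable (fun s => A s * nl (A s)) := hA.mul (measurable_nl.comp hA)
        have hm3 : Measurable (fun s => A s * nl (A s)
            + A s * ENNReal.ofReal ((m * m : ℕ) * Real.log C5)) := hm2.add (hA.mul_const _)
        rw [lintegral_add_right _ hm3,
          lintegral_add_left hm2, lintegral_mul_const _ hA,
          lintegral_const_mul' _ _ (ENNReal.natCast_ne_top m)]
        ring

theorem core_step : ∃ C : ℝ, 1 ≤ C ∧ ∀ m d : ℕ, 1 ≤ m → 100 * m ≤ d → d ≤ 200 * m →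
    ∀ (π : Measure (E d)), Prior d π → ∀ (j : ℕ) (Z : Type) [Fintype Z] [Nonempty Z]
    (a : E d → Z → ℝ≥0∞), (∀ z, Measurable (fun s => a s z)) → (∀ s, ∑ z, a s z = 1) →
    ∀ (K : Z → (Fin m → E d) → (Fin m → ℤ) → Z → ℝ≥0∞),
    (∀ z l z', Measurable (fun X => K z X l z')) → (∀ z X l, ∑ z', K z X l z' = 1) →
    ∀ (b : E d → (Fin m → E d) → Z → ℝ≥0∞),
    (∀ s X z', b s X z' = ∑ z, a s z * K z X (labs j X s) z') →
    ∀ (a' : E d → Z → ℝ≥0∞), (∀ s z', a' s z' = ∫⁻ X, b s X z' ∂(rows m d)) →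
    (∀ z, Measurable (fun s => a' s z)) → (∀ s, ∑ z, a' s z = 1) →
    Ufun π j (30 * m) m a' + Efun π a ≤ Ufun π j (30 * m) m a + Efun π a'
      + ENNReal.ofReal (2 * Real.log (Fintype.card Z) / m + C * m) := by
  obtain ⟨C5, hC5, h5⟩ := moment_step
  obtain ⟨C6, hC6, h6⟩ := coding_step
  obtain ⟨C7, hC7, h7⟩ := compare_step
  have hlog : 0 ≤ Real.log C5 := Real.log_nonneg hC5
  refine ⟨Real.log C5 + C6 + C7, by linarith, ?_⟩
  intro m d hm hd1 hd2 π hπ j Z _ _ a ha ha1 K hK hK1 b hb a' ha' ham ha1'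
  have := hπ.prob
  have hmR : (0 : ℝ) < m := by exact_mod_cast hm
  have hN : (1 : ℝ) ≤ Fintype.card Z := by exact_mod_cast Fintype.card_pos
  have hlogN : 0 ≤ Real.log (Fintype.card Z) := Real.log_nonneg hN
  have hale : ∀ s z, a' s z ≤ 1 := fun s z => le_one_of_sum (ha1' s) z
  have hbm : ∀ z s, Measurable (fun X => b s X z) := by
    intro z s
    simp only [hb]
    exact Finset.measurable_sum _ fun z0 _ =>
      (meas_KB j (fun X l => K z0 X l z) (fun l => hK z0 l z) s).const_mul _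
  have hb1 : ∀ z s X, b s X z ≤ 1 := by
    intro z s X
    rw [hb]
    calc ∑ z0, a s z0 * K z0 X (labs j X s) z ≤ ∑ z0, a s z0 * 1 := by
          refine Finset.sum_le_sum fun z0 _ => ?_
          gcongr
          exact le_one_of_sum (hK1 z0 X _) z
      _ = 1 := by simp [ha1]
  -- the quantities
  set V : ℝ≥0∞ := ∑ z, ∫⁻ s, ∫⁻ X1, ∫⁻ X2, b s X2 z * nl (nu π j X1 X2 (fun s => a' s z) s)
        ∂(rows m d) ∂(rows (30 * m) d) ∂π with hV
  set J : ℝ≥0∞ := ∑ z, ∫⁻ s, a' s z * ∫⁻ X1, nl (Jf π j m X1 (fun s => a' s z) s)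
        ∂(rows (30 * m) d) ∂π with hJ
  set J' : ℝ≥0∞ := ∑ z, ∫⁻ s, a' s z * ∫⁻ X1, nl (Jf' π j m X1 (fun s => a' s z) s)
        ∂(rows (30 * m) d) ∂π with hJ'
  have e9 : V + Efun π a ≤ Ufun π j (30 * m) m a + Efun π a' :=
    data_processing (30 * m) m π hπ j a ha ha1 K hK hK1 b hb a' ha'
  obtain ⟨e7, e7'⟩ := h7 m d hm hd1 hd2 π hπ j Z (fun z s => a' s z) ham ha1'
  have e7'' : ∀ z, ∫⁻ s, a' s z * ∫⁻ X1, nl (Jf π j m X1 (fun s => a' s z) s)
        ∂(rows (30 * m) d) ∂π ≠ ⊤ := fun z =>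
    ENNReal.sum_ne_top.1 e7' z (Finset.mem_univ z)
  have e6 : Ufun π j (30 * m) m a' ≤ J' + ENNReal.ofReal (C6 * m) := by
    have hz : ∀ z, ∫⁻ s, ∫⁻ X1, ∫⁻ X2, a' s z * nl (nu π j X1 X2 (fun s => a' s z) s)
        ∂(rows m d) ∂(rows (30 * m) d) ∂π ≤
        (∫⁻ s, a' s z * ∫⁻ X1, nl (Jf' π j m X1 (fun s => a' s z) s)
        ∂(rows (30 * m) d) ∂π) + ENNReal.ofReal (C6 * m) * ∫⁻ s, a' s z ∂π := by
      intro z
      refine le_trans (le_of_eq ?_) (h6 m (30 * m) d hm π hπ j (fun s => a' s z) (ham z)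
        (fun s => hale s z))
      refine lintegral_congr fun s => ?_
      have hne : a' s z ≠ ⊤ := ne_top_of_le_ne_top ENNReal.one_ne_top (hale s z)
      rw [← lintegral_const_mul' _ _ hne]
      refine lintegral_congr fun X1 => ?_
      rw [← lintegral_const_mul' _ _ hne]
    calc Ufun π j (30 * m) m a' ≤ ∑ z, ((∫⁻ s, a' s z * ∫⁻ X1, nl (Jf' π j m X1
            (fun s => a' s z) s) ∂(rows (30 * m) d) ∂π)
            + ENNReal.ofReal (C6 * m) * ∫⁻ s, a' s z ∂π) := Finset.sum_le_sum fun z _ => hz z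
      _ = J' + ENNReal.ofReal (C6 * m) := by
          rw [Finset.sum_add_distrib, ← Finset.mul_sum, sum_int_one π a' ham ha1', mul_one]
  have e10 : m * J ≤ m * V + Efun π a' + ENNReal.ofReal ((m * m : ℕ) * Real.log C5) := by
    have hz := fun z => dv_int π j (30 * m) m C5 hC5 (fun s X => b s X z) (hbm z) (hb1 z)
      (fun s => a' s z) (ham z) (fun s => ha' s z)
      (fun s hs => h5 m d hm hd1 hd2 π hπ j (fun s => a' s z) (ham z) (fun s => hale s z) s hs)
      (e7'' z)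
    calc m * J = ∑ z, m * ∫⁻ s, a' s z * ∫⁻ X1, nl (Jf π j m X1 (fun s => a' s z) s)
        ∂(rows (30 * m) d) ∂π := by rw [hJ, Finset.mul_sum]
      _ ≤ _ := Finset.sum_le_sum fun z _ => hz z
      _ = _ := by
        rw [Finset.sum_add_distrib, Finset.sum_add_distrib, ← Finset.mul_sum, ← Finset.sum_mul,
          sum_int_one π a' ham ha1', one_mul]
        rfl
  have hE : Efun π a' ≤ ENNReal.ofReal (Real.log (Fintype.card Z)) := Efun_le π a' ham ha1'
  have e7b : J' ≤ J + ENNReal.ofReal (Real.log (Fintype.card Z) / m + C7 * m) := e7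
  -- everything times `m`
  have hm0 : (m : ℝ≥0∞) ≠ 0 := by exact_mod_cast (by omega : m ≠ 0)
  have hmt : (m : ℝ≥0∞) ≠ ⊤ := ENNReal.natCast_ne_top m
  have final : (m : ℝ≥0∞) * (Ufun π j (30 * m) m a' + Efun π a)
      ≤ m * (Ufun π j (30 * m) m a + Efun π a'
      + ENNReal.ofReal (2 * Real.log (Fintype.card Z) / m + (Real.log C5 + C6 + C7) * m)) := by
    have hmof : (m : ℝ≥0∞) = ENNReal.ofReal m := by simp
    calc (m : ℝ≥0∞) * (Ufun π j (30 * m) m a' + Efun π a)
        ≤ m * (J + ENNReal.ofReal (Real.log (Fintype.card Z) / m + C7 * m)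
          + ENNReal.ofReal (C6 * m) + Efun π a) := by
          gcongr
          exact e6.trans (by gcongr)
      _ = m * J + m * (ENNReal.ofReal (Real.log (Fintype.card Z) / m + C7 * m)
          + ENNReal.ofReal (C6 * m)) + m * Efun π a := by ring
      _ ≤ (m * V + Efun π a' + ENNReal.ofReal ((m * m : ℕ) * Real.log C5))
          + m * (ENNReal.ofReal (Real.log (Fintype.card Z) / m + C7 * m)
          + ENNReal.ofReal (C6 * m)) + m * Efun π a := by gcongr
      _ = m * (V + Efun π a) + (Efun π a' + ENNReal.ofReal ((m * m : ℕ) * Real.log C5)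
          + m * (ENNReal.ofReal (Real.log (Fintype.card Z) / m + C7 * m)
          + ENNReal.ofReal (C6 * m))) := by ring
      _ ≤ m * (Ufun π j (30 * m) m a + Efun π a')
          + (ENNReal.ofReal (Real.log (Fintype.card Z))
          + ENNReal.ofReal ((m * m : ℕ) * Real.log C5)
          + m * (ENNReal.ofReal (Real.log (Fintype.card Z) / m + C7 * m)
          + ENNReal.ofReal (C6 * m))) := by gcongr
      _ = m * (Ufun π j (30 * m) m a + Efun π a') + m * ENNReal.ofReal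
          (2 * Real.log (Fintype.card Z) / m + (Real.log C5 + C6 + C7) * m) := by
          congr 1
          rw [hmof, ← ENNReal.ofReal_add (by positivity) (by positivity),
            ← ENNReal.ofReal_mul hmR.le, ← ENNReal.ofReal_add (by positivity) (by positivity),
            ← ENNReal.ofReal_mul hmR.le, ← ENNReal.ofReal_add (by positivity) (by positivity)]
          congr 1
          push_cast
          field_simp
          ring
      _ = _ := by ring
  exact (ENNReal.mul_le_mul_iff_right hm0 hmt).1 final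

theorem nl_mul_le {x y : ℝ≥0∞} (hx : x ≤ 1) (hy : y ≤ 1) : nl (x * y) ≤ nl x + nl y := by
  unfold nl
  by_cases h1 : x = 0
  · simp [h1]
  by_cases h2 : y = 0
  · simp [h2]
  have hxt : x ≠ ⊤ := ne_top_of_le_ne_top ENNReal.one_ne_top hx
  have hyt : y ≠ ⊤ := ne_top_of_le_ne_top ENNReal.one_ne_top hy
  have hx0 : 0 < x.toReal := ENNReal.toReal_pos h1 hxt
  have hy0 : 0 < y.toReal := ENNReal.toReal_pos h2 hyt
  have hx1 : x.toReal ≤ 1 := by simpa using ENNReal.toReal_mono ENNReal.one_ne_top hx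
  have hy1 : y.toReal ≤ 1 := by simpa using ENNReal.toReal_mono ENNReal.one_ne_top hy
  have h3 := Real.log_nonpos hx0.le hx1
  have h4 := Real.log_nonpos hy0.le hy1
  rw [if_neg (by simp [h1, h2]), if_neg h1, if_neg h2, ENNReal.toReal_mul,
    Real.log_mul hx0.ne' hy0.ne', ← ENNReal.ofReal_add (by linarith) (by linarith)]
  apply ENNReal.ofReal_le_ofReal
  linarith

omit [Nonempty Z] in
theorem U_init (π : Measure (E d)) [IsProbabilityMeasure π] (j n m : ℕ) (p : Z → ℝ≥0∞)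
    (hp : ∑ z, p z = 1) :
    Ufun π j n m (fun _ z => p z) ≤ Hfun π j n m + Efun π (fun (_ : E d) z => p z) := by
  have hp1 : ∀ z, p z ≤ 1 := le_one_of_sum hp
  have hpt : ∀ z, p z ≠ ⊤ := fun z => ne_top_of_le_ne_top ENNReal.one_ne_top (hp1 z)
  have h1 : ∀ z (s : E d) (X1 : Fin n → E d) (X2 : Fin m → E d),
      p z * nl (nu π j X1 X2 (fun _ => p z) s)
        ≤ p z * nl (p z) + p z * nl (nu π j X1 X2 (fun _ => 1) s) := by
    intro z s X1 X2
    have h2 : nu π j X1 X2 (fun _ => p z) s = p z * nu π j X1 X2 (fun _ => 1) s := by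
      unfold nu
      rw [← lintegral_const_mul' _ _ (hpt z)]
      refine lintegral_congr fun s' => ?_
      ring
    rw [h2, ← mul_add]
    gcongr
    refine nl_mul_le (hp1 z) ?_
    refine (nu_le π j n m _ X1 X2 s).trans ?_
    simp
  have hm0 : Measurable (fun _ : E d => (1 : ℝ≥0∞)) := measurable_const
  have h3 : ∀ z, ∫⁻ s, ∫⁻ X1, ∫⁻ X2, p z * nl (nu π j X1 X2 (fun _ => p z) s)
        ∂(rows m d) ∂(rows n d) ∂π ≤ p z * nl (p z) + p z * Hfun π j n m := by
    intro z
    calc ∫⁻ s, ∫⁻ X1, ∫⁻ X2, p z * nl (nu π j X1 X2 (fun _ => p z) s)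
        ∂(rows m d) ∂(rows n d) ∂π
        ≤ ∫⁻ s, ∫⁻ X1, ∫⁻ X2, (p z * nl (p z) + p z * nl (nu π j X1 X2 (fun _ => 1) s))
        ∂(rows m d) ∂(rows n d) ∂π := by
          refine lintegral_mono fun s => lintegral_mono fun X1 => lintegral_mono fun X2 => ?_
          exact h1 z s X1 X2
      _ = p z * nl (p z) + p z * Hfun π j n m := by
          unfold Hfun
          rw [← lintegral_const_mul' _ _ (hpt z)]
          have e1 : ∀ (s : E d) (X1 : Fin n → E d),
              ∫⁻ X2, (p z * nl (p z) + p z * nl (nu π j X1 X2 (fun _ => 1) s)) ∂(rows m d)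
              = p z * nl (p z) + p z * ∫⁻ X2, nl (nu π j X1 X2 (fun _ => 1) s) ∂(rows m d) := by
            intro s X1
            rw [lintegral_add_left measurable_const, lintegral_const, measure_univ, mul_one,
              lintegral_const_mul' _ _ (hpt z)]
          have e2 : ∀ (s : E d),
              ∫⁻ X1, ∫⁻ X2, (p z * nl (p z) + p z * nl (nu π j X1 X2 (fun _ => 1) s))
                ∂(rows m d) ∂(rows n d)
              = p z * nl (p z) + p z * ∫⁻ X1, ∫⁻ X2, nl (nu π j X1 X2 (fun _ => 1) s)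
                ∂(rows m d) ∂(rows n d) := by
            intro s
            rw [lintegral_congr (e1 s), lintegral_add_left measurable_const, lintegral_const,
              measure_univ, mul_one, lintegral_const_mul' _ _ (hpt z)]
          rw [lintegral_congr e2, lintegral_add_left measurable_const]
          simp
  calc Ufun π j n m (fun _ z => p z) ≤ ∑ z, (p z * nl (p z) + p z * Hfun π j n m) :=
        Finset.sum_le_sum fun z _ => h3 z
    _ = Hfun π j n m + Efun π (fun (_ : E d) z => p z) := by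
        rw [Finset.sum_add_distrib, ← Finset.sum_mul, hp, one_mul, add_comm]
        unfold Efun
        simp

theorem core : ∃ C : ℝ, 1 ≤ C ∧ ∀ m d : ℕ, 1 ≤ m → 100 * m ≤ d → d ≤ 200 * m →
    ∀ (π : Measure (E d)), Prior d π → ∀ (j : ℕ) (Z : Type) [Fintype Z] [Nonempty Z]
    (K : ℕ → Z → E d → ℤ → Z → ℝ≥0∞) (p : Z → ℝ≥0∞), ∑ z, p z = 1 →
    (∀ t z l z', Measurable (fun x => K t z x l z')) →
    (∀ t z x l, ∑ z', K t z x l z' = 1) →
    ∀ (k : ℕ) (c : Z → E d) (ε : ℝ), 0 < ε → ε ≤ 1 / 4 →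
    ENNReal.ofReal (3 / 5) ≤ ∑ z, ∫⁻ s in Metric.closedBall (c z) ε, lawR j K p (k * m) s z ∂π →
    d * Real.log (1 / ε) / 10 - C * d
      ≤ k * (2 * Real.log (Fintype.card Z) / m + C * m) := by
  obtain ⟨C1, hC1, h1⟩ := core_step
  obtain ⟨C2, hC2, h2⟩ := final_info
  refine ⟨C1 + C2, by linarith, ?_⟩
  intro m d hm hd1 hd2 π hπ j Z _ _ K p hp hK hK1 k c ε hε hε1 hsucc
  have := hπ.prob
  have hmR : (0 : ℝ) < m := by exact_mod_cast hm
  have hN : (1 : ℝ) ≤ Fintype.card Z := by exact_mod_cast Fintype.card_pos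
  have hlogN : 0 ≤ Real.log (Fintype.card Z) := Real.log_nonneg hN
  set B : ℝ := 2 * Real.log (Fintype.card Z) / m + C1 * m with hB
  have hB0 : 0 ≤ B := by positivity
  let a : ℕ → E d → Z → ℝ≥0∞ := fun i s z => lawR j K p (i * m) s z
  have ham : ∀ i z, Measurable (fun s => a i s z) := fun i z => lawR_meas j K p hK (i * m) z
  have ha1 : ∀ i s, ∑ z, a i s z = 1 := fun i s => lawR_sum j K p hp hK hK1 (i * m) s
  have hE : ∀ i, Efun π (a i) ≠ ⊤ := fun i =>
    ne_top_of_le_ne_top ENNReal.ofReal_ne_top (Efun_le π (a i) (ham i) (ha1 i))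
  have hH : Hfun π j (30 * m) m ≠ ⊤ :=
    ne_top_of_le_ne_top ENNReal.ofReal_ne_top (cell_entropy (30 * m) m π hπ j)
  have ind : ∀ i, Ufun π j (30 * m) m (a i)
      ≤ Hfun π j (30 * m) m + Efun π (a i) + i * ENNReal.ofReal B := by
    intro i
    induction i with
    | zero =>
      have h0 : a 0 = fun _ z => p z := by
        funext s z
        show lawR j K p (0 * m) s z = p z
        rw [Nat.zero_mul, lawR_zero]
      rw [h0]
      refine (U_init π j (30 * m) m p hp).trans ?_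
      simp
    | succ i ih =>
      obtain ⟨KB, hKB, hKB1, hKB2⟩ := block j K p hK hK1 (i * m) m
      have step := h1 m d hm hd1 hd2 π hπ j Z (a i) (ham i) (ha1 i) KB hKB hKB1
        (fun s X z' => ∑ z, a i s z * KB z X (labs j X s) z') (fun s X z' => rfl)
        (a (i + 1)) (fun s z' => by
          show lawR j K p ((i + 1) * m) s z' = _
          rw [Nat.succ_mul, hKB2]) (ham (i + 1)) (ha1 (i + 1))
      have h3 : Ufun π j (30 * m) m (a (i + 1)) + Efun π (a i)
          ≤ (Hfun π j (30 * m) m + Efun π (a (i + 1)) + (i + 1 : ℕ) * ENNReal.ofReal B)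
            + Efun π (a i) := by
        calc Ufun π j (30 * m) m (a (i + 1)) + Efun π (a i)
            ≤ Ufun π j (30 * m) m (a i) + Efun π (a (i + 1)) + ENNReal.ofReal B := step
          _ ≤ (Hfun π j (30 * m) m + Efun π (a i) + i * ENNReal.ofReal B)
              + Efun π (a (i + 1)) + ENNReal.ofReal B := by gcongr
          _ = _ := by push_cast; ring
      exact (ENNReal.add_le_add_iff_right (hE i)).1 h3
  have hfin := h2 m d hm hd1 hd2 π hπ j Z (a k) (ham k) (ha1 k) c ε hε hε1 hsucc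
  have h4 : ENNReal.ofReal (d * Real.log (1 / ε) / 10 - C2 * d)
      + (Hfun π j (30 * m) m + Efun π (a k))
      ≤ k * ENNReal.ofReal B + (Hfun π j (30 * m) m + Efun π (a k)) := by
    calc ENNReal.ofReal (d * Real.log (1 / ε) / 10 - C2 * d)
      + (Hfun π j (30 * m) m + Efun π (a k)) ≤ Ufun π j (30 * m) m (a k) := hfin
      _ ≤ _ := ind k
      _ = _ := by ring
  have h5 := (ENNReal.add_le_add_iff_right (ENNReal.add_ne_top.2 ⟨hH, hE k⟩)).1 h4
  have h6 : (k : ℝ≥0∞) * ENNReal.ofReal B = ENNReal.ofReal (k * B) := by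
    rw [ENNReal.ofReal_mul (Nat.cast_nonneg _)]; simp
  rw [h6, ENNReal.ofReal_le_ofReal_iff (by positivity)] at h5
  have h7 : (0 : ℝ) ≤ C1 * d := by positivity
  have h8 : (0 : ℝ) ≤ k * (C2 * m) := by positivity
  have h9 : (k : ℝ) * (2 * Real.log (Fintype.card Z) / m + (C1 + C2) * m)
      = k * B + k * (C2 * m) := by rw [hB]; ring
  rw [h9]
  linarith [h5, h7, h8]

end

end P309
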