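import Mathlib

open MeasureTheory ProbabilityTheory
open scoped RealInnerProductSpace ENNReal

namespace MemLearner

/-- The Euclidean space of dimension `d`. -/
abbrev Vec (d : ℕ) := EuclideanSpace ℝ (Fin d)

/-- The Euclidean unit sphere. -/
abbrev Sph (d : ℕ) := Metric.sphere (0 : Vec d) 1

/-- The surface measure on the unit sphere of `F` (Mathlib's `Measure.toSphere` of the volume),
normalized to total mass one. -/
noncomputable def normSurface (F : Type) [NormedAddCommGroup F] [NormedSpace ℝ F]
    [MeasureSpace F] : Measure (Metric.sphere (0 : F) 1) :=
  ((volume : Measure F).toSphere Set.univ)⁻¹ • (volume : Measure F).toSphere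

/-- The uniform probability measure on the unit sphere of `ℝ^d`. -/
noncomputable def unifSphere (d : ℕ) : Measure (Sph d) := normSurface (Vec d)

/-- The law of `t` independent rows with law `N(0, I_d)`. -/
noncomputable def gaussRows (t d : ℕ) : Measure (Fin t → Vec d) :=
  Measure.pi (fun _ => stdGaussian (Vec d))

/-- A learner whose persistent state is one of `N` elements (so `N ≤ 2 ^ M` for `M` bits).
In a pair `(z, b)` the Boolean `b` is the stopping decision: `true` means that the learner stops now
with final state `z`, and `false` that it goes on with state `z`.
* `init (z, b)` is the probability of the initial state `z` and of the decision `b`;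
* `step t z x y (z', b)` is the probability that the learner which has read `t` pairs, is in
  state `z` and reads now the pair `(x, y)`, takes the new state `z'` and the decision `b`;
* `out t z` is the law of the output, a unit vector, if the learner has stopped
  after `t` pairs with final state `z`. -/
structure Learner (d N : ℕ) where
  init : Fin N × Bool → ℝ≥0∞
  init_sum : ∑ w, init w = 1
  step : ℕ → Fin N → Vec d → ℝ → Fin N × Bool → ℝ≥0∞
  step_meas : ∀ t z w, Measurable (fun q : Vec d × ℝ => step t z q.1 q.2 w)
  step_sum : ∀ t z x y, ∑ w, step t z x y w = 1
  out : ℕ → Fin N → Measure (Sph d)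
  out_prob : ∀ t z, IsProbabilityMeasure (out t z)

namespace Learner

variable {d N : ℕ} (L : Learner d N)

/-- For the signal `s` and the rows `X 0, …, X (t-1)` (labels `⟪X i, s⟫`),
`L.prob s t X (z, b)` is the probability, over the randomness of the learner, that it reads
all these `t` pairs, then has the state `z` and takes the decision `b`. -/
noncomputable def prob (s : Vec d) : (t : ℕ) → (Fin t → Vec d) → Fin N × Bool → ℝ≥0∞
  | 0, _, w => L.init w
  | t + 1, X, w => ∑ z, prob s t (Fin.init X) (z, false) *
      L.step t z (X (Fin.last t)) ⟪X (Fin.last t), s⟫ w

/-- For the signal `s` and the rows `X`, the probability that the learner with horizon `T` stops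
exactly after `t` pairs with final state `z`; at the horizon `t = T` it has to stop. -/
noncomputable def stopProb (T : ℕ) (s : Vec d) (t : ℕ) (X : Fin t → Vec d) (z : Fin N) : ℝ≥0∞ :=
  L.prob s t X (z, true) + if t = T then L.prob s t X (z, false) else 0

/-- The probability that the output of the learner with horizon `T` has angle at most `ε` with
the signal, which is uniform on the sphere, the rows being independent standard Gaussian vectors. -/
noncomputable def success (T : ℕ) (ε : ℝ) : ℝ≥0∞ :=
  ∫⁻ s : Sph d, ∑ t ∈ Finset.range (T + 1), ∫⁻ X, ∑ z, L.stopProb T s.1 t X z *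
    L.out t z {v | Real.arccos ⟪v.1, s.1⟫ ≤ ε} ∂(gaussRows t d) ∂(unifSphere d)

end Learner

end MemLearner
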