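import Vale.Agent.H20.P309.Meas
import Vale.Agent.H20.P309.Law
import Vale.Agent.H20.P309.LearnerDefs

open MeasureTheory ProbabilityTheory
open scoped RealInnerProductSpace ENNReal

namespace P309

open MemLearner

variable {d N : ℕ} (L : Learner d N)

theorem gaussRows_eq (t d : ℕ) : gaussRows t d = rows t d := rfl

instance (t d : ℕ) : IsProbabilityMeasure (gaussRows t d) := by
  rw [gaussRows_eq]; infer_instance

theorem prob_zero (s : E d) (X : Fin 0 → E d) (w : Fin N × Bool) : L.prob s 0 X w = L.init w := rfl

theorem prob_succ (s : E d) (t : ℕ) (X : Fin (t + 1) → E d) (w : Fin N × Bool) :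
    L.prob s (t + 1) X w = ∑ z, L.prob s t (Fin.init X) (z, false) *
      L.step t z (X (Fin.last t)) ⟪X (Fin.last t), s⟫ w := rfl

theorem meas_init {t : ℕ} : Measurable (fun X : Fin (t + 1) → E d => (Fin.init X : Fin t → E d)) := by
  unfold Fin.init
  exact measurable_pi_lambda _ fun i => measurable_pi_apply _

theorem meas_step1 (s : E d) (t : ℕ) (z : Fin N) (w : Fin N × Bool) :
    Measurable (fun x : E d => L.step t z x ⟪x, s⟫ w) :=
  (L.step_meas t z w).comp (measurable_id.prodMk (measurable_id.inner measurable_const))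

theorem meas_prob2 (t : ℕ) : ∀ (w : Fin N × Bool),
    Measurable (fun q : E d × (Fin t → E d) => L.prob q.1 t q.2 w) := by
  induction t with
  | zero => intro w; simp only [prob_zero]; exact measurable_const
  | succ t ih =>
    intro w
    simp only [prob_succ]
    refine Finset.measurable_sum _ fun z _ => ?_
    have h1 : Measurable (fun q : E d × (Fin (t + 1) → E d) => (q.2 (Fin.last t) : E d)) :=
      (measurable_pi_apply _).comp measurable_snd
    refine Measurable.mul ?_ ?_
    · exact (ih (z, false)).comp (measurable_fst.prodMk (meas_init.comp measurable_snd))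
    · exact (L.step_meas t z w).comp (h1.prodMk (h1.inner measurable_fst))

theorem meas_prob (s : E d) (t : ℕ) (w : Fin N × Bool) :
    Measurable (fun X : Fin t → E d => L.prob s t X w) :=
  (meas_prob2 L t w).comp (measurable_const.prodMk measurable_id)

/-- expectation over the rows. -/
noncomputable def Fp (s : E d) (t : ℕ) (w : Fin N × Bool) : ℝ≥0∞ :=
  ∫⁻ X, L.prob s t X w ∂(gaussRows t d)

theorem Fp_zero (s : E d) (w : Fin N × Bool) : Fp L s 0 w = L.init w := by
  unfold Fp
  simp [prob_zero]

theorem Fp_succ (s : E d) (t : ℕ) (w : Fin N × Bool) :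
    Fp L s (t + 1) w = ∑ z, Fp L s t (z, false) *
      ∫⁻ x, L.step t z x ⟪x, s⟫ w ∂(stdGaussian (E d)) := by
  unfold Fp
  have hmp := measurePreserving_piFinSuccAbove (fun _ : Fin (t + 1) => stdGaussian (E d))
    (Fin.last t)
  let g : E d × (Fin t → E d) → ℝ≥0∞ := fun p => ∑ z, L.step t z p.1 ⟪p.1, s⟫ w *
        L.prob s t p.2 (z, false)
  have hg : Measurable g := by
    refine Finset.measurable_sum _ fun z _ => ?_
    exact ((meas_step1 L s t z w).comp measurable_fst).mul
        ((meas_prob L s t (z, false)).comp measurable_snd)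
  have h1 : ∀ X : Fin (t + 1) → E d, L.prob s (t + 1) X w
      = g (MeasurableEquiv.piFinSuccAbove (fun _ : Fin (t + 1) => E d) (Fin.last t) X) := by
    intro X
    rw [prob_succ]
    refine Finset.sum_congr rfl fun z _ => ?_
    have h2 : (MeasurableEquiv.piFinSuccAbove (fun _ : Fin (t + 1) => E d) (Fin.last t) X).2
        = Fin.init X := by
      funext i
      simp [MeasurableEquiv.piFinSuccAbove, Fin.init]
    have h3 : (MeasurableEquiv.piFinSuccAbove (fun _ : Fin (t + 1) => E d) (Fin.last t) X).1
        = X (Fin.last t) := by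
      simp [MeasurableEquiv.piFinSuccAbove]
    rw [h2, h3, mul_comm]
  have h4 : gaussRows (t + 1) d = Measure.pi (fun _ : Fin (t + 1) => stdGaussian (E d)) := rfl
  have h6 := hmp.lintegral_comp hg
  have h5 : (Measure.pi fun j : Fin t => stdGaussian (E d)) = gaussRows t d := rfl
  rw [lintegral_congr h1, h4, h6, h5]
  show ∫⁻ p : E d × (Fin t → E d), ∑ z, L.step t z p.1 ⟪p.1, s⟫ w *
    L.prob s t p.2 (z, false) ∂_ = _
  rw [lintegral_finsetSum]
  · refine Finset.sum_congr rfl fun z _ => ?_
    rw [lintegral_prod_mul (meas_step1 L s t z w).aemeasurable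
      (meas_prob L s t (z, false)).aemeasurable, mul_comm]
  · intro z _
    exact ((meas_step1 L s t z w).comp measurable_fst).mul
      ((meas_prob L s t (z, false)).comp measurable_snd)

/-- the enlarged state: `none` while running, `some i` once stopped at index `i`. -/
abbrev ZZ (N T : ℕ) := Fin N × Option (Fin (T + 1))

/-- the kernel on the enlarged state. -/
noncomputable def KK (T : ℕ) (t : ℕ) (w : ZZ N T) (x : E d) (y : ℝ) (w' : ZZ N T) : ℝ≥0∞ :=
  match w.2 with
  | some _ => if w' = w then 1 else 0
  | none => match w'.2 with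
    | none => L.step t w.1 x y (w'.1, false)
    | some i => if i.val = min (t + 1) T then L.step t w.1 x y (w'.1, true) else 0

/-- the initial law on the enlarged state. -/
noncomputable def pp (T : ℕ) (w : ZZ N T) : ℝ≥0∞ :=
  match w.2 with
  | none => L.init (w.1, false)
  | some i => if i.val = 0 then L.init (w.1, true) else 0

theorem KK_some (T t : ℕ) (z : Fin N) (i : Fin (T + 1)) (x : E d) (y : ℝ) (w' : ZZ N T) :
    KK L T t (z, some i) x y w' = if w' = (z, some i) then 1 else 0 := rfl

theorem KK_none_none (T t : ℕ) (z z' : Fin N) (x : E d) (y : ℝ) :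
    KK L T t (z, none) x y (z', none) = L.step t z x y (z', false) := rfl

theorem KK_none_some (T t : ℕ) (z z' : Fin N) (i : Fin (T + 1)) (x : E d) (y : ℝ) :
    KK L T t (z, none) x y (z', some i)
      = if i.val = min (t + 1) T then L.step t z x y (z', true) else 0 := rfl

theorem pp_none (T : ℕ) (z : Fin N) : pp L T (z, none) = L.init (z, false) := rfl

theorem pp_some (T : ℕ) (z : Fin N) (i : Fin (T + 1)) :
    pp L T (z, some i) = if i.val = 0 then L.init (z, true) else 0 := rfl

theorem pp_sum (T : ℕ) : ∑ w, pp L T w = 1 := by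
  rw [← L.init_sum, Fintype.sum_prod_type, Fintype.sum_prod_type]
  refine Finset.sum_congr rfl fun z _ => ?_
  rw [Fintype.sum_option, Fintype.sum_bool, add_comm]
  simp only [pp_none, pp_some]
  congr 1
  rw [Finset.sum_eq_single (0 : Fin (T + 1))]
  · simp
  · intro i _ hi
    rw [if_neg]
    intro h
    exact hi (Fin.ext h)
  · simp

theorem KK_sum (T t : ℕ) (w : ZZ N T) (x : E d) (y : ℝ) : ∑ w', KK L T t w x y w' = 1 := by
  obtain ⟨z, o⟩ := w
  cases o with
  | some i =>
    simp only [KK_some]
    simp
  | none =>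
    rw [← L.step_sum t z x y, Fintype.sum_prod_type, Fintype.sum_prod_type]
    refine Finset.sum_congr rfl fun z' _ => ?_
    rw [Fintype.sum_option, Fintype.sum_bool, add_comm]
    simp only [KK_none_none, KK_none_some]
    congr 1
    have hlt : min (t + 1) T < T + 1 := by omega
    rw [Finset.sum_eq_single (⟨min (t + 1) T, hlt⟩ : Fin (T + 1))]
    · simp
    · intro i _ hi
      rw [if_neg]
      intro h
      exact hi (Fin.ext h)
    · simp

theorem KK_meas (T t : ℕ) (w w' : ZZ N T) : Measurable (fun q : E d × ℝ => KK L T t w q.1 q.2 w') := by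
  obtain ⟨z, o⟩ := w
  obtain ⟨z', o'⟩ := w'
  cases o with
  | some i =>
    simp only [KK_some]
    exact measurable_const
  | none =>
    cases o' with
    | none => simp only [KK_none_none]; exact L.step_meas t z (z', false)
    | some i =>
      simp only [KK_none_some]
      split_ifs
      · exact L.step_meas t z (z', true)
      · exact measurable_const

theorem law_none (T : ℕ) (s : E d) (t : ℕ) : ∀ z : Fin N,
    law (KK L T) (pp L T) t s (z, none) = Fp L s t (z, false) := by
  induction t with
  | zero => intro z; rw [law_zero, pp_none, Fp_zero]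
  | succ t ih =>
    intro z
    rw [law_succ, Fp_succ, Fintype.sum_prod_type]
    refine Finset.sum_congr rfl fun z' _ => ?_
    rw [Fintype.sum_option, ih]
    simp [KK_some, KK_none_none]

theorem law_some (T : ℕ) (s : E d) (t : ℕ) (ht : t ≤ T) : ∀ (z : Fin N) (i : Fin (T + 1)),
    law (KK L T) (pp L T) t s (z, some i) = if i.val ≤ t then Fp L s i (z, true) else 0 := by
  induction t with
  | zero =>
    intro z i
    rw [law_zero, pp_some]
    by_cases h : i.val = 0
    · rw [if_pos h, if_pos (by omega), h, Fp_zero]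
    · rw [if_neg h, if_neg (by omega)]
  | succ t ih =>
    intro z i
    have ih' := ih (by omega)
    rw [law_succ, Fintype.sum_prod_type]
    have h1 : ∀ z' : Fin N, ∑ o, law (KK L T) (pp L T) t s (z', o) *
        ∫⁻ x, KK L T t (z', o) x ⟪x, s⟫ (z, some i) ∂(stdGaussian (E d))
        = (if i.val = t + 1 then Fp L s t (z', false) *
            ∫⁻ x, L.step t z' x ⟪x, s⟫ (z, true) ∂(stdGaussian (E d)) else 0)
          + (if z' = z then (if i.val ≤ t then Fp L s i (z, true) else 0) else 0) := by
      intro z'
      rw [Fintype.sum_option, law_none]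
      congr 1
      · simp only [KK_none_some]
        have hmin : min (t + 1) T = t + 1 := by omega
        rw [hmin]
        split_ifs
        · rfl
        · simp
      · simp only [ih', KK_some]
        by_cases hz : z' = z
        · subst hz
          rw [if_pos rfl, Finset.sum_eq_single i]
          · simp
          · intro i' _ hi'
            have : ¬ ((z', some i) = (z', some i')) := by
              intro h; apply hi'; simpa using h.symm
            simp [this]
          · simp
        · rw [if_neg hz]
          refine Finset.sum_eq_zero fun i' _ => ?_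
          have : ¬ ((z, some i) = (z', some i')) := by
            intro h; apply hz; exact (congrArg Prod.fst h).symm
          simp [this]
    rw [Finset.sum_congr rfl fun z' _ => h1 z', Finset.sum_add_distrib]
    rw [Finset.sum_ite_eq' Finset.univ z, if_pos (Finset.mem_univ z)]
    by_cases h : i.val = t + 1
    · simp only [if_pos h]
      rw [if_neg (by omega), if_pos (by omega), add_zero, h, Fp_succ]
    · simp only [if_neg h, Finset.sum_const_zero, zero_add]
      by_cases h2 : i.val ≤ t
      · rw [if_pos h2, if_pos (by omega)]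
      · rw [if_neg h2, if_neg (by omega)]

/-- output rules on the enlarged state. -/
noncomputable def OO (T : ℕ) (w : ZZ N T) : Measure (Sph d) :=
  match w.2 with
  | none => L.out T w.1
  | some i => L.out i.val w.1

theorem OO_none (T : ℕ) (z : Fin N) : OO L T (z, none) = L.out T z := rfl

theorem OO_some (T : ℕ) (z : Fin N) (i : Fin (T + 1)) : OO L T (z, some i) = L.out i.val z := rfl

theorem OO_prob (T : ℕ) (w : ZZ N T) : IsProbabilityMeasure (OO L T w) := by
  obtain ⟨z, o⟩ := w
  cases o with
  | none => exact L.out_prob T z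
  | some i => exact L.out_prob i.val z

theorem success_point (T : ℕ) (s : E d) (S : Set (Sph d)) :
    ∑ t ∈ Finset.range (T + 1), ∫⁻ X, ∑ z, L.stopProb T s t X z * L.out t z S ∂(gaussRows t d)
      = ∑ w, law (KK L T) (pp L T) T s w * OO L T w S := by
  have h1 : ∀ t, ∫⁻ X, ∑ z, L.stopProb T s t X z * L.out t z S ∂(gaussRows t d)
      = ∑ z, (Fp L s t (z, true) + if t = T then Fp L s t (z, false) else 0) * L.out t z S := by
    intro t
    have hm : ∀ z, Measurable (fun X : Fin t → E d => L.stopProb T s t X z) := by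
      intro z
      unfold Learner.stopProb
      split_ifs
      · exact (meas_prob L s t _).add (meas_prob L s t _)
      · exact (meas_prob L s t _).add measurable_const
    rw [lintegral_finsetSum]
    · refine Finset.sum_congr rfl fun z _ => ?_
      rw [lintegral_mul_const _ (hm z)]
      congr 1
      unfold Learner.stopProb
      split_ifs with h
      · rw [lintegral_add_left (meas_prob L s t _)]; rfl
      · simp only [add_zero]; rfl
    · intro z _
      exact (hm z).mul_const _
  rw [Finset.sum_congr rfl fun t _ => h1 t, Finset.sum_range, Finset.sum_comm,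
    Fintype.sum_prod_type]
  refine Finset.sum_congr rfl fun z _ => ?_
  rw [Fintype.sum_option, law_none, OO_none]
  simp only [OO_some, law_some L T s T le_rfl]
  have h2 : ∀ i : Fin (T + 1), (Fp L s i.val (z, true)
      + if i.val = T then Fp L s i.val (z, false) else 0) * L.out i.val z S
      = (if i = Fin.last T then Fp L s T (z, false) * L.out T z S else 0)
        + Fp L s i.val (z, true) * L.out i.val z S := by
    intro i
    by_cases h : i = Fin.last T
    · subst h
      simp only [Fin.val_last, if_true]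
      ring
    · have h' : i.val ≠ T := fun h' => h (Fin.ext (by simpa using h'))
      rw [if_neg h, if_neg h']
      simp
  rw [Finset.sum_congr rfl fun i _ => h2 i, Finset.sum_add_distrib,
    Finset.sum_ite_eq' Finset.univ (Fin.last T), if_pos (Finset.mem_univ _)]
  congr 1
  refine Finset.sum_congr rfl fun i _ => ?_
  rw [if_pos (by have := i.isLt; omega)]

theorem success_eq (T : ℕ) (ε : ℝ) : L.success T ε
    = ∫⁻ s : Sph d, ∑ w, law (KK L T) (pp L T) T s.1 w *
      OO L T w {v | Real.arccos ⟪v.1, s.1⟫ ≤ ε} ∂(unifSphere d) := by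
  unfold Learner.success
  refine lintegral_congr fun s => ?_
  exact success_point L T s.1 _

theorem meas_law {Z : Type} [Fintype Z] (K : ℕ → Z → E d → ℝ → Z → ℝ≥0∞)
    (p : Z → ℝ≥0∞)
    (hK : ∀ t z z', Measurable (fun q : E d × ℝ => K t z q.1 q.2 z')) (t : ℕ) : ∀ (z : Z),
    Measurable (fun s => law K p t s z) := by
  induction t with
  | zero => intro z; simp only [law_zero]; exact measurable_const
  | succ t ih =>
    intro z
    simp only [law_succ]
    refine Finset.measurable_sum _ fun z' _ => (ih z').mul ?_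
    refine Measurable.lintegral_prod_right'
      (f := fun q : E d × E d => K t z' q.2 ⟪q.2, q.1⟫ z) ?_
    exact (hK t z' z).comp (measurable_snd.prodMk (measurable_snd.inner measurable_fst))

theorem law_sum {Z : Type} [Fintype Z] (K : ℕ → Z → E d → ℝ → Z → ℝ≥0∞)
    (p : Z → ℝ≥0∞) (hp : ∑ z, p z = 1)
    (hK : ∀ t z z', Measurable (fun q : E d × ℝ => K t z q.1 q.2 z'))
    (hK1 : ∀ t z x y, ∑ z', K t z x y z' = 1) (t : ℕ) (s : E d) :
    ∑ z, law K p t s z = 1 := by
  induction t with
  | zero => simpa [law_zero] using hp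
  | succ t ih =>
    simp only [law_succ]
    rw [Finset.sum_comm]
    have h : ∀ z, ∑ z', law K p t s z * ∫⁻ x, K t z x ⟪x, s⟫ z' ∂(stdGaussian (E d))
        = law K p t s z := by
      intro z
      rw [← Finset.mul_sum, ← lintegral_finsetSum]
      · simp [hK1]
      · intro z' _
        exact (hK t z z').comp (measurable_id.prodMk (measurable_id.inner measurable_const))
    rw [Finset.sum_congr rfl fun z _ => h z, ih]

theorem norm_sub_le_arccos (u v : E d) (hu : ‖u‖ = 1) (hv : ‖v‖ = 1) :
    ‖v - u‖ ≤ Real.arccos ⟪u, v⟫ := by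
  have h0 : 0 ≤ Real.arccos ⟪u, v⟫ := Real.arccos_nonneg _
  refine abs_le_of_sq_le_sq' ?_ h0 |>.2
  have h1 : ‖v - u‖ ^ 2 = 2 - 2 * ⟪u, v⟫ := by
    rw [@norm_sub_sq_real, hu, hv, real_inner_comm]
    ring
  have h2 : |⟪u, v⟫| ≤ 1 := by
    have := abs_real_inner_le_norm u v
    rwa [hu, hv, one_mul] at this
  have h3 : Real.cos (Real.arccos ⟪u, v⟫) = ⟪u, v⟫ :=
    Real.cos_arccos (abs_le.1 h2).1 (abs_le.1 h2).2
  have h4 := Real.one_sub_sq_div_two_le_cos (x := Real.arccos ⟪u, v⟫)
  rw [h3] at h4
  rw [h1]
  linarith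

theorem meas_capset (ε : ℝ) :
    MeasurableSet {q : Sph d × Sph d | Real.arccos ⟪q.2.1, q.1.1⟫ ≤ ε} := by
  have h1 : Measurable (fun q : Sph d × Sph d => ⟪(q.2.1 : E d), (q.1.1 : E d)⟫) :=
    (measurable_subtype_coe.comp measurable_snd).inner (measurable_subtype_coe.comp measurable_fst)
  exact measurableSet_le (Real.measurable_arccos.comp h1) measurable_const

theorem meas_cap (O : Measure (Sph d)) [IsProbabilityMeasure O] (ε : ℝ) :
    Measurable (fun s : Sph d => O {v | Real.arccos ⟪v.1, s.1⟫ ≤ ε}) :=
  measurable_measure_prodMk_left (ν := O) (meas_capset (d := d) ε)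

theorem cap_lintegral (O : Measure (Sph d)) [IsProbabilityMeasure O] (ε : ℝ) (s : Sph d) :
    O {v | Real.arccos ⟪v.1, s.1⟫ ≤ ε}
      = ∫⁻ v : Sph d, (if Real.arccos ⟪v.1, s.1⟫ ≤ ε then 1 else 0) ∂O := by
  have hS : MeasurableSet {v : Sph d | Real.arccos ⟪v.1, s.1⟫ ≤ ε} := by
    have h1 : Measurable (fun v : Sph d => ⟪(v.1 : E d), (s.1 : E d)⟫) :=
      measurable_subtype_coe.inner measurable_const
    exact measurableSet_le (Real.measurable_arccos.comp h1) measurable_const
  rw [← lintegral_indicator_one hS]
  refine lintegral_congr fun v => ?_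
  by_cases hv : Real.arccos ⟪v.1, s.1⟫ ≤ ε
  · rw [if_pos hv, Set.indicator_of_mem (by exact hv)]; rfl
  · rw [if_neg hv, Set.indicator_of_notMem (by exact hv)]

theorem centre_lemma (g : E d → ℝ≥0∞) (hg : Measurable g) (hg1 : ∀ s, g s ≤ 1)
    (O : Measure (Sph d)) [IsProbabilityMeasure O] (ε : ℝ) [IsProbabilityMeasure (unifSphere d)] :
    ∃ v : Sph d, ∫⁻ s : Sph d, g s.1 * O {v | Real.arccos ⟪v.1, s.1⟫ ≤ ε} ∂(unifSphere d)
      ≤ ∫⁻ s in Metric.closedBall v.1 ε, g s ∂(sph d) := by
  let f : Sph d → Sph d → ℝ≥0∞ := fun s v => g s.1 *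
    (if Real.arccos ⟪v.1, s.1⟫ ≤ ε then 1 else 0)
  have hf : Measurable (Function.uncurry f) :=
    (hg.comp (measurable_subtype_coe.comp measurable_fst)).mul
      (Measurable.ite (meas_capset (d := d) ε) measurable_const measurable_const)
  have h1 : ∫⁻ s : Sph d, g s.1 * O {v | Real.arccos ⟪v.1, s.1⟫ ≤ ε} ∂(unifSphere d)
      = ∫⁻ v, ∫⁻ s, f s v ∂(unifSphere d) ∂O := by
    rw [← lintegral_lintegral_swap hf.aemeasurable]
    refine lintegral_congr fun s => ?_
    have hne : g s.1 ≠ ⊤ := ne_top_of_le_ne_top ENNReal.one_ne_top (hg1 s.1)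
    rw [cap_lintegral, ← lintegral_const_mul' _ _ hne]
  have h2 : ∀ v, ∫⁻ s, f s v ∂(unifSphere d) ≤ 1 := by
    intro v
    calc ∫⁻ s, f s v ∂(unifSphere d) ≤ ∫⁻ _, 1 ∂(unifSphere d) := by
          refine lintegral_mono fun s => ?_
          show g s.1 * _ ≤ 1
          split_ifs
          · simpa using hg1 s.1
          · simp
      _ = 1 := by simp
  have h3 : ∫⁻ v, ∫⁻ s, f s v ∂(unifSphere d) ∂O ≠ ⊤ := by
    refine ne_top_of_le_ne_top ENNReal.one_ne_top ?_
    calc ∫⁻ v, ∫⁻ s, f s v ∂(unifSphere d) ∂O ≤ ∫⁻ _, 1 ∂O := lintegral_mono h2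
      _ = 1 := by simp
  obtain ⟨v, hv⟩ := exists_lintegral_le h3
  refine ⟨v, h1.trans_le (hv.trans ?_)⟩
  have hball : MeasurableSet (Metric.closedBall v.1 ε) := Metric.isClosed_closedBall.measurableSet
  rw [← lintegral_indicator hball, sph_eq,
    lintegral_map (hg.indicator hball) measurable_subtype_coe]
  refine lintegral_mono fun s => ?_
  show g s.1 * _ ≤ _
  split_ifs with h
  · rw [mul_one, Set.indicator_of_mem]
    rw [Metric.mem_closedBall, dist_eq_norm]
    have hn : ‖(v.1 : E d)‖ = 1 := by simp
    have hn' : ‖(s.1 : E d)‖ = 1 := by simp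
    exact (norm_sub_le_arccos v.1 s.1 hn hn').trans h
  · simp

/-- choose the best deterministic output for each final state. -/
theorem exists_centres (T : ℕ) (ε : ℝ) [IsProbabilityMeasure (unifSphere d)] :
    ∃ c : ZZ N T → E d, L.success T ε
      ≤ ∑ w, ∫⁻ s in Metric.closedBall (c w) ε, law (KK L T) (pp L T) T s w ∂(sph d) := by
  have hlm := meas_law (KK L T) (pp L T) (fun t z z' => KK_meas L T t z z') T
  have hls := law_sum (KK L T) (pp L T) (pp_sum L T) (fun t z z' => KK_meas L T t z z')
    (KK_sum L T) T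
  have hl1 : ∀ w s, law (KK L T) (pp L T) T s w ≤ 1 := by
    intro w s
    rw [← hls s]
    exact Finset.single_le_sum (f := fun w => law (KK L T) (pp L T) T s w)
      (fun _ _ => by simp) (Finset.mem_univ w)
  have hw : ∀ w : ZZ N T, ∃ v : Sph d,
      ∫⁻ s : Sph d, law (KK L T) (pp L T) T s.1 w *
        OO L T w {v | Real.arccos ⟪v.1, s.1⟫ ≤ ε} ∂(unifSphere d)
      ≤ ∫⁻ s in Metric.closedBall v.1 ε, law (KK L T) (pp L T) T s w ∂(sph d) := by
    intro w
    have := OO_prob L T w
    exact centre_lemma (fun s => law (KK L T) (pp L T) T s w) (hlm w) (hl1 w) (OO L T w) ε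
  choose v hv using hw
  refine ⟨fun w => (v w).1, ?_⟩
  rw [success_eq, lintegral_finsetSum]
  · exact Finset.sum_le_sum fun w _ => hv w
  · intro w _
    have := OO_prob L T w
    exact ((hlm w).comp measurable_subtype_coe).mul (meas_cap (OO L T w) ε)

end P309
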