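import Vale.Agent.H20.P309.Core
import Vale.Agent.H20.P309.Reduce

open MeasureTheory ProbabilityTheory
open scoped RealInnerProductSpace ENNReal

namespace P309

open MemLearner

theorem unif_prob (d : ℕ) (hd : 2 ≤ d) : IsProbabilityMeasure (unifSphere d) := by
  have h := (sph_prior d hd).prob
  constructor
  have h1 : sph d Set.univ = 1 := h.measure_univ
  rw [sph_eq, Measure.map_apply measurable_subtype_coe MeasurableSet.univ,
    Set.preimage_univ] at h1
  exact h1

/-- replace the transitions after time `T` by the identity. -/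
noncomputable def stopK {Z : Type} [DecidableEq Z] {d : ℕ} (K : ℕ → Z → E d → ℤ → Z → ℝ≥0∞)
    (T : ℕ) (t : ℕ) (z : Z) (x : E d) (l : ℤ) (z' : Z) : ℝ≥0∞ :=
  if t < T then K t z x l z' else if z' = z then 1 else 0

section
variable {Z : Type} [Fintype Z] [DecidableEq Z] {d : ℕ}

theorem lawR_stop_le (j : ℕ) (K : ℕ → Z → E d → ℤ → Z → ℝ≥0∞) (p : Z → ℝ≥0∞) (T : ℕ) (s : E d)
    (t : ℕ) (ht : t ≤ T) : ∀ z, lawR j (stopK K T) p t s z = lawR j K p t s z := by
  induction t with
  | zero => intro z; rfl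
  | succ t ih =>
    intro z
    rw [lawR_succ, lawR_succ]
    refine Finset.sum_congr rfl fun z' _ => ?_
    rw [ih (by omega)]
    congr 1
    refine lintegral_congr fun x => ?_
    unfold stopK
    rw [if_pos (by omega)]

theorem lawR_stop_ge (j : ℕ) (K : ℕ → Z → E d → ℤ → Z → ℝ≥0∞) (p : Z → ℝ≥0∞) (T : ℕ) (s : E d)
    (t : ℕ) : ∀ z, lawR j (stopK K T) p (T + t) s z = lawR j K p T s z := by
  induction t with
  | zero => intro z; exact lawR_stop_le j K p T s T le_rfl z
  | succ t ih =>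
    intro z
    rw [← Nat.add_assoc, lawR_succ]
    have h1 : ∀ z', lawR j (stopK K T) p (T + t) s z' *
        ∫⁻ x, stopK K T (T + t) z' x (lab j x s) z ∂(stdGaussian (E d))
        = if z = z' then lawR j K p T s z' else 0 := by
      intro z'
      rw [ih]
      have h2 : ∀ x : E d, stopK K T (T + t) z' x (lab j x s) z = if z = z' then 1 else 0 := by
        intro x
        unfold stopK
        rw [if_neg (by omega)]
      rw [lintegral_congr h2]
      split_ifs <;> simp
    rw [Finset.sum_congr rfl fun z' _ => h1 z', Finset.sum_ite_eq, if_pos (Finset.mem_univ z)]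

omit [Fintype Z] in
theorem stopK_meas (K : ℕ → Z → E d → ℤ → Z → ℝ≥0∞)
    (hK : ∀ t z l z', Measurable (fun x => K t z x l z')) (T t : ℕ) (z : Z) (l : ℤ) (z' : Z) :
    Measurable (fun x => stopK K T t z x l z') := by
  unfold stopK
  by_cases h : t < T
  · simp only [if_pos h]; exact hK t z l z'
  · simp only [if_neg h]; exact measurable_const

theorem stopK_sum (K : ℕ → Z → E d → ℤ → Z → ℝ≥0∞)
    (hK1 : ∀ t z x l, ∑ z', K t z x l z' = 1) (T t : ℕ) (z : Z) (x : E d) (l : ℤ) :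
    ∑ z', stopK K T t z x l z' = 1 := by
  unfold stopK
  by_cases h : t < T
  · simp only [if_pos h]; exact hK1 t z x l
  · simp only [if_neg h]; simp

end

theorem card_ZZ (N T : ℕ) : Fintype.card (ZZ N T) = N * (T + 2) := by
  simp [ZZ, Fintype.card_prod, Fintype.card_option]

theorem pos_of_learner {d N : ℕ} (L : Learner d N) : 0 < N := by
  rcases Nat.eq_zero_or_pos N with h | h
  · subst h
    have := L.init_sum
    simp at this
  · exact h

theorem tradeoff_raw : ∃ C : ℝ, 1 ≤ C ∧ ∀ m d : ℕ, 1 ≤ m → 100 * m ≤ d → d ≤ 200 * m →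
    ∀ (N T : ℕ) (L : Learner d N) (ε : ℝ), 0 < ε → ε ≤ 1 / 4 →
    ENNReal.ofReal (2 / 3) ≤ L.success T ε →
    d * Real.log (1 / ε) / 10 - C * d
      ≤ (T / m + 1) * (2 * Real.log (N * (T + 2)) / m + C * m) := by
  obtain ⟨C, hC, h⟩ := core
  refine ⟨C, hC, ?_⟩
  intro m d hm hd1 hd2 N T L ε hε hε1 hsucc
  have hd : 2 ≤ d := by omega
  have hprior := sph_prior d hd
  have := hprior.prob
  have := unif_prob d hd
  have hN : 0 < N := pos_of_learner L
  have hne : Nonempty (ZZ N T) := ⟨(⟨0, hN⟩, none)⟩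
  obtain ⟨c, hc⟩ := exists_centres L T ε
  obtain ⟨j, K', hK', hK1', hr⟩ := rounding (by omega : 0 < d) (KK L T) (pp L T) (pp_sum L T)
    (fun t z z' => KK_meas L T t z z') (KK_sum L T) (sph d) (fun x hx => sph_ac d hd x hx) T
    (fun w => Metric.closedBall (c w) ε) (fun w => Metric.isClosed_closedBall.measurableSet)
    (1 / 15) (by norm_num)
  set k : ℕ := T / m + 1 with hk
  have hkm : T ≤ k * m := by
    have h1 := Nat.div_add_mod T m
    have h2 := Nat.mod_lt T (by omega : 0 < m)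
    have h3 : k * m = m * (T / m) + m := by rw [hk]; ring
    omega
  obtain ⟨r, hr'⟩ := Nat.exists_eq_add_of_le hkm
  have h1 : ENNReal.ofReal (3 / 5) ≤ ∑ z, ∫⁻ s in Metric.closedBall (c z) ε,
      lawR j (stopK K' T) (pp L T) (k * m) s z ∂(sph d) := by
    have h2 : ENNReal.ofReal (3 / 5) + ENNReal.ofReal (1 / 15)
        ≤ (∑ z, ∫⁻ s in Metric.closedBall (c z) ε, lawR j K' (pp L T) T s z ∂(sph d))
          + ENNReal.ofReal (1 / 15) := by
      rw [← ENNReal.ofReal_add (by norm_num) (by norm_num)]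
      have h3 : (3 / 5 + 1 / 15 : ℝ) = 2 / 3 := by norm_num
      rw [h3]
      exact (hsucc.trans hc).trans hr
    have h4 := (ENNReal.add_le_add_iff_right ENNReal.ofReal_ne_top).1 h2
    refine h4.trans (le_of_eq ?_)
    refine Finset.sum_congr rfl fun z _ => ?_
    refine lintegral_congr fun s => ?_
    rw [hr', lawR_stop_ge]
  have h5 := h m d hm hd1 hd2 (sph d) hprior j (ZZ N T) (stopK K' T) (pp L T) (pp_sum L T)
    (fun t z l z' => stopK_meas K' hK' T t z l z') (fun t z x l => stopK_sum K' hK1' T t z x l)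
    k c ε hε hε1 h1
  rw [card_ZZ] at h5
  have hmR : (0 : ℝ) < m := by exact_mod_cast hm
  have hkR : (k : ℝ) ≤ T / m + 1 := by
    rw [hk]
    push_cast
    have := Nat.cast_div_le (α := ℝ) (m := T) (n := m)
    linarith
  have hlog : 0 ≤ Real.log ((N * (T + 2) : ℕ) : ℝ) := by
    apply Real.log_nonneg
    have : 1 ≤ N * (T + 2) := Nat.mul_pos hN (by omega)
    exact_mod_cast this
  refine h5.trans ?_
  push_cast at hlog ⊢
  gcongr

theorem counting {d N T : ℕ} (hd : 2 ≤ d) (L : Learner d N) (ε : ℝ) (hε : 0 < ε)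
    (hsucc : ENNReal.ofReal (2 / 3) ≤ L.success T ε) :
    (d - 1) * Real.log (1 / ε) ≤ Real.log (N * (T + 2)) + 4 * d := by
  have hprior := sph_prior d hd
  have := hprior.prob
  have := unif_prob d hd
  have hN : 0 < N := pos_of_learner L
  obtain ⟨c, hc⟩ := exists_centres L T ε
  have hls := law_sum (KK L T) (pp L T) (pp_sum L T) (fun t z z' => KK_meas L T t z z')
    (KK_sum L T) T
  have h1 : L.success T ε ≤ (N * (T + 2) : ℕ) * ENNReal.ofReal ((16 : ℝ) ^ d * ε ^ (d - 1)) := by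
    refine hc.trans ?_
    calc ∑ w, ∫⁻ s in Metric.closedBall (c w) ε, law (KK L T) (pp L T) T s w ∂(sph d)
        ≤ ∑ _w : ZZ N T, ENNReal.ofReal ((16 : ℝ) ^ d * ε ^ (d - 1)) := by
          refine Finset.sum_le_sum fun w _ => ?_
          calc ∫⁻ s in Metric.closedBall (c w) ε, law (KK L T) (pp L T) T s w ∂(sph d)
              ≤ ∫⁻ s in Metric.closedBall (c w) ε, 1 ∂(sph d) := by
                refine lintegral_mono fun s => ?_
                exact le_one_of_sum (hls s) w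
            _ = sph d (Metric.closedBall (c w) ε) := by simp
            _ ≤ _ := hprior.ball (c w) ε hε
      _ = _ := by
          rw [Finset.sum_const, Finset.card_univ, card_ZZ, nsmul_eq_mul]
  have h2 : ENNReal.ofReal (2 / 3)
      ≤ ENNReal.ofReal ((N * (T + 2) : ℕ) * ((16 : ℝ) ^ d * ε ^ (d - 1))) := by
    rw [ENNReal.ofReal_mul (Nat.cast_nonneg _), ENNReal.ofReal_natCast]
    exact hsucc.trans h1
  rw [ENNReal.ofReal_le_ofReal_iff (by positivity)] at h2
  have h3 := Real.log_le_log (by norm_num) h2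
  have hNT : (0 : ℝ) < ((N * (T + 2) : ℕ) : ℝ) := by
    have : 0 < N * (T + 2) := Nat.mul_pos hN (by omega)
    exact_mod_cast this
  rw [Real.log_mul hNT.ne' (by positivity), Real.log_mul (by positivity) (by positivity),
    Real.log_pow, Real.log_pow] at h3
  have h4 : Real.log 16 ≤ 3 := by
    have h41 : Real.log 16 = 4 * Real.log 2 := by
      rw [show (16 : ℝ) = 2 ^ 4 by norm_num, Real.log_pow]; norm_num
    have := Real.log_two_lt_d9
    rw [h41]; linarith
  have h5 : -1 ≤ Real.log (2 / 3) := by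
    have h51 : Real.log (2 / 3) = - Real.log (3 / 2) := by
      rw [← Real.log_inv]; norm_num
    have := Real.log_le_sub_one_of_pos (by norm_num : (0 : ℝ) < 3 / 2)
    rw [h51]; linarith
  have h6 : Real.log (1 / ε) = - Real.log ε := by rw [one_div, Real.log_inv]
  have h7 : ((d - 1 : ℕ) : ℝ) = (d : ℝ) - 1 := by
    rw [Nat.cast_sub (by omega)]; simp
  have hd1 : (1 : ℝ) ≤ d := by exact_mod_cast (by omega : 1 ≤ d)
  rw [h7] at h3
  rw [h6]
  push_cast at h3
  have h8 : (d : ℝ) * Real.log 16 ≤ d * 3 := by gcongr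
  nlinarith

/-- The general tradeoff, in a clean form. -/
theorem tradeoff : ∃ C : ℝ, 1 ≤ C ∧ ∀ d : ℕ, 100 ≤ d →
    ∀ (N T : ℕ) (L : Learner d N) (ε : ℝ), 0 < ε → ε ≤ 1 / 4 →
    ENNReal.ofReal (2 / 3) ≤ L.success T ε →
    d * Real.log (1 / ε) ≤ C * (T + d) * (1 + Real.log (N * (T + 2)) / d ^ 2) := by
  obtain ⟨C, hC, h⟩ := tradeoff_raw
  refine ⟨10 * (200 * (400 + C) + C), by linarith, ?_⟩
  intro d hd N T L ε hε hε1 hsucc
  set m : ℕ := d / 100 with hm
  have hm1 : 1 ≤ m := by omega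
  have h0 := h m d hm1 (by omega) (by omega) N T L ε hε hε1 hsucc
  have hN : 0 < N := pos_of_learner L
  have hmR : (0 : ℝ) < m := by exact_mod_cast hm1
  have hdR : (0 : ℝ) < d := by exact_mod_cast (by omega : 0 < d)
  have hdm : (d : ℝ) ≤ 200 * m := by exact_mod_cast (by omega : d ≤ 200 * m)
  have hmd : (m : ℝ) ≤ d := by exact_mod_cast (by omega : m ≤ d)
  have hlog : 0 ≤ Real.log ((N : ℝ) * (T + 2)) := by
    apply Real.log_nonneg
    have : 1 ≤ N * (T + 2) := Nat.mul_pos hN (by omega)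
    exact_mod_cast this
  set ℓ := Real.log ((N : ℝ) * (T + 2)) with hℓ
  have hT : (0 : ℝ) ≤ T := Nat.cast_nonneg T
  have hinv : 1 / (m : ℝ) ≤ 200 / d := by
    rw [div_le_div_iff₀ hmR hdR]; linarith
  have h1 : (T : ℝ) / m + 1 ≤ 200 * ((T + d) / d) := by
    have : (T : ℝ) / m ≤ T * (200 / d) := by
      rw [div_eq_mul_one_div]; gcongr
    have h2 : (200 : ℝ) * ((T + d) / d) = T * (200 / d) + 200 := by field_simp
    rw [h2]; linarith
  have h2 : 2 * ℓ / m + C * m ≤ (400 + C) * d * (1 + ℓ / d ^ 2) := by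
    have h3 : 2 * ℓ / m ≤ 2 * ℓ * (200 / d) := by
      rw [div_eq_mul_one_div]; gcongr
    have h4 : C * m ≤ C * d := by gcongr
    have h5 : (400 + C) * d * (1 + ℓ / d ^ 2) = 400 * d + C * d + 400 * ℓ / d + C * ℓ / d := by
      field_simp
      ring
    have h6 : 2 * ℓ * (200 / (d : ℝ)) = 400 * ℓ / d := by ring
    have h7 : 0 ≤ C * ℓ / d := by positivity
    rw [h5]; linarith
  have h3 : 0 ≤ 2 * ℓ / m + C * m := by positivity
  have h8 : 1 ≤ (T + d : ℝ) / d := by
    rw [le_div_iff₀ hdR]; linarith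
  have h9 : 0 ≤ ℓ / (d : ℝ) ^ 2 := by positivity
  have h10 : d * Real.log (1 / ε) / 10 ≤ (200 * (400 + C) + C) * ((T + d) * (1 + ℓ / d ^ 2)) := by
    have h11 : ((T : ℝ) / m + 1) * (2 * ℓ / m + C * m)
        ≤ (200 * ((T + d) / d)) * ((400 + C) * d * (1 + ℓ / d ^ 2)) := by
      gcongr
    have h12 : (200 * (((T : ℝ) + d) / d)) * ((400 + C) * d * (1 + ℓ / d ^ 2))
        = 200 * (400 + C) * ((T + d) * (1 + ℓ / d ^ 2)) := by
      field_simp
    have h13 : C * d ≤ C * ((T + d) * (1 + ℓ / d ^ 2)) := by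
      have h14 : (d : ℝ) * 1 ≤ (T + d) * (1 + ℓ / d ^ 2) := by
        gcongr
        · linarith
        · linarith
      rw [mul_one] at h14
      gcongr
    rw [h12] at h11
    have h15 : (200 * (400 + C) + C) * (((T : ℝ) + d) * (1 + ℓ / d ^ 2))
        = 200 * (400 + C) * ((T + d) * (1 + ℓ / d ^ 2)) + C * ((T + d) * (1 + ℓ / d ^ 2)) := by
      ring
    rw [h15]
    linarith
  calc d * Real.log (1 / ε) = 10 * (d * Real.log (1 / ε) / 10) := by ring
    _ ≤ 10 * ((200 * (400 + C) + C) * ((T + d) * (1 + ℓ / d ^ 2))) := by linarith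
    _ = 10 * (200 * (400 + C) + C) * (T + d) * (1 + ℓ / d ^ 2) := by ring

theorem final_bound : ∀ B : ℝ, 0 < B → ∃ c' : ℝ, 0 < c' ∧ ∃ ε₀ : ℝ, 0 < ε₀ ∧
    ∀ d : ℕ, 100 ≤ d → ∀ ε : ℝ, 0 < ε → ε < ε₀ → ∀ M : ℝ, M ≤ B * d ^ 2 →
    ∀ N T : ℕ, (N : ℝ) ≤ 2 ^ M → ∀ L : Learner d N,
    ENNReal.ofReal (2 / 3) ≤ L.success T ε → c' * d * Real.log (1 / ε) ≤ T := by
  obtain ⟨C, hC, h⟩ := tradeoff
  intro B hB
  set B2 : ℝ := 3 * B + 24 with hB2
  set D : ℝ := 2 * C * (1 + B2) with hD
  have hB2p : 0 < B2 := by positivity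
  have hDp : 2 < D := by
    rw [hD]; nlinarith
  refine ⟨1 / D, by positivity, Real.exp (-D), Real.exp_pos _, ?_⟩
  intro d hd ε hε hεε M hM N T hN L hsucc
  by_contra hlt
  push Not at hlt
  have hNpos : 0 < N := pos_of_learner L
  have hdR : (100 : ℝ) ≤ d := by exact_mod_cast hd
  have hT0 : (0 : ℝ) ≤ T := Nat.cast_nonneg T
  have hNR : (1 : ℝ) ≤ N := by exact_mod_cast hNpos
  set ℓ : ℝ := Real.log (1 / ε) with hℓ
  have hℓD : D < ℓ := by
    rw [hℓ, one_div, Real.log_inv]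
    have := (Real.log_lt_iff_lt_exp hε).2 hεε
    linarith
  have hε1 : ε ≤ 1 / 4 := by
    have h1 : ε < Real.exp (-2) := hεε.trans (Real.exp_lt_exp.2 (by linarith))
    have h2 : Real.exp (-2) ≤ 1 / 4 := by
      rw [Real.exp_neg, inv_eq_one_div]
      apply one_div_le_one_div_of_le (by norm_num)
      have h3 : Real.exp 2 = Real.exp 1 * Real.exp 1 := by rw [← Real.exp_add]; norm_num
      have h4 := Real.add_one_le_exp (1 : ℝ)
      rw [h3]; nlinarith
    linarith
  -- log of the number of states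
  have hM0 : 0 ≤ M := by
    by_contra hneg
    push Not at hneg
    have : (2 : ℝ) ^ M < 1 := Real.rpow_lt_one_of_one_lt_of_neg (by norm_num) hneg
    linarith
  have hlogN : Real.log N ≤ B * d ^ 2 := by
    have h1 : Real.log N ≤ Real.log (2 ^ M) := Real.log_le_log (by linarith) hN
    rw [Real.log_rpow (by norm_num)] at h1
    have h2 : Real.log 2 ≤ 1 := by
      have := Real.log_two_lt_d9; linarith
    nlinarith
  -- `T` is small
  have hTs : (T : ℝ) ≤ d * ℓ := by
    have h1 : 1 / D * d * ℓ ≤ 1 * d * ℓ := by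
      have : 1 / D ≤ 1 := by
        rw [div_le_one (by linarith)]; linarith
      have hℓ0 : 0 ≤ ℓ := by linarith
      gcongr
    linarith
  have hlogT : Real.log (T + 2) ≤ 2 + d + Real.log ℓ := by
    have h1 : (T : ℝ) + 2 ≤ 3 * (d * ℓ) := by nlinarith
    have h2 : Real.log (T + 2) ≤ Real.log (3 * (d * ℓ)) := Real.log_le_log (by linarith) h1
    rw [Real.log_mul (by norm_num) (by nlinarith), Real.log_mul (by linarith) (by linarith)] at h2
    have h3 := Real.log_le_sub_one_of_pos (by norm_num : (0 : ℝ) < 3)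
    have h4 := Real.log_le_sub_one_of_pos (by linarith : (0 : ℝ) < (d : ℝ))
    linarith
  have hlogℓ : Real.log ℓ ≤ ℓ - 1 := Real.log_le_sub_one_of_pos (by linarith)
  have hsplit : Real.log ((N : ℝ) * (T + 2)) = Real.log N + Real.log (T + 2) :=
    Real.log_mul (by linarith) (by linarith)
  have hcount := counting (by omega : 2 ≤ d) L ε hε hsucc
  rw [hsplit] at hcount
  have hℓd : ℓ ≤ 2 * (B + 1) * d := by
    have h1 : ((d : ℝ) - 2) * ℓ ≤ B * d ^ 2 + 1 + 5 * d := by
      nlinarith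
    have h2 : (d : ℝ) / 2 * ℓ ≤ (B + 1) * d ^ 2 := by
      have h3 : (d : ℝ) / 2 * ℓ ≤ ((d : ℝ) - 2) * ℓ := by
        have : 0 ≤ ℓ := by linarith
        nlinarith
      nlinarith
    have h4 : (d : ℝ) / 2 * ℓ ≤ d / 2 * (2 * (B + 1) * d) := by nlinarith
    exact le_of_mul_le_mul_left h4 (by linarith)
  have hlog2 : Real.log ℓ ≤ 2 * (B + 1) * d := by linarith
  have htot : Real.log ((N : ℝ) * (T + 2)) ≤ B2 * d ^ 2 := by
    rw [hsplit, hB2]
    nlinarith
  have hr : Real.log ((N : ℝ) * (T + 2)) / d ^ 2 ≤ B2 := by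
    rw [div_le_iff₀ (by positivity)]; exact htot
  have hmain := h d hd N T L ε hε hε1 hsucc
  rw [← hℓ] at hmain
  have h5 : (d : ℝ) * ℓ ≤ C * (T + d) * (1 + B2) := by
    refine hmain.trans ?_
    gcongr
  have h6 : (T : ℝ) < 1 / D * d * ℓ := hlt
  have h7 : (d : ℝ) * ℓ < C * (1 + B2) * (1 / D * d * ℓ + d) := by
    have h8 : 0 < C * (1 + B2) := by positivity
    calc (d : ℝ) * ℓ ≤ C * (1 + B2) * (T + d) := by linarith
      _ < _ := by gcongr
  have h9 : C * (1 + B2) = D / 2 := by rw [hD]; ring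
  rw [h9] at h7
  have h10 : D / 2 * (1 / D * d * ℓ + d) = d * (ℓ / 2 + D / 2) := by
    field_simp
  rw [h10] at h7
  have h11 : ℓ < ℓ / 2 + D / 2 := lt_of_mul_lt_mul_left h7 (by linarith)
  linarith

end P309
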