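import Vale.Agent.H20.P309.L11d

/-!
# P309, L11: the final information bound
-/

open MeasureTheory ProbabilityTheory Set
open scoped RealInnerProductSpace ENNReal

namespace P309
namespace L11

variable {d n m : ℕ}

/-- mass of the part of the cell of `s` near `s` -/
noncomputable def cbm (π : Measure (E d)) (j : ℕ) (ρ : ℝ) (s : E d) (X1 : Fin n → E d)
    (X2 : Fin m → E d) : ℝ≥0∞ :=
  ∫⁻ s', same j X1 s s' * same j X2 s s' * (if dist s' s ≤ ρ then 1 else 0) ∂π

theorem meas_near (ρ : ℝ) {Ω : Type*} [MeasurableSpace Ω] {f g : Ω → E d} (hf : Measurable f)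
    (hg : Measurable g) :
    Measurable (fun ω => (if dist (f ω) (g ω) ≤ ρ then 1 else 0 : ℝ≥0∞)) :=
  Measurable.ite (measurableSet_le (hf.dist hg) measurable_const) measurable_const
    measurable_const

theorem meas_cbm (π : Measure (E d)) [SFinite π] (j : ℕ) (ρ : ℝ) :
    Measurable (fun q : E d × (Fin n → E d) × (Fin m → E d) => cbm π j ρ q.1 q.2.1 q.2.2) := by
  unfold cbm
  refine Measurable.lintegral_prod_right'
    (f := fun p : (E d × (Fin n → E d) × (Fin m → E d)) × E d =>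
      same j p.1.2.1 p.1.1 p.2 * same j p.1.2.2 p.1.1 p.2
        * (if dist p.2 p.1.1 ≤ ρ then 1 else 0)) ?_
  have h1 : Measurable (fun p : (E d × (Fin n → E d) × (Fin m → E d)) × E d => p.1.1) :=
    measurable_fst.comp measurable_fst
  have h2 : Measurable (fun p : (E d × (Fin n → E d) × (Fin m → E d)) × E d => p.1.2.1) :=
    measurable_fst.comp (measurable_snd.comp measurable_fst)
  have h3 : Measurable (fun p : (E d × (Fin n → E d) × (Fin m → E d)) × E d => p.1.2.2) :=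
    measurable_snd.comp (measurable_snd.comp measurable_fst)
  exact ((meas_same j h2 h1 measurable_snd).mul (meas_same j h3 h1 measurable_snd)).mul
    (meas_near ρ measurable_snd h1)

theorem cbm_eq (π : Measure (E d)) (j : ℕ) (ρ : ℝ) (s : E d) (X1 : Fin n → E d)
    (X2 : Fin m → E d) :
    cbm π j ρ s X1 X2 = π ({s' | lb j X1 X2 s' = lb j X1 X2 s} ∩ Metric.closedBall s ρ) := by
  unfold cbm
  rw [← lintegral_indicator_one ((measurableSet_cell (meas_lb j X1 X2) s).inter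
    Metric.isClosed_closedBall.measurableSet)]
  apply lintegral_congr
  intro s'
  rw [same_mul_same]
  by_cases h1 : s' ∈ {s' | lb j X1 X2 s' = lb j X1 X2 s}
  · rw [indicator_of_mem h1]
    by_cases h2 : s' ∈ Metric.closedBall s ρ
    · have h3 : s' ∈ {s' | lb j X1 X2 s' = lb j X1 X2 s} ∩ Metric.closedBall s ρ := ⟨h1, h2⟩
      rw [indicator_of_mem h3, if_pos (Metric.mem_closedBall.1 h2)]
      simp
    · have h3 : s' ∉ {s' | lb j X1 X2 s' = lb j X1 X2 s} ∩ Metric.closedBall s ρ :=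
        fun h => h2 h.2
      rw [indicator_of_notMem h3, if_neg (fun h => h2 (Metric.mem_closedBall.2 h))]
      simp
  · have h3 : s' ∉ {s' | lb j X1 X2 s' = lb j X1 X2 s} ∩ Metric.closedBall s ρ :=
      fun h => h1 h.1
    rw [indicator_of_notMem h1, indicator_of_notMem h3]
    simp

theorem cbm_int {π : Measure (E d)} (hπ : Prior d π) (j p : ℕ) (hp : 1 ≤ p)
    (hdN : d - 1 = (n + m) + p) (ρ : ℝ) (hρ : 0 < ρ) :
    ∫⁻ s, II n m d (fun X1 X2 => cbm π j ρ s X1 X2) ∂π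
      ≤ ENNReal.ofReal (2 * 16 ^ d * (2 * ((2 : ℝ) ^ j)⁻¹) ^ (n + m) * ρ ^ p) := by
  have := hπ.prob
  have hd : 2 ≤ d := by omega
  have hone : ∀ s : E d, II n m d (fun X1 X2 => cbm π j ρ s X1 X2)
      ≤ ENNReal.ofReal (2 * 16 ^ d * (2 * ((2 : ℝ) ^ j)⁻¹) ^ (n + m) * ρ ^ p) := by
    intro s
    have hae : ∀ᵐ s' ∂π, s' ≠ s := by
      rw [ae_iff]
      simp only [not_not, setOf_eq_eq_singleton]
      exact point_null hπ hd s
    unfold II cbm
    have mF : Measurable (fun q : E d × (Fin n → E d) × (Fin m → E d) =>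
        same j q.2.1 s q.1 * same j q.2.2 s q.1 * (if dist q.1 s ≤ ρ then 1 else 0)) :=
      ((meas_same j (measurable_fst.comp measurable_snd) measurable_const measurable_fst).mul
        (meas_same j (measurable_snd.comp measurable_snd) measurable_const measurable_fst)).mul
        (meas_near ρ measurable_fst measurable_const)
    rw [swap3 (n := n) (m := m) π (F := fun s' X1 X2 =>
      same j X1 s s' * same j X2 s s' * (if dist s' s ≤ ρ then 1 else 0)) mF]
    refine le_trans ?_ (dyadic_int hπ (n + m) p hp hdN ((2 : ℝ) ^ j)⁻¹ ρ (by positivity) hρ s)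
    apply lintegral_mono_ae
    filter_upwards [hae] with s' hs'
    have m1 : Measurable (fun X : Fin n → E d => same j X s s') :=
      meas_same j measurable_id measurable_const measurable_const
    have m2 : Measurable (fun X : Fin m → E d => same j X s s') :=
      meas_same j measurable_id measurable_const measurable_const
    have e1 : ∫⁻ X1, ∫⁻ X2, same j X1 s s' * same j X2 s s' * (if dist s' s ≤ ρ then 1 else 0)
        ∂(rows m d) ∂(rows n d)
        = (∫⁻ X1, same j X1 s s' ∂(rows n d)) * (∫⁻ X2, same j X2 s s' ∂(rows m d))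
          * (if dist s' s ≤ ρ then 1 else 0) := by
      have e2 : ∀ X1 : Fin n → E d, ∫⁻ X2, same j X1 s s' * same j X2 s s'
          * (if dist s' s ≤ ρ then 1 else 0) ∂(rows m d)
          = same j X1 s s' * ((∫⁻ X2, same j X2 s s' ∂(rows m d))
            * (if dist s' s ≤ ρ then 1 else 0)) := by
        intro X1
        rw [lintegral_mul_const _ (m2.const_mul _), lintegral_const_mul _ m2, mul_assoc]
      simp only [e2]
      rw [lintegral_mul_const _ m1, mul_assoc]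
    rw [e1]
    by_cases hb : dist s' s ≤ ρ
    · rw [if_pos hb, mul_one, indicator_of_mem (Metric.mem_closedBall.2 hb), pow_add]
      exact mul_le_mul' (same_prob j s s' hs') (same_prob j s s' hs')
    · rw [if_neg hb, mul_zero]; exact bot_le
  calc ∫⁻ s, II n m d (fun X1 X2 => cbm π j ρ s X1 X2) ∂π
      ≤ ∫⁻ s, ENNReal.ofReal (2 * 16 ^ d * (2 * ((2 : ℝ) ^ j)⁻¹) ^ (n + m) * ρ ^ p) ∂π :=
        lintegral_mono hone
    _ = _ := by simp

/-- the good set -/
def GS (π : Measure (E d)) (j n m : ℕ) (Λ ρ : ℝ) : Set (E d × (Fin n → E d) × (Fin m → E d)) :=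
  {q | ENNReal.ofReal (Real.exp Λ) * cbm π j ρ q.1 q.2.1 q.2.2
    ≤ π {s' | lb j q.2.1 q.2.2 s' = lb j q.2.1 q.2.2 q.1}}

theorem meas_cell (π : Measure (E d)) [SFinite π] (j : ℕ) :
    Measurable (fun q : E d × (Fin n → E d) × (Fin m → E d) =>
      π {s' | lb j q.2.1 q.2.2 s' = lb j q.2.1 q.2.2 q.1}) := by
  simp only [← nu_one]
  exact meas_nu π j measurable_const (measurable_fst.comp measurable_snd)
    (measurable_snd.comp measurable_snd) measurable_fst

theorem meas_GS (π : Measure (E d)) [SFinite π] (j n m : ℕ) (Λ ρ : ℝ) :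
    MeasurableSet (GS π j n m Λ ρ) :=
  measurableSet_le ((meas_cbm π j ρ).const_mul _) (meas_cell π j)

theorem meas_gw (j : ℕ) :
    Measurable (fun q : E d × (Fin n → E d) × (Fin m → E d) => gw j (lb j q.2.1 q.2.2 q.1)) := by
  have h1 : Measurable (fun q : E d × (Fin n → E d) × (Fin m → E d) => lb j q.2.1 q.2.2 q.1) :=
    (meas_labs j (measurable_fst.comp measurable_snd) measurable_fst).prodMk
      (meas_labs j (measurable_snd.comp measurable_snd) measurable_fst)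
  exact (measurable_of_countable (gw j)).comp h1

theorem msec {B : Set (E d × (Fin n → E d) × (Fin m → E d))} (hB : MeasurableSet B) (s : E d) :
    Measurable (fun q : (Fin n → E d) × (Fin m → E d) =>
      (B.indicator 1 (s, q.1, q.2) : ℝ≥0∞)) :=
  (measurable_one.indicator hB).comp
    (measurable_const.prodMk (measurable_fst.prodMk measurable_snd))

theorem mII {B : Set (E d × (Fin n → E d) × (Fin m → E d))} (hB : MeasurableSet B) :
    Measurable (fun s : E d => II n m d (fun X1 X2 => (B.indicator 1 (s, X1, X2) : ℝ≥0∞))) := by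
  unfold II
  refine Measurable.lintegral_prod_right' (f := fun p : E d × (Fin n → E d) =>
    ∫⁻ X2, (B.indicator 1 (p.1, p.2, X2) : ℝ≥0∞) ∂(rows m d)) ?_
  refine Measurable.lintegral_prod_right'
    (f := fun p : (E d × (Fin n → E d)) × (Fin m → E d) =>
      (B.indicator 1 (p.1.1, p.1.2, p.2) : ℝ≥0∞)) ?_
  exact (measurable_one.indicator hB).comp ((measurable_fst.comp measurable_fst).prodMk
    ((measurable_snd.comp measurable_fst).prodMk measurable_snd))

/-- first bad set -/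
def BA (π : Measure (E d)) (j n m : ℕ) : Set (E d × (Fin n → E d) × (Fin m → E d)) :=
  {q | π {s' | lb j q.2.1 q.2.2 s' = lb j q.2.1 q.2.2 q.1}
      < 12⁻¹ * gw j (lb j q.2.1 q.2.2 q.1)}

theorem prob_BA {π : Measure (E d)} (hπ : Prior d π) (j : ℕ) :
    ∫⁻ s, II n m d (fun X1 X2 => ((BA π j n m).indicator 1 (s, X1, X2) : ℝ≥0∞)) ∂π ≤ 12⁻¹ := by
  have := hπ.prob
  have mB1 : MeasurableSet (BA π j n m) :=
    measurableSet_lt (meas_cell π j) ((meas_gw j).const_mul _)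
  have mm : Measurable (fun q : E d × (Fin n → E d) × (Fin m → E d) =>
      ((BA π j n m).indicator 1 (q.1, q.2.1, q.2.2) : ℝ≥0∞)) := measurable_one.indicator mB1
  unfold II
  rw [← swap3 (n := n) (m := m) π (F := fun s X1 X2 => (BA π j n m).indicator 1 (s, X1, X2)) mm]
  have h1 : ∀ (X1 : Fin n → E d) (X2 : Fin m → E d),
      ∫⁻ s, ((BA π j n m).indicator 1 (s, X1, X2) : ℝ≥0∞) ∂π ≤ 12⁻¹ := by
    intro X1 X2
    have h2 := small_cells π (meas_lb j X1 X2) (gw j) (tsum_gw_le j n m) 12⁻¹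
    refine le_trans (le_of_eq ?_) h2
    have m2 : MeasurableSet {s | π {s' | lb j X1 X2 s' = lb j X1 X2 s}
        < 12⁻¹ * gw j (lb j X1 X2 s)} :=
      measurableSet_lt (meas_cellfun (meas_lb j X1 X2) (fun i => π {s' | lb j X1 X2 s' = i}))
        (meas_cellfun (meas_lb j X1 X2) (fun i => 12⁻¹ * gw j i))
    rw [← lintegral_indicator_one m2]
    apply lintegral_congr
    intro s
    by_cases h : π {s' | lb j X1 X2 s' = lb j X1 X2 s} < 12⁻¹ * gw j (lb j X1 X2 s)
    · rw [indicator_of_mem (show (s, X1, X2) ∈ BA π j n m from h),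
        indicator_of_mem (by exact h)]
      rfl
    · rw [indicator_of_notMem (show (s, X1, X2) ∉ BA π j n m from h),
        indicator_of_notMem (by exact h)]
  calc _ ≤ II n m d (fun _ _ => 12⁻¹) := II_mono h1
    _ = 12⁻¹ := II_const _

/-- second bad set -/
def BB (j n m d : ℕ) (K0 : ℝ) : Set (E d × (Fin n → E d) × (Fin m → E d)) :=
  {q | gw j (lb j q.2.1 q.2.2 q.1) < ENNReal.ofReal K0}

theorem prob_BB {π : Measure (E d)} (hπ : Prior d π) (j : ℕ) :
    ∫⁻ s, II n m d (fun X1 X2 => ((BB j n m d ((1 / 2 ^ j) ^ (n + m)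
      * Real.exp (-(26 * (n + m : ℕ))))).indicator 1 (s, X1, X2) : ℝ≥0∞)) ∂π ≤ 12⁻¹ := by
  have := hπ.prob
  calc _ ≤ ∫⁻ s, 12⁻¹ ∂π := by
        apply lintegral_mono_ae
        filter_upwards [hπ.sphere] with s hs
        exact gw_prob j s hs
    _ = 12⁻¹ := by simp

/-- third bad set -/
def BC (π : Measure (E d)) (j n m : ℕ) (b ρ : ℝ) : Set (E d × (Fin n → E d) × (Fin m → E d)) :=
  {q | ENNReal.ofReal (12 * b) < cbm π j ρ q.1 q.2.1 q.2.2}

theorem prob_BC (π : Measure (E d)) [IsProbabilityMeasure π] (j : ℕ) (b ρ : ℝ) (hb0 : 0 < b)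
    (hc : ∫⁻ s, II n m d (fun X1 X2 => cbm π j ρ s X1 X2) ∂π ≤ ENNReal.ofReal b) :
    ∫⁻ s, II n m d (fun X1 X2 => ((BC π j n m b ρ).indicator 1 (s, X1, X2) : ℝ≥0∞)) ∂π
      ≤ 12⁻¹ := by
  have mB3 : MeasurableSet (BC π j n m b ρ) := measurableSet_lt measurable_const (meas_cbm π j ρ)
  have h1 : ∀ (s : E d) (X1 : Fin n → E d) (X2 : Fin m → E d),
      ENNReal.ofReal (12 * b) * (BC π j n m b ρ).indicator 1 (s, X1, X2)
        ≤ cbm π j ρ s X1 X2 := by
    intro s X1 X2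
    by_cases h : (s, X1, X2) ∈ BC π j n m b ρ
    · rw [indicator_of_mem h]
      simp only [Pi.one_apply, mul_one]
      exact le_of_lt h
    · rw [indicator_of_notMem h, mul_zero]; exact bot_le
  have h2 : ENNReal.ofReal (12 * b) *
      ∫⁻ s, II n m d (fun X1 X2 => ((BC π j n m b ρ).indicator 1 (s, X1, X2) : ℝ≥0∞)) ∂π
      ≤ ENNReal.ofReal b := by
    refine le_trans ?_ hc
    rw [← lintegral_const_mul _ (mII mB3)]
    apply lintegral_mono
    intro s
    have h4 := II_mono (n := n) (m := m) (d := d) (h1 s)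
    rw [II_const_mul _ (msec mB3 s)] at h4
    exact h4
  have h3 : ENNReal.ofReal b = ENNReal.ofReal (12 * b) * 12⁻¹ := by
    rw [ENNReal.ofReal_mul (by norm_num), mul_comm, ← mul_assoc]
    have : (12 : ℝ≥0∞)⁻¹ * ENNReal.ofReal 12 = 1 := by
      rw [show ENNReal.ofReal 12 = 12 by simp]
      exact ENNReal.inv_mul_cancel (by norm_num) (by norm_num)
    rw [this, one_mul]
  rw [h3] at h2
  refine (ENNReal.mul_le_mul_iff_right ?_ ENNReal.ofReal_ne_top).1 h2
  simp only [ne_eq, ENNReal.ofReal_eq_zero, not_le]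
  positivity

theorem sum_twelfths : (12 : ℝ≥0∞)⁻¹ + 12⁻¹ + 12⁻¹ = ENNReal.ofReal (1 / 4) := by
  have h12 : (12 : ℝ≥0∞)⁻¹ = ENNReal.ofReal (12⁻¹) := by
    rw [ENNReal.ofReal_inv_of_pos (by norm_num)]; simp
  rw [h12, ← ENNReal.ofReal_add (by norm_num) (by norm_num),
    ← ENNReal.ofReal_add (by norm_num) (by norm_num)]
  congr 1; norm_num

theorem bad_prob {π : Measure (E d)} (hπ : Prior d π) (j p : ℕ) (hp : 1 ≤ p)
    (hdN : d - 1 = (n + m) + p) (ρ Λ : ℝ) (hρ : 0 < ρ)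
    (hΛ : Real.exp Λ * (12 * (2 * 16 ^ d * (2 * ((2 : ℝ) ^ j)⁻¹) ^ (n + m) * ρ ^ p))
      ≤ 12⁻¹ * ((1 / 2 ^ j) ^ (n + m) * Real.exp (-(26 * (n + m : ℕ))))) :
    ∫⁻ s, II n m d (fun X1 X2 => (GS π j n m Λ ρ)ᶜ.indicator 1 (s, X1, X2)) ∂π
      ≤ ENNReal.ofReal (1 / 4) := by
  have := hπ.prob
  have hc := cbm_int (n := n) (m := m) hπ j p hp hdN ρ hρ
  generalize hb : 2 * 16 ^ d * (2 * ((2 : ℝ) ^ j)⁻¹) ^ (n + m) * ρ ^ p = b at *
  have hb0 : 0 < b := by rw [← hb]; positivity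
  have hP1 := prob_BA (n := n) (m := m) hπ j
  have hP2 := prob_BB (n := n) (m := m) hπ j
  have hP3 := prob_BC (n := n) (m := m) π j b ρ hb0 hc
  generalize hK0 : ((1 : ℝ) / 2 ^ j) ^ (n + m) * Real.exp (-(26 * (n + m : ℕ))) = K0 at *
  have mB1 : MeasurableSet (BA π j n m) :=
    measurableSet_lt (meas_cell π j) ((meas_gw j).const_mul _)
  have mB2 : MeasurableSet (BB j n m d K0) := measurableSet_lt (meas_gw j) measurable_const
  have mB3 : MeasurableSet (BC π j n m b ρ) := measurableSet_lt measurable_const (meas_cbm π j ρ)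
  have hcover : (GS π j n m Λ ρ)ᶜ ⊆ BA π j n m ∪ BB j n m d K0 ∪ BC π j n m b ρ := by
    intro q hq
    by_contra hcon
    simp only [mem_union, not_or] at hcon
    obtain ⟨⟨h1, h2⟩, h3⟩ := hcon
    simp only [BA, BB, BC, mem_setOf_eq, not_lt] at h1 h2 h3
    apply hq
    simp only [GS, mem_setOf_eq]
    calc ENNReal.ofReal (Real.exp Λ) * cbm π j ρ q.1 q.2.1 q.2.2
        ≤ ENNReal.ofReal (Real.exp Λ) * ENNReal.ofReal (12 * b) := by gcongr
      _ = ENNReal.ofReal (Real.exp Λ * (12 * b)) := by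
          rw [ENNReal.ofReal_mul (Real.exp_pos _).le]
      _ ≤ ENNReal.ofReal (12⁻¹ * K0) := ENNReal.ofReal_le_ofReal hΛ
      _ = 12⁻¹ * ENNReal.ofReal K0 := by
          rw [ENNReal.ofReal_mul (by norm_num), ENNReal.ofReal_inv_of_pos (by norm_num)]
          simp
      _ ≤ 12⁻¹ * gw j (lb j q.2.1 q.2.2 q.1) := by gcongr
      _ ≤ _ := h1
  have hpt : ∀ (s : E d) (X1 : Fin n → E d) (X2 : Fin m → E d),
      (GS π j n m Λ ρ)ᶜ.indicator 1 (s, X1, X2) ≤ (BA π j n m).indicator 1 (s, X1, X2)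
        + (BB j n m d K0).indicator 1 (s, X1, X2)
        + ((BC π j n m b ρ).indicator 1 (s, X1, X2) : ℝ≥0∞) := by
    intro s X1 X2
    by_cases h : (s, X1, X2) ∈ (GS π j n m Λ ρ)ᶜ
    · rw [indicator_of_mem h]
      rcases hcover h with (h1 | h2) | h3
      · rw [indicator_of_mem h1]
        simp only [Pi.one_apply, add_assoc]; exact le_self_add
      · rw [indicator_of_mem h2]
        simp only [Pi.one_apply]
        rw [add_right_comm]; exact le_add_self
      · rw [indicator_of_mem h3]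
        simp only [Pi.one_apply]; exact le_add_self
    · rw [indicator_of_notMem h]; exact bot_le
  calc ∫⁻ s, II n m d (fun X1 X2 => (GS π j n m Λ ρ)ᶜ.indicator 1 (s, X1, X2)) ∂π
      ≤ ∫⁻ s, (II n m d (fun X1 X2 => ((BA π j n m).indicator 1 (s, X1, X2) : ℝ≥0∞))
        + II n m d (fun X1 X2 => ((BB j n m d K0).indicator 1 (s, X1, X2) : ℝ≥0∞))
        + II n m d (fun X1 X2 => ((BC π j n m b ρ).indicator 1 (s, X1, X2) : ℝ≥0∞))) ∂π := by
        apply lintegral_mono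
        intro s
        have h4 := II_mono (n := n) (m := m) (d := d) (hpt s)
        rw [II_add ((msec mB1 s).add (msec mB2 s)), II_add (msec mB1 s)] at h4
        exact h4
    _ = (∫⁻ s, II n m d (fun X1 X2 => ((BA π j n m).indicator 1 (s, X1, X2) : ℝ≥0∞)) ∂π)
        + (∫⁻ s, II n m d (fun X1 X2 => ((BB j n m d K0).indicator 1 (s, X1, X2) : ℝ≥0∞)) ∂π)
        + (∫⁻ s, II n m d (fun X1 X2 =>
          ((BC π j n m b ρ).indicator 1 (s, X1, X2) : ℝ≥0∞)) ∂π) := by
        have mm : Measurable (fun s : E d =>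
            II n m d (fun X1 X2 => ((BA π j n m).indicator 1 (s, X1, X2) : ℝ≥0∞))
            + II n m d (fun X1 X2 => ((BB j n m d K0).indicator 1 (s, X1, X2) : ℝ≥0∞))) :=
          (mII mB1).add (mII mB2)
        rw [lintegral_add_left mm, lintegral_add_left (mII mB1)]
    _ ≤ 12⁻¹ + 12⁻¹ + 12⁻¹ := add_le_add (add_le_add hP1 hP2) hP3
    _ = ENNReal.ofReal (1 / 4) := sum_twelfths

theorem success_mass (π : Measure (E d)) [IsProbabilityMeasure π] {Z : Type} [Fintype Z]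
    (a : E d → Z → ℝ≥0∞) (ha : ∀ z, Measurable (fun s => a s z)) (ha1 : ∀ s, ∑ z, a s z = 1)
    (B : Z → Set (E d)) (hB : ∀ z, MeasurableSet (B z))
    (G : Set (E d × (Fin n → E d) × (Fin m → E d))) (hG : MeasurableSet G)
    (hsucc : ENNReal.ofReal (3 / 5) ≤ ∑ z, ∫⁻ s in B z, a s z ∂π)
    (hbad : ∫⁻ s, II n m d (fun X1 X2 => Gᶜ.indicator 1 (s, X1, X2)) ∂π ≤ ENNReal.ofReal (1 / 4)) :
    ENNReal.ofReal (7 / 20) ≤ ∫⁻ s, ∫⁻ X1, ∫⁻ X2,
      G.indicator 1 (s, X1, X2) * ∑ z, (B z).indicator (fun s => a s z) s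
      ∂(rows m d) ∂(rows n d) ∂π := by
  classical
  set w : E d → ℝ≥0∞ := fun s => ∑ z, (B z).indicator (fun s => a s z) s with hw
  have mw : Measurable w := Finset.measurable_sum _ (fun z _ => (ha z).indicator (hB z))
  have hw1 : ∀ s, w s ≤ 1 := by
    intro s
    rw [← ha1 s]
    apply Finset.sum_le_sum
    intro z _
    rw [indicator_apply]
    split_ifs
    · exact le_rfl
    · exact bot_le
  have e1 : ∑ z, ∫⁻ s in B z, a s z ∂π = ∫⁻ s, w s ∂π := by
    simp only [hw]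
    rw [lintegral_finsetSum _ (fun z _ => (ha z).indicator (hB z))]
    apply Finset.sum_congr rfl
    intro z _
    rw [lintegral_indicator (hB z)]
  rw [e1] at hsucc
  have mg : ∀ s : E d, Measurable (fun q : (Fin n → E d) × (Fin m → E d) =>
      (G.indicator 1 (s, q.1, q.2) * w s : ℝ≥0∞)) := fun s => (msec hG s).mul_const _
  have mg' : Measurable (fun s : E d => II n m d (fun X1 X2 =>
      (Gᶜ.indicator 1 (s, X1, X2) : ℝ≥0∞))) := mII hG.compl
  have hle : ∫⁻ s, w s ∂π ≤ (∫⁻ s, II n m d (fun X1 X2 => G.indicator 1 (s, X1, X2) * w s) ∂π)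
      + ∫⁻ s, II n m d (fun X1 X2 => Gᶜ.indicator 1 (s, X1, X2)) ∂π := by
    rw [← lintegral_add_right _ mg']
    apply lintegral_mono
    intro s
    have h1 : II n m d (fun _ _ => w s) ≤ II n m d (fun X1 X2 =>
        G.indicator 1 (s, X1, X2) * w s + Gᶜ.indicator 1 (s, X1, X2)) := by
      apply II_mono
      intro X1 X2
      by_cases h : (s, X1, X2) ∈ G
      · rw [indicator_of_mem h]
        simp only [Pi.one_apply, one_mul]
        exact le_self_add
      · rw [indicator_of_mem (show (s, X1, X2) ∈ Gᶜ from h)]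
        simp only [Pi.one_apply]
        exact (hw1 s).trans le_add_self
    rw [II_const, II_add (mg s)] at h1
    exact h1
  have h2 : ENNReal.ofReal (7 / 20) + ENNReal.ofReal (1 / 4)
      ≤ (∫⁻ s, II n m d (fun X1 X2 => G.indicator 1 (s, X1, X2) * w s) ∂π)
        + ENNReal.ofReal (1 / 4) := by
    rw [← ENNReal.ofReal_add (by norm_num) (by norm_num)]
    norm_num
    refine le_trans ?_ (hsucc.trans (hle.trans (add_le_add le_rfl hbad)) |>.trans ?_)
    · exact le_rfl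
    · norm_num
  exact (ENNReal.add_le_add_iff_right ENNReal.ofReal_ne_top).1 h2

theorem numeric (d N p j : ℕ) (ε : ℝ) (hε : 0 < ε) (h1 : N + p + 1 = d) (hd : 100 ≤ d)
    (hN : (40 : ℝ) * (N : ℝ) ≤ 13 * d) :
    Real.exp (p * Real.log (1 / ε) - 40 * d) * (12 * (2 * 16 ^ d * (2 * ((2 : ℝ) ^ j)⁻¹) ^ N
      * (2 * ε) ^ p))
      ≤ 12⁻¹ * ((1 / 2 ^ j) ^ N * Real.exp (-(26 * (N : ℕ)))) := by
  have hd0 : (100 : ℝ) ≤ d := by exact_mod_cast hd
  have e1 : Real.exp (p * Real.log (1 / ε) - 40 * d) = (1 / ε) ^ p * Real.exp (-(40 * d)) := by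
    rw [sub_eq_add_neg, Real.exp_add, Real.exp_nat_mul, Real.exp_log (by positivity)]
  have e2 : Real.exp (p * Real.log (1 / ε) - 40 * d) * (12 * (2 * 16 ^ d
      * (2 * ((2 : ℝ) ^ j)⁻¹) ^ N * (2 * ε) ^ p))
      = (1 / 2 ^ j) ^ N * (24 * 16 ^ d * (2 ^ N * 2 ^ p) * Real.exp (-(40 * d))) := by
    rw [e1, mul_pow 2 ε, mul_pow 2, one_div, one_div, inv_pow]
    have : (ε ^ p)⁻¹ * ε ^ p = 1 := inv_mul_cancel₀ (by positivity)
    calc (ε ^ p)⁻¹ * Real.exp (-(40 * d)) * (12 * (2 * 16 ^ d * (2 ^ N * ((2 : ℝ) ^ j)⁻¹ ^ N)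
          * (2 ^ p * ε ^ p)))
        = ((ε ^ p)⁻¹ * ε ^ p) * (((2 : ℝ) ^ j)⁻¹ ^ N * (24 * 16 ^ d * (2 ^ N * 2 ^ p)
          * Real.exp (-(40 * d)))) := by ring
      _ = _ := by rw [this, one_mul]
  rw [e2, mul_left_comm (12⁻¹ : ℝ)]
  apply mul_le_mul_of_nonneg_left _ (by positivity)
  have e3 : (2 : ℝ) ^ N * 2 ^ p ≤ 2 ^ d := by
    rw [← pow_add]
    exact pow_le_pow_right₀ (by norm_num) (by omega)
  have e4 : (288 : ℝ) ≤ 2 ^ d := by
    calc (288 : ℝ) ≤ 2 ^ 9 := by norm_num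
      _ ≤ 2 ^ d := pow_le_pow_right₀ (by norm_num) (by omega)
  have he : (2 : ℝ) ≤ Real.exp 1 := by
    have := Real.add_one_le_exp (1 : ℝ); linarith
  have e5 : (2 : ℝ) ^ d * 16 ^ d * 2 ^ d ≤ Real.exp (6 * d) := by
    have : (2 : ℝ) ^ d * 16 ^ d * 2 ^ d = (2 ^ 6) ^ d := by
      rw [← mul_pow, ← mul_pow]; norm_num
    rw [this, ← pow_mul]
    calc (2 : ℝ) ^ (6 * d) ≤ (Real.exp 1) ^ (6 * d) := pow_le_pow_left₀ (by norm_num) he _
      _ = Real.exp (6 * d) := by
          rw [← Real.exp_nat_mul]; congr 1; push_cast; ring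
  have e6 : 24 * 16 ^ d * (2 ^ N * 2 ^ p) * Real.exp (-(40 * d))
      ≤ 12⁻¹ * (Real.exp (6 * d) * Real.exp (-(40 * d))) := by
    have h2 : 24 * 16 ^ d * (2 ^ N * 2 ^ p) ≤ 12⁻¹ * Real.exp (6 * d) := by
      have h3 : (0 : ℝ) < 16 ^ d := by positivity
      have h4 : (0 : ℝ) < 2 ^ d := by positivity
      have h5 : (24 : ℝ) * 16 ^ d * (2 ^ N * 2 ^ p) ≤ 24 * 16 ^ d * 2 ^ d :=
        mul_le_mul_of_nonneg_left e3 (by positivity)
      have h6 : (288 : ℝ) * (16 ^ d * 2 ^ d) ≤ 2 ^ d * (16 ^ d * 2 ^ d) :=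
        mul_le_mul_of_nonneg_right e4 (by positivity)
      nlinarith
    calc _ ≤ 12⁻¹ * Real.exp (6 * d) * Real.exp (-(40 * d)) :=
          mul_le_mul_of_nonneg_right h2 (Real.exp_pos _).le
      _ = _ := by ring
  refine e6.trans ?_
  apply mul_le_mul_of_nonneg_left _ (by norm_num)
  rw [← Real.exp_add]
  apply Real.exp_le_exp.mpr
  push_cast
  nlinarith

end L11

open L11 in
theorem final_info : ∃ C : ℝ, 1 ≤ C ∧ ∀ m d : ℕ, 1 ≤ m → 100 * m ≤ d → d ≤ 200 * m →
    ∀ (π : Measure (E d)), Prior d π → ∀ (j : ℕ) (Z : Type) [Fintype Z] [Nonempty Z]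
    (a : E d → Z → ℝ≥0∞), (∀ z, Measurable (fun s => a s z)) → (∀ s, ∑ z, a s z = 1) →
    ∀ (c : Z → E d) (ε : ℝ), 0 < ε → ε ≤ 1 / 4 →
    ENNReal.ofReal (3 / 5) ≤ ∑ z, ∫⁻ s in Metric.closedBall (c z) ε, a s z ∂π →
    ENNReal.ofReal (d * Real.log (1 / ε) / 10 - C * d)
      + ((∫⁻ s, ∫⁻ X1, ∫⁻ X2, nl (nu π j X1 X2 (fun _ => 1) s) ∂(rows m d) ∂(rows (30 * m) d) ∂π)
        + ∑ z, ∫⁻ s, a s z * nl (a s z) ∂π)
      ≤ ∑ z, ∫⁻ s, ∫⁻ X1, ∫⁻ X2, a s z * nl (nu π j X1 X2 (fun s => a s z) s)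
        ∂(rows m d) ∂(rows (30 * m) d) ∂π := by
  refine ⟨15, by norm_num, ?_⟩
  intro m d hm h100 h200 π hπ j Z _ _ a ha ha1 c ε hε hε4 hsucc
  have := hπ.prob
  have hdR : (100 : ℝ) * m ≤ d := by exact_mod_cast h100
  have hmR : (1 : ℝ) ≤ m := by exact_mod_cast hm
  have hd100 : (100 : ℝ) ≤ d := by linarith
  have hL0 : 0 ≤ Real.log (1 / ε) := by
    apply Real.log_nonneg
    rw [one_le_div hε]; linarith
  -- parameters
  obtain ⟨p, hp1, hdN⟩ : ∃ p : ℕ, 1 ≤ p ∧ d - 1 = (30 * m + m) + p :=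
    ⟨d - 1 - (30 * m + m), by omega, by omega⟩
  have hdN' : (d : ℝ) - 1 = 31 * m + p := by
    have h1 : d = (30 * m + m) + p + 1 := by omega
    have h2 : (d : ℝ) = (30 * m + m) + p + 1 := by exact_mod_cast h1
    linarith
  have hpR : (68 / 100 : ℝ) * d ≤ p := by linarith
  by_cases hneg : (d : ℝ) * Real.log (1 / ε) / 10 - 15 * d ≤ 0
  · -- trivial version
    rw [ENNReal.ofReal_of_nonpos hneg, zero_add]
    exact info_bound0 (n := 30 * m) (m := m) π j a ha ha1
  push Not at hneg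
  set Λ : ℝ := p * Real.log (1 / ε) - 40 * d with hΛdef
  have hΛ0 : 0 ≤ Λ := by
    have h1 : (d : ℝ) * 150 < d * Real.log (1 / ε) := by linarith
    have h2 : 150 < Real.log (1 / ε) := lt_of_mul_lt_mul_left h1 (by linarith)
    rw [hΛdef]
    nlinarith
  have hΛ : Real.exp Λ * (12 * (2 * 16 ^ d * (2 * ((2 : ℝ) ^ j)⁻¹) ^ (30 * m + m)
      * (2 * ε) ^ p))
      ≤ 12⁻¹ * ((1 / 2 ^ j) ^ (30 * m + m) * Real.exp (-(26 * (30 * m + m : ℕ)))) :=
    numeric d (30 * m + m) p j ε hε (by omega) (by omega) (by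
      have : (40 : ℝ) * ((30 * m + m : ℕ) : ℝ) ≤ 13 * d := by push_cast; linarith
      exact this)
  have hbad := bad_prob (n := 30 * m) (m := m) hπ j p hp1 hdN (2 * ε) Λ (by positivity) hΛ
  have hinfo := info_bound (n := 30 * m) (m := m) π j a ha ha1 (fun z => Metric.closedBall (c z) ε)
    (fun z => Metric.isClosed_closedBall.measurableSet) (GS π j (30 * m) m Λ (2 * ε))
    (meas_GS π j (30 * m) m Λ (2 * ε)) Λ hΛ0 (by
      intro s X1 X2 hs z hz
      refine le_trans ?_ hs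
      simp only
      rw [cbm_eq]
      gcongr
      intro s' hs'
      rw [Metric.mem_closedBall] at hs' hz ⊢
      calc dist s' s ≤ dist s' (c z) + dist s (c z) := dist_triangle_right _ _ _
        _ ≤ 2 * ε := by linarith)
  -- the success event
  have hsucc2 := success_mass (n := 30 * m) (m := m) π a ha ha1
    (fun z => Metric.closedBall (c z) ε) (fun z => Metric.isClosed_closedBall.measurableSet)
    (GS π j (30 * m) m Λ (2 * ε)) (meas_GS π j (30 * m) m Λ (2 * ε)) hsucc hbad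
  refine (ENNReal.add_le_add_iff_right
    (ENNReal.ofReal_ne_top : ENNReal.ofReal (Real.log 2) ≠ ⊤)).1 ?_
  refine le_trans ?_ hinfo
  have hlog2 : Real.log 2 ≤ 1 := by
    have := Real.log_le_sub_one_of_pos (show (0 : ℝ) < 2 by norm_num)
    linarith
  have hlog2' : 0 ≤ Real.log 2 := Real.log_nonneg (by norm_num)
  have hfin : ENNReal.ofReal (d * Real.log (1 / ε) / 10 - 15 * d) + ENNReal.ofReal (Real.log 2)
      ≤ ENNReal.ofReal Λ * ENNReal.ofReal (7 / 20) := by
    rw [← ENNReal.ofReal_add hneg.le hlog2', ← ENNReal.ofReal_mul hΛ0]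
    apply ENNReal.ofReal_le_ofReal
    rw [hΛdef]
    have h1 : (68 / 100 : ℝ) * d * Real.log (1 / ε) ≤ p * Real.log (1 / ε) :=
      mul_le_mul_of_nonneg_right hpR hL0
    have h2 : 0 ≤ (d : ℝ) * Real.log (1 / ε) := mul_nonneg (by linarith) hL0
    nlinarith
  calc ENNReal.ofReal (d * Real.log (1 / ε) / 10 - 15 * d)
      + ((∫⁻ s, ∫⁻ X1, ∫⁻ X2, nl (nu π j X1 X2 (fun _ => 1) s) ∂(rows m d) ∂(rows (30 * m) d) ∂π)
        + ∑ z, ∫⁻ s, a s z * nl (a s z) ∂π) + ENNReal.ofReal (Real.log 2)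
      = ((∫⁻ s, ∫⁻ X1, ∫⁻ X2, nl (nu π j X1 X2 (fun _ => 1) s) ∂(rows m d) ∂(rows (30 * m) d) ∂π)
        + ∑ z, ∫⁻ s, a s z * nl (a s z) ∂π)
        + (ENNReal.ofReal (d * Real.log (1 / ε) / 10 - 15 * d) + ENNReal.ofReal (Real.log 2)) := by
        ring
    _ ≤ _ := by
        refine add_le_add le_rfl (hfin.trans ?_)
        gcongr

end P309
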