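import Vale.Agent.H20.P309.Base
import Vale.Agent.H20.P309.Meas

/-!
# P309, L11 part a: cells of a countable-valued map, the lower bound on information
-/

open MeasureTheory ProbabilityTheory Set
open scoped RealInnerProductSpace ENNReal

namespace P309
namespace L11

section cells
variable {S ι : Type*} [MeasurableSpace S] [Countable ι] [MeasurableSpace ι]
  [MeasurableSingletonClass ι]

theorem lintegral_fibers (π : Measure S) {lb : S → ι} (hlb : Measurable lb) (f : S → ℝ≥0∞) :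
    ∫⁻ s, f s ∂π = ∑' i, ∫⁻ s in lb ⁻¹' {i}, f s ∂π := by
  rw [← lintegral_iUnion (fun i => hlb (measurableSet_singleton i)) (pairwise_disjoint_fiber lb) f]
  have : ⋃ i, lb ⁻¹' {i} = univ := by
    ext s; simp
  rw [this, Measure.restrict_univ]

theorem measurableSet_cell {lb : S → ι} (hlb : Measurable lb) (s : S) :
    MeasurableSet {s' | lb s' = lb s} := hlb (measurableSet_singleton (lb s))

/-- a function of the cell is measurable -/
theorem meas_cellfun {lb : S → ι} (hlb : Measurable lb) (g : ι → ℝ≥0∞) :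
    Measurable (fun s => g (lb s)) := (measurable_of_countable g).comp hlb

theorem tower (π : Measure S) (f w : S → ℝ≥0∞) {lb : S → ι} (hlb : Measurable lb)
    (hw : Measurable w) :
    ∫⁻ s, w s * ((∫⁻ s' in {s' | lb s' = lb s}, f s' ∂π) /
      (∫⁻ s' in {s' | lb s' = lb s}, w s' ∂π)) ∂π ≤ ∫⁻ s, f s ∂π := by
  rw [lintegral_fibers π hlb, lintegral_fibers π hlb f]
  apply ENNReal.tsum_le_tsum
  intro i
  have h1 : ∫⁻ s in lb ⁻¹' {i}, w s * ((∫⁻ s' in {s' | lb s' = lb s}, f s' ∂π) /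
      (∫⁻ s' in {s' | lb s' = lb s}, w s' ∂π)) ∂π
      = ∫⁻ s in lb ⁻¹' {i}, w s * ((∫⁻ s' in lb ⁻¹' {i}, f s' ∂π) /
      (∫⁻ s' in lb ⁻¹' {i}, w s' ∂π)) ∂π := by
    apply setLIntegral_congr_fun (hlb (measurableSet_singleton i))
    intro s hs
    have hs' : lb s = i := hs
    have : {s' | lb s' = lb s} = lb ⁻¹' {i} := by
      ext s'; simp [hs']
    simp only [this]
  rw [h1, lintegral_mul_const _ hw]
  exact ENNReal.mul_div_le

end cells

/-- the pointwise inequality -/
theorem ptwise (f ν c g : ℝ≥0∞) (hf : f ≤ 1) (hνc : ν ≤ c) (hc : c ≤ 1) (Λ t : ℝ)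
    (hΛ : 0 ≤ Λ) (ht : 0 ≤ t)
    (h : ENNReal.ofReal (Real.exp Λ) * ν ≤ ENNReal.ofReal (Real.exp t) * (g * c)) :
    f * nl c + f * nl f + f * ENNReal.ofReal Λ + f ≤ f * nl ν + g + f * ENNReal.ofReal t := by
  by_cases hf0 : f = 0
  · subst hf0; simp
  by_cases hν0 : ν = 0
  · subst hν0
    have : f * nl 0 = ⊤ := by
      unfold nl; simp [hf0, ENNReal.mul_top]
    rw [this]; simp
  have hc0 : c ≠ 0 := fun h0 => hν0 (le_antisymm (h0 ▸ hνc) bot_le)
  by_cases hg : g = ⊤
  · subst hg; simp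
  have hfT : f ≠ ⊤ := ne_top_of_le_ne_top ENNReal.one_ne_top hf
  have hcT : c ≠ ⊤ := ne_top_of_le_ne_top ENNReal.one_ne_top hc
  have hνT : ν ≠ ⊤ := ne_top_of_le_ne_top hcT hνc
  lift f to NNReal using hfT
  lift c to NNReal using hcT
  lift ν to NNReal using hνT
  lift g to NNReal using hg
  have hfp : 0 < (f : ℝ) := by
    have : f ≠ 0 := by simpa using hf0
    positivity
  have hνp : 0 < (ν : ℝ) := by
    have : ν ≠ 0 := by simpa using hν0
    positivity
  have hcp : 0 < (c : ℝ) := by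
    have : c ≠ 0 := by simpa using hc0
    positivity
  have hf1 : (f : ℝ) ≤ 1 := by exact_mod_cast hf
  have hc1 : (c : ℝ) ≤ 1 := by exact_mod_cast hc
  have hνc' : (ν : ℝ) ≤ c := by exact_mod_cast hνc
  have hg0 : 0 ≤ (g : ℝ) := g.2
  have h' : Real.exp Λ * ν ≤ Real.exp t * (g * c) := by
    have := ENNReal.toReal_mono (by
      apply ENNReal.mul_ne_top ENNReal.ofReal_ne_top
      exact ENNReal.mul_ne_top ENNReal.coe_ne_top ENNReal.coe_ne_top) h
    simpa [ENNReal.toReal_mul, ENNReal.toReal_ofReal (Real.exp_pos _).le] using this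
  have hgp : 0 < (g : ℝ) := by
    rcases hg0.lt_or_eq with h1 | h1
    · exact h1
    · exfalso
      rw [← h1] at h'
      have : 0 < Real.exp Λ * ν := by positivity
      simp at h'
      linarith
  have e1 : nl (c : ℝ≥0∞) = ENNReal.ofReal (-Real.log c) := by
    unfold nl; rw [if_neg hc0]; rfl
  have e2 : nl (f : ℝ≥0∞) = ENNReal.ofReal (-Real.log f) := by
    unfold nl; rw [if_neg hf0]; rfl
  have e3 : nl (ν : ℝ≥0∞) = ENNReal.ofReal (-Real.log ν) := by
    unfold nl; rw [if_neg hν0]; rfl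
  have lc : 0 ≤ -Real.log c := by
    have := Real.log_nonpos hcp.le hc1; linarith
  have lf : 0 ≤ -Real.log f := by
    have := Real.log_nonpos hfp.le hf1; linarith
  have lν : 0 ≤ -Real.log ν := by
    have := Real.log_nonpos hνp.le (hνc'.trans hc1); linarith
  have key : (f : ℝ) * (-Real.log c) + f * (-Real.log f) + f * Λ + f
      ≤ f * (-Real.log ν) + g + f * t := by
    have h1 : Λ + Real.log ν ≤ t + (Real.log g + Real.log c) := by
      have := Real.log_le_log (by positivity) h'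
      rwa [Real.log_mul (Real.exp_pos _).ne' hνp.ne', Real.log_mul (Real.exp_pos _).ne'
        (by positivity), Real.log_mul hgp.ne' hcp.ne', Real.log_exp, Real.log_exp] at this
    have h2 : Real.log g - Real.log f ≤ g / f - 1 := by
      rw [← Real.log_div hgp.ne' hfp.ne']
      exact Real.log_le_sub_one_of_pos (by positivity)
    have h3 : (f : ℝ) * (g / f - 1) = g - f := by field_simp
    nlinarith
  have c1 : (f : ℝ≥0∞) * ENNReal.ofReal (-Real.log c) = ENNReal.ofReal (f * (-Real.log c)) := by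
    rw [ENNReal.ofReal_mul hfp.le]; simp
  have c2 : (f : ℝ≥0∞) * ENNReal.ofReal (-Real.log f) = ENNReal.ofReal (f * (-Real.log f)) := by
    rw [ENNReal.ofReal_mul hfp.le]; simp
  have c3 : (f : ℝ≥0∞) * ENNReal.ofReal (-Real.log ν) = ENNReal.ofReal (f * (-Real.log ν)) := by
    rw [ENNReal.ofReal_mul hfp.le]; simp
  have c4 : (f : ℝ≥0∞) * ENNReal.ofReal Λ = ENNReal.ofReal (f * Λ) := by
    rw [ENNReal.ofReal_mul hfp.le]; simp
  have c5 : (f : ℝ≥0∞) * ENNReal.ofReal t = ENNReal.ofReal (f * t) := by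
    rw [ENNReal.ofReal_mul hfp.le]; simp
  have c6 : (f : ℝ≥0∞) = ENNReal.ofReal f := by simp
  have c7 : (g : ℝ≥0∞) = ENNReal.ofReal g := by simp
  rw [e1, e2, e3, c1, c2, c3, c4, c5, c7]
  conv_lhs => rw [c6]
  rw [← ENNReal.ofReal_add (by positivity) (by positivity),
    ← ENNReal.ofReal_add (by positivity) (by positivity),
    ← ENNReal.ofReal_add (by positivity) (by positivity),
    ← ENNReal.ofReal_add (by positivity) (by positivity),
    ← ENNReal.ofReal_add (by positivity) (by positivity)]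
  exact ENNReal.ofReal_le_ofReal key

section cells
variable {S ι : Type*} [MeasurableSpace S] [Countable ι] [MeasurableSpace ι]
  [MeasurableSingletonClass ι]

/-- one value of the memory, one realization of the rows -/
theorem cell_bound (π : Measure S) [IsProbabilityMeasure π] (f : S → ℝ≥0∞) (hf : Measurable f)
    (hf1 : ∀ s, f s ≤ 1) {lb : S → ι} (hlb : Measurable lb) (B G : Set S)
    (hB : MeasurableSet B) (hG : MeasurableSet G) (Λ : ℝ) (hΛ : 0 ≤ Λ)
    (hGB : ∀ s ∈ G, s ∈ B → ENNReal.ofReal (Real.exp Λ) * π ({s' | lb s' = lb s} ∩ B)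
      ≤ π {s' | lb s' = lb s}) :
    (∫⁻ s, f s * nl (π {s' | lb s' = lb s}) ∂π) + (∫⁻ s, f s * nl (f s) ∂π)
      + ENNReal.ofReal Λ * (∫⁻ s in G ∩ B, f s ∂π)
      ≤ (∫⁻ s, f s * nl (∫⁻ s' in {s' | lb s' = lb s}, f s' ∂π) ∂π)
        + ENNReal.ofReal (Real.log 2) * ∫⁻ s, f s ∂π := by
  classical
  -- notation
  set F : S → ℝ≥0∞ := fun s => ∫⁻ s' in {s' | lb s' = lb s}, f s' ∂π with hF
  set c : S → ℝ≥0∞ := fun s => π {s' | lb s' = lb s} with hc
  set cB : S → ℝ≥0∞ := fun s => π ({s' | lb s' = lb s} ∩ B) with hcB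
  have mF : Measurable F := meas_cellfun hlb (fun i => ∫⁻ s' in {s' | lb s' = i}, f s' ∂π)
  have mc : Measurable c := meas_cellfun hlb (fun i => π {s' | lb s' = i})
  have mcB : Measurable cB := meas_cellfun hlb (fun i => π ({s' | lb s' = i} ∩ B))
  have hFc : ∀ s, F s ≤ c s := by
    intro s
    calc F s ≤ ∫⁻ s' in {s' | lb s' = lb s}, 1 ∂π := lintegral_mono (fun s' => hf1 s')
      _ = c s := by simp [hc]
  have hc1 : ∀ s, c s ≤ 1 := fun s => prob_le_one
  have hFT : ∀ s, F s ≠ ⊤ := fun s =>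
    ne_top_of_le_ne_top ENNReal.one_ne_top ((hFc s).trans (hc1 s))
  have hcT : ∀ s, c s ≠ ⊤ := fun s => ne_top_of_le_ne_top ENNReal.one_ne_top (hc1 s)
  set g : S → ℝ≥0∞ := fun s => 2⁻¹ * (1 * (F s / c s)) + 2⁻¹ * (B.indicator 1 s * (F s / cB s))
    with hg
  have mind : Measurable (B.indicator (1 : S → ℝ≥0∞)) := measurable_one.indicator hB
  have mFc : Measurable (fun s => 1 * (F s / c s)) := (mF.div mc).const_mul 1
  have mFcB : Measurable (fun s => B.indicator (1 : S → ℝ≥0∞) s * (F s / cB s)) :=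
    mind.mul (mF.div mcB)
  have mg : Measurable g := (mFc.const_mul _).add (mFcB.const_mul _)
  have hgint : ∫⁻ s, g s ∂π ≤ ∫⁻ s, f s ∂π := by
    have h1 := tower π f (fun _ => 1) hlb measurable_const
    have h2 := tower π f (B.indicator 1) hlb mind
    have e1 : ∀ s, (∫⁻ s' in {s' | lb s' = lb s}, (1 : ℝ≥0∞) ∂π) = c s := by
      intro s; simp [hc]
    have e2 : ∀ s, (∫⁻ s' in {s' | lb s' = lb s}, B.indicator 1 s' ∂π) = cB s := by
      intro s
      rw [lintegral_indicator_one hB, Measure.restrict_apply hB, inter_comm]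
    simp only [e1] at h1
    simp only [e2] at h2
    calc ∫⁻ s, g s ∂π
        = 2⁻¹ * (∫⁻ s, 1 * (F s / c s) ∂π) + 2⁻¹ * (∫⁻ s, B.indicator 1 s * (F s / cB s) ∂π) := by
          rw [← lintegral_const_mul _ mFc, ← lintegral_const_mul _ mFcB,
            ← lintegral_add_left (mFc.const_mul _)]
      _ ≤ 2⁻¹ * (∫⁻ s, f s ∂π) + 2⁻¹ * (∫⁻ s, f s ∂π) :=
          add_le_add (mul_le_mul_right h1 _) (mul_le_mul_right h2 _)
      _ = ∫⁻ s, f s ∂π := by
          rw [← add_mul, ENNReal.inv_two_add_inv_two, one_mul]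
  set L : S → ℝ := fun s => if s ∈ G ∩ B then Λ else 0 with hL
  have hL0 : ∀ s, 0 ≤ L s := by
    intro s; simp only [hL]; split_ifs
    · exact hΛ
    · exact le_rfl
  have hpt : ∀ s, f s * nl (c s) + f s * nl (f s) + f s * ENNReal.ofReal (L s) + f s
      ≤ f s * nl (F s) + g s + f s * ENNReal.ofReal (Real.log 2) := by
    intro s
    apply ptwise _ _ _ _ (hf1 s) (hFc s) (hc1 s) _ _ (hL0 s) (Real.log_nonneg (by norm_num))
    rw [Real.exp_log (by norm_num)]
    have h2 : ENNReal.ofReal 2 = 2 := by simp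
    rw [h2]
    by_cases hF0 : F s = 0
    · rw [hF0]; simp
    have hc0 : c s ≠ 0 := fun h0 => hF0 (le_antisymm (h0 ▸ hFc s) bot_le)
    by_cases hs : s ∈ G ∩ B
    · have hLs : L s = Λ := by simp only [hL, if_pos hs]
      rw [hLs]
      have hgl : 2⁻¹ * (F s / cB s) ≤ g s := by
        simp only [hg]
        rw [indicator_of_mem hs.2]
        simp
      have hcc : ENNReal.ofReal (Real.exp Λ) * cB s ≤ c s := hGB s hs.1 hs.2
      have h3 : ENNReal.ofReal (Real.exp Λ) * F s ≤ (F s / cB s) * c s := by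
        by_cases hcB0 : cB s = 0
        · rw [hcB0, ENNReal.div_zero hF0, ENNReal.top_mul hc0]
          exact le_top
        · have hcBT : cB s ≠ ⊤ := measure_ne_top _ _
          calc ENNReal.ofReal (Real.exp Λ) * F s
              = (F s / cB s) * (ENNReal.ofReal (Real.exp Λ) * cB s) := by
                rw [mul_comm (ENNReal.ofReal (Real.exp Λ)) (cB s), ← mul_assoc,
                  ENNReal.div_mul_cancel hcB0 hcBT, mul_comm]
            _ ≤ (F s / cB s) * c s := mul_le_mul_right hcc _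
      calc ENNReal.ofReal (Real.exp Λ) * F s ≤ (F s / cB s) * c s := h3
        _ = 2 * ((2⁻¹ * (F s / cB s)) * c s) := by
            rw [← mul_assoc, ← mul_assoc, ENNReal.mul_inv_cancel (by norm_num) (by norm_num),
              one_mul]
        _ ≤ 2 * (g s * c s) := by gcongr
    · have hLs : L s = 0 := by simp only [hL, if_neg hs]
      rw [hLs, Real.exp_zero, ENNReal.ofReal_one, one_mul]
      have hgl : 2⁻¹ * (F s / c s) ≤ g s := by
        simp only [hg, one_mul]
        exact le_self_add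
      calc F s = (F s / c s) * c s := by rw [ENNReal.div_mul_cancel hc0 (hcT s)]
        _ = 2 * ((2⁻¹ * (F s / c s)) * c s) := by
            rw [← mul_assoc, ← mul_assoc, ENNReal.mul_inv_cancel (by norm_num) (by norm_num),
              one_mul]
        _ ≤ 2 * (g s * c s) := by gcongr
  have hint := lintegral_mono (μ := π) hpt
  have m1 : Measurable (fun s => f s * nl (c s)) := hf.mul (measurable_nl.comp mc)
  have m2 : Measurable (fun s => f s * nl (f s)) := hf.mul (measurable_nl.comp hf)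
  have mL : Measurable (fun s => ENNReal.ofReal (L s)) :=
    (Measurable.ite (hG.inter hB) measurable_const measurable_const).ennreal_ofReal
  have m3 : Measurable (fun s => f s * ENNReal.ofReal (L s)) := hf.mul mL
  have m4 : Measurable (fun s => f s * nl (F s)) := hf.mul (measurable_nl.comp mF)
  rw [lintegral_add_right _ hf, lintegral_add_right _ m3, lintegral_add_right _ m2,
    lintegral_add_right _ (hf.mul_const _), lintegral_add_right _ mg,
    lintegral_mul_const _ hf] at hint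
  have e3 : ∫⁻ s, f s * ENNReal.ofReal (L s) ∂π = ENNReal.ofReal Λ * (∫⁻ s in G ∩ B, f s ∂π) := by
    rw [← lintegral_const_mul _ hf, ← lintegral_indicator (hG.inter hB)]
    apply lintegral_congr
    intro s
    by_cases hs : s ∈ G ∩ B
    · rw [indicator_of_mem hs]; simp only [hL, if_pos hs]; rw [mul_comm]
    · rw [indicator_of_notMem hs]; simp only [hL, if_neg hs]; simp
  rw [e3] at hint
  have hfT : ∫⁻ s, f s ∂π ≠ ⊤ := by
    apply ne_top_of_le_ne_top ENNReal.one_ne_top
    calc ∫⁻ s, f s ∂π ≤ ∫⁻ s, 1 ∂π := lintegral_mono hf1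
      _ = 1 := by simp
  have hfin : (∫⁻ s, f s * nl (c s) ∂π) + (∫⁻ s, f s * nl (f s) ∂π)
      + ENNReal.ofReal Λ * (∫⁻ s in G ∩ B, f s ∂π) + ∫⁻ s, f s ∂π
      ≤ ((∫⁻ s, f s * nl (F s) ∂π) + (∫⁻ s, f s ∂π) * ENNReal.ofReal (Real.log 2))
        + ∫⁻ s, f s ∂π := by
    refine hint.trans ?_
    calc (∫⁻ s, f s * nl (F s) ∂π) + (∫⁻ s, g s ∂π) + (∫⁻ s, f s ∂π) * ENNReal.ofReal (Real.log 2)
        ≤ (∫⁻ s, f s * nl (F s) ∂π) + (∫⁻ s, f s ∂π)
          + (∫⁻ s, f s ∂π) * ENNReal.ofReal (Real.log 2) := by gcongr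
      _ = _ := by ring
  have := (ENNReal.add_le_add_iff_right hfT).1 hfin
  rw [mul_comm (∫⁻ s, f s ∂π)] at this
  exact this

/-- one value of the memory, one realization of the rows, trivial version -/
theorem cell_bound0 (π : Measure S) [IsProbabilityMeasure π] (f : S → ℝ≥0∞) (hf : Measurable f)
    (hf1 : ∀ s, f s ≤ 1) {lb : S → ι} (hlb : Measurable lb) :
    (∫⁻ s, f s * nl (π {s' | lb s' = lb s}) ∂π) + (∫⁻ s, f s * nl (f s) ∂π)
      ≤ ∫⁻ s, f s * nl (∫⁻ s' in {s' | lb s' = lb s}, f s' ∂π) ∂π := by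
  classical
  set F : S → ℝ≥0∞ := fun s => ∫⁻ s' in {s' | lb s' = lb s}, f s' ∂π with hF
  set c : S → ℝ≥0∞ := fun s => π {s' | lb s' = lb s} with hc
  have mF : Measurable F := meas_cellfun hlb (fun i => ∫⁻ s' in {s' | lb s' = i}, f s' ∂π)
  have mc : Measurable c := meas_cellfun hlb (fun i => π {s' | lb s' = i})
  have hFc : ∀ s, F s ≤ c s := by
    intro s
    calc F s ≤ ∫⁻ s' in {s' | lb s' = lb s}, 1 ∂π := lintegral_mono (fun s' => hf1 s')
      _ = c s := by simp [hc]
  have hc1 : ∀ s, c s ≤ 1 := fun s => prob_le_one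
  have hcT : ∀ s, c s ≠ ⊤ := fun s => ne_top_of_le_ne_top ENNReal.one_ne_top (hc1 s)
  set g : S → ℝ≥0∞ := fun s => 1 * (F s / c s) with hg
  have mg : Measurable g := (mF.div mc).const_mul 1
  have hgint : ∫⁻ s, g s ∂π ≤ ∫⁻ s, f s ∂π := by
    have h1 := tower π f (fun _ => 1) hlb measurable_const
    have e1 : ∀ s, (∫⁻ s' in {s' | lb s' = lb s}, (1 : ℝ≥0∞) ∂π) = c s := by
      intro s; simp [hc]
    simp only [e1] at h1
    exact h1
  have hpt : ∀ s, f s * nl (c s) + f s * nl (f s) + f s ≤ f s * nl (F s) + g s := by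
    intro s
    have h := ptwise (f s) (F s) (c s) (g s) (hf1 s) (hFc s) (hc1 s) 0 0 le_rfl le_rfl (by
      rw [Real.exp_zero, ENNReal.ofReal_one, one_mul, one_mul]
      by_cases hF0 : F s = 0
      · rw [hF0]; simp
      have hc0 : c s ≠ 0 := fun h0 => hF0 (le_antisymm (h0 ▸ hFc s) bot_le)
      simp only [hg, one_mul]
      rw [ENNReal.div_mul_cancel hc0 (hcT s)])
    simpa using h
  have hint := lintegral_mono (μ := π) hpt
  have m2 : Measurable (fun s => f s * nl (f s)) := hf.mul (measurable_nl.comp hf)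
  rw [lintegral_add_right _ hf, lintegral_add_right _ m2, lintegral_add_right _ mg] at hint
  have hfT : ∫⁻ s, f s ∂π ≠ ⊤ := by
    apply ne_top_of_le_ne_top ENNReal.one_ne_top
    calc ∫⁻ s, f s ∂π ≤ ∫⁻ s, 1 ∂π := lintegral_mono hf1
      _ = 1 := by simp
  exact (ENNReal.add_le_add_iff_right hfT).1 (hint.trans (by gcongr))

end cells

end L11
end P309
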