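import Vale.Agent.H20.P309.L11a

/-!
# P309, L11 part b: sum over the memory states, integration over the rows
-/

open MeasureTheory ProbabilityTheory Set
open scoped RealInnerProductSpace ENNReal

namespace P309
namespace L11

variable {d n m : ℕ}

/-- both blocks of labels -/
noncomputable def lb (j : ℕ) (X1 : Fin n → E d) (X2 : Fin m → E d) (s : E d) :
    (Fin n → ℤ) × (Fin m → ℤ) := (labs j X1 s, labs j X2 s)

theorem meas_lb (j : ℕ) (X1 : Fin n → E d) (X2 : Fin m → E d) : Measurable (lb j X1 X2) :=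
  (meas_labs j measurable_const measurable_id).prodMk (meas_labs j measurable_const measurable_id)

theorem same_mul_same (j : ℕ) (X1 : Fin n → E d) (X2 : Fin m → E d) (s s' : E d) :
    same j X1 s s' * same j X2 s s' = {s' | lb j X1 X2 s' = lb j X1 X2 s}.indicator 1 s' := by
  unfold same
  by_cases h1 : labs j X1 s' = labs j X1 s
  · by_cases h2 : labs j X2 s' = labs j X2 s
    · have : s' ∈ {s' | lb j X1 X2 s' = lb j X1 X2 s} := by
        simp only [mem_setOf_eq, lb, h1, h2]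
      rw [indicator_of_mem this, if_pos h1, if_pos h2]; simp
    · have : s' ∉ {s' | lb j X1 X2 s' = lb j X1 X2 s} := by
        simp only [mem_setOf_eq, lb, Prod.mk.injEq]; tauto
      rw [indicator_of_notMem this, if_neg h2]; simp
  · have : s' ∉ {s' | lb j X1 X2 s' = lb j X1 X2 s} := by
      simp only [mem_setOf_eq, lb, Prod.mk.injEq]; tauto
    rw [indicator_of_notMem this, if_neg h1]; simp

theorem nu_eq (π : Measure (E d)) (j : ℕ) (X1 : Fin n → E d) (X2 : Fin m → E d)
    (A : E d → ℝ≥0∞) (s : E d) :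
    nu π j X1 X2 A s = ∫⁻ s' in {s' | lb j X1 X2 s' = lb j X1 X2 s}, A s' ∂π := by
  unfold nu
  rw [← lintegral_indicator (measurableSet_cell (meas_lb j X1 X2) s)]
  apply lintegral_congr
  intro s'
  rw [same_mul_same]
  by_cases h : s' ∈ {s' | lb j X1 X2 s' = lb j X1 X2 s}
  · rw [indicator_of_mem h, indicator_of_mem h]; simp
  · rw [indicator_of_notMem h, indicator_of_notMem h]; simp

theorem nu_one (π : Measure (E d)) (j : ℕ) (X1 : Fin n → E d) (X2 : Fin m → E d) (s : E d) :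
    nu π j X1 X2 (fun _ => 1) s = π {s' | lb j X1 X2 s' = lb j X1 X2 s} := by
  rw [nu_eq]; simp

theorem sum_bound (π : Measure (E d)) [IsProbabilityMeasure π] (j : ℕ) (X1 : Fin n → E d)
    (X2 : Fin m → E d) {Z : Type} [Fintype Z] (a : E d → Z → ℝ≥0∞)
    (ha : ∀ z, Measurable (fun s => a s z)) (ha1 : ∀ s, ∑ z, a s z = 1)
    (B : Z → Set (E d)) (hB : ∀ z, MeasurableSet (B z)) (G : Set (E d)) (hG : MeasurableSet G)
    (Λ : ℝ) (hΛ : 0 ≤ Λ)
    (hGB : ∀ s ∈ G, ∀ z, s ∈ B z →
      ENNReal.ofReal (Real.exp Λ) * π ({s' | lb j X1 X2 s' = lb j X1 X2 s} ∩ B z)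
        ≤ π {s' | lb j X1 X2 s' = lb j X1 X2 s}) :
    (∫⁻ s, nl (nu π j X1 X2 (fun _ => 1) s) ∂π) + (∑ z, ∫⁻ s, a s z * nl (a s z) ∂π)
      + ENNReal.ofReal Λ * (∫⁻ s, G.indicator 1 s * ∑ z, (B z).indicator (fun s => a s z) s ∂π)
      ≤ (∑ z, ∫⁻ s, a s z * nl (nu π j X1 X2 (fun s => a s z) s) ∂π)
        + ENNReal.ofReal (Real.log 2) := by
  have ha1' : ∀ s z, a s z ≤ 1 := by
    intro s z
    rw [← ha1 s]
    exact Finset.single_le_sum (f := fun z => a s z) (fun _ _ => bot_le) (Finset.mem_univ z)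
  have h := Finset.sum_le_sum (s := (Finset.univ : Finset Z)) (fun z _ =>
    cell_bound π (fun s => a s z) (ha z) (fun s => ha1' s z) (meas_lb j X1 X2) (B z) G (hB z) hG
      Λ hΛ (fun s hs hsB => hGB s hs z hsB))
  rw [Finset.sum_add_distrib, Finset.sum_add_distrib, Finset.sum_add_distrib,
    ← Finset.mul_sum, ← Finset.mul_sum] at h
  have mnu : Measurable (fun s => nl (nu π j X1 X2 (fun _ => 1) s)) :=
    measurable_nl.comp (meas_nu π j measurable_const measurable_const measurable_const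
      measurable_id)
  have e1 : ∑ z, ∫⁻ s, a s z * nl (π {s' | lb j X1 X2 s' = lb j X1 X2 s}) ∂π
      = ∫⁻ s, nl (nu π j X1 X2 (fun _ => 1) s) ∂π := by
    simp only [← nu_one]
    have mm : ∀ z, Measurable (fun s => a s z * nl (nu π j X1 X2 (fun _ => 1) s)) :=
      fun z => (ha z).mul mnu
    rw [← lintegral_finsetSum _ (fun z _ => mm z)]
    apply lintegral_congr
    intro s
    rw [← Finset.sum_mul, ha1, one_mul]
  have e2 : ∑ z, ∫⁻ s in G ∩ B z, a s z ∂π
      = ∫⁻ s, G.indicator 1 s * ∑ z, (B z).indicator (fun s => a s z) s ∂π := by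
    have : ∀ z, ∫⁻ s in G ∩ B z, a s z ∂π
        = ∫⁻ s, G.indicator 1 s * (B z).indicator (fun s => a s z) s ∂π := by
      intro z
      rw [← lintegral_indicator (hG.inter (hB z))]
      apply lintegral_congr
      intro s
      by_cases h1 : s ∈ G
      · by_cases h2 : s ∈ B z
        · have h3 : s ∈ G ∩ B z := ⟨h1, h2⟩
          rw [indicator_of_mem h3, indicator_of_mem h1, indicator_of_mem h2]; simp
        · have h3 : s ∉ G ∩ B z := fun h => h2 h.2
          rw [indicator_of_notMem h3, indicator_of_notMem h2]; simp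
      · have h3 : s ∉ G ∩ B z := fun h => h1 h.1
        rw [indicator_of_notMem h3, indicator_of_notMem h1]; simp
    simp only [this]
    have mm : ∀ z, Measurable (fun s => G.indicator (1 : E d → ℝ≥0∞) s
        * (B z).indicator (fun s => a s z) s) :=
      fun z => (measurable_one.indicator hG).mul ((ha z).indicator (hB z))
    rw [← lintegral_finsetSum _ (fun z _ => mm z)]
    apply lintegral_congr
    intro s
    rw [Finset.mul_sum]
  have e3 : ∑ z, ∫⁻ s, a s z ∂π = 1 := by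
    rw [← lintegral_finsetSum _ (fun z _ => ha z)]
    simp [ha1]
  rw [e1, e2, e3, mul_one] at h
  simp only [nu_eq] at h ⊢
  exact h

/-- move the integral over `s` inside / outside. -/
theorem swap3 (π : Measure (E d)) [IsProbabilityMeasure π]
    {F : E d → (Fin n → E d) → (Fin m → E d) → ℝ≥0∞}
    (hF : Measurable (fun q : E d × (Fin n → E d) × (Fin m → E d) => F q.1 q.2.1 q.2.2)) :
    ∫⁻ X1, ∫⁻ X2, ∫⁻ s, F s X1 X2 ∂π ∂(rows m d) ∂(rows n d)
      = ∫⁻ s, ∫⁻ X1, ∫⁻ X2, F s X1 X2 ∂(rows m d) ∂(rows n d) ∂π := by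
  have h1 : ∀ X1 : Fin n → E d, ∫⁻ X2, ∫⁻ s, F s X1 X2 ∂π ∂(rows m d)
      = ∫⁻ s, ∫⁻ X2, F s X1 X2 ∂(rows m d) ∂π := by
    intro X1
    rw [lintegral_lintegral_swap]
    apply Measurable.aemeasurable
    exact hF.comp (measurable_snd.prodMk (measurable_const.prodMk measurable_fst))
  simp only [h1]
  rw [lintegral_lintegral_swap]
  apply Measurable.aemeasurable
  refine Measurable.lintegral_prod_right'
    (f := fun q : ((Fin n → E d) × E d) × (Fin m → E d) => F q.1.2 q.1.1 q.2) ?_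
  exact hF.comp ((measurable_snd.comp measurable_fst).prodMk
    ((measurable_fst.comp measurable_fst).prodMk measurable_snd))

theorem meas_inner (π : Measure (E d)) [IsProbabilityMeasure π]
    {F : E d → (Fin n → E d) → (Fin m → E d) → ℝ≥0∞}
    (hF : Measurable (fun q : E d × (Fin n → E d) × (Fin m → E d) => F q.1 q.2.1 q.2.2)) :
    Measurable (fun q : (Fin n → E d) × (Fin m → E d) => ∫⁻ s, F s q.1 q.2 ∂π) := by
  refine Measurable.lintegral_prod_right'
    (f := fun q : ((Fin n → E d) × (Fin m → E d)) × E d => F q.2 q.1.1 q.1.2) ?_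
  exact hF.comp (measurable_snd.prodMk measurable_fst)

/-- double integral over rows -/
noncomputable def II (n m d : ℕ) (F : (Fin n → E d) → (Fin m → E d) → ℝ≥0∞) : ℝ≥0∞ :=
  ∫⁻ X1, ∫⁻ X2, F X1 X2 ∂(rows m d) ∂(rows n d)

theorem II_mono {F G : (Fin n → E d) → (Fin m → E d) → ℝ≥0∞} (h : ∀ X1 X2, F X1 X2 ≤ G X1 X2) :
    II n m d F ≤ II n m d G :=
  lintegral_mono fun X1 => lintegral_mono fun X2 => h X1 X2

theorem II_add {F G : (Fin n → E d) → (Fin m → E d) → ℝ≥0∞}
    (hF : Measurable (fun q : (Fin n → E d) × (Fin m → E d) => F q.1 q.2)) :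
    II n m d (fun X1 X2 => F X1 X2 + G X1 X2) = II n m d F + II n m d G := by
  unfold II
  have h1 : ∀ X1 : Fin n → E d, ∫⁻ X2, (F X1 X2 + G X1 X2) ∂(rows m d)
      = (∫⁻ X2, F X1 X2 ∂(rows m d)) + ∫⁻ X2, G X1 X2 ∂(rows m d) := by
    intro X1
    exact lintegral_add_left (hF.comp (measurable_const.prodMk measurable_id)) _
  simp only [h1]
  rw [lintegral_add_left]
  exact hF.lintegral_prod_right'

theorem II_const (c : ℝ≥0∞) : II n m d (fun _ _ => c) = c := by
  unfold II; simp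

theorem II_sum {Z : Type} [Fintype Z] {F : Z → (Fin n → E d) → (Fin m → E d) → ℝ≥0∞}
    (hF : ∀ z, Measurable (fun q : (Fin n → E d) × (Fin m → E d) => F z q.1 q.2)) :
    II n m d (fun X1 X2 => ∑ z, F z X1 X2) = ∑ z, II n m d (F z) := by
  unfold II
  have h1 : ∀ X1 : Fin n → E d, ∫⁻ X2, ∑ z, F z X1 X2 ∂(rows m d)
      = ∑ z, ∫⁻ X2, F z X1 X2 ∂(rows m d) := by
    intro X1
    exact lintegral_finsetSum _ (fun z _ => (hF z).comp (measurable_const.prodMk measurable_id))
  simp only [h1]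
  exact lintegral_finsetSum _ (fun z _ => (hF z).lintegral_prod_right')

theorem II_const_mul {F : (Fin n → E d) → (Fin m → E d) → ℝ≥0∞} (c : ℝ≥0∞)
    (hF : Measurable (fun q : (Fin n → E d) × (Fin m → E d) => F q.1 q.2)) :
    II n m d (fun X1 X2 => c * F X1 X2) = c * II n m d F := by
  unfold II
  have h1 : ∀ X1 : Fin n → E d, ∫⁻ X2, c * F X1 X2 ∂(rows m d)
      = c * ∫⁻ X2, F X1 X2 ∂(rows m d) := by
    intro X1
    exact lintegral_const_mul _ (hF.comp (measurable_const.prodMk measurable_id))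
  simp only [h1]
  exact lintegral_const_mul _ hF.lintegral_prod_right'

/-- the general information bound, for a set `G` of good `(s, X1, X2)` -/
theorem info_bound (π : Measure (E d)) [IsProbabilityMeasure π] (j : ℕ) {Z : Type} [Fintype Z]
    (a : E d → Z → ℝ≥0∞) (ha : ∀ z, Measurable (fun s => a s z)) (ha1 : ∀ s, ∑ z, a s z = 1)
    (B : Z → Set (E d)) (hB : ∀ z, MeasurableSet (B z))
    (G : Set (E d × (Fin n → E d) × (Fin m → E d))) (hG : MeasurableSet G)
    (Λ : ℝ) (hΛ : 0 ≤ Λ)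
    (hGB : ∀ s X1 X2, (s, X1, X2) ∈ G → ∀ z, s ∈ B z →
      ENNReal.ofReal (Real.exp Λ) * π ({s' | lb j X1 X2 s' = lb j X1 X2 s} ∩ B z)
        ≤ π {s' | lb j X1 X2 s' = lb j X1 X2 s}) :
    (∫⁻ s, ∫⁻ X1, ∫⁻ X2, nl (nu π j X1 X2 (fun _ => 1) s) ∂(rows m d) ∂(rows n d) ∂π)
      + (∑ z, ∫⁻ s, a s z * nl (a s z) ∂π)
      + ENNReal.ofReal Λ * (∫⁻ s, ∫⁻ X1, ∫⁻ X2,
          G.indicator 1 (s, X1, X2) * ∑ z, (B z).indicator (fun s => a s z) s
          ∂(rows m d) ∂(rows n d) ∂π)
      ≤ (∑ z, ∫⁻ s, ∫⁻ X1, ∫⁻ X2, a s z * nl (nu π j X1 X2 (fun s => a s z) s)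
          ∂(rows m d) ∂(rows n d) ∂π)
        + ENNReal.ofReal (Real.log 2) := by
  -- measurability
  have q1 : Measurable (fun q : E d × (Fin n → E d) × (Fin m → E d) => q.1) := measurable_fst
  have q2 : Measurable (fun q : E d × (Fin n → E d) × (Fin m → E d) => q.2.1) :=
    measurable_fst.comp measurable_snd
  have q3 : Measurable (fun q : E d × (Fin n → E d) × (Fin m → E d) => q.2.2) :=
    measurable_snd.comp measurable_snd
  have m1 : Measurable (fun q : E d × (Fin n → E d) × (Fin m → E d) =>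
      nl (nu π j q.2.1 q.2.2 (fun _ => 1) q.1)) :=
    measurable_nl.comp (meas_nu π j measurable_const q2 q3 q1)
  have m2 : ∀ z, Measurable (fun q : E d × (Fin n → E d) × (Fin m → E d) =>
      a q.1 z * nl (nu π j q.2.1 q.2.2 (fun s => a s z) q.1)) := fun z =>
    ((ha z).comp q1).mul (measurable_nl.comp (meas_nu π j (ha z) q2 q3 q1))
  have m3 : Measurable (fun q : E d × (Fin n → E d) × (Fin m → E d) =>
      G.indicator (1 : E d × (Fin n → E d) × (Fin m → E d) → ℝ≥0∞) (q.1, q.2.1, q.2.2)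
        * ∑ z, (B z).indicator (fun s => a s z) q.1) := by
    apply Measurable.mul
    · exact measurable_one.indicator hG
    · exact Finset.measurable_sum _ (fun z _ => ((ha z).indicator (hB z)).comp q1)
  rw [← swap3 (n := n) (m := m) π m1, ← swap3 (n := n) (m := m) π m3]
  have e2 : ∀ z, ∫⁻ s, ∫⁻ X1, ∫⁻ X2, a s z * nl (nu π j X1 X2 (fun s => a s z) s)
          ∂(rows m d) ∂(rows n d) ∂π
      = ∫⁻ X1, ∫⁻ X2, ∫⁻ s, a s z * nl (nu π j X1 X2 (fun s => a s z) s) ∂π
          ∂(rows m d) ∂(rows n d) := fun z => (swap3 (n := n) (m := m) π (m2 z)).symm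
  simp only [e2]
  have hpt : ∀ (X1 : Fin n → E d) (X2 : Fin m → E d),
      (∫⁻ s, nl (nu π j X1 X2 (fun _ => 1) s) ∂π) + (∑ z, ∫⁻ s, a s z * nl (a s z) ∂π)
      + ENNReal.ofReal Λ * (∫⁻ s, G.indicator 1 (s, X1, X2)
          * ∑ z, (B z).indicator (fun s => a s z) s ∂π)
      ≤ (∑ z, ∫⁻ s, a s z * nl (nu π j X1 X2 (fun s => a s z) s) ∂π)
        + ENNReal.ofReal (Real.log 2) := by
    intro X1 X2
    have mG : MeasurableSet {s | (s, X1, X2) ∈ G} :=
      (measurable_id.prodMk measurable_const) hG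
    have := sum_bound π j X1 X2 a ha ha1 B hB {s | (s, X1, X2) ∈ G} mG Λ hΛ
      (fun s hs z hsB => hGB s X1 X2 hs z hsB)
    exact this
  have hII := II_mono (n := n) (m := m) (d := d) hpt
  have mm1 := meas_inner (n := n) (m := m) π
    (F := fun s X1 X2 => nl (nu π j X1 X2 (fun _ => 1) s)) m1
  have mm2 := fun z => meas_inner (n := n) (m := m) π
    (F := fun s X1 X2 => a s z * nl (nu π j X1 X2 (fun s => a s z) s)) (m2 z)
  have mm3 := meas_inner (n := n) (m := m) π
    (F := fun s X1 X2 => G.indicator 1 (s, X1, X2)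
          * ∑ z, (B z).indicator (fun s => a s z) s) m3
  rw [II_add (mm1.add measurable_const), II_add mm1, II_const,
    II_const_mul _ mm3, II_add (Finset.measurable_sum _ (fun z _ => mm2 z)), II_const,
    II_sum mm2] at hII
  exact hII

/-- the information bound, trivial version -/
theorem info_bound0 (π : Measure (E d)) [IsProbabilityMeasure π] (j : ℕ) {Z : Type} [Fintype Z]
    (a : E d → Z → ℝ≥0∞) (ha : ∀ z, Measurable (fun s => a s z)) (ha1 : ∀ s, ∑ z, a s z = 1) :
    (∫⁻ s, ∫⁻ X1, ∫⁻ X2, nl (nu π j X1 X2 (fun _ => 1) s) ∂(rows m d) ∂(rows n d) ∂π)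
      + (∑ z, ∫⁻ s, a s z * nl (a s z) ∂π)
      ≤ ∑ z, ∫⁻ s, ∫⁻ X1, ∫⁻ X2, a s z * nl (nu π j X1 X2 (fun s => a s z) s)
          ∂(rows m d) ∂(rows n d) ∂π := by
  have q1 : Measurable (fun q : E d × (Fin n → E d) × (Fin m → E d) => q.1) := measurable_fst
  have q2 : Measurable (fun q : E d × (Fin n → E d) × (Fin m → E d) => q.2.1) :=
    measurable_fst.comp measurable_snd
  have q3 : Measurable (fun q : E d × (Fin n → E d) × (Fin m → E d) => q.2.2) :=
    measurable_snd.comp measurable_snd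
  have m1 : Measurable (fun q : E d × (Fin n → E d) × (Fin m → E d) =>
      nl (nu π j q.2.1 q.2.2 (fun _ => 1) q.1)) :=
    measurable_nl.comp (meas_nu π j measurable_const q2 q3 q1)
  have m2 : ∀ z, Measurable (fun q : E d × (Fin n → E d) × (Fin m → E d) =>
      a q.1 z * nl (nu π j q.2.1 q.2.2 (fun s => a s z) q.1)) := fun z =>
    ((ha z).comp q1).mul (measurable_nl.comp (meas_nu π j (ha z) q2 q3 q1))
  rw [← swap3 (n := n) (m := m) π m1]
  have e2 : ∀ z, ∫⁻ s, ∫⁻ X1, ∫⁻ X2, a s z * nl (nu π j X1 X2 (fun s => a s z) s)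
          ∂(rows m d) ∂(rows n d) ∂π
      = ∫⁻ X1, ∫⁻ X2, ∫⁻ s, a s z * nl (nu π j X1 X2 (fun s => a s z) s) ∂π
          ∂(rows m d) ∂(rows n d) := fun z => (swap3 (n := n) (m := m) π (m2 z)).symm
  simp only [e2]
  have ha1' : ∀ s z, a s z ≤ 1 := by
    intro s z
    rw [← ha1 s]
    exact Finset.single_le_sum (f := fun z => a s z) (fun _ _ => bot_le) (Finset.mem_univ z)
  have hpt : ∀ (X1 : Fin n → E d) (X2 : Fin m → E d),
      (∫⁻ s, nl (nu π j X1 X2 (fun _ => 1) s) ∂π) + (∑ z, ∫⁻ s, a s z * nl (a s z) ∂π)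
      ≤ ∑ z, ∫⁻ s, a s z * nl (nu π j X1 X2 (fun s => a s z) s) ∂π := by
    intro X1 X2
    have h := Finset.sum_le_sum (s := (Finset.univ : Finset Z)) (fun z _ =>
      cell_bound0 π (fun s => a s z) (ha z) (fun s => ha1' s z) (meas_lb j X1 X2))
    rw [Finset.sum_add_distrib] at h
    have mnu : Measurable (fun s => nl (nu π j X1 X2 (fun _ => 1) s)) :=
      measurable_nl.comp (meas_nu π j measurable_const measurable_const measurable_const
        measurable_id)
    have e1 : ∑ z, ∫⁻ s, a s z * nl (π {s' | lb j X1 X2 s' = lb j X1 X2 s}) ∂π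
        = ∫⁻ s, nl (nu π j X1 X2 (fun _ => 1) s) ∂π := by
      simp only [← nu_one]
      have mm : ∀ z, Measurable (fun s => a s z * nl (nu π j X1 X2 (fun _ => 1) s)) :=
        fun z => (ha z).mul mnu
      rw [← lintegral_finsetSum _ (fun z _ => mm z)]
      apply lintegral_congr
      intro s
      rw [← Finset.sum_mul, ha1, one_mul]
    rw [e1] at h
    simp only [nu_eq] at h ⊢
    exact h
  have hII := II_mono (n := n) (m := m) (d := d) hpt
  have mm1 := meas_inner (n := n) (m := m) π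
    (F := fun s X1 X2 => nl (nu π j X1 X2 (fun _ => 1) s)) m1
  have mm2 := fun z => meas_inner (n := n) (m := m) π
    (F := fun s X1 X2 => a s z * nl (nu π j X1 X2 (fun s => a s z) s)) (m2 z)
  rw [II_add mm1, II_const, II_sum mm2] at hII
  exact hII

end L11
end P309
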