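import Vale.Agent.H20.P309.L11b

/-!
# P309, L11 part c: lower bound for the cell mass
-/

open MeasureTheory ProbabilityTheory Set
open scoped RealInnerProductSpace ENNReal

namespace P309
namespace L11

/-- weight of an integer label -/
noncomputable def q (j : ℕ) (l : ℤ) : ℝ≥0∞ :=
  ENNReal.ofReal (1 / 4 * (1 / 2 ^ j) * Real.exp (-(|(l : ℝ)| / 2 ^ j)))

theorem one_sub_exp_ge {y : ℝ} (h0 : 0 ≤ y) (h1 : y ≤ 1) : y / 2 ≤ 1 - Real.exp (-y) := by
  have h2 : 1 + y ≤ Real.exp y := by linarith [Real.add_one_le_exp y]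
  have h3 : Real.exp (-y) ≤ 1 / (1 + y) := by
    rw [Real.exp_neg, ← one_div]
    exact one_div_le_one_div_of_le (by linarith) h2
  have h4 : 1 / (1 + y) ≤ 1 - y / 2 := by
    rw [div_le_iff₀ (by linarith)]
    nlinarith
  linarith

theorem tsum_q_le (j : ℕ) : ∑' l : ℤ, q j l ≤ 1 := by
  have hp : (0 : ℝ) < 2 ^ j := by positivity
  set x : ℝ := Real.exp (-(1 / 2 ^ j)) with hx
  have hx0 : 0 < x := Real.exp_pos _
  have hx1 : x < 1 := by
    rw [hx, Real.exp_lt_one_iff]
    have : (0 : ℝ) < 1 / 2 ^ j := by positivity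
    linarith
  have hgap : 1 / 2 ^ j / 2 ≤ 1 - x := by
    apply one_sub_exp_ge (by positivity)
    rw [div_le_one hp]
    exact one_le_pow₀ (by norm_num)
  have hterm : ∀ k : ℕ, Real.exp (-((k : ℝ) / 2 ^ j)) = x ^ k := by
    intro k
    rw [hx, ← Real.exp_nat_mul]
    congr 1
    ring
  have hsumx : ∑' k : ℕ, ENNReal.ofReal (x ^ k) = ENNReal.ofReal (1 - x)⁻¹ := by
    rw [← ENNReal.ofReal_tsum_of_nonneg (fun k => by positivity)
      (summable_geometric_of_lt_one hx0.le hx1), tsum_geometric_of_lt_one hx0.le hx1]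
  have hq1 : ∀ k : ℕ, q j (k : ℤ) = ENNReal.ofReal (1 / 4 * (1 / 2 ^ j)) * ENNReal.ofReal (x ^ k) := by
    intro k
    unfold q
    rw [← ENNReal.ofReal_mul (by positivity), ← hterm k]
    simp
  have hq2 : ∀ k : ℕ, q j (-((k : ℤ) + 1))
      ≤ ENNReal.ofReal (1 / 4 * (1 / 2 ^ j)) * ENNReal.ofReal (x ^ k) := by
    intro k
    unfold q
    rw [← ENNReal.ofReal_mul (by positivity), ← hterm k]
    apply ENNReal.ofReal_le_ofReal
    apply mul_le_mul_of_nonneg_left _ (by positivity)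
    apply Real.exp_le_exp.mpr
    apply neg_le_neg
    apply div_le_div_of_nonneg_right _ hp.le
    push_cast
    rw [abs_neg, abs_of_nonneg (by positivity)]
    linarith
  have hsplit : ∑' l : ℤ, q j l = (∑' k : ℕ, q j (k : ℤ)) + ∑' k : ℕ, q j (-((k : ℤ) + 1)) := by
    exact tsum_of_nat_of_neg_add_one ENNReal.summable ENNReal.summable
  rw [hsplit]
  have h1 : ∑' k : ℕ, q j (k : ℤ)
      ≤ ENNReal.ofReal (1 / 4 * (1 / 2 ^ j)) * ENNReal.ofReal (1 - x)⁻¹ := by
    rw [← hsumx, ← ENNReal.tsum_mul_left]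
    exact ENNReal.tsum_le_tsum fun k => (hq1 k).le
  have h2 : ∑' k : ℕ, q j (-((k : ℤ) + 1))
      ≤ ENNReal.ofReal (1 / 4 * (1 / 2 ^ j)) * ENNReal.ofReal (1 - x)⁻¹ := by
    rw [← hsumx, ← ENNReal.tsum_mul_left]
    exact ENNReal.tsum_le_tsum fun k => hq2 k
  refine (add_le_add h1 h2).trans ?_
  rw [← ENNReal.ofReal_mul (by positivity),
    ← ENNReal.ofReal_add (by
      have : 0 < 1 - x := by linarith
      positivity) (by
      have : 0 < 1 - x := by linarith
      positivity), ← ENNReal.ofReal_one]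
  apply ENNReal.ofReal_le_ofReal
  have h3 : (1 - x)⁻¹ ≤ (1 / 2 ^ j / 2)⁻¹ := inv_anti₀ (by positivity) hgap
  have h4 : (1 / 2 ^ j / 2 : ℝ)⁻¹ = 2 * 2 ^ j := by field_simp
  have h5 : 1 / 4 * (1 / 2 ^ j) * (1 - x)⁻¹ ≤ 1 / 4 * (1 / 2 ^ j) * (2 * 2 ^ j) := by
    apply mul_le_mul_of_nonneg_left _ (by positivity)
    rw [← h4]; exact h3
  have h6 : 1 / 4 * (1 / 2 ^ j) * (2 * 2 ^ j : ℝ) = 1 / 2 := by
    field_simp; norm_num
  linarith

theorem tsum_pi_prod (f : ℤ → ℝ≥0∞) (n : ℕ) :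
    ∑' l : Fin n → ℤ, ∏ r, f (l r) = (∑' l, f l) ^ n := by
  induction n with
  | zero => simp
  | succ n ih =>
    rw [← (Fin.consEquiv (fun _ => ℤ)).tsum_eq, ENNReal.tsum_prod', pow_succ', ← ih,
      ← ENNReal.tsum_mul_right]
    apply tsum_congr
    intro a
    rw [← ENNReal.tsum_mul_left]
    apply tsum_congr
    intro l
    rw [Fin.prod_univ_succ]
    rfl

/-- weight of a pair of label vectors -/
noncomputable def gw (j : ℕ) {n m : ℕ} (l : (Fin n → ℤ) × (Fin m → ℤ)) : ℝ≥0∞ :=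
  (∏ r, q j (l.1 r)) * ∏ r, q j (l.2 r)

theorem tsum_gw_le (j n m : ℕ) : ∑' l : (Fin n → ℤ) × (Fin m → ℤ), gw j l ≤ 1 := by
  rw [ENNReal.tsum_prod']
  unfold gw
  simp only [ENNReal.tsum_mul_left, ENNReal.tsum_mul_right, tsum_pi_prod]
  calc (∑' l, q j l) ^ n * (∑' l, q j l) ^ m ≤ 1 ^ n * 1 ^ m := by
        gcongr <;> exact tsum_q_le j
    _ = 1 := by simp

section cells
variable {S ι : Type*} [MeasurableSpace S] [Countable ι] [MeasurableSpace ι]
  [MeasurableSingletonClass ι]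

theorem small_cells (π : Measure S) {lb : S → ι} (hlb : Measurable lb) (g : ι → ℝ≥0∞)
    (hg : ∑' i, g i ≤ 1) (κ : ℝ≥0∞) :
    π {s | π {s' | lb s' = lb s} < κ * g (lb s)} ≤ κ := by
  have mbad : MeasurableSet {s | π {s' | lb s' = lb s} < κ * g (lb s)} := by
    apply measurableSet_lt
    · exact meas_cellfun hlb (fun i => π {s' | lb s' = i})
    · exact meas_cellfun hlb (fun i => κ * g i)
  rw [← lintegral_indicator_one mbad, lintegral_fibers π hlb]
  calc ∑' i, ∫⁻ s in lb ⁻¹' {i}, {s | π {s' | lb s' = lb s} < κ * g (lb s)}.indicator 1 s ∂π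
      ≤ ∑' i, κ * g i := by
        apply ENNReal.tsum_le_tsum
        intro i
        by_cases h : π (lb ⁻¹' {i}) < κ * g i
        · calc ∫⁻ s in lb ⁻¹' {i}, {s | π {s' | lb s' = lb s} < κ * g (lb s)}.indicator 1 s ∂π
              ≤ ∫⁻ s in lb ⁻¹' {i}, 1 ∂π := by
                apply lintegral_mono
                intro s
                exact indicator_le_self' (fun _ _ => bot_le) s
            _ = π (lb ⁻¹' {i}) := by simp
            _ ≤ κ * g i := h.le
        · have : ∫⁻ s in lb ⁻¹' {i}, {s | π {s' | lb s' = lb s} < κ * g (lb s)}.indicator 1 s ∂π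
              = ∫⁻ s in lb ⁻¹' {i}, 0 ∂π := by
            apply setLIntegral_congr_fun (hlb (measurableSet_singleton i))
            intro s hs
            have hs' : lb s = i := hs
            apply indicator_of_notMem
            simp only [mem_setOf_eq, hs']
            exact h
          rw [this]; simp
    _ = κ * ∑' i, g i := ENNReal.tsum_mul_left
    _ ≤ κ * 1 := by gcongr
    _ = κ := mul_one _

end cells

end L11
end P309
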