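import Vale.Agent.H20.P309.L11c
import Vale.Agent.H20.P309.L1

/-!
# P309, L11 part d: probability estimates
-/

open MeasureTheory ProbabilityTheory Set
open scoped RealInnerProductSpace ENNReal

namespace P309
namespace L11

variable {d n m : ℕ}

theorem lab_abs_le (j : ℕ) (x s : E d) :
    |((lab j x s : ℤ) : ℝ)| / 2 ^ j ≤ |⟪x, s⟫| + 1 := by
  have hp : (0 : ℝ) < 2 ^ j := by positivity
  have hp1 : (1 : ℝ) ≤ 2 ^ j := one_le_pow₀ (by norm_num)
  rw [div_le_iff₀ hp]
  unfold lab
  have h1 := Int.floor_le ((2 : ℝ) ^ j * ⟪x, s⟫)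
  have h2 := Int.lt_floor_add_one ((2 : ℝ) ^ j * ⟪x, s⟫)
  have h3 : |(2 : ℝ) ^ j * ⟪x, s⟫| = 2 ^ j * |⟪x, s⟫| := by rw [abs_mul, abs_of_pos hp]
  have h4 := abs_le.1 (le_refl |(2 : ℝ) ^ j * ⟪x, s⟫|)
  rw [h3] at h4
  rw [abs_le]
  constructor <;> nlinarith

theorem lab_mean (j : ℕ) (s : E d) (hs : ‖s‖ = 1) :
    ∫⁻ x, ENNReal.ofReal (|((lab j x s : ℤ) : ℝ)| / 2 ^ j) ∂(stdGaussian (E d)) ≤ 2 := by
  calc ∫⁻ x, ENNReal.ofReal (|((lab j x s : ℤ) : ℝ)| / 2 ^ j) ∂(stdGaussian (E d))
      ≤ ∫⁻ x, (ENNReal.ofReal |⟪x, s⟫| + 1) ∂(stdGaussian (E d)) := by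
        apply lintegral_mono
        intro x
        calc ENNReal.ofReal (|((lab j x s : ℤ) : ℝ)| / 2 ^ j)
            ≤ ENNReal.ofReal (|⟪x, s⟫| + 1) := ENNReal.ofReal_le_ofReal (lab_abs_le j x s)
          _ = ENNReal.ofReal |⟪x, s⟫| + 1 := by
              rw [ENNReal.ofReal_add (abs_nonneg _) (by norm_num), ENNReal.ofReal_one]
    _ = (∫⁻ x, ENNReal.ofReal |⟪x, s⟫| ∂(stdGaussian (E d))) + 1 := by
        rw [lintegral_add_right _ measurable_const]; simp
    _ ≤ ENNReal.ofReal ‖s‖ + 1 := by gcongr; exact gauss_abs s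
    _ = 2 := by rw [hs, ENNReal.ofReal_one]; norm_num

theorem rows_eval (r : Fin n) {F : E d → ℝ≥0∞} (hF : Measurable F) :
    ∫⁻ X, F (X r) ∂(rows n d) = ∫⁻ x, F x ∂(stdGaussian (E d)) := by
  unfold rows
  exact (measurePreserving_eval (fun _ : Fin n => stdGaussian (E d)) r).lintegral_comp hF

/-- sum of the absolute values of the scaled labels -/
noncomputable def SL (j : ℕ) {n d : ℕ} (X : Fin n → E d) (s : E d) : ℝ :=
  ∑ r, |((labs j X s r : ℤ) : ℝ)| / 2 ^ j

theorem SL_nonneg (j : ℕ) (X : Fin n → E d) (s : E d) : 0 ≤ SL j X s := by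
  unfold SL; positivity

theorem meas_SL (j : ℕ) {Ω : Type*} [MeasurableSpace Ω] {f : Ω → Fin n → E d} {g : Ω → E d}
    (hf : Measurable f) (hg : Measurable g) : Measurable (fun ω => SL j (f ω) (g ω)) := by
  unfold SL
  apply Finset.measurable_sum
  intro r _
  apply Measurable.div_const
  have h1 : Measurable (fun ω => labs j (f ω) (g ω) r) :=
    (measurable_pi_apply r).comp (meas_labs j hf hg)
  have h2 : Measurable (fun k : ℤ => |(k : ℝ)|) := measurable_of_countable _
  exact h2.comp h1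

theorem SL_mean (j : ℕ) (s : E d) (hs : ‖s‖ = 1) :
    ∫⁻ X, ENNReal.ofReal (SL j X s) ∂(rows n d) ≤ 2 * n := by
  have h1 : ∀ X : Fin n → E d, ENNReal.ofReal (SL j X s)
      = ∑ r, ENNReal.ofReal (|((lab j (X r) s : ℤ) : ℝ)| / 2 ^ j) := by
    intro X
    unfold SL
    rw [ENNReal.ofReal_sum_of_nonneg (fun r _ => by positivity)]
    rfl
  have hm : Measurable (fun x : E d => ENNReal.ofReal (|((lab j x s : ℤ) : ℝ)| / 2 ^ j)) := by
    have h2 : Measurable (fun k : ℤ => ENNReal.ofReal (|(k : ℝ)| / 2 ^ j)) :=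
      measurable_of_countable _
    exact h2.comp (meas_lab j measurable_id measurable_const)
  simp only [h1]
  have hm' : ∀ r : Fin n, Measurable (fun X : Fin n → E d =>
      ENNReal.ofReal (|((lab j (X r) s : ℤ) : ℝ)| / 2 ^ j)) :=
    fun r => hm.comp (measurable_pi_apply r)
  rw [lintegral_finsetSum _ (fun r _ => hm' r)]
  calc ∑ r : Fin n, ∫⁻ X, ENNReal.ofReal (|((lab j (X r) s : ℤ) : ℝ)| / 2 ^ j) ∂(rows n d)
      ≤ ∑ r : Fin n, 2 := by
        apply Finset.sum_le_sum
        intro r _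
        rw [rows_eval r hm]
        exact lab_mean j s hs
    _ = 2 * n := by simp [mul_comm]

/-- lower bound for the weight from a bound on the sum of the labels -/
theorem gw_ge (j : ℕ) (X1 : Fin n → E d) (X2 : Fin m → E d) (s : E d)
    (h : SL j X1 s + SL j X2 s ≤ 24 * (n + m : ℕ)) :
    ENNReal.ofReal ((1 / 2 ^ j) ^ (n + m) * Real.exp (-(26 * (n + m : ℕ)))) ≤
      gw j (lb j X1 X2 s) := by
  have hq : ∀ {k : ℕ} (X : Fin k → E d), ∏ r, q j (labs j X s r)
      = ENNReal.ofReal ((1 / 4 * (1 / 2 ^ j)) ^ k * Real.exp (-(SL j X s))) := by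
    intro k X
    unfold q SL
    rw [← ENNReal.ofReal_prod_of_nonneg (fun r _ => by positivity), Finset.prod_mul_distrib,
      ← Real.exp_sum]
    simp
  unfold gw lb
  simp only
  rw [hq, hq, ← ENNReal.ofReal_mul (by positivity)]
  apply ENNReal.ofReal_le_ofReal
  have e1 : (1 / 4 * (1 / 2 ^ j) : ℝ) ^ n * Real.exp (-(SL j X1 s))
      * ((1 / 4 * (1 / 2 ^ j)) ^ m * Real.exp (-(SL j X2 s)))
      = (1 / 2 ^ j) ^ (n + m) * ((1 / 4) ^ (n + m) * Real.exp (-(SL j X1 s + SL j X2 s))) := by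
    rw [neg_add, Real.exp_add, mul_pow, mul_pow, pow_add, pow_add]; ring
  rw [e1]
  apply mul_le_mul_of_nonneg_left _ (by positivity)
  have h4 : Real.exp (-2) ≤ 1 / 4 := by
    rw [Real.exp_neg, ← one_div]
    apply one_div_le_one_div_of_le (by norm_num)
    have h := Real.exp_one_gt_d9
    have h2 : Real.exp 2 = Real.exp 1 * Real.exp 1 := by rw [← Real.exp_add]; norm_num
    rw [h2]
    nlinarith
  have h5 : Real.exp (-(26 * (n + m : ℕ))) = Real.exp (-2) ^ (n + m)
      * Real.exp (-(24 * (n + m : ℕ))) := by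
    rw [← Real.exp_nat_mul, ← Real.exp_add]
    congr 1
    push_cast; ring
  rw [h5]
  apply mul_le_mul
  · exact pow_le_pow_left₀ (Real.exp_pos _).le h4 _
  · apply Real.exp_le_exp.mpr; linarith
  · positivity
  · positivity

/-- Markov -/
theorem gw_prob (j : ℕ) (s : E d) (hs : ‖s‖ = 1) :
    II n m d (fun X1 X2 => {p : (Fin n → E d) × (Fin m → E d) |
      gw j (lb j p.1 p.2 s) < ENNReal.ofReal ((1 / 2 ^ j) ^ (n + m)
        * Real.exp (-(26 * (n + m : ℕ))))}.indicator 1 (X1, X2)) ≤ 12⁻¹ := by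
  by_cases hN : n + m = 0
  · -- no rows: the event is empty
    have : ∀ X1 : Fin n → E d, ∀ X2 : Fin m → E d, {p : (Fin n → E d) × (Fin m → E d) |
      gw j (lb j p.1 p.2 s) < ENNReal.ofReal ((1 / 2 ^ j) ^ (n + m)
        * Real.exp (-(26 * (n + m : ℕ))))}.indicator 1 (X1, X2) ≤ (0 : ℝ≥0∞) := by
      intro X1 X2
      rw [indicator_of_notMem]
      simp only [mem_setOf_eq, not_lt]
      apply gw_ge
      have hn : n = 0 := by omega
      have hm : m = 0 := by omega
      subst hn; subst hm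
      simp [SL]
    calc _ ≤ II n m d (fun _ _ => 0) := II_mono this
      _ = 0 := II_const 0
      _ ≤ 12⁻¹ := bot_le
  have hN' : (0 : ℝ) < (n + m : ℕ) := by
    have : 0 < n + m := Nat.pos_of_ne_zero hN
    exact_mod_cast this
  have hpt : ∀ X1 : Fin n → E d, ∀ X2 : Fin m → E d,
      {p : (Fin n → E d) × (Fin m → E d) |
      gw j (lb j p.1 p.2 s) < ENNReal.ofReal ((1 / 2 ^ j) ^ (n + m)
        * Real.exp (-(26 * (n + m : ℕ))))}.indicator 1 (X1, X2)
      ≤ ENNReal.ofReal (24 * (n + m : ℕ))⁻¹ *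
        (ENNReal.ofReal (SL j X1 s) + ENNReal.ofReal (SL j X2 s)) := by
    intro X1 X2
    by_cases h : SL j X1 s + SL j X2 s ≤ 24 * (n + m : ℕ)
    · rw [indicator_of_notMem]
      · exact bot_le
      · simp only [mem_setOf_eq, not_lt]
        exact gw_ge j X1 X2 s h
    · push Not at h
      rw [← ENNReal.ofReal_add (SL_nonneg j X1 s) (SL_nonneg j X2 s),
        ← ENNReal.ofReal_mul (by positivity)]
      refine le_trans (b := (1 : ℝ≥0∞)) ?_ ?_
      · rw [indicator_apply]
        split_ifs <;> simp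
      rw [← ENNReal.ofReal_one]
      apply ENNReal.ofReal_le_ofReal
      rw [inv_mul_eq_div, one_le_div (by positivity)]
      exact h.le
  refine (II_mono hpt).trans ?_
  have mS1 : Measurable (fun q : (Fin n → E d) × (Fin m → E d) => ENNReal.ofReal (SL j q.1 s)) :=
    (meas_SL j measurable_fst measurable_const).ennreal_ofReal
  have mS2 : Measurable (fun q : (Fin n → E d) × (Fin m → E d) => ENNReal.ofReal (SL j q.2 s)) :=
    (meas_SL j measurable_snd measurable_const).ennreal_ofReal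
  rw [II_const_mul _ (mS1.add mS2), II_add mS1]
  have h1 : II n m d (fun X1 _ => ENNReal.ofReal (SL j X1 s)) ≤ 2 * n := by
    unfold II
    simp only [lintegral_const, measure_univ, mul_one]
    exact SL_mean j s hs
  have h2 : II n m d (fun _ X2 => ENNReal.ofReal (SL j X2 s)) ≤ 2 * m := by
    unfold II
    simp only [lintegral_const, measure_univ, mul_one]
    exact SL_mean j s hs
  calc ENNReal.ofReal (24 * (n + m : ℕ))⁻¹ * (II n m d (fun X1 _ => ENNReal.ofReal (SL j X1 s))
        + II n m d (fun _ X2 => ENNReal.ofReal (SL j X2 s)))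
      ≤ ENNReal.ofReal (24 * (n + m : ℕ))⁻¹ * (2 * n + 2 * m) := by gcongr
    _ = ENNReal.ofReal (24 * (n + m : ℕ))⁻¹ * ENNReal.ofReal (2 * (n + m : ℕ)) := by
        congr 1
        rw [ENNReal.ofReal_mul (by norm_num), ENNReal.ofReal_natCast]
        push_cast
        rw [mul_add]; simp
    _ = 12⁻¹ := by
        rw [← ENNReal.ofReal_mul (by positivity)]
        have : (24 * ((n + m : ℕ) : ℝ))⁻¹ * (2 * ((n + m : ℕ) : ℝ)) = 12⁻¹ := by
          field_simp; norm_num
        rw [this, ENNReal.ofReal_inv_of_pos (by norm_num)]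
        simp

/-- points have mass zero -/
theorem point_null {π : Measure (E d)} (hπ : Prior d π) (hd : 2 ≤ d) (s : E d) : π {s} = 0 := by
  have := hπ.prob
  by_contra h
  have hpos : 0 < (π {s}).toReal := ENNReal.toReal_pos h (measure_ne_top _ _)
  set c : ℝ := (π {s}).toReal with hc
  set r : ℝ := min 1 (c / (2 * 16 ^ d)) with hr
  have hr0 : 0 < r := lt_min (by norm_num) (by positivity)
  have h1 : π {s} ≤ ENNReal.ofReal ((16 : ℝ) ^ d * r ^ (d - 1)) :=
    (measure_mono (singleton_subset_iff.2 (Metric.mem_closedBall_self hr0.le))).trans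
      (hπ.ball s r hr0)
  have h2 : (16 : ℝ) ^ d * r ^ (d - 1) ≤ c / 2 := by
    have h3 : r ^ (d - 1) ≤ r ^ 1 :=
      pow_le_pow_of_le_one hr0.le (min_le_left _ _) (by omega)
    calc (16 : ℝ) ^ d * r ^ (d - 1) ≤ 16 ^ d * r := by
          apply mul_le_mul_of_nonneg_left _ (by positivity)
          simpa using h3
      _ ≤ 16 ^ d * (c / (2 * 16 ^ d)) :=
          mul_le_mul_of_nonneg_left (min_le_right _ _) (by positivity)
      _ = c / 2 := by field_simp
  have h4 : c ≤ c / 2 := by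
    have := ENNReal.toReal_mono ENNReal.ofReal_ne_top
      (h1.trans (ENNReal.ofReal_le_ofReal h2))
    rwa [ENNReal.toReal_ofReal (by positivity)] at this
  linarith

/-- probability that two distinct signals have the same labels -/
theorem same_prob (j : ℕ) (s s' : E d) (h : s' ≠ s) :
    ∫⁻ X, same j X s s' ∂(rows n d) ≤ ENNReal.ofReal (((2 : ℝ) ^ j)⁻¹ / ‖s' - s‖) ^ n := by
  have hu : s' - s ≠ 0 := sub_ne_zero.2 h
  have mset : MeasurableSet {x : E d | |0 + ⟪x, s' - s⟫| ≤ ((2 : ℝ) ^ j)⁻¹} :=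
    measurableSet_le (by fun_prop) measurable_const
  have h1 : ∫⁻ X, same j X s s' ∂(rows n d)
      ≤ rows n d (Set.pi univ (fun _ : Fin n => {x : E d | |0 + ⟪x, s' - s⟫| ≤ ((2 : ℝ) ^ j)⁻¹})) := by
    rw [← lintegral_indicator_one (MeasurableSet.univ_pi (fun _ => mset))]
    apply lintegral_mono
    intro X
    show same j X s s' ≤ _
    unfold same
    split_ifs with hl
    · rw [indicator_of_mem]
      · simp
      · intro i _
        simp only [mem_setOf_eq, zero_add]
        exact same_abs hl i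
    · exact bot_le
  refine h1.trans ?_
  unfold rows
  rw [Measure.pi_pi]
  simp only [Finset.prod_const, Finset.card_univ, Fintype.card_fin]
  gcongr
  exact gauss_anti (s' - s) hu 0 _ (by positivity)

/-- dyadic bound, pointwise -/
theorem dyadic_pt (N : ℕ) (δ ρ t : ℝ) (hδ : 0 ≤ δ) (ht : 0 < t) (htρ : t ≤ ρ) :
    ENNReal.ofReal (δ / t) ^ N ≤ ∑' k : ℕ, (if t ≤ ρ / 2 ^ k then 1 else 0) *
      ENNReal.ofReal ((δ * 2 ^ (k + 1) / ρ) ^ N) := by
  have hρ : 0 < ρ := lt_of_lt_of_le ht htρ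
  obtain ⟨k, hk1, hk2⟩ := exists_nat_pow_near (x := ρ / t) (y := 2)
    ((one_le_div ht).2 htρ) (by norm_num)
  refine le_trans ?_ (ENNReal.le_tsum k)
  have h1 : t ≤ ρ / 2 ^ k := by
    rw [le_div_iff₀ ht] at hk1
    rw [le_div_iff₀ (by positivity)]
    linarith
  rw [if_pos h1, one_mul, ← ENNReal.ofReal_pow (by positivity)]
  apply ENNReal.ofReal_le_ofReal
  apply pow_le_pow_left₀ (by positivity)
  rw [div_lt_iff₀ ht] at hk2
  rw [div_le_div_iff₀ ht hρ]
  have := mul_le_mul_of_nonneg_left hk2.le hδ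
  linarith

/-- dyadic bound, integrated -/
theorem dyadic_int {π : Measure (E d)} (hπ : Prior d π) (N p : ℕ) (hp : 1 ≤ p)
    (hdN : d - 1 = N + p) (δ ρ : ℝ) (hδ : 0 ≤ δ) (hρ : 0 < ρ) (s : E d) :
    ∫⁻ s', (Metric.closedBall s ρ).indicator
        (fun s' => ENNReal.ofReal (δ / ‖s' - s‖) ^ N) s' ∂π
      ≤ ENNReal.ofReal (2 * 16 ^ d * (2 * δ) ^ N * ρ ^ p) := by
  have := hπ.prob
  have hd : 2 ≤ d := by omega
  have hae : ∀ᵐ s' ∂π, s' ≠ s := by
    rw [ae_iff]
    simp only [not_not, setOf_eq_eq_singleton]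
    exact point_null hπ hd s
  calc ∫⁻ s', (Metric.closedBall s ρ).indicator
        (fun s' => ENNReal.ofReal (δ / ‖s' - s‖) ^ N) s' ∂π
      ≤ ∫⁻ s', ∑' k : ℕ, (Metric.closedBall s (ρ / 2 ^ k)).indicator 1 s' *
          ENNReal.ofReal ((δ * 2 ^ (k + 1) / ρ) ^ N) ∂π := by
        apply lintegral_mono_ae
        filter_upwards [hae] with s' hs'
        by_cases hb : s' ∈ Metric.closedBall s ρ
        · rw [indicator_of_mem hb]
          have ht : 0 < ‖s' - s‖ := norm_pos_iff.2 (sub_ne_zero.2 hs')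
          have htρ : ‖s' - s‖ ≤ ρ := by rwa [Metric.mem_closedBall, dist_eq_norm] at hb
          refine (dyadic_pt N δ ρ ‖s' - s‖ hδ ht htρ).trans ?_
          apply ENNReal.tsum_le_tsum
          intro k
          gcongr
          split_ifs with h1
          · rw [indicator_of_mem]
            · simp
            · rw [Metric.mem_closedBall, dist_eq_norm]; exact h1
          · exact bot_le
        · rw [indicator_of_notMem hb]; exact bot_le
    _ = ∑' k : ℕ, π (Metric.closedBall s (ρ / 2 ^ k)) *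
          ENNReal.ofReal ((δ * 2 ^ (k + 1) / ρ) ^ N) := by
        rw [lintegral_tsum]
        · apply tsum_congr
          intro k
          rw [lintegral_mul_const _ (measurable_one.indicator Metric.isClosed_closedBall.measurableSet),
            lintegral_indicator_one Metric.isClosed_closedBall.measurableSet]
        · intro k
          exact ((measurable_one.indicator
            Metric.isClosed_closedBall.measurableSet).mul_const _).aemeasurable
    _ ≤ ∑' k : ℕ, ENNReal.ofReal (16 ^ d * (2 * δ) ^ N * ρ ^ p) * ENNReal.ofReal ((1 / 2) ^ k) := by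
        apply ENNReal.tsum_le_tsum
        intro k
        refine (mul_le_mul_left (hπ.ball s (ρ / 2 ^ k) (by positivity)) _).trans ?_
        rw [← ENNReal.ofReal_mul (by positivity), ← ENNReal.ofReal_mul (by positivity)]
        apply ENNReal.ofReal_le_ofReal
        rw [hdN]
        have e1 : (16 : ℝ) ^ d * (ρ / 2 ^ k) ^ (N + p) * (δ * 2 ^ (k + 1) / ρ) ^ N
            = 16 ^ d * (2 * δ) ^ N * ρ ^ p * ((1 / 2) ^ k) ^ p := by
          rw [pow_add (ρ / 2 ^ k) N p]
          have e2 : (ρ / 2 ^ k) ^ N * (δ * 2 ^ (k + 1) / ρ) ^ N = (2 * δ) ^ N := by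
            rw [← mul_pow]
            congr 1
            field_simp
            ring
          have e3 : (ρ / 2 ^ k) ^ p = ρ ^ p * ((1 / 2) ^ k) ^ p := by
            rw [← mul_pow]
            congr 1
            rw [one_div, inv_pow]
            rfl
          calc (16 : ℝ) ^ d * ((ρ / 2 ^ k) ^ N * (ρ / 2 ^ k) ^ p) * (δ * 2 ^ (k + 1) / ρ) ^ N
              = 16 ^ d * ((ρ / 2 ^ k) ^ N * (δ * 2 ^ (k + 1) / ρ) ^ N) * (ρ / 2 ^ k) ^ p := by ring
            _ = _ := by rw [e2, e3]; ring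
        rw [e1]
        apply mul_le_mul_of_nonneg_left _ (by positivity)
        calc (((1 : ℝ) / 2) ^ k) ^ p ≤ ((1 / 2) ^ k) ^ 1 :=
              pow_le_pow_of_le_one (by positivity) (pow_le_one₀ (by norm_num) (by norm_num)) hp
          _ = (1 / 2) ^ k := pow_one _
    _ = ENNReal.ofReal (2 * 16 ^ d * (2 * δ) ^ N * ρ ^ p) := by
        rw [ENNReal.tsum_mul_left, ← ENNReal.ofReal_tsum_of_nonneg (fun k => by positivity)
          summable_geometric_two, tsum_geometric_two, ← ENNReal.ofReal_mul (by positivity)]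
        congr 1
        ring

end L11
end P309
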