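import Vale.Agent.H20.P309.Base

/-!
P309, row L4, deterministic part of the slab bound.
-/

open MeasureTheory ProbabilityTheory Metric
open scoped RealInnerProductSpace ENNReal

namespace P309

namespace L4

/-- `∑ ⟪X i, g⟫²` -/
noncomputable def qf {n d : ℕ} (X : Fin n → E d) (g : E d) : ℝ := ∑ i, ⟪X i, g⟫ ^ 2

theorem qf_nonneg {n d : ℕ} (X : Fin n → E d) (g : E d) : 0 ≤ qf X g :=
  Finset.sum_nonneg fun _ _ => sq_nonneg _

theorem qf_add {n d : ℕ} (X : Fin n → E d) (g h : E d) :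
    qf X (g + h) ≤ 2 * qf X g + 2 * qf X h := by
  unfold qf
  rw [Finset.mul_sum, Finset.mul_sum, ← Finset.sum_add_distrib]
  apply Finset.sum_le_sum
  intro i _
  rw [inner_add_right]
  nlinarith [sq_nonneg (⟪X i, g⟫ - ⟪X i, h⟫)]

theorem qf_smul {n d : ℕ} (X : Fin n → E d) (r : ℝ) (g : E d) :
    qf X (r • g) = r ^ 2 * qf X g := by
  unfold qf
  rw [Finset.mul_sum]
  apply Finset.sum_congr rfl
  intro i _
  rw [inner_smul_right]
  ring

theorem qf_neg {n d : ℕ} (X : Fin n → E d) (g : E d) : qf X (-g) = qf X g := by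
  have := qf_smul X (-1) g
  simpa using this

theorem qf_le_of_abs {n d : ℕ} (X : Fin n → E d) (u : E d) (δ : ℝ)
    (hu : ∀ i, |⟪X i, u⟫| ≤ δ) : qf X u ≤ n * δ ^ 2 := by
  unfold qf
  calc ∑ i, ⟪X i, u⟫ ^ 2 ≤ ∑ _i : Fin n, δ ^ 2 := by
        apply Finset.sum_le_sum
        intro i _
        rw [← sq_abs]
        exact pow_le_pow_left₀ (abs_nonneg _) (hu i) 2
    _ = n * δ ^ 2 := by simp

/-- the integral over the annulus -/
noncomputable def In {n d k : ℕ} (m : ℕ) (ι : E k →ₗᵢ[ℝ] E d) (X : Fin n → E d) : ℝ≥0∞ :=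
  ∫⁻ h in {h : E k | 1 / 2 ≤ ‖h‖ ∧ ‖h‖ ≤ 2}, (ENNReal.ofReal (qf X (ι h)) ^ (2 * m))⁻¹

theorem In_lower {n d k : ℕ} (m : ℕ) (ι : E k →ₗᵢ[ℝ] E d) (X : Fin n → E d) (ν a : ℝ)
    (ha : 0 < a) (haν : a ≤ ν) (hν : ∀ v, qf X v ≤ ν ^ 2 * ‖v‖ ^ 2) (w : E k) (hw : ‖w‖ = 1)
    (hwa : qf X (ι w) ≤ a ^ 2) :
    ENNReal.ofReal ((a / (2 * ν)) ^ k / (2 * a) ^ (4 * m)) * volume (ball (0 : E k) 1)
      ≤ In m ι X := by
  have hν0 : 0 < ν := ha.trans_le haν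
  set ρ := a / (2 * ν) with hρ
  have hρ0 : 0 < ρ := by positivity
  have hρ1 : ρ ≤ 1 / 2 := by
    rw [hρ, div_le_div_iff₀ (by positivity) (by norm_num)]
    linarith
  have hsub : ball w ρ ⊆ {h : E k | 1 / 2 ≤ ‖h‖ ∧ ‖h‖ ≤ 2} := by
    intro h hh
    rw [mem_ball, dist_eq_norm] at hh
    have h1 := norm_sub_norm_le w h
    have h2 := norm_sub_norm_le h w
    rw [norm_sub_rev] at h1
    constructor <;> linarith
  have hpt : ∀ h ∈ ball w ρ, ENNReal.ofReal (((2 * a) ^ (4 * m))⁻¹)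
      ≤ (ENNReal.ofReal (qf X (ι h)) ^ (2 * m))⁻¹ := by
    intro h hh
    rw [mem_ball, dist_eq_norm] at hh
    have h1 : qf X (ι h) ≤ (2 * a) ^ 2 := by
      have h2 : ι h = ι w + ι (h - w) := by rw [← map_add]; simp
      rw [h2]
      refine (qf_add X _ _).trans ?_
      have h3 := hν (ι (h - w))
      rw [ι.norm_map] at h3
      have h4 : ‖h - w‖ ^ 2 ≤ ρ ^ 2 := pow_le_pow_left₀ (norm_nonneg _) hh.le 2
      have h5 : ν ^ 2 * ‖h - w‖ ^ 2 ≤ ν ^ 2 * ρ ^ 2 := by gcongr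
      have h6 : ν ^ 2 * ρ ^ 2 = a ^ 2 / 4 := by
        rw [hρ]; field_simp; norm_num
      nlinarith
    rw [ENNReal.ofReal_inv_of_pos (by positivity)]
    apply ENNReal.inv_le_inv.2
    rw [← ENNReal.ofReal_pow (qf_nonneg _ _)]
    apply ENNReal.ofReal_le_ofReal
    calc qf X (ι h) ^ (2 * m) ≤ ((2 * a) ^ 2) ^ (2 * m) :=
          pow_le_pow_left₀ (qf_nonneg _ _) h1 _
      _ = (2 * a) ^ (4 * m) := by rw [← pow_mul]; ring_nf
  calc ENNReal.ofReal (ρ ^ k / (2 * a) ^ (4 * m)) * volume (ball (0 : E k) 1)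
      = ENNReal.ofReal (((2 * a) ^ (4 * m))⁻¹) * volume (ball w ρ) := by
        rw [Measure.addHaar_ball_of_pos volume w hρ0]
        rw [finrank_euclideanSpace, Fintype.card_fin, div_eq_mul_inv,
          ENNReal.ofReal_mul (by positivity)]
        ring
    _ = ∫⁻ h in ball w ρ, ENNReal.ofReal (((2 * a) ^ (4 * m))⁻¹) := by
        rw [setLIntegral_const]
    _ ≤ ∫⁻ h in ball w ρ, (ENNReal.ofReal (qf X (ι h)) ^ (2 * m))⁻¹ :=
        setLIntegral_mono' measurableSet_ball hpt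
    _ ≤ In m ι X := lintegral_mono_set hsub

/-- real form of the bound on `(ν / a)`. -/
theorem ratio_bound {k m : ℕ} (hk : k < m) (ν a Y0 : ℝ) (ha : 0 < a) (haν : a ≤ ν)
    (h : (a / (2 * ν)) ^ k / (2 * a) ^ (4 * m) ≤ Y0) :
    ((ν / a) ^ m) ^ 2 ≤ 32 ^ m * (ν ^ (4 * m) * Y0) := by
  have hν0 : 0 < ν := ha.trans_le haν
  set x := ν / a with hx
  have hx1 : 1 ≤ x := by rw [hx, le_div_iff₀ ha]; linarith
  have hx0 : 0 < x := by linarith
  have ha' : a = ν / x := by rw [hx]; field_simp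
  have h1 : (a / (2 * ν)) ^ k = ((2 * x) ^ k)⁻¹ := by
    rw [ha', ← inv_pow]
    congr 1
    field_simp
  have h2 : (2 * a) ^ (4 * m) = 16 ^ m * ν ^ (4 * m) / x ^ (4 * m) := by
    rw [ha']
    have : 2 * (ν / x) = 2 * ν / x := by ring
    rw [this, div_pow, mul_pow, pow_mul 2 4 m]
    norm_num
  have h2' : 0 < (2 * a) ^ (4 * m) := by positivity
  rw [div_le_iff₀ h2', h1, h2] at h
  have h3 : x ^ (4 * m) ≤ 16 ^ m * (2 * x) ^ k * (ν ^ (4 * m) * Y0) := by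
    have h4 : ((2 * x) ^ k)⁻¹ * (x ^ (4 * m) * (2 * x) ^ k) ≤
        Y0 * (16 ^ m * ν ^ (4 * m) / x ^ (4 * m)) * (x ^ (4 * m) * (2 * x) ^ k) := by
      gcongr
    have h5 : ((2 * x) ^ k)⁻¹ * (x ^ (4 * m) * (2 * x) ^ k) = x ^ (4 * m) := by
      field_simp
    have h6 : Y0 * (16 ^ m * ν ^ (4 * m) / x ^ (4 * m)) * (x ^ (4 * m) * (2 * x) ^ k)
        = 16 ^ m * (2 * x) ^ k * (ν ^ (4 * m) * Y0) := by
      field_simp
    rw [h5, h6] at h4
    exact h4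
  have hY : 0 ≤ ν ^ (4 * m) * Y0 := by
    by_contra hneg
    push Not at hneg
    have h7 : 16 ^ m * (2 * x) ^ k * (ν ^ (4 * m) * Y0) < 0 :=
      mul_neg_of_pos_of_neg (by positivity) hneg
    have h8 : 0 < x ^ (4 * m) := by positivity
    linarith
  have h7 : (2 * x) ^ k ≤ 2 ^ m * x ^ m := by
    rw [← mul_pow]
    exact pow_le_pow_right₀ (by linarith) hk.le
  have h8 : x ^ (4 * m) ≤ 32 ^ m * (ν ^ (4 * m) * Y0) * x ^ m := by
    calc x ^ (4 * m) ≤ 16 ^ m * (2 * x) ^ k * (ν ^ (4 * m) * Y0) := h3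
      _ ≤ 16 ^ m * (2 ^ m * x ^ m) * (ν ^ (4 * m) * Y0) := by gcongr
      _ = 32 ^ m * (ν ^ (4 * m) * Y0) * x ^ m := by
          have : (32 : ℝ) ^ m = 16 ^ m * 2 ^ m := by rw [← mul_pow]; norm_num
          rw [this]; ring
  have h9 : x ^ (4 * m) = x ^ (3 * m) * x ^ m := by rw [← pow_add]; ring_nf
  rw [h9] at h8
  have h10 : x ^ (3 * m) ≤ 32 ^ m * (ν ^ (4 * m) * Y0) := le_of_mul_le_mul_right h8 (by positivity)
  calc (x ^ m) ^ 2 = x ^ (2 * m) := by rw [← pow_mul]; ring_nf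
    _ ≤ x ^ (3 * m) := pow_le_pow_right₀ hx1 (by omega)
    _ ≤ _ := h10

/-- the main geometric bound -/
theorem geom_bound {n d k : ℕ} (ι : E k →ₗᵢ[ℝ] E d) (V : Submodule ℝ (E d))
    (hV : ∀ w ∈ V, ∃ w₀, ι w₀ = w) (X : Fin n → E d) (ν δ : ℝ) (hδ : 0 < δ) (hν0 : 0 < ν)
    (hνn : (n : ℝ) ≤ ν ^ 2) (hν : ∀ v, qf X v ≤ ν ^ 2 * ‖v‖ ^ 2)
    (a₀ : ℝ) (ha₀ : 0 < a₀) (ha₀ν : a₀ ≤ ν)
    (hlow : ∀ w : E k, ‖w‖ = 1 → a₀ ^ 2 ≤ qf X (ι w)) (u : E d)
    (hu : ∀ i, |⟪X i, u⟫| ≤ δ) :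
    ENNReal.ofReal (‖u‖ / δ + 1) *
        min 1 (ENNReal.ofReal δ / ENNReal.ofReal (Metric.infDist u V)) ≤
      ENNReal.ofReal (5 * (ν / a₀)) := by
  obtain ⟨w, hwV, hwd⟩ := (Submodule.closed_of_finiteDimensional V).exists_infDist_eq_dist
    ⟨0, V.zero_mem⟩ u
  set t := Metric.infDist u V with ht
  have ht0 : 0 ≤ t := infDist_nonneg
  obtain ⟨w₀, rfl⟩ := hV w hwV
  have hratio : 1 ≤ ν / a₀ := by rw [le_div_iff₀ ha₀]; linarith
  -- bound on the norm of w₀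
  have hw0 : ‖w₀‖ ≤ 3 / 2 * (ν / a₀) * (δ + t) := by
    by_cases hz : w₀ = 0
    · rw [hz, norm_zero]; positivity
    have hn : 0 < ‖w₀‖ := norm_pos_iff.2 hz
    have h1 := hlow ((‖w₀‖)⁻¹ • w₀) (by rw [norm_smul, norm_inv, norm_norm, inv_mul_cancel₀ hn.ne'])
    rw [map_smul, qf_smul] at h1
    have h2 : a₀ ^ 2 * ‖w₀‖ ^ 2 ≤ qf X (ι w₀) := by
      have := mul_le_mul_of_nonneg_right h1 (sq_nonneg ‖w₀‖)
      have e : (‖w₀‖⁻¹) ^ 2 * qf X (ι w₀) * ‖w₀‖ ^ 2 = qf X (ι w₀) := by field_simp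
      rwa [e] at this
    have h3 : qf X (ι w₀) ≤ 2 * (ν ^ 2 * δ ^ 2) + 2 * (ν ^ 2 * t ^ 2) := by
      have e : ι w₀ = u + (-(u - ι w₀)) := by abel
      rw [e]
      refine (qf_add X _ _).trans ?_
      rw [qf_neg]
      have h4 := qf_le_of_abs X u δ hu
      have h5 := hν (u - ι w₀)
      rw [← dist_eq_norm, ← hwd] at h5
      have h6 : (n : ℝ) * δ ^ 2 ≤ ν ^ 2 * δ ^ 2 := by gcongr
      linarith
    have h4 : (a₀ * ‖w₀‖) ^ 2 ≤ (3 / 2 * ν * (δ + t)) ^ 2 := by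
      have : (3 / 2 * ν * (δ + t)) ^ 2 = 9 / 4 * ν ^ 2 * (δ ^ 2 + t ^ 2 + 2 * (δ * t)) := by ring
      rw [this, mul_pow]
      have h7 : 0 ≤ ν ^ 2 * (δ * t) := by positivity
      have h8 : 0 ≤ ν ^ 2 * δ ^ 2 := by positivity
      have h9 : 0 ≤ ν ^ 2 * t ^ 2 := by positivity
      nlinarith
    have h5 : a₀ * ‖w₀‖ ≤ 3 / 2 * ν * (δ + t) := abs_le_of_sq_le_sq' h4 (by positivity) |>.2
    calc ‖w₀‖ = (a₀ * ‖w₀‖) / a₀ := by field_simp
      _ ≤ (3 / 2 * ν * (δ + t)) / a₀ := by gcongr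
      _ = _ := by ring
  have hu2 : ‖u‖ ≤ ‖w₀‖ + t := by
    have h1 : u = ι w₀ + (u - ι w₀) := by abel
    calc ‖u‖ = ‖ι w₀ + (u - ι w₀)‖ := by rw [← h1]
      _ ≤ ‖ι w₀‖ + ‖u - ι w₀‖ := norm_add_le _ _
      _ = ‖w₀‖ + t := by rw [ι.norm_map, ← dist_eq_norm, ← hwd]
  have hu3 : ‖u‖ / δ + 1 ≤ 5 / 2 * (ν / a₀) * ((δ + t) / δ) := by
    have h1 : ‖u‖ + δ ≤ 5 / 2 * (ν / a₀) * (δ + t) := by
      have : 1 * (δ + t) ≤ (ν / a₀) * (δ + t) := by gcongr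
      nlinarith
    calc ‖u‖ / δ + 1 = (‖u‖ + δ) / δ := by field_simp
      _ ≤ (5 / 2 * (ν / a₀) * (δ + t)) / δ := by gcongr
      _ = _ := by ring
  by_cases htδ : t ≤ δ
  · calc ENNReal.ofReal (‖u‖ / δ + 1) * min 1 (ENNReal.ofReal δ / ENNReal.ofReal t)
        ≤ ENNReal.ofReal (‖u‖ / δ + 1) * 1 := by gcongr; exact min_le_left _ _
      _ = ENNReal.ofReal (‖u‖ / δ + 1) := mul_one _
      _ ≤ ENNReal.ofReal (5 * (ν / a₀)) := by
          apply ENNReal.ofReal_le_ofReal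
          refine hu3.trans ?_
          have : (δ + t) / δ ≤ 2 := by rw [div_le_iff₀ hδ]; linarith
          calc 5 / 2 * (ν / a₀) * ((δ + t) / δ) ≤ 5 / 2 * (ν / a₀) * 2 := by gcongr
            _ = _ := by ring
  · push Not at htδ
    have htp : 0 < t := hδ.trans htδ
    calc ENNReal.ofReal (‖u‖ / δ + 1) * min 1 (ENNReal.ofReal δ / ENNReal.ofReal t)
        ≤ ENNReal.ofReal (‖u‖ / δ + 1) * (ENNReal.ofReal δ / ENNReal.ofReal t) := by
          gcongr; exact min_le_right _ _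
      _ = ENNReal.ofReal ((‖u‖ / δ + 1) * (δ / t)) := by
          rw [← ENNReal.ofReal_div_of_pos htp, ← ENNReal.ofReal_mul (by positivity)]
      _ ≤ ENNReal.ofReal (5 * (ν / a₀)) := by
          apply ENNReal.ofReal_le_ofReal
          have h1 : (‖u‖ / δ + 1) * (δ / t) ≤ 5 / 2 * (ν / a₀) * ((δ + t) / δ) * (δ / t) := by
            gcongr
          refine h1.trans ?_
          have h2 : 5 / 2 * (ν / a₀) * ((δ + t) / δ) * (δ / t) = 5 / 2 * (ν / a₀) * ((δ + t) / t) := by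
            field_simp
          rw [h2]
          have : (δ + t) / t ≤ 2 := by rw [div_le_iff₀ htp]; linarith
          calc 5 / 2 * (ν / a₀) * ((δ + t) / t) ≤ 5 / 2 * (ν / a₀) * 2 := by gcongr
            _ = _ := by ring

/-- deterministic slab bound. -/
theorem slab_det {n d k m : ℕ} (hm : 1 ≤ m) (hk : k < m) (hn : 1 ≤ n) (ι : E k →ₗᵢ[ℝ] E d)
    (V : Submodule ℝ (E d)) (hV : ∀ w ∈ V, ∃ w₀, ι w₀ = w) (X : Fin n → E d) (W : ℝ≥0∞)
    (hWn : (n : ℝ≥0∞) ^ (2 * m) ≤ W)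
    (hW : ∀ v, ENNReal.ofReal (qf X v) ^ (2 * m) ≤ W * ENNReal.ofReal (‖v‖ ^ (4 * m)))
    (M : ℝ) (hM : 0 < M) (δ : ℝ) (hδ : 0 < δ) (u : E d) (hu : ∀ i, |⟪X i, u⟫| ≤ δ) :
    (ENNReal.ofReal (‖u‖ / δ + 1) *
        min 1 (ENNReal.ofReal δ / ENNReal.ofReal (Metric.infDist u V))) ^ m ≤
      ENNReal.ofReal (160 ^ m) * (1 + W / ENNReal.ofReal M
        + ENNReal.ofReal M * (In m ι X / volume (ball (0 : E k) 1))) := by
  have hvol0 : volume (ball (0 : E k) 1) ≠ 0 := (measure_ball_pos volume _ one_pos).ne'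
  have hvolt : volume (ball (0 : E k) 1) ≠ ⊤ := measure_ball_lt_top.ne
  have h160 : ENNReal.ofReal ((160 : ℝ) ^ m) ≠ 0 := by
    rw [Ne, ENNReal.ofReal_eq_zero, not_le]; positivity
  have hM0 : ENNReal.ofReal M ≠ 0 := by rw [Ne, ENNReal.ofReal_eq_zero, not_le]; exact hM
  by_cases hWt : W = ⊤
  · rw [hWt, ENNReal.top_div_of_ne_top ENNReal.ofReal_ne_top, add_top, top_add,
      ENNReal.mul_top h160]
    exact le_top
  by_cases hIt : In m ι X = ⊤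
  · rw [hIt, ENNReal.top_div_of_ne_top hvolt, ENNReal.mul_top hM0, add_top,
      ENNReal.mul_top h160]
    exact le_top
  -- real quantities
  have hW0 : 1 ≤ W.toReal := by
    have h1 : (1 : ℝ≥0∞) ≤ W := by
      refine le_trans ?_ hWn
      exact one_le_pow₀ (by exact_mod_cast hn)
    have := ENNReal.toReal_mono hWt h1
    simpa using this
  set ν : ℝ := W.toReal ^ ((1 : ℝ) / ((4 * m : ℕ) : ℝ)) with hν
  have h4m : ((4 * m : ℕ) : ℝ) ≠ 0 := by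
    have : 0 < 4 * m := by omega
    exact_mod_cast this.ne'
  have hν0 : 0 < ν := Real.rpow_pos_of_pos (by linarith) _
  have hν4 : ν ^ (4 * m) = W.toReal := by
    rw [hν, ← Real.rpow_natCast, ← Real.rpow_mul (by linarith), one_div, inv_mul_cancel₀ h4m,
      Real.rpow_one]
  have hWν : W = ENNReal.ofReal (ν ^ (4 * m)) := by rw [hν4, ENNReal.ofReal_toReal hWt]
  have h2m : 2 * m ≠ 0 := by omega
  have hsq4 : ν ^ (4 * m) = (ν ^ 2) ^ (2 * m) := by rw [← pow_mul]; ring_nf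
  have hνn : (n : ℝ) ≤ ν ^ 2 := by
    have h1 : ((n : ℝ)) ^ (2 * m) ≤ (ν ^ 2) ^ (2 * m) := by
      rw [← hsq4, hν4]
      have := ENNReal.toReal_mono hWt hWn
      simpa using this
    exact (pow_le_pow_iff_left₀ (Nat.cast_nonneg n) (by positivity) h2m).1 h1
  have hνv : ∀ v, qf X v ≤ ν ^ 2 * ‖v‖ ^ 2 := by
    intro v
    have h1 := hW v
    rw [hWν, ← ENNReal.ofReal_mul (by positivity), ← ENNReal.ofReal_pow (qf_nonneg _ _),
      ENNReal.ofReal_le_ofReal_iff (by positivity)] at h1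
    have h2 : ν ^ (4 * m) * ‖v‖ ^ (4 * m) = (ν ^ 2 * ‖v‖ ^ 2) ^ (2 * m) := by
      rw [← mul_pow, ← mul_pow, ← pow_mul]; ring_nf
    rw [h2] at h1
    exact (pow_le_pow_iff_left₀ (qf_nonneg _ _) (by positivity) h2m).1 h1
  set Y0 : ℝ := (In m ι X / volume (ball (0 : E k) 1)).toReal with hY0
  have hYt : In m ι X / volume (ball (0 : E k) 1) ≠ ⊤ := ENNReal.div_ne_top hIt hvol0
  have hYe : In m ι X / volume (ball (0 : E k) 1) = ENNReal.ofReal Y0 := by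
    rw [hY0, ENNReal.ofReal_toReal hYt]
  have hY00 : 0 ≤ Y0 := ENNReal.toReal_nonneg
  set B : ℝ := 32 ^ m * (ν ^ (4 * m) * Y0) with hB
  have hB0 : 0 ≤ B := by positivity
  have hkey : ∀ (a : ℝ), 0 < a → a ≤ ν → ∀ w : E k, ‖w‖ = 1 → qf X (ι w) ≤ a ^ 2 →
      ((ν / a) ^ m) ^ 2 ≤ B := by
    intro a ha haν w hw hwa
    apply ratio_bound hk ν a Y0 ha haν
    have h1 := In_lower m ι X ν a ha haν hνv w hw hwa
    have h2 : ENNReal.ofReal ((a / (2 * ν)) ^ k / (2 * a) ^ (4 * m)) ≤ ENNReal.ofReal Y0 := by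
      rw [← hYe]
      exact (ENNReal.le_div_iff_mul_le (Or.inl hvol0) (Or.inl hvolt)).2 h1
    rwa [ENNReal.ofReal_le_ofReal_iff hY00] at h2
  set b : ℝ := B ^ ((1 : ℝ) / ((2 * m : ℕ) : ℝ)) with hb
  have hb0 : 0 ≤ b := Real.rpow_nonneg hB0 _
  have h2mr : ((2 * m : ℕ) : ℝ) ≠ 0 := by exact_mod_cast h2m
  have hbB : b ^ (2 * m) = B := by
    rw [hb, ← Real.rpow_natCast, ← Real.rpow_mul hB0, one_div, inv_mul_cancel₀ h2mr,
      Real.rpow_one]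
  set z : ℝ := max 1 b with hz
  have hz1 : 1 ≤ z := le_max_left _ _
  have hzb : b ≤ z := le_max_right _ _
  have hz0 : 0 < z := by linarith
  set a₀ := ν / z with ha₀
  have ha₀0 : 0 < a₀ := by positivity
  have ha₀ν : a₀ ≤ ν := by rw [ha₀, div_le_iff₀ hz0]; nlinarith
  have hνa : ν / a₀ = z := by rw [ha₀]; field_simp
  have hlow : ∀ w : E k, ‖w‖ = 1 → a₀ ^ 2 ≤ qf X (ι w) := by
    intro w hw
    by_contra hneg
    push Not at hneg
    set a := max (√(qf X (ι w))) (a₀ / 2) with ha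
    have ha0 : 0 < a := lt_max_of_lt_right (by positivity)
    have haa : a < a₀ := by
      apply max_lt _ (by linarith)
      rw [Real.sqrt_lt' ha₀0]
      exact hneg
    have haν : a ≤ ν := haa.le.trans ha₀ν
    have hqa : qf X (ι w) ≤ a ^ 2 := by
      have h1 : √(qf X (ι w)) ≤ a := le_max_left _ _
      calc qf X (ι w) = √(qf X (ι w)) ^ 2 := (Real.sq_sqrt (qf_nonneg _ _)).symm
        _ ≤ a ^ 2 := pow_le_pow_left₀ (Real.sqrt_nonneg _) h1 2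
    have h1 := hkey a ha0 haν w hw hqa
    have h2 : z < ν / a := by
      rw [lt_div_iff₀ ha0]
      calc z * a < z * a₀ := by gcongr
        _ = ν := by rw [ha₀]; field_simp
    have h3 : b ^ (2 * m) < ((ν / a) ^ m) ^ 2 := by
      calc b ^ (2 * m) ≤ z ^ (2 * m) := pow_le_pow_left₀ hb0 hzb _
        _ < (ν / a) ^ (2 * m) := pow_lt_pow_left₀ h2 hz0.le h2m
        _ = ((ν / a) ^ m) ^ 2 := by rw [← pow_mul]; ring_nf
    rw [hbB] at h3
    linarith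
  have hg := geom_bound ι V hV X ν δ hδ hν0 hνn hνv a₀ ha₀0 ha₀ν hlow u hu
  rw [hνa] at hg
  refine (pow_le_pow_left₀ (zero_le) hg m).trans ?_
  rw [← ENNReal.ofReal_pow (by positivity), hWν, hYe]
  rw [← ENNReal.ofReal_div_of_pos hM, ← ENNReal.ofReal_mul hM.le]
  have e1 : (1 : ℝ≥0∞) = ENNReal.ofReal 1 := by simp
  rw [e1, ← ENNReal.ofReal_add (by norm_num) (by positivity),
    ← ENNReal.ofReal_add (by positivity) (by positivity), ← ENNReal.ofReal_mul (by positivity)]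
  apply ENNReal.ofReal_le_ofReal
  set A1 := ν ^ (4 * m) / M with hA1
  set A2 := M * Y0 with hA2
  have hA10 : 0 ≤ A1 := by positivity
  have hA20 : 0 ≤ A2 := by positivity
  have hBA : B = 32 ^ m * (A1 * A2) := by
    rw [hB, hA1, hA2]; field_simp
  have h32 : (1 : ℝ) ≤ 32 ^ m := one_le_pow₀ (by norm_num)
  have hbm : b ^ m ≤ 32 ^ m * (A1 + A2) := by
    have h1 : (b ^ m) ^ 2 ≤ (32 ^ m * (A1 + A2)) ^ 2 := by
      calc (b ^ m) ^ 2 = b ^ (2 * m) := by rw [← pow_mul]; ring_nf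
        _ = 32 ^ m * (A1 * A2) := by rw [hbB, hBA]
        _ ≤ 32 ^ m * (32 ^ m * (A1 + A2) ^ 2) := by
            have h2 : A1 * A2 ≤ (A1 + A2) ^ 2 := by nlinarith
            have h3 : 0 ≤ (A1 + A2) ^ 2 := sq_nonneg _
            have h4 : A1 * A2 ≤ 32 ^ m * (A1 + A2) ^ 2 := by nlinarith
            exact mul_le_mul_of_nonneg_left h4 (by positivity)
        _ = (32 ^ m * (A1 + A2)) ^ 2 := by ring
    exact (abs_le_of_sq_le_sq' h1 (by positivity)).2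
  have hzm : z ^ m ≤ 1 + b ^ m := by
    rcases le_total 1 b with h | h
    · rw [hz, max_eq_right h]; linarith
    · rw [hz, max_eq_left h, one_pow]
      have : 0 ≤ b ^ m := by positivity
      linarith
  calc (5 * z) ^ m = 5 ^ m * z ^ m := mul_pow _ _ _
    _ ≤ 5 ^ m * (1 + 32 ^ m * (A1 + A2)) := by
        gcongr
        linarith
    _ ≤ 5 ^ m * (32 ^ m * (1 + A1 + A2)) := by
        gcongr
        nlinarith
    _ = 160 ^ m * (1 + A1 + A2) := by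
        rw [← mul_assoc, ← mul_pow]; norm_num

end L4

end P309
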