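import Vale.Agent.H20.P309.L4a

/-!
P309, row L4, Gaussian moments.
-/

open MeasureTheory ProbabilityTheory Metric
open scoped RealInnerProductSpace ENNReal NNReal

namespace P309

namespace L4

/-! ### product formula -/

theorem lintegral_pi_prod {α : Type*} [MeasurableSpace α] {n : ℕ} (μ : Measure α)
    [IsProbabilityMeasure μ] (f : α → ℝ≥0∞) (hf : Measurable f) :
    ∫⁻ X, ∏ i, f (X i) ∂(Measure.pi (fun _ : Fin n => μ)) = (∫⁻ x, f x ∂μ) ^ n := by
  have h1 : iIndepFun (fun (i : Fin n) (X : Fin n → α) => f (X i))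
      (Measure.pi (fun _ : Fin n => μ)) :=
    iIndepFun_pi (X := fun _ => f) (fun _ => hf.aemeasurable)
  rw [lintegral_prod_eq_prod_lintegral_of_indepFun Finset.univ _ h1
    (fun i => hf.comp (measurable_pi_apply i))]
  have h2 : ∀ i : Fin n, ∫⁻ X, f (X i) ∂(Measure.pi (fun _ : Fin n => μ)) = ∫⁻ x, f x ∂μ := by
    intro i
    exact (measurePreserving_eval (fun _ : Fin n => μ) i).lintegral_comp hf
  rw [Finset.prod_congr rfl (fun i _ => h2 i)]
  simp

/-! ### the law of `⟪x, u⟫` -/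

theorem map_inner_std {d : ℕ} (u : E d) :
    (stdGaussian (E d)).map (fun x => ⟪x, u⟫) = gaussianReal 0 (‖u‖ ^ 2).toNNReal := by
  have h1 := IsGaussian.map_eq_gaussianReal (μ := stdGaussian (E d)) (innerSL ℝ u)
  rw [integral_strongDual_stdGaussian, variance_dual_stdGaussian, innerSL_apply_norm] at h1
  rw [← h1]
  congr 1
  funext x
  exact (real_inner_comm _ _)

theorem lintegral_inner {d : ℕ} (u : E d) (hu : ‖u‖ = 1) (f : ℝ → ℝ≥0∞) (hf : Measurable f) :
    ∫⁻ x, f ⟪x, u⟫ ∂(stdGaussian (E d)) = ∫⁻ z, f z ∂(gaussianReal 0 1) := by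
  have h1 := map_inner_std u
  rw [hu] at h1
  have h2 : ((1 : ℝ) ^ 2).toNNReal = 1 := by simp
  rw [h2] at h1
  rw [← h1, lintegral_map hf (by fun_prop)]

/-! ### exponential moments -/

theorem exp_moment : ∫⁻ z, ENNReal.ofReal (Real.exp (z ^ 2 / 4)) ∂(gaussianReal 0 1) ≤ 2 := by
  rw [gaussianReal_of_var_ne_zero _ one_ne_zero]
  rw [lintegral_withDensity_eq_lintegral_mul _ (measurable_gaussianPDF 0 1) (by fun_prop)]
  have h1 : ∀ z : ℝ, (gaussianPDF 0 1 * fun z => ENNReal.ofReal (Real.exp (z ^ 2 / 4))) z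
      = ENNReal.ofReal ((√(2 * Real.pi))⁻¹ * Real.exp (-(1 / 4) * z ^ 2)) := by
    intro z
    simp only [Pi.mul_apply, gaussianPDF, gaussianPDFReal, NNReal.coe_one, mul_one, sub_zero]
    rw [← ENNReal.ofReal_mul (by positivity), mul_assoc, ← Real.exp_add]
    congr 3
    ring
  simp_rw [h1]
  have hint : Integrable (fun z : ℝ => (√(2 * Real.pi))⁻¹ * Real.exp (-(1 / 4) * z ^ 2)) :=
    (integrable_exp_neg_mul_sq (by norm_num)).const_mul _
  rw [← ofReal_integral_eq_lintegral_ofReal hint (Filter.Eventually.of_forall fun z => by positivity),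
    integral_const_mul, integral_gaussian]
  have h2 : (√(2 * Real.pi))⁻¹ * √(Real.pi / (1 / 4)) = √2 := by
    rw [← Real.sqrt_inv, ← Real.sqrt_mul (by positivity)]
    congr 1
    have := Real.pi_pos
    field_simp
    norm_num
  rw [h2]
  have h3 : √2 ≤ 2 := by
    rw [Real.sqrt_le_left (by norm_num)]
    norm_num
  calc ENNReal.ofReal √2 ≤ ENNReal.ofReal 2 := ENNReal.ofReal_le_ofReal h3
    _ = 2 := by simp

theorem pow_le_exp (s : ℝ) (hs : 0 ≤ s) (p : ℕ) :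
    s ^ p ≤ (4 * p) ^ p * Real.exp (s / 4) := by
  have h1 := Real.pow_div_factorial_le_exp (s / 4) (by positivity) p
  have h2 : (p.factorial : ℝ) ≤ (p : ℝ) ^ p := by exact_mod_cast Nat.factorial_le_pow p
  have h3 : (0 : ℝ) < p.factorial := by exact_mod_cast Nat.factorial_pos p
  rw [div_le_iff₀ h3] at h1
  calc s ^ p = 4 ^ p * (s / 4) ^ p := by rw [← mul_pow]; congr 1; ring
    _ ≤ 4 ^ p * (Real.exp (s / 4) * p.factorial) := by gcongr
    _ ≤ 4 ^ p * (Real.exp (s / 4) * (p : ℝ) ^ p) := by gcongr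
    _ = _ := by rw [mul_pow]; ring

theorem exp_qf {n d : ℕ} (X : Fin n → E d) (g : E d) :
    ENNReal.ofReal (Real.exp (qf X g / 4)) = ∏ i, ENNReal.ofReal (Real.exp (⟪X i, g⟫ ^ 2 / 4)) := by
  unfold qf
  rw [Finset.sum_div, Real.exp_sum, ENNReal.ofReal_prod_of_nonneg (fun i _ => (Real.exp_pos _).le)]

/-- positive moments of `qf` at a unit vector -/
theorem pos_moment_unit {n d : ℕ} (g : E d) (hg : ‖g‖ = 1) (p : ℕ) :
    ∫⁻ X, ENNReal.ofReal (qf X g) ^ p ∂(rows n d) ≤ ENNReal.ofReal ((4 * p) ^ p) * 2 ^ n := by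
  have hpt : ∀ X : Fin n → E d, ENNReal.ofReal (qf X g) ^ p
      ≤ ENNReal.ofReal ((4 * p) ^ p) * ∏ i, ENNReal.ofReal (Real.exp (⟪X i, g⟫ ^ 2 / 4)) := by
    intro X
    rw [← exp_qf, ← ENNReal.ofReal_pow (qf_nonneg _ _), ← ENNReal.ofReal_mul (by positivity)]
    exact ENNReal.ofReal_le_ofReal (pow_le_exp _ (qf_nonneg _ _) p)
  refine (lintegral_mono hpt).trans ?_
  rw [lintegral_const_mul _ (by fun_prop)]
  gcongr
  rw [rows, lintegral_pi_prod (stdGaussian (E d))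
    (fun x => ENNReal.ofReal (Real.exp (⟪x, g⟫ ^ 2 / 4))) (by fun_prop)]
  gcongr
  rw [lintegral_inner g hg (fun z => ENNReal.ofReal (Real.exp (z ^ 2 / 4))) (by fun_prop)]
  exact exp_moment

theorem pos_moment {n d : ℕ} (g : E d) (p : ℕ) (hp : 1 ≤ p) :
    ∫⁻ X, ENNReal.ofReal (qf X g) ^ p ∂(rows n d)
      ≤ ENNReal.ofReal (‖g‖ ^ (2 * p)) * (ENNReal.ofReal ((4 * p) ^ p) * 2 ^ n) := by
  by_cases h0 : g = 0
  · have : ∀ X : Fin n → E d, qf X g = 0 := by intro X; simp [qf, h0]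
    simp only [this, ENNReal.ofReal_zero]
    rw [zero_pow (by omega)]
    simp
  have hn : 0 < ‖g‖ := norm_pos_iff.2 h0
  have h1 : ∀ X : Fin n → E d, ENNReal.ofReal (qf X g) ^ p
      = ENNReal.ofReal (‖g‖ ^ (2 * p)) * ENNReal.ofReal (qf X (‖g‖⁻¹ • g)) ^ p := by
    intro X
    rw [qf_smul, ← ENNReal.ofReal_pow (qf_nonneg _ _),
      ← ENNReal.ofReal_pow (mul_nonneg (by positivity) (qf_nonneg _ _)),
      ← ENNReal.ofReal_mul (by positivity)]
    congr 1
    rw [mul_pow, ← mul_assoc, ← pow_mul, ← mul_pow, mul_inv_cancel₀ hn.ne']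
    simp
  simp_rw [h1]
  have hmeas : Measurable (fun X : Fin n → E d => ENNReal.ofReal (qf X (‖g‖⁻¹ • g)) ^ p) := by
    unfold qf; fun_prop
  rw [lintegral_const_mul _ hmeas]
  gcongr
  exact pos_moment_unit _ (by rw [norm_smul, norm_inv, norm_norm, inv_mul_cancel₀ hn.ne']) p

/-- moments of the norm -/
theorem norm_moment {d : ℕ} (p : ℕ) :
    ∫⁻ g, ENNReal.ofReal (‖g‖ ^ (2 * p)) ∂(stdGaussian (E d))
      ≤ ENNReal.ofReal ((4 * p) ^ p) * 2 ^ d := by
  rw [← map_pi_eq_stdGaussian, lintegral_map (by fun_prop) (by fun_prop)]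
  have hpt : ∀ x : Fin d → ℝ, ENNReal.ofReal (‖(WithLp.toLp 2 x : E d)‖ ^ (2 * p))
      ≤ ENNReal.ofReal ((4 * p) ^ p) * ∏ i, ENNReal.ofReal (Real.exp (x i ^ 2 / 4)) := by
    intro x
    rw [← ENNReal.ofReal_prod_of_nonneg (fun i _ => (Real.exp_pos _).le), ← Real.exp_sum,
      ← Finset.sum_div, ← ENNReal.ofReal_mul (by positivity)]
    apply ENNReal.ofReal_le_ofReal
    have h1 : ‖(WithLp.toLp 2 x : E d)‖ ^ (2 * p) = (∑ i, x i ^ 2) ^ p := by
      rw [pow_mul, EuclideanSpace.real_norm_sq_eq]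
    rw [h1]
    exact pow_le_exp _ (Finset.sum_nonneg fun _ _ => sq_nonneg _) p
  refine (lintegral_mono hpt).trans ?_
  rw [lintegral_const_mul _ (by fun_prop)]
  gcongr
  rw [lintegral_pi_prod (gaussianReal 0 1)
    (fun z => ENNReal.ofReal (Real.exp (z ^ 2 / 4))) (by fun_prop)]
  gcongr
  exact exp_moment

/-- lower bound of the even moments of a standard Gaussian -/
theorem low_moment (m : ℕ) (hm : 1 ≤ m) :
    ENNReal.ofReal ((m : ℝ) ^ (2 * m) / 32 ^ m)
      ≤ ∫⁻ z, ENNReal.ofReal (z ^ (4 * m)) ∂(gaussianReal 0 1) := by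
  have hm' : (1 : ℝ) ≤ m := by exact_mod_cast hm
  have hs1 : 1 ≤ √(m : ℝ) := by rw [Real.one_le_sqrt]; exact hm'
  set a := √(m : ℝ) with ha
  have ha2 : a ^ 2 = m := Real.sq_sqrt (by linarith)
  have hmeas : ENNReal.ofReal ((32 ^ m : ℝ)⁻¹) ≤ gaussianReal 0 1 (Set.Icc a (a + 1)) := by
    rw [gaussianReal_apply _ one_ne_zero]
    have hpt : ∀ z ∈ Set.Icc a (a + 1), ENNReal.ofReal ((32 ^ m : ℝ)⁻¹) ≤ gaussianPDF 0 1 z := by
      intro z hz
      unfold gaussianPDF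
      apply ENNReal.ofReal_le_ofReal
      unfold gaussianPDFReal
      simp only [NNReal.coe_one, mul_one, sub_zero]
      have h1 : z ^ 2 ≤ 4 * m := by
        have : z ≤ 2 * a := by linarith [hz.2]
        have hz0 : 0 ≤ z := by linarith [hz.1]
        nlinarith
      have h2 : (8 ^ m : ℝ)⁻¹ ≤ Real.exp (-z ^ 2 / 2) := by
        have h3 : Real.exp (-(2 * m)) ≤ Real.exp (-z ^ 2 / 2) := Real.exp_le_exp.2 (by linarith)
        refine le_trans ?_ h3
        rw [Real.exp_neg]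
        apply inv_anti₀ (Real.exp_pos _)
        have h4 : Real.exp 2 ≤ 8 := by
          have h5 : Real.exp 2 = Real.exp 1 * Real.exp 1 := by rw [← Real.exp_add]; norm_num
          have h6 := Real.exp_one_lt_d9
          have h7 := Real.exp_pos 1
          rw [h5]; nlinarith
        calc Real.exp (2 * m) = Real.exp 2 ^ m := by rw [← Real.exp_nat_mul]; ring_nf
          _ ≤ 8 ^ m := pow_le_pow_left₀ (Real.exp_pos _).le h4 m
      have h3 : (4 ^ m : ℝ)⁻¹ ≤ (√(2 * Real.pi))⁻¹ := by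
        apply inv_anti₀ (by positivity)
        have h5 : √(2 * Real.pi) ≤ 4 := by
          rw [Real.sqrt_le_left (by norm_num)]
          have := Real.pi_lt_four
          linarith
        calc √(2 * Real.pi) ≤ 4 ^ 1 := by simpa using h5
          _ ≤ 4 ^ m := pow_le_pow_right₀ (by norm_num) hm
      calc ((32 : ℝ) ^ m)⁻¹ = (4 ^ m : ℝ)⁻¹ * (8 ^ m : ℝ)⁻¹ := by
            rw [← mul_inv, ← mul_pow]; norm_num
        _ ≤ _ := mul_le_mul h3 h2 (by positivity) (by positivity)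
    calc ENNReal.ofReal ((32 ^ m : ℝ)⁻¹)
        = ∫⁻ _ in Set.Icc a (a + 1), ENNReal.ofReal ((32 ^ m : ℝ)⁻¹) := by
          rw [setLIntegral_const, Real.volume_Icc]
          simp
      _ ≤ _ := setLIntegral_mono' measurableSet_Icc hpt
  calc ENNReal.ofReal ((m : ℝ) ^ (2 * m) / 32 ^ m)
      = ENNReal.ofReal ((m : ℝ) ^ (2 * m)) * ENNReal.ofReal ((32 ^ m : ℝ)⁻¹) := by
        rw [← ENNReal.ofReal_mul (by positivity), div_eq_mul_inv]
    _ ≤ ENNReal.ofReal ((m : ℝ) ^ (2 * m)) * gaussianReal 0 1 (Set.Icc a (a + 1)) := by gcongr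
    _ = ∫⁻ _ in Set.Icc a (a + 1), ENNReal.ofReal ((m : ℝ) ^ (2 * m)) ∂(gaussianReal 0 1) := by
        rw [setLIntegral_const]
    _ ≤ ∫⁻ z in Set.Icc a (a + 1), ENNReal.ofReal (z ^ (4 * m)) ∂(gaussianReal 0 1) := by
        apply setLIntegral_mono' measurableSet_Icc
        intro z hz
        apply ENNReal.ofReal_le_ofReal
        calc (m : ℝ) ^ (2 * m) = a ^ (4 * m) := by rw [← ha2, ← pow_mul]; ring_nf
          _ ≤ z ^ (4 * m) := pow_le_pow_left₀ (by positivity) hz.1 _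
    _ ≤ _ := setLIntegral_le_lintegral _ _

end L4

end P309
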