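import Vale.Agent.H20.P309.L4b

/-!
P309, row L4, operator norm and negative moments.
-/

open MeasureTheory ProbabilityTheory Metric
open scoped RealInnerProductSpace ENNReal NNReal

namespace P309

namespace L4

/-! ### the operator norm functional -/

/-- `∫ |G g|^(4m) dγ(g)` -/
noncomputable def Qf {n d : ℕ} (m : ℕ) (X : Fin n → E d) : ℝ≥0∞ :=
  ∫⁻ g, ENNReal.ofReal (qf X g) ^ (2 * m) ∂(stdGaussian (E d))

theorem measurable_qf {n d : ℕ} : Measurable (fun p : (Fin n → E d) × E d => qf p.1 p.2) := by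
  unfold qf
  fun_prop

theorem measurable_Qf {n d : ℕ} (m : ℕ) : Measurable (Qf (n := n) (d := d) m) := by
  unfold Qf
  apply Measurable.lintegral_prod_right'
    (f := fun p : (Fin n → E d) × E d => ENNReal.ofReal (qf p.1 p.2) ^ (2 * m))
  exact (measurable_qf.ennreal_ofReal).pow_const _

theorem op_unit {n d : ℕ} (m : ℕ) (hm : 1 ≤ m) (X : Fin n → E d) (v : E d) (hv : ‖v‖ = 1) :
    ENNReal.ofReal (qf X v) ^ (2 * m) *
      ∫⁻ z, ENNReal.ofReal (z ^ (4 * m)) ∂(gaussianReal 0 1) ≤ Qf m X := by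
  set T : E d ≃ₗᵢ[ℝ] E d := (ℝ ∙ v).reflection with hT
  have hTg : ∀ g : E d, g + T g = (2 * ⟪g, v⟫) • v := by
    intro g
    rw [hT, Submodule.reflection_singleton_apply, hv]
    simp only [RCLike.ofReal_real_eq_id, id_eq, one_pow, div_one]
    rw [add_sub_cancel, real_inner_comm, two_smul, ← add_smul, two_mul]
  have hpt : ∀ g : E d, ENNReal.ofReal (qf X v) ^ (2 * m) * ENNReal.ofReal (⟪g, v⟫ ^ (4 * m))
      ≤ 2⁻¹ * (ENNReal.ofReal (qf X g) ^ (2 * m) + ENNReal.ofReal (qf X (T g)) ^ (2 * m)) := by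
    intro g
    have h1 : qf X (g + T g) = 4 * ⟪g, v⟫ ^ 2 * qf X v := by
      rw [hTg, qf_smul]; ring
    have h2 := qf_add X g (T g)
    rw [h1] at h2
    have hg := qf_nonneg X g
    have hTg' := qf_nonneg X (T g)
    have hv' := qf_nonneg X v
    have h3 : (4 * ⟪g, v⟫ ^ 2 * qf X v) ^ (2 * m)
        ≤ 4 ^ (2 * m) * (1 / 2 * (qf X g ^ (2 * m) + qf X (T g) ^ (2 * m))) := by
      calc (4 * ⟪g, v⟫ ^ 2 * qf X v) ^ (2 * m)
          ≤ (2 * qf X g + 2 * qf X (T g)) ^ (2 * m) :=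
            pow_le_pow_left₀ (by positivity) h2 _
        _ = 2 ^ (2 * m) * (qf X g + qf X (T g)) ^ (2 * m) := by
            rw [← mul_pow]; congr 1; ring
        _ ≤ 2 ^ (2 * m) * (2 ^ (2 * m - 1) * (qf X g ^ (2 * m) + qf X (T g) ^ (2 * m))) := by
            gcongr
            exact add_pow_le hg hTg' _
        _ ≤ _ := by
            have h5 : (2 : ℝ) ^ (2 * m) = 2 * 2 ^ (2 * m - 1) := by
              rw [← pow_succ']; congr 1; omega
            have h6 : (4 : ℝ) ^ (2 * m) = 2 ^ (2 * m) * 2 ^ (2 * m) := by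
              rw [← mul_pow]; norm_num
            have h7 : (4 : ℝ) ^ (2 * m) * (1 / 2) = 2 ^ (2 * m) * 2 ^ (2 * m - 1) := by
              rw [h6]
              nth_rewrite 2 [h5]
              ring
            rw [← mul_assoc, ← mul_assoc, h7]
    have h4 : (4 * ⟪g, v⟫ ^ 2 * qf X v) ^ (2 * m)
        = 4 ^ (2 * m) * (qf X v ^ (2 * m) * ⟪g, v⟫ ^ (4 * m)) := by
      rw [mul_pow, mul_pow, ← pow_mul]; ring_nf
    rw [h4] at h3
    have h5 := le_of_mul_le_mul_left h3 (by positivity)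
    rw [← ENNReal.ofReal_pow hv', ← ENNReal.ofReal_pow hg, ← ENNReal.ofReal_pow hTg',
      ← ENNReal.ofReal_mul (by positivity), ← ENNReal.ofReal_add (by positivity) (by positivity)]
    have h6 : (2⁻¹ : ℝ≥0∞) = ENNReal.ofReal (1 / 2) := by
      rw [one_div, ENNReal.ofReal_inv_of_pos (by norm_num)]; simp
    rw [h6, ← ENNReal.ofReal_mul (by norm_num)]
    exact ENNReal.ofReal_le_ofReal h5
  have hmg : Measurable (fun g : E d => ENNReal.ofReal (qf X g) ^ (2 * m)) := by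
    unfold qf; fun_prop
  have hTm : ∫⁻ g, ENNReal.ofReal (qf X (T g)) ^ (2 * m) ∂(stdGaussian (E d)) = Qf m X := by
    have h1 : (stdGaussian (E d)).map T = stdGaussian (E d) := stdGaussian_map T
    unfold Qf
    conv_rhs => rw [← h1]
    rw [lintegral_map hmg T.continuous.measurable]
  have hL : ∫⁻ z, ENNReal.ofReal (z ^ (4 * m)) ∂(gaussianReal 0 1)
      = ∫⁻ g, ENNReal.ofReal (⟪g, v⟫ ^ (4 * m)) ∂(stdGaussian (E d)) :=
    (lintegral_inner v hv (fun z => ENNReal.ofReal (z ^ (4 * m))) (by fun_prop)).symm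
  rw [hL, ← lintegral_const_mul _ (by fun_prop)]
  refine (lintegral_mono hpt).trans ?_
  rw [lintegral_const_mul _ (show Measurable (fun g : E d => ENNReal.ofReal (qf X g) ^ (2 * m)
      + ENNReal.ofReal (qf X (T g)) ^ (2 * m)) from hmg.add (hmg.comp T.continuous.measurable)),
    lintegral_add_left hmg, hTm]
  change 2⁻¹ * (Qf m X + Qf m X) ≤ _
  rw [← two_mul, ← mul_assoc, ENNReal.inv_mul_cancel two_ne_zero ENNReal.ofNat_ne_top, one_mul]

theorem op_bound {n d : ℕ} (m : ℕ) (hm : 1 ≤ m) (X : Fin n → E d) (v : E d) :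
    ENNReal.ofReal (qf X v) ^ (2 * m) * ENNReal.ofReal ((m : ℝ) ^ (2 * m) / 32 ^ m)
      ≤ Qf m X * ENNReal.ofReal (‖v‖ ^ (4 * m)) := by
  by_cases h0 : v = 0
  · have : qf X v = 0 := by simp [qf, h0]
    rw [this, ENNReal.ofReal_zero, zero_pow (by omega), zero_mul]
    exact zero_le
  have hn : 0 < ‖v‖ := norm_pos_iff.2 h0
  have h1 := op_unit m hm X (‖v‖⁻¹ • v) (by rw [norm_smul, norm_inv, norm_norm, inv_mul_cancel₀ hn.ne'])
  have h2 : ENNReal.ofReal (qf X v) ^ (2 * m)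
      = ENNReal.ofReal (‖v‖ ^ (4 * m)) * ENNReal.ofReal (qf X (‖v‖⁻¹ • v)) ^ (2 * m) := by
    rw [qf_smul, ← ENNReal.ofReal_pow (qf_nonneg _ _),
      ← ENNReal.ofReal_pow (mul_nonneg (by positivity) (qf_nonneg _ _)),
      ← ENNReal.ofReal_mul (by positivity)]
    congr 1
    have e : ‖v‖ ^ (4 * m) = (‖v‖ ^ 2) ^ (2 * m) := by rw [← pow_mul]; ring_nf
    rw [e, ← mul_pow]
    congr 1
    field_simp
  rw [h2]
  calc ENNReal.ofReal (‖v‖ ^ (4 * m)) * ENNReal.ofReal (qf X (‖v‖⁻¹ • v)) ^ (2 * m)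
        * ENNReal.ofReal ((m : ℝ) ^ (2 * m) / 32 ^ m)
      ≤ ENNReal.ofReal (‖v‖ ^ (4 * m)) * ENNReal.ofReal (qf X (‖v‖⁻¹ • v)) ^ (2 * m)
        * ∫⁻ z, ENNReal.ofReal (z ^ (4 * m)) ∂(gaussianReal 0 1) := by
        gcongr
        exact low_moment m hm
    _ = ENNReal.ofReal (‖v‖ ^ (4 * m)) * (ENNReal.ofReal (qf X (‖v‖⁻¹ • v)) ^ (2 * m)
        * ∫⁻ z, ENNReal.ofReal (z ^ (4 * m)) ∂(gaussianReal 0 1)) := by rw [mul_assoc]
    _ ≤ ENNReal.ofReal (‖v‖ ^ (4 * m)) * Qf m X := by gcongr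
    _ = _ := mul_comm _ _

theorem Qf_moment {n d : ℕ} (m : ℕ) (hm : 1 ≤ m) :
    ∫⁻ X, Qf m X ∂(rows n d)
      ≤ (ENNReal.ofReal ((4 * (2 * m : ℕ)) ^ (2 * m)) * 2 ^ d) *
        (ENNReal.ofReal ((4 * (2 * m : ℕ)) ^ (2 * m)) * 2 ^ n) := by
  unfold Qf
  have : IsProbabilityMeasure (rows n d) := by unfold rows; infer_instance
  rw [lintegral_lintegral_swap (by
    exact ((measurable_qf.ennreal_ofReal).pow_const _).aemeasurable)]
  have h1 : ∀ g : E d, ∫⁻ X, ENNReal.ofReal (qf X g) ^ (2 * m) ∂(rows n d)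
      ≤ ENNReal.ofReal (‖g‖ ^ (2 * (2 * m))) *
        (ENNReal.ofReal ((4 * (2 * m : ℕ)) ^ (2 * m)) * 2 ^ n) :=
    fun g => pos_moment g (2 * m) (by omega)
  refine (lintegral_mono h1).trans ?_
  rw [lintegral_mul_const _ (by fun_prop)]
  gcongr
  exact norm_moment (2 * m)

/-! ### negative moments -/

/-- `(z²)^(-1/15)` -/
noncomputable def Fz (z : ℝ) : ℝ≥0∞ := (ENNReal.ofReal ((z ^ 2) ^ ((1 : ℝ) / 15)))⁻¹

theorem measurable_Fz : Measurable Fz := by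
  unfold Fz
  fun_prop

theorem Fz_ne_zero (z : ℝ) : Fz z ≠ 0 := by
  unfold Fz
  exact ENNReal.inv_ne_zero.2 ENNReal.ofReal_ne_top

theorem small_ball (δ : ℝ) (hδ : 0 ≤ δ) :
    gaussianReal 0 1 {z | |z| ≤ δ} ≤ ENNReal.ofReal δ := by
  rw [gaussianReal_apply _ one_ne_zero]
  have hset : {z : ℝ | |z| ≤ δ} = Set.Icc (-δ) δ := by
    ext z; simp [abs_le]
  rw [hset]
  have hpt : ∀ z ∈ Set.Icc (-δ) δ, gaussianPDF 0 1 z ≤ ENNReal.ofReal (1 / 2) := by
    intro z _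
    unfold gaussianPDF gaussianPDFReal
    apply ENNReal.ofReal_le_ofReal
    simp only [NNReal.coe_one, mul_one, sub_zero]
    have h1 : (√(2 * Real.pi))⁻¹ ≤ 1 / 2 := by
      rw [one_div]
      apply inv_anti₀ (by norm_num)
      apply Real.le_sqrt_of_sq_le
      have := Real.pi_gt_three
      linarith
    have h2 : Real.exp (-z ^ 2 / 2) ≤ 1 := by
      rw [Real.exp_le_one_iff]
      have := sq_nonneg z
      linarith
    calc (√(2 * Real.pi))⁻¹ * Real.exp (-z ^ 2 / 2) ≤ 1 / 2 * 1 :=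
          mul_le_mul h1 h2 (Real.exp_pos _).le (by norm_num)
      _ = 1 / 2 := mul_one _
  refine (setLIntegral_mono' measurableSet_Icc hpt).trans ?_
  rw [setLIntegral_const, Real.volume_Icc, ← ENNReal.ofReal_mul (by norm_num)]
  apply ENNReal.ofReal_le_ofReal
  linarith

theorem Fz_le (z : ℝ) : Fz z ≤ 1 + ∑' j : ℕ, (2 : ℝ≥0∞) ^ j *
    Set.indicator {z : ℝ | |z| ≤ ((2 : ℝ) ^ (7 * j))⁻¹} 1 z := by
  by_cases h0 : z = 0
  · subst h0
    have h1 : ∑' j : ℕ, (2 : ℝ≥0∞) ^ j *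
        Set.indicator {z : ℝ | |z| ≤ ((2 : ℝ) ^ (7 * j))⁻¹} 1 (0 : ℝ) = ⊤ := by
      have h2 : ∀ j : ℕ, (2 : ℝ≥0∞) ^ j *
        Set.indicator {z : ℝ | |z| ≤ ((2 : ℝ) ^ (7 * j))⁻¹} 1 (0 : ℝ) = 2 ^ j := by
        intro j
        rw [Set.indicator_of_mem]
        · simp
        · simp
      simp_rw [h2]
      rw [ENNReal.tsum_geometric]
      have : (1 : ℝ≥0∞) - 2 = 0 := tsub_eq_zero_of_le (by norm_num)
      rw [this, ENNReal.inv_zero]
    rw [h1, add_top]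
    exact le_top
  have hz2 : 0 < z ^ 2 := by positivity
  set x : ℝ := (z ^ 2) ^ ((1 : ℝ) / 15) with hx
  have hx0 : 0 < x := Real.rpow_pos_of_pos hz2 _
  have hFz : Fz z = ENNReal.ofReal x⁻¹ := by
    rw [Fz, ENNReal.ofReal_inv_of_pos hx0]
  rw [hFz]
  by_cases h1 : x⁻¹ < 1
  · calc ENNReal.ofReal x⁻¹ ≤ ENNReal.ofReal 1 := ENNReal.ofReal_le_ofReal h1.le
      _ = 1 := by simp
      _ ≤ _ := le_self_add
  push Not at h1
  obtain ⟨J, hJ1, hJ2⟩ := exists_nat_pow_near h1 (one_lt_two)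
  have hx15 : x ^ 15 = z ^ 2 := by
    rw [hx, ← Real.rpow_natCast, ← Real.rpow_mul hz2.le]
    norm_num
  have hmem : ∀ j ∈ Finset.range (J + 1), |z| ≤ ((2 : ℝ) ^ (7 * j))⁻¹ := by
    intro j hj
    have hj' : j ≤ J := Nat.lt_succ_iff.1 (Finset.mem_range.1 hj)
    have h2 : x ≤ ((2 : ℝ) ^ j)⁻¹ := by
      rw [le_inv_comm₀ hx0 (by positivity)]
      exact (pow_le_pow_right₀ (by norm_num) hj').trans hJ1
    have h3 : |z| ^ 2 ≤ (((2 : ℝ) ^ (7 * j))⁻¹) ^ 2 := by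
      rw [sq_abs, ← hx15]
      calc x ^ 15 ≤ (((2 : ℝ) ^ j)⁻¹) ^ 15 := pow_le_pow_left₀ hx0.le h2 15
        _ ≤ (((2 : ℝ) ^ j)⁻¹) ^ 14 := by
            apply pow_le_pow_of_le_one (by positivity) _ (by norm_num)
            exact inv_le_one_of_one_le₀ (one_le_pow₀ (by norm_num))
        _ = (((2 : ℝ) ^ (7 * j))⁻¹) ^ 2 := by
            rw [inv_pow, inv_pow, ← pow_mul, ← pow_mul]; congr 2; ring
    exact (abs_le_of_sq_le_sq' h3 (by positivity)).2
  calc ENNReal.ofReal x⁻¹ ≤ ENNReal.ofReal ((2 : ℝ) ^ (J + 1)) := ENNReal.ofReal_le_ofReal hJ2.le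
    _ = 2 ^ (J + 1) := by rw [ENNReal.ofReal_pow (by norm_num)]; simp
    _ = 1 + ∑ j ∈ Finset.range (J + 1), (2 : ℝ≥0∞) ^ j := by
        have h2 : ∀ K : ℕ, (2 : ℝ≥0∞) ^ K = 1 + ∑ j ∈ Finset.range K, (2 : ℝ≥0∞) ^ j := by
          intro K
          induction K with
          | zero => simp
          | succ K ih =>
            rw [Finset.sum_range_succ, ← add_assoc, ← ih, pow_succ, mul_two]
        exact h2 (J + 1)
    _ = 1 + ∑ j ∈ Finset.range (J + 1), (2 : ℝ≥0∞) ^ j *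
          Set.indicator {z : ℝ | |z| ≤ ((2 : ℝ) ^ (7 * j))⁻¹} 1 z := by
        congr 1
        apply Finset.sum_congr rfl
        intro j hj
        rw [Set.indicator_of_mem (show z ∈ {z : ℝ | |z| ≤ ((2 : ℝ) ^ (7 * j))⁻¹} from hmem j hj)]
        simp
    _ ≤ _ := by
        gcongr
        exact ENNReal.sum_le_tsum _

theorem Fz_int : ∫⁻ z, Fz z ∂(gaussianReal 0 1) ≤ 3 := by
  refine (lintegral_mono Fz_le).trans ?_
  have hms : ∀ j : ℕ, MeasurableSet {z : ℝ | |z| ≤ ((2 : ℝ) ^ (7 * j))⁻¹} := by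
    intro j
    exact measurableSet_le (by fun_prop) measurable_const
  have hmi : ∀ j : ℕ, Measurable (fun z => (2 : ℝ≥0∞) ^ j *
      Set.indicator {z : ℝ | |z| ≤ ((2 : ℝ) ^ (7 * j))⁻¹} 1 z) := by
    intro j
    exact (measurable_one.indicator (hms j)).const_mul _
  rw [lintegral_add_left measurable_const, lintegral_tsum (fun j => (hmi j).aemeasurable)]
  have h1 : ∀ j : ℕ, ∫⁻ z, (2 : ℝ≥0∞) ^ j *
      Set.indicator {z : ℝ | |z| ≤ ((2 : ℝ) ^ (7 * j))⁻¹} 1 z ∂(gaussianReal 0 1)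
      ≤ (2⁻¹ : ℝ≥0∞) ^ j := by
    intro j
    rw [lintegral_const_mul _ (measurable_one.indicator (hms j)), lintegral_indicator_one (hms j)]
    calc (2 : ℝ≥0∞) ^ j * gaussianReal 0 1 {z : ℝ | |z| ≤ ((2 : ℝ) ^ (7 * j))⁻¹}
        ≤ (2 : ℝ≥0∞) ^ j * ENNReal.ofReal (((2 : ℝ) ^ (7 * j))⁻¹) := by
          gcongr
          exact small_ball _ (by positivity)
      _ ≤ (2 : ℝ≥0∞) ^ j * ENNReal.ofReal (((4 : ℝ) ^ j)⁻¹) := by
          gcongr
          have : (4 : ℝ) ^ j = 2 ^ (2 * j) := by rw [pow_mul]; norm_num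
          rw [this]
          exact pow_le_pow_right₀ (by norm_num) (by omega)
      _ = (2⁻¹ : ℝ≥0∞) ^ j := by
          have e1 : (2 : ℝ≥0∞) ^ j = ENNReal.ofReal ((2 : ℝ) ^ j) := by
            rw [ENNReal.ofReal_pow (by norm_num)]; simp
          have e2 : (2⁻¹ : ℝ≥0∞) ^ j = ENNReal.ofReal (((2 : ℝ) ^ j)⁻¹) := by
            rw [ENNReal.ofReal_inv_of_pos (by positivity), ENNReal.ofReal_pow (by norm_num),
              ENNReal.inv_pow]
            simp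
          rw [e1, e2, ← ENNReal.ofReal_mul (by positivity)]
          congr 1
          have : (4 : ℝ) ^ j = 2 ^ j * 2 ^ j := by rw [← mul_pow]; norm_num
          rw [this]
          field_simp
  calc _ ≤ ∫⁻ _, 1 ∂(gaussianReal 0 1) + ∑' j : ℕ, (2⁻¹ : ℝ≥0∞) ^ j := by
        gcongr
        exact h1 _
    _ = 3 := by
        rw [lintegral_const, measure_univ, ENNReal.tsum_geometric, ENNReal.one_sub_inv_two,
          inv_inv]
        norm_num

theorem Fz_inner {d : ℕ} (h : E d) (hh : 1 / 2 ≤ ‖h‖) :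
    ∫⁻ x, Fz ⟪x, h⟫ ∂(stdGaussian (E d)) ≤ 12 := by
  have hn : 0 < ‖h‖ := by linarith
  have hpt : ∀ x : E d, Fz ⟪x, h⟫ ≤ 4 * Fz ⟪x, ‖h‖⁻¹ • h⟫ := by
    intro x
    unfold Fz
    rw [inner_smul_right, mul_pow, Real.mul_rpow (by positivity) (by positivity),
      ENNReal.ofReal_mul (by positivity)]
    set y := ENNReal.ofReal ((⟪x, h⟫ ^ 2) ^ ((1 : ℝ) / 15)) with hy
    have h1 : ENNReal.ofReal (((‖h‖⁻¹) ^ 2) ^ ((1 : ℝ) / 15)) ≤ 4 := by
      have h2 : ((‖h‖⁻¹) ^ 2) ^ ((1 : ℝ) / 15) ≤ 4 := by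
        have h3 : (‖h‖⁻¹) ^ 2 ≤ 4 := by
          have h4 : ‖h‖⁻¹ ≤ 2 := by
            rw [inv_le_comm₀ hn (by norm_num)]; linarith
          have h5 : 0 ≤ ‖h‖⁻¹ := by positivity
          nlinarith
        calc ((‖h‖⁻¹) ^ 2) ^ ((1 : ℝ) / 15) ≤ 4 ^ ((1 : ℝ) / 15) :=
              Real.rpow_le_rpow (by positivity) h3 (by norm_num)
          _ ≤ 4 ^ (1 : ℝ) := Real.rpow_le_rpow_of_exponent_le (by norm_num) (by norm_num)
          _ = 4 := Real.rpow_one 4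
      calc _ ≤ ENNReal.ofReal 4 := ENNReal.ofReal_le_ofReal h2
        _ = 4 := by simp
    calc y⁻¹ = 4 * (4 * y)⁻¹ := by
          rw [ENNReal.mul_inv (Or.inl (by norm_num)) (Or.inl (by norm_num)), ← mul_assoc,
            ENNReal.mul_inv_cancel (by norm_num) (by norm_num), one_mul]
      _ ≤ _ := by gcongr
  refine (lintegral_mono hpt).trans ?_
  rw [lintegral_const_mul _ (show Measurable (fun x : E d => Fz ⟪x, ‖h‖⁻¹ • h⟫) from
      measurable_Fz.comp (by fun_prop)),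
    lintegral_inner (‖h‖⁻¹ • h) (by rw [norm_smul, norm_inv, norm_norm, inv_mul_cancel₀ hn.ne'])
      Fz measurable_Fz]
  calc 4 * ∫⁻ z, Fz z ∂(gaussianReal 0 1) ≤ 4 * 3 := by gcongr; exact Fz_int
    _ = 12 := by norm_num

theorem neg_pt {d : ℕ} (m : ℕ) (hm : 1 ≤ m) (h : E d) (X : Fin (30 * m) → E d) :
    (ENNReal.ofReal (qf X h) ^ (2 * m))⁻¹
      ≤ ENNReal.ofReal ((((30 * m : ℕ) : ℝ) ^ (2 * m))⁻¹) * ∏ i, Fz ⟪X i, h⟫ := by
  have hn0 : (0 : ℝ) < ((30 * m : ℕ) : ℝ) := by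
    have : 0 < 30 * m := by omega
    exact_mod_cast this
  by_cases h0 : ∃ i, ⟪X i, h⟫ = 0
  · obtain ⟨i, hi⟩ := h0
    have h1 : ∏ i, Fz ⟪X i, h⟫ = ⊤ := by
      rw [← Finset.mul_prod_erase Finset.univ _ (Finset.mem_univ i), hi]
      have h2 : Fz 0 = ⊤ := by
        unfold Fz
        rw [zero_pow (by norm_num), Real.zero_rpow (by norm_num)]
        simp
      rw [h2, ENNReal.top_mul]
      exact Finset.prod_ne_zero_iff.2 fun j _ => Fz_ne_zero _
    rw [h1, ENNReal.mul_top]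
    · exact le_top
    · rw [Ne, ENNReal.ofReal_eq_zero, not_le]; positivity
  push Not at h0
  have hy : ∀ i, 0 < ⟪X i, h⟫ ^ 2 := fun i => by
    have := h0 i
    positivity
  have hq : 0 < qf X h := by
    unfold qf
    exact Finset.sum_pos (fun i _ => hy i) ⟨⟨0, by omega⟩, Finset.mem_univ _⟩
  have hamgm : ∏ i, (⟪X i, h⟫ ^ 2) ^ (((30 * m : ℕ) : ℝ)⁻¹)
      ≤ ∑ i, ((30 * m : ℕ) : ℝ)⁻¹ * ⟪X i, h⟫ ^ 2 := by
    apply Real.geom_mean_le_arith_mean_weighted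
    · intro i _; positivity
    · simp only [Finset.sum_const, Finset.card_univ, Fintype.card_fin, nsmul_eq_mul]
      exact mul_inv_cancel₀ hn0.ne'
    · intro i _; positivity
  rw [← Finset.mul_sum] at hamgm
  change _ ≤ ((30 * m : ℕ) : ℝ)⁻¹ * qf X h at hamgm
  have h2 : ∏ i, (⟪X i, h⟫ ^ 2) ^ ((1 : ℝ) / 15)
      ≤ (((30 * m : ℕ) : ℝ)⁻¹ * qf X h) ^ (2 * m) := by
    have h3 : ∏ i, (⟪X i, h⟫ ^ 2) ^ ((1 : ℝ) / 15)
        = (∏ i, (⟪X i, h⟫ ^ 2) ^ (((30 * m : ℕ) : ℝ)⁻¹)) ^ (2 * m) := by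
      rw [← Finset.prod_pow]
      apply Finset.prod_congr rfl
      intro i _
      rw [← Real.rpow_natCast ((⟪X i, h⟫ ^ 2) ^ (((30 * m : ℕ) : ℝ)⁻¹)) (2 * m),
        ← Real.rpow_mul (hy i).le]
      congr 1
      push_cast
      have : (m : ℝ) ≠ 0 := by
        have : m ≠ 0 := by omega
        exact_mod_cast this
      field_simp
      norm_num
    rw [h3]
    exact pow_le_pow_left₀ (Finset.prod_nonneg fun i _ => by positivity) hamgm _
  have hP : 0 < ∏ i, (⟪X i, h⟫ ^ 2) ^ ((1 : ℝ) / 15) :=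
    Finset.prod_pos fun i _ => Real.rpow_pos_of_pos (hy i) _
  have h4 : ∏ i, Fz ⟪X i, h⟫ = ENNReal.ofReal ((∏ i, (⟪X i, h⟫ ^ 2) ^ ((1 : ℝ) / 15))⁻¹) := by
    rw [← Finset.prod_inv_distrib, ENNReal.ofReal_prod_of_nonneg (fun i _ => by positivity)]
    apply Finset.prod_congr rfl
    intro i _
    rw [Fz, ENNReal.ofReal_inv_of_pos (Real.rpow_pos_of_pos (hy i) _)]
  rw [h4, ← ENNReal.ofReal_mul (by positivity), ← ENNReal.ofReal_pow hq.le,
    ← ENNReal.ofReal_inv_of_pos (by positivity)]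
  apply ENNReal.ofReal_le_ofReal
  rw [← mul_inv]
  apply inv_anti₀ (by positivity)
  rw [mul_pow, inv_pow] at h2
  calc ((30 * m : ℕ) : ℝ) ^ (2 * m) * ∏ i, (⟪X i, h⟫ ^ 2) ^ ((1 : ℝ) / 15)
      ≤ ((30 * m : ℕ) : ℝ) ^ (2 * m) * ((((30 * m : ℕ) : ℝ) ^ (2 * m))⁻¹ * qf X h ^ (2 * m)) := by
        gcongr
    _ = qf X h ^ (2 * m) := by
        rw [← mul_assoc, mul_inv_cancel₀ (by positivity), one_mul]

theorem neg_moment {d : ℕ} (m : ℕ) (hm : 1 ≤ m) (h : E d) (hh : 1 / 2 ≤ ‖h‖) :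
    ∫⁻ X, (ENNReal.ofReal (qf X h) ^ (2 * m))⁻¹ ∂(rows (30 * m) d)
      ≤ ENNReal.ofReal ((((30 * m : ℕ) : ℝ) ^ (2 * m))⁻¹) * 12 ^ (30 * m) := by
  refine (lintegral_mono (neg_pt m hm h)).trans ?_
  have hm1 : Measurable (fun x : E d => Fz ⟪x, h⟫) := measurable_Fz.comp (by fun_prop)
  have hm2 : Measurable (fun X : Fin (30 * m) → E d => ∏ i, Fz ⟪X i, h⟫) :=
    Finset.measurable_prod _ fun i _ => hm1.comp (measurable_pi_apply i)
  rw [lintegral_const_mul _ hm2]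
  gcongr
  rw [rows, lintegral_pi_prod (stdGaussian (E d)) (fun x => Fz ⟪x, h⟫) hm1]
  gcongr
  exact Fz_inner h hh

/-! ### the annulus integral -/

theorem measurable_integrand {n d k : ℕ} (m : ℕ) (ι : E k →ₗᵢ[ℝ] E d) :
    Measurable (fun p : (Fin n → E d) × E k =>
      (ENNReal.ofReal (qf p.1 (ι p.2)) ^ (2 * m))⁻¹) := by
  have h1 : Measurable (fun p : (Fin n → E d) × E k => (p.1, ι p.2)) := by
    have := ι.continuous
    fun_prop
  exact (((measurable_qf.comp h1).ennreal_ofReal).pow_const _).inv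

theorem measurable_In {n d k : ℕ} (m : ℕ) (ι : E k →ₗᵢ[ℝ] E d) :
    Measurable (In (n := n) m ι) := by
  unfold In
  exact Measurable.lintegral_prod_right'
    (f := fun p : (Fin n → E d) × E k => (ENNReal.ofReal (qf p.1 (ι p.2)) ^ (2 * m))⁻¹)
    (measurable_integrand m ι)

theorem In_moment {d k : ℕ} (m : ℕ) (hm : 1 ≤ m) (ι : E k →ₗᵢ[ℝ] E d) :
    ∫⁻ X, In m ι X ∂(rows (30 * m) d)
      ≤ ENNReal.ofReal ((((30 * m : ℕ) : ℝ) ^ (2 * m))⁻¹) * 12 ^ (30 * m) *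
        (2 ^ k * volume (ball (0 : E k) 1)) := by
  unfold In
  have : IsProbabilityMeasure (rows (30 * m) d) := by unfold rows; infer_instance
  rw [lintegral_lintegral_swap (measurable_integrand m ι).aemeasurable]
  have hms : MeasurableSet {h : E k | 1 / 2 ≤ ‖h‖ ∧ ‖h‖ ≤ 2} := by
    apply MeasurableSet.inter
    · exact measurableSet_le measurable_const measurable_norm
    · exact measurableSet_le measurable_norm measurable_const
  have h1 : ∀ h ∈ {h : E k | 1 / 2 ≤ ‖h‖ ∧ ‖h‖ ≤ 2},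
      ∫⁻ X, (ENNReal.ofReal (qf X (ι h)) ^ (2 * m))⁻¹ ∂(rows (30 * m) d)
      ≤ ENNReal.ofReal ((((30 * m : ℕ) : ℝ) ^ (2 * m))⁻¹) * 12 ^ (30 * m) := by
    intro h hh
    exact neg_moment m hm (ι h) (by rw [ι.norm_map]; exact hh.1)
  refine (setLIntegral_mono' hms h1).trans ?_
  rw [setLIntegral_const]
  gcongr
  calc volume {h : E k | 1 / 2 ≤ ‖h‖ ∧ ‖h‖ ≤ 2} ≤ volume (closedBall (0 : E k) 2) := by
        apply measure_mono
        intro h hh
        rw [mem_closedBall, dist_zero_right]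
        exact hh.2
    _ = 2 ^ k * volume (ball (0 : E k) 1) := by
        rw [Measure.addHaar_closedBall volume (0 : E k) (by norm_num), finrank_euclideanSpace,
          Fintype.card_fin, ENNReal.ofReal_pow (by norm_num)]
        simp

end L4

end P309
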