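import Vale.Agent.H20.P309.Base

/-!
# P309, row U1: rounding to a finite grid
-/

open MeasureTheory ProbabilityTheory
open scoped RealInnerProductSpace ENNReal

namespace P309

/-- clipping to `[-1, 1]` -/
noncomputable def clip1 (a : ℝ) : ℝ := max (-1) (min a 1)

/-- grid index -/
noncomputable def gidx (K : ℕ) (a : ℝ) : Fin (K + 1) :=
  Fin.ofNat (K + 1) ⌊(clip1 a + 1) * K / 2⌋₊

theorem clip1_mem (a : ℝ) : -1 ≤ clip1 a ∧ clip1 a ≤ 1 := by
  unfold clip1
  refine ⟨le_max_left _ _, max_le (by norm_num) (min_le_right _ _)⟩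

theorem clip1_lip (a s : ℝ) (hs : |s| ≤ 1) : |clip1 a - s| ≤ |a - s| := by
  have h1 := abs_le.1 hs
  unfold clip1
  rcases le_total a 1 with h | h
  · rw [min_eq_left h]
    rcases le_total (-1) a with h' | h'
    · rw [max_eq_right h']
    · rw [max_eq_left h', abs_of_nonpos (by linarith), abs_of_nonpos (by linarith)]
      linarith
  · rw [min_eq_right h, max_eq_right (by norm_num), abs_of_nonneg (by linarith),
      abs_of_nonneg (by linarith)]
    linarith

theorem measurable_gidx (K : ℕ) : Measurable (gidx K) := by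
  unfold gidx
  have h1 : Measurable (fun a : ℝ => ⌊(clip1 a + 1) * K / 2⌋₊) := by
    refine Nat.measurable_floor.comp ?_
    unfold clip1
    fun_prop
  exact (measurable_of_countable (fun m : ℕ => Fin.ofNat (K + 1) m)).comp h1

theorem gidx_spec (K : ℕ) (hK : 0 < K) (a : ℝ) :
    |(-1 + 2 * ((gidx K a : ℕ) : ℝ) / K) - clip1 a| ≤ 2 / K := by
  have hK' : (0 : ℝ) < K := by exact_mod_cast hK
  obtain ⟨h1, h2⟩ := clip1_mem a
  have h3 : 0 ≤ (clip1 a + 1) * K / 2 := by
    have : 0 ≤ clip1 a + 1 := by linarith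
    positivity
  have h4 : ⌊(clip1 a + 1) * K / 2⌋₊ < K + 1 := by
    rw [Nat.floor_lt h3]
    push_cast
    nlinarith
  have hv : ((gidx K a : ℕ)) = ⌊(clip1 a + 1) * K / 2⌋₊ := by
    unfold gidx
    rw [Fin.val_ofNat]
    exact Nat.mod_eq_of_lt h4
  rw [hv]
  have h5 := Nat.floor_le h3
  have h6 := Nat.lt_floor_add_one ((clip1 a + 1) * K / 2)
  set F : ℝ := ((⌊(clip1 a + 1) * K / 2⌋₊ : ℕ) : ℝ) with hF
  have h7 : 2 * F / K ≤ clip1 a + 1 := by
    rw [div_le_iff₀ hK']; linarith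
  have h8 : clip1 a + 1 ≤ 2 * F / K + 2 / K := by
    rw [← add_div, le_div_iff₀ hK']; linarith
  rw [abs_le]
  constructor <;> linarith

/-- U1: the grid -/
theorem grid (d : ℕ) (hd : 1 ≤ d) (δ : ℝ) (hδ : 0 < δ) :
    ∃ (N : ℕ) (enc : E d → Fin N) (dec : Fin N → E d),
      (N : ℝ) ≤ (2 * Real.sqrt d / δ + 2) ^ d ∧ Measurable enc ∧
      ∀ v s : E d, ‖s‖ ≤ 1 → ‖dec (enc v) - s‖ ≤ ‖v - s‖ + δ := by
  have hd' : (1 : ℝ) ≤ d := by exact_mod_cast hd
  have hsd : 0 < Real.sqrt d := Real.sqrt_pos.2 (by linarith)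
  set K : ℕ := ⌈2 * Real.sqrt d / δ⌉₊ with hKdef
  have hKpos : 0 < K := Nat.ceil_pos.2 (by positivity)
  have hK' : (0 : ℝ) < K := by exact_mod_cast hKpos
  have hKle : 2 * Real.sqrt d / δ ≤ K := Nat.le_ceil _
  have hKlt : (K : ℝ) < 2 * Real.sqrt d / δ + 1 := Nat.ceil_lt_add_one (by positivity)
  let e : (Fin d → Fin (K + 1)) ≃ Fin (Fintype.card (Fin d → Fin (K + 1))) :=
    Fintype.equivFin _
  refine ⟨Fintype.card (Fin d → Fin (K + 1)), fun v => e (fun i => gidx K (v i)),
    fun z => WithLp.toLp 2 (fun i => -1 + 2 * (((e.symm z) i : ℕ) : ℝ) / K), ?_, ?_, ?_⟩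
  · simp only [Fintype.card_pi, Fintype.card_fin, Finset.prod_const, Finset.card_univ]
    push_cast
    refine pow_le_pow_left₀ (by positivity) ?_ d
    linarith
  · refine (measurable_of_countable (fun z : Fin d → Fin (K + 1) => e z)).comp ?_
    refine measurable_pi_lambda _ fun i => (measurable_gidx K).comp ?_
    fun_prop
  · intro v s hs
    have hsi : ∀ i, |s i| ≤ 1 := fun i => by
      have := PiLp.norm_apply_le s i
      rw [Real.norm_eq_abs] at this
      linarith
    have hcoord : ∀ i, |(-1 + 2 * ((gidx K (v i) : ℕ) : ℝ) / K) - s i| ≤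
        |v i - s i| + 2 / K := fun i => by
      have h1 := gidx_spec K hKpos (v i)
      have h2 := clip1_lip (v i) (s i) (hsi i)
      calc |(-1 + 2 * ((gidx K (v i) : ℕ) : ℝ) / K) - s i|
          = |((-1 + 2 * ((gidx K (v i) : ℕ) : ℝ) / K) - clip1 (v i)) + (clip1 (v i) - s i)| := by
            ring_nf
        _ ≤ _ := (abs_add_le _ _).trans (by linarith)
    -- comparison vectors
    let w : E d := WithLp.toLp 2 (fun i => |v i - s i|)
    let c : E d := WithLp.toLp 2 (fun _ => 2 / (K : ℝ))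
    have hw : ‖w‖ = ‖v - s‖ := by
      rw [EuclideanSpace.norm_eq, EuclideanSpace.norm_eq]
      simp [w]
    have hc : ‖c‖ ≤ δ := by
      rw [EuclideanSpace.norm_eq]
      have : (∑ i : Fin d, ‖c i‖ ^ 2) = d * (2 / (K : ℝ)) ^ 2 := by
        simp [c]
      rw [this, Real.sqrt_mul (by linarith), Real.sqrt_sq (by positivity)]
      rw [div_le_iff₀ hδ] at hKle
      rw [mul_div_assoc', div_le_iff₀ hK']
      linarith
    have hmain : ‖WithLp.toLp 2 (fun i => -1 + 2 * ((gidx K (v i) : ℕ) : ℝ) / K) - s‖ ≤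
        ‖w + c‖ := by
      rw [EuclideanSpace.norm_eq, EuclideanSpace.norm_eq]
      refine Real.sqrt_le_sqrt (Finset.sum_le_sum fun i _ => ?_)
      have h1 : 0 ≤ |v i - s i| + 2 / (K : ℝ) := by positivity
      have h2 := hcoord i
      simp only [PiLp.sub_apply, PiLp.add_apply, Real.norm_eq_abs, w, c]
      rw [abs_of_nonneg h1]
      exact pow_le_pow_left₀ (abs_nonneg _) h2 2
    have hfin := hmain.trans (norm_add_le w c)
    simp only [Equiv.symm_apply_apply]
    linarith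

end P309
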