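import Vale.Agent.H20.P309.L1

/-! # U2: one Kaczmarz step -/

open MeasureTheory ProbabilityTheory
open scoped RealInnerProductSpace ENNReal

namespace P309

theorem U2.sq_one : ∫⁻ t : ℝ, ENNReal.ofReal (t ^ 2) ∂(gaussianReal 0 1) = 1 := by
  have hint : Integrable (fun t : ℝ => t ^ 2) (gaussianReal 0 1) := by
    have := (memLp_id_gaussianReal (μ := 0) (v := 1) 2).integrable_sq
    simpa using this
  have hvar : ∫ t : ℝ, t ^ 2 ∂(gaussianReal 0 1) = 1 := by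
    have h := variance_fun_id_gaussianReal (μ := 0) (v := 1)
    rw [variance_eq_integral (by fun_prop)] at h
    simpa [integral_id_gaussianReal] using h
  rw [← ofReal_integral_eq_lintegral_ofReal hint (Filter.Eventually.of_forall fun t => sq_nonneg t),
    hvar, ENNReal.ofReal_one]

theorem U2.inner_sq {d : ℕ} (u : E d) :
    ∫⁻ x, ENNReal.ofReal (⟪x, u⟫ ^ 2) ∂(stdGaussian (E d)) = ENNReal.ofReal (‖u‖ ^ 2) := by
  have h1 : ∫⁻ x, ENNReal.ofReal (⟪x, u⟫ ^ 2) ∂(stdGaussian (E d)) =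
      ∫⁻ y : ℝ, ENNReal.ofReal (y ^ 2) ∂((stdGaussian (E d)).map (fun x => ⟪x, u⟫)) := by
    rw [lintegral_map (by fun_prop) (by fun_prop)]
  rw [h1, L1.map_inner, lintegral_map (by fun_prop) (by fun_prop)]
  have h2 : ∀ t : ℝ, ENNReal.ofReal ((t * ‖u‖) ^ 2) =
      ENNReal.ofReal (‖u‖ ^ 2) * ENNReal.ofReal (t ^ 2) := fun t => by
    rw [← ENNReal.ofReal_mul (sq_nonneg _)]
    congr 1
    ring
  simp_rw [h2]
  rw [lintegral_const_mul _ (by fun_prop), U2.sq_one, mul_one]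

theorem U2.norm_sq (d : ℕ) :
    ∫⁻ x, ENNReal.ofReal (‖x‖ ^ 2) ∂(stdGaussian (E d)) = d := by
  have h1 : ∀ x : E d, ENNReal.ofReal (‖x‖ ^ 2) =
      ∑ i : Fin d, ENNReal.ofReal (⟪x, EuclideanSpace.single i (1 : ℝ)⟫ ^ 2) := by
    intro x
    rw [EuclideanSpace.norm_sq_eq, ENNReal.ofReal_sum_of_nonneg (fun i _ => sq_nonneg _)]
    refine Finset.sum_congr rfl fun i _ => ?_
    congr 1
    rw [EuclideanSpace.inner_single_right]
    simp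
  simp_rw [h1]
  rw [lintegral_finsetSum _ (fun i _ => by fun_prop)]
  simp_rw [U2.inner_sq]
  simp

/-- the good event -/
theorem U2.good {d : ℕ} (hd : 1 ≤ d) (u : E d) (hu : u ≠ 0) :
    (1 / 2 : ℝ≥0∞) ≤ stdGaussian (E d) {x | ‖u‖ / 4 ≤ |⟪x, u⟫| ∧ ‖x‖ ^ 2 ≤ 4 * d} := by
  have hd' : (0 : ℝ) < d := by exact_mod_cast hd
  set A : Set (E d) := {x | ‖u‖ / 4 ≤ |⟪x, u⟫| ∧ ‖x‖ ^ 2 ≤ 4 * d} with hA
  have hAm : MeasurableSet A := by
    have e1 : MeasurableSet {x : E d | ‖u‖ / 4 ≤ |⟪x, u⟫|} :=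
      measurableSet_le (by fun_prop) (by fun_prop)
    have e2 : MeasurableSet {x : E d | ‖x‖ ^ 2 ≤ 4 * d} :=
      measurableSet_le (by fun_prop) (by fun_prop)
    exact e1.inter e2
  have hsub : Aᶜ ⊆ {x : E d | |0 + ⟪x, u⟫| ≤ ‖u‖ / 4} ∪
      {x : E d | ENNReal.ofReal (4 * d) ≤ ENNReal.ofReal (‖x‖ ^ 2)} := by
    intro x hx
    simp only [hA, Set.mem_compl_iff, Set.mem_ofPred_eq, not_and_or, not_le] at hx
    rcases hx with hx | hx
    · left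
      simp only [Set.mem_ofPred_eq, zero_add]
      exact hx.le
    · right
      exact ENNReal.ofReal_le_ofReal hx.le
  have h1 : stdGaussian (E d) {x : E d | |0 + ⟪x, u⟫| ≤ ‖u‖ / 4} ≤ 1 / 4 := by
    refine (gauss_anti u hu 0 (‖u‖ / 4) (by positivity)).trans ?_
    have hn : ‖u‖ ≠ 0 := norm_ne_zero_iff.mpr hu
    have : ‖u‖ / 4 / ‖u‖ = 1 / 4 := by field_simp
    rw [this]
    rw [ENNReal.ofReal_div_of_pos (by norm_num)]
    simp
  have h2 : stdGaussian (E d) {x : E d | ENNReal.ofReal (4 * d) ≤ ENNReal.ofReal (‖x‖ ^ 2)} ≤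
      1 / 4 := by
    have h3 := mul_meas_ge_le_lintegral₀ (μ := stdGaussian (E d))
      (f := fun x : E d => ENNReal.ofReal (‖x‖ ^ 2)) (by fun_prop) (ENNReal.ofReal (4 * d))
    rw [U2.norm_sq] at h3
    have h4 : ENNReal.ofReal (4 * d) = 4 * d := by
      rw [ENNReal.ofReal_mul (by norm_num)]
      simp
    rw [h4] at h3 ⊢
    have hdn : (d : ℝ≥0∞) ≠ 0 := by exact_mod_cast (by omega : d ≠ 0)
    rw [ENNReal.le_div_iff_mul_le (Or.inl (by norm_num)) (Or.inl (by norm_num))]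
    have h5 : (d : ℝ≥0∞) * (4 * stdGaussian (E d) {x : E d | (4 * d : ℝ≥0∞) ≤ ENNReal.ofReal (‖x‖ ^ 2)}) ≤ d * 1 := by
      rw [mul_one]
      calc _ = 4 * (d : ℝ≥0∞) * stdGaussian (E d) {x : E d | (4 * d : ℝ≥0∞) ≤ ENNReal.ofReal (‖x‖ ^ 2)} := by ring
        _ ≤ _ := h3
    rw [mul_comm]
    exact (ENNReal.mul_le_mul_iff_right hdn (ENNReal.natCast_ne_top d)).mp h5
  have h5 : stdGaussian (E d) Aᶜ ≤ 1 / 2 := by
    refine (measure_mono hsub).trans ((measure_union_le _ _).trans ((add_le_add h1 h2).trans ?_))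
    rw [← ENNReal.toReal_le_toReal (by simp) (by simp),
      ENNReal.toReal_add (by simp) (by simp)]
    simp
    norm_num
  have h6 : stdGaussian (E d) A + stdGaussian (E d) Aᶜ = 1 := by
    rw [measure_add_measure_compl hAm, measure_univ]
  have h7 : (1 : ℝ≥0∞) ≤ stdGaussian (E d) A + 1 / 2 :=
    h6.symm.le.trans (add_le_add le_rfl h5)
  have h8 : (1 / 2 : ℝ≥0∞) + 1 / 2 ≤ stdGaussian (E d) A + 1 / 2 := by
    rwa [ENNReal.add_halves]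
  exact (ENNReal.add_le_add_iff_right (by simp)).mp h8

/-- one Kaczmarz step, squared norm -/
theorem U2.sq_eq {d : ℕ} (u x : E d) :
    ‖u - (⟪x, u⟫ / ‖x‖ ^ 2) • x‖ ^ 2 = ‖u‖ ^ 2 - ⟪x, u⟫ ^ 2 / ‖x‖ ^ 2 := by
  rw [norm_sub_sq_real, norm_smul, real_inner_smul_right, mul_pow, Real.norm_eq_abs, sq_abs]
  rcases eq_or_ne x 0 with h0 | h0
  · simp [h0]
  · have hx : ‖x‖ ≠ 0 := norm_ne_zero_iff.mpr h0
    rw [real_inner_comm x u]
    field_simp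
    ring

/-- one Kaczmarz step, pointwise -/
theorem U2.pointwise {d : ℕ} (u x : E d) :
    ‖u - (⟪x, u⟫ / ‖x‖ ^ 2) • x‖ ≤ ‖u‖ := by
  rw [← sq_le_sq₀ (norm_nonneg _) (norm_nonneg _), U2.sq_eq]
  have : 0 ≤ ⟪x, u⟫ ^ 2 / ‖x‖ ^ 2 := by positivity
  linarith

theorem U2.pointwise' {d : ℕ} (hd : 1 ≤ d) (u x : E d) (hu : u ≠ 0) (h1 : ‖u‖ / 4 ≤ |⟪x, u⟫|)
    (h2 : ‖x‖ ^ 2 ≤ 4 * d) :
    ‖u - (⟪x, u⟫ / ‖x‖ ^ 2) • x‖ ≤ (1 - 1 / (128 * d)) * ‖u‖ := by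
  have hd' : (1 : ℝ) ≤ d := by exact_mod_cast hd
  have hn : 0 < ‖u‖ := norm_pos_iff.mpr hu
  have ha : 1 / (128 * (d : ℝ)) ≤ 1 := by
    rw [div_le_one (by positivity)]
    linarith
  have hb : 0 ≤ (1 - 1 / (128 * (d : ℝ))) * ‖u‖ := mul_nonneg (by linarith) hn.le
  rw [← sq_le_sq₀ (norm_nonneg _) hb, U2.sq_eq]
  have hx0 : 0 < ‖x‖ ^ 2 := by
    have : x ≠ 0 := by
      intro h0
      rw [h0, inner_zero_left, abs_zero] at h1
      linarith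
    have := norm_pos_iff.mpr this
    positivity
  have h3 : ‖u‖ ^ 2 / 16 ≤ ⟪x, u⟫ ^ 2 := by
    rw [← sq_abs ⟪x, u⟫]
    nlinarith
  have h4 : ‖u‖ ^ 2 / (64 * d) ≤ ⟪x, u⟫ ^ 2 / ‖x‖ ^ 2 := by
    rw [div_le_div_iff₀ (by positivity) hx0]
    have e1 : ‖u‖ ^ 2 * ‖x‖ ^ 2 ≤ ‖u‖ ^ 2 * (4 * d) :=
      mul_le_mul_of_nonneg_left h2 (sq_nonneg _)
    have e2 : ‖u‖ ^ 2 / 16 * (64 * d) ≤ ⟪x, u⟫ ^ 2 * (64 * d) :=
      mul_le_mul_of_nonneg_right h3 (by positivity)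
    linarith
  have h5 : ((1 - 1 / (128 * (d : ℝ))) * ‖u‖) ^ 2 =
      ‖u‖ ^ 2 - ‖u‖ ^ 2 / (64 * d) + (1 / (128 * d) * ‖u‖) ^ 2 := by
    field_simp
    ring
  rw [h5]
  have := sq_nonneg (1 / (128 * (d : ℝ)) * ‖u‖)
  linarith

/-- U2: one Kaczmarz step -/
theorem kaczmarz_step : ∃ c : ℝ, 0 < c ∧ c ≤ 1 / 2 ∧ ∀ d : ℕ, 1 ≤ d → ∀ u : E d,
    ∫⁻ x, ENNReal.ofReal ‖u - (⟪x, u⟫ / ‖x‖ ^ 2) • x‖ ∂(stdGaussian (E d))
      ≤ ENNReal.ofReal ((1 - c / d) * ‖u‖) := by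
  refine ⟨1 / 256, by norm_num, by norm_num, ?_⟩
  intro d hd u
  rcases eq_or_ne u 0 with h0 | h0
  · simp [h0]
  have hd' : (1 : ℝ) ≤ d := by exact_mod_cast hd
  have hn : 0 < ‖u‖ := norm_pos_iff.mpr h0
  set A : Set (E d) := {x | ‖u‖ / 4 ≤ |⟪x, u⟫| ∧ ‖x‖ ^ 2 ≤ 4 * d} with hA
  have hAm : MeasurableSet A := by
    have e1 : MeasurableSet {x : E d | ‖u‖ / 4 ≤ |⟪x, u⟫|} :=
      measurableSet_le (by fun_prop) (by fun_prop)
    have e2 : MeasurableSet {x : E d | ‖x‖ ^ 2 ≤ 4 * d} :=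
      measurableSet_le (by fun_prop) (by fun_prop)
    exact e1.inter e2
  have hgood := U2.good hd u h0
  rw [← hA] at hgood
  set μ := stdGaussian (E d) with hμ
  have h1 : ∫⁻ x, ENNReal.ofReal ‖u - (⟪x, u⟫ / ‖x‖ ^ 2) • x‖ ∂μ ≤
      ENNReal.ofReal ((1 - 1 / (128 * d)) * ‖u‖) * μ A + ENNReal.ofReal ‖u‖ * μ Aᶜ := by
    rw [← lintegral_add_compl _ hAm]
    refine add_le_add ?_ ?_
    · calc _ ≤ ∫⁻ _x in A, ENNReal.ofReal ((1 - 1 / (128 * d)) * ‖u‖) ∂μ := by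
            apply setLIntegral_mono measurable_const
            intro x hx
            exact ENNReal.ofReal_le_ofReal (U2.pointwise' hd u x h0 hx.1 hx.2)
        _ = _ := by rw [setLIntegral_const]
    · calc _ ≤ ∫⁻ _x in Aᶜ, ENNReal.ofReal ‖u‖ ∂μ := by
            apply setLIntegral_mono measurable_const
            intro x _
            exact ENNReal.ofReal_le_ofReal (U2.pointwise u x)
        _ = _ := by rw [setLIntegral_const]
  refine h1.trans ?_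
  have hAtop : μ A ≠ ⊤ := measure_ne_top _ _
  have hactop : μ Aᶜ ≠ ⊤ := measure_ne_top _ _
  have hsum : (μ A).toReal + (μ Aᶜ).toReal = 1 := by
    rw [← ENNReal.toReal_add hAtop hactop, measure_add_measure_compl hAm, measure_univ]
    simp
  have hA2 : 1 / 2 ≤ (μ A).toReal := by
    have := ENNReal.toReal_mono hAtop hgood
    simpa using this
  have ha : 0 ≤ (1 - 1 / (128 * (d : ℝ))) * ‖u‖ := by
    apply mul_nonneg _ hn.le
    have : 1 / (128 * (d : ℝ)) ≤ 1 := by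
      rw [div_le_one (by positivity)]
      linarith
    linarith
  rw [← ENNReal.ofReal_toReal hAtop, ← ENNReal.ofReal_toReal hactop,
    ← ENNReal.ofReal_mul ha, ← ENNReal.ofReal_mul hn.le,
    ← ENNReal.ofReal_add (mul_nonneg ha ENNReal.toReal_nonneg)
      (mul_nonneg hn.le ENNReal.toReal_nonneg)]
  apply ENNReal.ofReal_le_ofReal
  have e1 : (1 - 1 / (128 * (d : ℝ))) * ‖u‖ * (μ A).toReal + ‖u‖ * (μ Aᶜ).toReal =
      ‖u‖ - ‖u‖ / (128 * d) * (μ A).toReal := by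
    have : (μ Aᶜ).toReal = 1 - (μ A).toReal := by linarith
    rw [this]
    field_simp
    ring
  have e2 : (1 - 1 / 256 / (d : ℝ)) * ‖u‖ = ‖u‖ - ‖u‖ / (128 * d) * (1 / 2) := by
    field_simp
    ring
  rw [e1, e2]
  have e3 : ‖u‖ / (128 * (d : ℝ)) * (1 / 2) ≤ ‖u‖ / (128 * d) * (μ A).toReal :=
    mul_le_mul_of_nonneg_left hA2 (by positivity)
  linarith

end P309
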