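import Vale.Agent.H20.P309.Reduce
import Vale.Agent.H20.P309.L12

/-! P309, row U3: the rounded Kaczmarz learner and its analysis. -/

open MeasureTheory ProbabilityTheory
open scoped RealInnerProductSpace ENNReal

namespace P309

open MemLearner

namespace U3

variable {d N : ℕ}

/-- the next state -/
noncomputable def nxt (enc : E d → Fin N) (dec : Fin N → E d) (z : Fin N) (x : E d) (y : ℝ) :
    Fin N := enc (dec z + ((y - ⟪x, dec z⟫) / ‖x‖ ^ 2) • x)

/-- the normalized vector (any fixed unit vector in case of zero) -/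
noncomputable def nrm (v0 : Sph d) (v : E d) : Sph d :=
  if h : v = 0 then v0 else ⟨(‖v‖)⁻¹ • v, by
    rw [mem_sphere_zero_iff_norm, norm_smul, norm_inv, norm_norm]
    exact inv_mul_cancel₀ (norm_ne_zero_iff.2 h)⟩

theorem nxt_meas (enc : E d → Fin N) (henc : Measurable enc) (dec : Fin N → E d) (z : Fin N) :
    Measurable (fun q : E d × ℝ => nxt enc dec z q.1 q.2) := by
  have h1 : Measurable (fun q : E d × ℝ => (q.2 - ⟪q.1, dec z⟫) / ‖q.1‖ ^ 2) :=
    (measurable_snd.sub (measurable_fst.inner measurable_const)).div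
      (measurable_fst.norm.pow_const 2)
  have h2 : Measurable (fun q : E d × ℝ => ((q.2 - ⟪q.1, dec z⟫) / ‖q.1‖ ^ 2) • q.1) :=
    h1.smul measurable_fst
  exact henc.comp (measurable_const.add h2)

/-- the rounded Kaczmarz learner -/
noncomputable def kl (v0 : Sph d) (enc : E d → Fin N) (henc : Measurable enc)
    (dec : Fin N → E d) : Learner d N where
  init w := if w = (enc 0, false) then 1 else 0
  init_sum := by simp
  step _ z x y w := if w = (nxt enc dec z x y, false) then 1 else 0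
  step_meas := by
    intro t z w
    refine Measurable.ite ?_ measurable_const measurable_const
    have hm : Measurable (fun q : E d × ℝ => ((nxt enc dec z q.1 q.2, false) : Fin N × Bool)) :=
      (nxt_meas enc henc dec z).prodMk measurable_const
    have he : {q : E d × ℝ | w = (nxt enc dec z q.1 q.2, false)}
        = (fun q : E d × ℝ => ((nxt enc dec z q.1 q.2, false) : Fin N × Bool)) ⁻¹' {w} := by
      ext q
      simp only [Set.mem_ofPred_eq, Set.mem_preimage, Set.mem_singleton_iff]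
      exact eq_comm
    rw [he]
    exact hm (measurableSet_singleton w)
  step_sum := by intro t z x y; simp
  out _ z := Measure.dirac (nrm v0 (dec z))
  out_prob := by intro t z; infer_instance

section

variable (v0 : Sph d) (enc : E d → Fin N) (henc : Measurable enc) (dec : Fin N → E d)

theorem kl_init (z : Fin N) : (kl v0 enc henc dec).init (z, false)
    = if z = enc 0 then 1 else 0 := by
  show (if ((z, false) : Fin N × Bool) = (enc 0, false) then (1 : ℝ≥0∞) else 0) = _
  by_cases h : z = enc 0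
  · simp [h]
  · simp [h]

theorem kl_step (t : ℕ) (z z' : Fin N) (x : E d) (y : ℝ) :
    (kl v0 enc henc dec).step t z x y (z', false)
    = if z' = nxt enc dec z x y then 1 else 0 := by
  show (if ((z', false) : Fin N × Bool) = (nxt enc dec z x y, false) then (1 : ℝ≥0∞) else 0) = _
  by_cases h : z' = nxt enc dec z x y
  · simp [h]
  · simp [h]

/-- summation of a test function over the next state -/
theorem sum_succ (s : E d) (t : ℕ) (g : Fin N → ℝ≥0∞) :
    ∑ z', Fp (kl v0 enc henc dec) s (t + 1) (z', false) * g z'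
      = ∑ z, Fp (kl v0 enc henc dec) s t (z, false) *
        ∫⁻ x, g (nxt enc dec z x ⟪x, s⟫) ∂(stdGaussian (E d)) := by
  have h1 : ∀ z', Fp (kl v0 enc henc dec) s (t + 1) (z', false) * g z'
      = ∑ z, Fp (kl v0 enc henc dec) s t (z, false) *
        ∫⁻ x, (kl v0 enc henc dec).step t z x ⟪x, s⟫ (z', false) * g z' ∂(stdGaussian (E d)) := by
    intro z'
    rw [Fp_succ, Finset.sum_mul]
    refine Finset.sum_congr rfl fun z _ => ?_
    rw [mul_assoc, lintegral_mul_const _ (meas_step1 _ s t z (z', false))]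
  rw [Finset.sum_congr rfl fun z' _ => h1 z', Finset.sum_comm]
  refine Finset.sum_congr rfl fun z _ => ?_
  rw [← Finset.mul_sum, ← lintegral_finsetSum]
  · congr 1
    refine lintegral_congr fun x => ?_
    simp only [kl_step]
    simp
  · intro z' _
    exact (meas_step1 _ s t z (z', false)).mul_const _

theorem sum_zero (s : E d) (g : Fin N → ℝ≥0∞) :
    ∑ z', Fp (kl v0 enc henc dec) s 0 (z', false) * g z' = g (enc 0) := by
  simp only [Fp_zero, kl_init]
  simp

theorem sum_one (s : E d) (t : ℕ) : ∑ z, Fp (kl v0 enc henc dec) s t (z, false) = 1 := by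
  induction t with
  | zero =>
    have := sum_zero v0 enc henc dec s (fun _ => 1)
    simpa using this
  | succ t ih =>
    have := sum_succ v0 enc henc dec s t (fun _ => 1)
    simp only [mul_one, lintegral_const, measure_univ] at this
    rw [this, ih]

theorem G_bound (c δ : ℝ) (hd : 2 ≤ d) (hc : 0 < c) (hc1 : c ≤ 1 / 2) (hδ : 0 < δ)
    (hround : ∀ v s : E d, ‖s‖ ≤ 1 → ‖dec (enc v) - s‖ ≤ ‖v - s‖ + δ)
    (hk : ∀ u : E d, ∫⁻ x, ENNReal.ofReal ‖u - (⟪x, u⟫ / ‖x‖ ^ 2) • x‖ ∂(stdGaussian (E d))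
      ≤ ENNReal.ofReal ((1 - c / d) * ‖u‖)) (s : E d) (hs : ‖s‖ = 1) (t : ℕ) :
    ∑ z, Fp (kl v0 enc henc dec) s t (z, false) * ENNReal.ofReal ‖dec z - s‖
      ≤ ENNReal.ofReal ((1 - c / d) ^ t * (1 + δ) + d / c * δ) := by
  have hd2 : (2 : ℝ) ≤ d := by exact_mod_cast hd
  have hd0 : (0 : ℝ) < d := by linarith
  have h0 : 0 ≤ 1 - c / (d : ℝ) := by
    have : c / (d : ℝ) ≤ 1 := by rw [div_le_one hd0]; linarith
    linarith
  induction t with
  | zero =>
    rw [sum_zero v0 enc henc dec s (fun z => ENNReal.ofReal ‖dec z - s‖)]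
    apply ENNReal.ofReal_le_ofReal
    have h1 := hround 0 s hs.le
    rw [zero_sub, norm_neg, hs] at h1
    have h2 : 0 ≤ d / c * δ := by positivity
    simp only [pow_zero, one_mul]
    linarith
  | succ t ih =>
    rw [sum_succ v0 enc henc dec s t (fun z => ENNReal.ofReal ‖dec z - s‖)]
    have h1 : ∀ z, ∫⁻ x, ENNReal.ofReal ‖dec (nxt enc dec z x ⟪x, s⟫) - s‖ ∂(stdGaussian (E d))
        ≤ ENNReal.ofReal (1 - c / d) * ENNReal.ofReal ‖dec z - s‖ + ENNReal.ofReal δ := by
      intro z
      calc ∫⁻ x, ENNReal.ofReal ‖dec (nxt enc dec z x ⟪x, s⟫) - s‖ ∂(stdGaussian (E d))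
          ≤ ∫⁻ x, (ENNReal.ofReal ‖(dec z - s) - (⟪x, dec z - s⟫ / ‖x‖ ^ 2) • x‖
              + ENNReal.ofReal δ) ∂(stdGaussian (E d)) := by
            refine lintegral_mono fun x => ?_
            rw [← ENNReal.ofReal_add (norm_nonneg _) hδ.le]
            apply ENNReal.ofReal_le_ofReal
            have h2 := hround (dec z + ((⟪x, s⟫ - ⟪x, dec z⟫) / ‖x‖ ^ 2) • x) s hs.le
            have h3 : dec z + ((⟪x, s⟫ - ⟪x, dec z⟫) / ‖x‖ ^ 2) • x - s
                = (dec z - s) - (⟪x, dec z - s⟫ / ‖x‖ ^ 2) • x := by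
              rw [inner_sub_right]
              have : (⟪x, s⟫ - ⟪x, dec z⟫) / ‖x‖ ^ 2 = -((⟪x, dec z⟫ - ⟪x, s⟫) / ‖x‖ ^ 2) := by
                ring
              rw [this, neg_smul]
              abel
            rw [h3] at h2
            exact h2
        _ = ∫⁻ x, ENNReal.ofReal ‖(dec z - s) - (⟪x, dec z - s⟫ / ‖x‖ ^ 2) • x‖
              ∂(stdGaussian (E d)) + ENNReal.ofReal δ := by
            rw [lintegral_add_right _ measurable_const]
            simp
        _ ≤ ENNReal.ofReal ((1 - c / d) * ‖dec z - s‖) + ENNReal.ofReal δ := by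
            gcongr
            exact hk _
        _ = _ := by rw [ENNReal.ofReal_mul h0]
    calc ∑ z, Fp (kl v0 enc henc dec) s t (z, false) *
          ∫⁻ x, ENNReal.ofReal ‖dec (nxt enc dec z x ⟪x, s⟫) - s‖ ∂(stdGaussian (E d))
        ≤ ∑ z, Fp (kl v0 enc henc dec) s t (z, false) *
          (ENNReal.ofReal (1 - c / d) * ENNReal.ofReal ‖dec z - s‖ + ENNReal.ofReal δ) :=
          Finset.sum_le_sum fun z _ => mul_le_mul' le_rfl (h1 z)
      _ = ENNReal.ofReal (1 - c / d) *
            (∑ z, Fp (kl v0 enc henc dec) s t (z, false) * ENNReal.ofReal ‖dec z - s‖)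
          + (∑ z, Fp (kl v0 enc henc dec) s t (z, false)) * ENNReal.ofReal δ := by
          rw [Finset.mul_sum, Finset.sum_mul, ← Finset.sum_add_distrib]
          refine Finset.sum_congr rfl fun z _ => ?_
          ring
      _ ≤ ENNReal.ofReal (1 - c / d) * ENNReal.ofReal ((1 - c / d) ^ t * (1 + δ) + d / c * δ)
          + ENNReal.ofReal δ := by
          rw [sum_one, one_mul]
          gcongr
      _ = ENNReal.ofReal ((1 - c / d) ^ (t + 1) * (1 + δ) + d / c * δ) := by
          rw [← ENNReal.ofReal_mul h0, ← ENNReal.ofReal_add _ hδ.le]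
          · congr 1
            have h4 : c / d * (d / c * δ) = δ := by field_simp
            rw [pow_succ]
            linear_combination (-1 : ℝ) * h4
          · positivity

end

/-- a point near the unit vector `s` has small angle with `s` after normalization. -/
theorem angle (v0 : Sph d) (v s : E d) (hs : ‖s‖ = 1) (ε : ℝ) (h : ‖v - s‖ ≤ ε / 4) :
    Real.arccos ⟪(nrm v0 v).1, s⟫ ≤ ε := by
  rcases le_or_gt 4 ε with h4 | h4
  · exact (Real.arccos_le_pi _).trans (by linarith [Real.pi_le_four])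
  · have hv : v ≠ 0 := by
      rintro rfl
      rw [zero_sub, norm_neg, hs] at h
      linarith
    have hvn : ‖v‖ ≠ 0 := norm_ne_zero_iff.2 hv
    have ho : (nrm v0 v).1 = (‖v‖)⁻¹ • v := by
      unfold nrm
      rw [dif_neg hv]
    have ho1 : ‖(nrm v0 v).1‖ = 1 := by simp
    set o := (nrm v0 v).1 with hodef
    have h1 : ‖o - v‖ ≤ ε / 4 := by
      have e1 : o - v = ((‖v‖)⁻¹ - 1) • v := by rw [ho, sub_smul, one_smul]
      rw [e1, norm_smul, Real.norm_eq_abs]
      have e2 : |(‖v‖)⁻¹ - 1| * ‖v‖ = |1 - ‖v‖| := by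
        rw [← abs_of_nonneg (norm_nonneg v), ← abs_mul, abs_of_nonneg (norm_nonneg v)]
        congr 1
        field_simp
      rw [e2]
      refine le_trans ?_ h
      rw [← hs, norm_sub_rev]
      exact abs_norm_sub_norm_le _ _
    have h2 : ‖o - s‖ ≤ ε / 2 := by
      calc ‖o - s‖ = ‖(o - v) + (v - s)‖ := by congr 1; abel
        _ ≤ ‖o - v‖ + ‖v - s‖ := norm_add_le _ _
        _ ≤ ε / 2 := by linarith
    have hε : 0 ≤ ε := by
      have := norm_nonneg (o - s)
      linarith
    set θ := Real.arccos ⟪o, s⟫ with hθ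
    have h3 : |⟪o, s⟫| ≤ 1 := by
      have := abs_real_inner_le_norm o s
      rwa [ho1, hs, one_mul] at this
    have h5 : Real.cos θ = ⟪o, s⟫ := Real.cos_arccos (abs_le.1 h3).1 (abs_le.1 h3).2
    have h6 : ‖o - s‖ ^ 2 = 2 - 2 * Real.cos θ := by
      rw [@norm_sub_sq_real, ho1, hs, h5]
      ring
    have hθ0 : 0 ≤ θ := Real.arccos_nonneg _
    have hθπ : θ ≤ Real.pi := Real.arccos_le_pi _
    have h7 := Real.cos_le_one_sub_mul_cos_sq (x := θ) (by rw [abs_of_nonneg hθ0]; exact hθπ)
    have hπ := Real.pi_pos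
    have h8 : (2 / Real.pi * θ) ^ 2 ≤ (ε / 2) ^ 2 := by
      calc (2 / Real.pi * θ) ^ 2 = 2 * (2 / Real.pi ^ 2 * θ ^ 2) := by
            field_simp
        _ ≤ 2 - 2 * Real.cos θ := by linarith
        _ = ‖o - s‖ ^ 2 := h6.symm
        _ ≤ (ε / 2) ^ 2 := by gcongr
    have h9 : 2 / Real.pi * θ ≤ ε / 2 := by
      refine abs_le_of_sq_le_sq' h8 (by linarith) |>.2
    have h10 : θ ≤ Real.pi * ε / 4 := by
      have : 2 / Real.pi * θ * Real.pi = 2 * θ := by field_simp
      nlinarith
    have h11 := Real.pi_le_four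
    nlinarith

end U3

open U3 in
/-- U3: the rounded Kaczmarz learner -/
theorem kaczmarz_learner (d N : ℕ) (hd : 2 ≤ d) (enc : E d → Fin N) (henc : Measurable enc)
    (dec : Fin N → E d) (c δ : ℝ) (hc : 0 < c) (hc1 : c ≤ 1 / 2) (hδ : 0 < δ)
    (hround : ∀ v s : E d, ‖s‖ ≤ 1 → ‖dec (enc v) - s‖ ≤ ‖v - s‖ + δ)
    (hk : ∀ u : E d, ∫⁻ x, ENNReal.ofReal ‖u - (⟪x, u⟫ / ‖x‖ ^ 2) • x‖ ∂(stdGaussian (E d))
      ≤ ENNReal.ofReal ((1 - c / d) * ‖u‖))
    (T : ℕ) (ε : ℝ) (hε : 0 < ε) (hT : (1 - c / d) ^ T * (1 + δ) + d / c * δ ≤ ε / 12) :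
    ∃ L : Learner d N, (∀ t t', L.out t = L.out t') ∧ ENNReal.ofReal (2 / 3) ≤ L.success T ε := by
  have hprob : IsProbabilityMeasure (unifSphere d) := by
    have h := sph_prob d hd
    constructor
    have h1 : sph d Set.univ = 1 := h.measure_univ
    rw [sph_eq, Measure.map_apply measurable_subtype_coe MeasurableSet.univ,
      Set.preimage_univ] at h1
    exact h1
  have hne : Nonempty (Sph d) := by
    have : NeZero d := ⟨by omega⟩
    refine ⟨⟨EuclideanSpace.single 0 1, ?_⟩⟩
    simp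
  obtain ⟨v0⟩ := hne
  refine ⟨kl v0 enc henc dec, fun _ _ => rfl, ?_⟩
  set L := kl v0 enc henc dec with hL
  rw [success_eq]
  have hpt : ∀ s : Sph d, ENNReal.ofReal (2 / 3) ≤ ∑ w, law (KK L T) (pp L T) T s.1 w *
      OO L T w {v | Real.arccos ⟪v.1, s.1⟫ ≤ ε} := by
    intro s
    have hs : ‖s.1‖ = 1 := by simp
    have hG := G_bound v0 enc henc dec c δ hd hc hc1 hδ hround hk s.1 hs T
    have hG2 : ∑ z, Fp L s.1 T (z, false) * ENNReal.ofReal ‖dec z - s.1‖
        ≤ ENNReal.ofReal (ε / 12) := hG.trans (ENNReal.ofReal_le_ofReal hT)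
    have h1 : ∑ z, Fp L s.1 T (z, false) * L.out T z {v | Real.arccos ⟪v.1, s.1⟫ ≤ ε}
        ≤ ∑ w, law (KK L T) (pp L T) T s.1 w * OO L T w {v | Real.arccos ⟪v.1, s.1⟫ ≤ ε} := by
      rw [Fintype.sum_prod_type]
      refine Finset.sum_le_sum fun z _ => ?_
      rw [Fintype.sum_option, law_none, OO_none]
      exact le_self_add
    refine le_trans ?_ h1
    -- near and far
    have hmeas : MeasurableSet {v : Sph d | Real.arccos ⟪v.1, s.1⟫ ≤ ε} := by
      have h1 : Measurable (fun v : Sph d => ⟪(v.1 : E d), (s.1 : E d)⟫) :=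
        measurable_subtype_coe.inner measurable_const
      exact measurableSet_le (Real.measurable_arccos.comp h1) measurable_const
    have hnear : ∀ z, ‖dec z - s.1‖ ≤ ε / 4 →
        L.out T z {v | Real.arccos ⟪v.1, s.1⟫ ≤ ε} = 1 := by
      intro z hz
      show Measure.dirac (nrm v0 (dec z)) _ = 1
      rw [Measure.dirac_apply' _ hmeas, Set.indicator_of_mem]
      · rfl
      · exact angle v0 (dec z) s.1 hs ε hz
    have hsplit : ∀ z, Fp L s.1 T (z, false)
        ≤ Fp L s.1 T (z, false) * L.out T z {v | Real.arccos ⟪v.1, s.1⟫ ≤ ε}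
          + ENNReal.ofReal (4 / ε) *
            (Fp L s.1 T (z, false) * ENNReal.ofReal ‖dec z - s.1‖) := by
      intro z
      rcases le_or_gt ‖dec z - s.1‖ (ε / 4) with hz | hz
      · rw [hnear z hz, mul_one]
        exact le_self_add
      · refine le_trans ?_ le_add_self
        have e1 : (1 : ℝ≥0∞) ≤ ENNReal.ofReal (4 / ε) * ENNReal.ofReal ‖dec z - s.1‖ := by
          rw [← ENNReal.ofReal_mul (by positivity), ← ENNReal.ofReal_one]
          apply ENNReal.ofReal_le_ofReal
          have : 1 = 4 / ε * (ε / 4) := by field_simp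
          rw [this]
          gcongr
        calc Fp L s.1 T (z, false) = 1 * Fp L s.1 T (z, false) := (one_mul _).symm
          _ ≤ (ENNReal.ofReal (4 / ε) * ENNReal.ofReal ‖dec z - s.1‖) *
              Fp L s.1 T (z, false) := by gcongr
          _ = _ := by ring
    have h2 : (1 : ℝ≥0∞) ≤ ∑ z, Fp L s.1 T (z, false) *
        L.out T z {v | Real.arccos ⟪v.1, s.1⟫ ≤ ε} + ENNReal.ofReal (1 / 3) := by
      calc (1 : ℝ≥0∞) = ∑ z, Fp L s.1 T (z, false) := (sum_one v0 enc henc dec s.1 T).symm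
        _ ≤ ∑ z, (Fp L s.1 T (z, false) * L.out T z {v | Real.arccos ⟪v.1, s.1⟫ ≤ ε}
          + ENNReal.ofReal (4 / ε) *
            (Fp L s.1 T (z, false) * ENNReal.ofReal ‖dec z - s.1‖)) :=
            Finset.sum_le_sum fun z _ => hsplit z
        _ = ∑ z, Fp L s.1 T (z, false) * L.out T z {v | Real.arccos ⟪v.1, s.1⟫ ≤ ε}
            + ENNReal.ofReal (4 / ε) *
            ∑ z, (Fp L s.1 T (z, false) * ENNReal.ofReal ‖dec z - s.1‖) := by
            rw [Finset.sum_add_distrib, Finset.mul_sum]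
        _ ≤ ∑ z, Fp L s.1 T (z, false) * L.out T z {v | Real.arccos ⟪v.1, s.1⟫ ≤ ε}
            + ENNReal.ofReal (4 / ε) * ENNReal.ofReal (ε / 12) := by gcongr
        _ = _ := by
            rw [← ENNReal.ofReal_mul (by positivity)]
            congr 2
            field_simp
            norm_num
    have h3 : ENNReal.ofReal (2 / 3) + ENNReal.ofReal (1 / 3) = 1 := by
      rw [← ENNReal.ofReal_add (by norm_num) (by norm_num)]
      norm_num
    rw [← h3] at h2
    exact (ENNReal.add_le_add_iff_right ENNReal.ofReal_ne_top).1 h2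
  calc ENNReal.ofReal (2 / 3) = ∫⁻ _ : Sph d, ENNReal.ofReal (2 / 3) ∂(unifSphere d) := by simp
    _ ≤ _ := lintegral_mono hpt

end P309
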