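import Mathlib

/-! P309, row U4: choice of the parameters of the rounded Kaczmarz learner. -/

namespace P309

/-- U4: choice of the parameters -/
theorem kaczmarz_params (c : ℝ) (hc : 0 < c) (hc1 : c ≤ 1 / 2) : ∃ C : ℝ, 0 < C ∧
    ∀ (d : ℕ), 2 ≤ d → ∀ ε : ℝ, 0 < ε → ε ≤ 1 / 2 → ∀ M : ℝ, C * d * Real.log (d / ε) ≤ M →
    ∃ (T : ℕ) (δ : ℝ), 0 < δ ∧ (T : ℝ) ≤ C * d * Real.log (1 / ε) ∧
      (1 - c / d) ^ T * (1 + δ) + d / c * δ ≤ ε / 12 ∧
      (2 * Real.sqrt d / δ + 2) ^ d ≤ (2 : ℝ) ^ M := by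
  have hl98 : 0 ≤ Real.log (98 / c) := Real.log_nonneg (by rw [le_div_iff₀ hc]; linarith)
  refine ⟨8 / c + 2 * (Real.log (98 / c) + 2), by positivity, ?_⟩
  intro d hd ε hε hε1 M hM
  have hd2 : (2 : ℝ) ≤ d := by exact_mod_cast hd
  have hd0 : (0 : ℝ) < d := by linarith
  have hlog2 : (0.69 : ℝ) < Real.log 2 := by linarith [Real.log_two_gt_d9]
  have hle : (0.69 : ℝ) ≤ Real.log (1 / ε) := by
    refine hlog2.le.trans (Real.log_le_log (by norm_num) ?_)
    rw [le_div_iff₀ hε]; linarith
  have h48 : Real.log 48 ≤ 4 := by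
    rw [Real.log_le_iff_le_exp (by norm_num)]
    have h1 : (2.7 : ℝ) < Real.exp 1 := by linarith [Real.exp_one_gt_d9]
    have h2 : Real.exp 4 = (Real.exp 1) ^ 4 := by rw [← Real.exp_nat_mul]; norm_num
    rw [h2]
    calc (48 : ℝ) ≤ 2.7 ^ 4 := by norm_num
      _ ≤ (Real.exp 1) ^ 4 := by gcongr
  have hl48 : Real.log (48 / ε) = Real.log 48 + Real.log (1 / ε) := by
    rw [← Real.log_mul (by norm_num) (by positivity)]
    congr 1
    ring
  have hdc : 4 ≤ (d : ℝ) / c := by rw [le_div_iff₀ hc]; linarith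
  have hdc0 : 0 < (d : ℝ) / c := by linarith
  refine ⟨⌈(d / c) * Real.log (48 / ε)⌉₊, c * ε / (48 * d), by positivity, ?_, ?_, ?_⟩
  · -- number of samples
    have hnn : 0 ≤ (d / c) * Real.log (48 / ε) := by
      rw [hl48]
      have : 0 ≤ Real.log (48 : ℝ) := Real.log_nonneg (by norm_num)
      positivity
    have h1 := (Nat.ceil_lt_add_one hnn).le
    refine h1.trans ?_
    rw [hl48]
    have h2 : (d / c) * (Real.log 48 + Real.log (1 / ε)) + 1
        ≤ (d / c) * (8 * Real.log (1 / ε)) := by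
      have h3 : Real.log 48 + Real.log (1 / ε) ≤ 7 * Real.log (1 / ε) := by linarith
      have h4 : 1 ≤ (d / c) * Real.log (1 / ε) := by nlinarith
      nlinarith
    refine h2.trans ?_
    have h5 : (d / c) * (8 * Real.log (1 / ε)) = 8 / c * d * Real.log (1 / ε) := by ring
    rw [h5]
    gcongr
    have : 0 ≤ 2 * (Real.log (98 / c) + 2) := by positivity
    linarith
  · -- the error
    have h0 : 0 ≤ 1 - c / (d : ℝ) := by
      have : c / (d : ℝ) ≤ 1 := by rw [div_le_one hd0]; linarith
      linarith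
    have h1 : (1 - c / (d : ℝ)) ^ ⌈(d / c) * Real.log (48 / ε)⌉₊ ≤ ε / 48 := by
      have h2 : 1 - c / (d : ℝ) ≤ Real.exp (-(c / d)) := by
        have := Real.add_one_le_exp (-(c / (d : ℝ)))
        linarith
      calc (1 - c / (d : ℝ)) ^ ⌈(d / c) * Real.log (48 / ε)⌉₊
          ≤ (Real.exp (-(c / d))) ^ ⌈(d / c) * Real.log (48 / ε)⌉₊ := by gcongr
        _ = Real.exp (⌈(d / c) * Real.log (48 / ε)⌉₊ * (-(c / d))) := by
            rw [← Real.exp_nat_mul]
        _ ≤ Real.exp (-Real.log (48 / ε)) := by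
            apply Real.exp_le_exp.2
            have h3 := Nat.le_ceil ((d / c) * Real.log (48 / ε))
            have h4 : (d / c) * Real.log (48 / ε) * (c / d) = Real.log (48 / ε) := by
              field_simp
            have h5 : (d / c) * Real.log (48 / ε) * (c / d)
                ≤ ⌈(d / c) * Real.log (48 / ε)⌉₊ * (c / d) := by gcongr
            linarith
        _ = ε / 48 := by
            rw [Real.exp_neg, Real.exp_log (by positivity), inv_div]
    have h6 : c * ε / (48 * d) ≤ 1 := by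
      rw [div_le_one (by positivity)]
      nlinarith
    have h7 : d / c * (c * ε / (48 * d)) = ε / 48 := by field_simp
    rw [h7]
    have h8 : (1 - c / (d : ℝ)) ^ ⌈(d / c) * Real.log (48 / ε)⌉₊ * (1 + c * ε / (48 * d))
        ≤ ε / 48 * 2 := by
      refine mul_le_mul h1 (by linarith) (by positivity) (by positivity)
    linarith
  · -- the size of the grid
    have hlde : 0.69 ≤ Real.log (d / ε) := by
      refine hle.trans (Real.log_le_log (by positivity) ?_)
      gcongr
      linarith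
    have hlde1 : 1 ≤ Real.log (d / ε) := by
      have h4 : Real.log 4 = 2 * Real.log 2 := by
        rw [show (4 : ℝ) = 2 ^ 2 by norm_num, Real.log_pow]; norm_num
      have : Real.log 4 ≤ Real.log (d / ε) := by
        refine Real.log_le_log (by norm_num) ?_
        rw [le_div_iff₀ hε]; linarith
      linarith
    have h1 : 2 * Real.sqrt d / (c * ε / (48 * d)) + 2 ≤ 98 / c * (d / ε) ^ 2 := by
      have hs : Real.sqrt d ≤ d := by
        rw [Real.sqrt_le_left hd0.le]
        nlinarith
      have e1 : 2 * Real.sqrt d / (c * ε / (48 * d)) = 96 * Real.sqrt d * d / (c * ε) := by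
        field_simp
        norm_num
      have e2 : 96 * Real.sqrt d * d / (c * ε) ≤ 96 / c * (d / ε) ^ 2 := by
        have : 96 / c * ((d : ℝ) / ε) ^ 2 = 96 * d * d / (c * ε) * (1 / ε) := by
          field_simp
        rw [this]
        have h1e : 1 ≤ 1 / ε := by rw [le_div_iff₀ hε]; linarith
        calc 96 * Real.sqrt d * d / (c * ε) ≤ 96 * d * d / (c * ε) * 1 := by
              rw [mul_one]; gcongr
          _ ≤ 96 * d * d / (c * ε) * (1 / ε) := by gcongr
      have e3 : 2 ≤ 2 / c * ((d : ℝ) / ε) ^ 2 := by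
        have a1 : 1 ≤ (d : ℝ) / ε := by rw [le_div_iff₀ hε]; linarith
        have a2 : 2 ≤ 2 / c := by rw [le_div_iff₀ hc]; linarith
        have a3 : 1 ≤ ((d : ℝ) / ε) ^ 2 := one_le_pow₀ a1
        nlinarith
      rw [e1]
      calc 96 * Real.sqrt d * d / (c * ε) + 2 ≤ 96 / c * (d / ε) ^ 2 + 2 / c * (d / ε) ^ 2 :=
            add_le_add e2 e3
        _ = 98 / c * (d / ε) ^ 2 := by ring
    have h2 : (2 * Real.sqrt d / (c * ε / (48 * d)) + 2) ^ d ≤ (98 / c * (d / ε) ^ 2) ^ d :=
      pow_le_pow_left₀ (by positivity) h1 d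
    refine h2.trans ?_
    have h3 : (98 / c * ((d : ℝ) / ε) ^ 2) ^ d
        = Real.exp (d * (Real.log (98 / c) + 2 * Real.log (d / ε))) := by
      have : Real.log (98 / c) + 2 * Real.log (d / ε) = Real.log (98 / c * (d / ε) ^ 2) := by
        rw [Real.log_mul (by positivity) (by positivity), Real.log_pow]
        norm_num
      rw [this, Real.exp_nat_mul, Real.exp_log (by positivity)]
    rw [h3, Real.rpow_def_of_pos (by norm_num : (0 : ℝ) < 2)]
    apply Real.exp_le_exp.2
    have h4 : (d : ℝ) * (Real.log (98 / c) + 2 * Real.log (d / ε))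
        ≤ d * ((Real.log (98 / c) + 2) * Real.log (d / ε)) := by
      gcongr
      nlinarith
    refine h4.trans ?_
    have h5 : Real.log 2 * ((8 / c + 2 * (Real.log (98 / c) + 2)) * d * Real.log (d / ε))
        ≤ Real.log 2 * M := by gcongr
    refine le_trans ?_ h5
    have h6 : (d : ℝ) * ((Real.log (98 / c) + 2) * Real.log (d / ε))
        = (Real.log (98 / c) + 2) * (d * Real.log (d / ε)) := by ring
    have h7 : Real.log 2 * ((8 / c + 2 * (Real.log (98 / c) + 2)) * d * Real.log (d / ε))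
        = (Real.log 2 * (8 / c + 2 * (Real.log (98 / c) + 2))) * (d * Real.log (d / ε)) := by ring
    rw [h6, h7]
    gcongr
    have h8 : 0 < 8 / c := by positivity
    nlinarith

end P309
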