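import Vale.Agent.H20.P309.Reduce
import Vale.Agent.H20.P309.L12

/-! # V: counting bound for outputs that do not depend on the stopping index -/

open MeasureTheory ProbabilityTheory
open scoped RealInnerProductSpace ENNReal

namespace P309

open MemLearner

theorem V.unif_prob (d : ℕ) (hd : 2 ≤ d) : IsProbabilityMeasure (unifSphere d) := by
  have : Nontrivial (E d) := by
    have : Nontrivial (Fin d) := Fin.nontrivial_iff_two_le.2 hd
    infer_instance
  have h0 : (volume : Measure (E d)).toSphere Set.univ ≠ 0 := by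
    rw [Ne, Measure.measure_univ_eq_zero]
    exact Measure.toSphere_ne_zero _
  have h1 : (volume : Measure (E d)).toSphere Set.univ ≠ ⊤ := measure_ne_top _ _
  constructor
  unfold unifSphere normSurface
  rw [Measure.smul_apply, smul_eq_mul]
  exact ENNReal.inv_mul_cancel h0 h1

theorem V.pos_of_learner {d N : ℕ} (L : Learner d N) : 0 < N := by
  rcases Nat.eq_zero_or_pos N with h | h
  · subst h
    have := L.init_sum
    simp at this
  · exact h

/-- V: counting bound when the output does not depend on the stopping index -/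
theorem counting_free {d N T : ℕ} (hd : 2 ≤ d) (L : Learner d N) (hL : ∀ t t', L.out t = L.out t')
    (ε : ℝ) (hε : 0 < ε) (hsucc : ENNReal.ofReal (2 / 3) ≤ L.success T ε) :
    (d - 1) * Real.log (1 / ε) ≤ Real.log N + 4 * d := by
  have hprior := sph_prior d hd
  have := hprior.prob
  have := V.unif_prob d hd
  have hN : 0 < N := V.pos_of_learner L
  have hlm := meas_law (KK L T) (pp L T) (fun t z z' => KK_meas L T t z z') T
  have hls := law_sum (KK L T) (pp L T) (pp_sum L T) (fun t z z' => KK_meas L T t z z')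
    (KK_sum L T) T
  obtain ⟨g, hg⟩ : ∃ g : Fin N → E d → ℝ≥0∞, g = fun z s =>
    ∑ o : Option (Fin (T + 1)), law (KK L T) (pp L T) T s (z, o) := ⟨_, rfl⟩
  have hgm : ∀ z, Measurable (g z) := by
    intro z
    rw [hg]
    exact Finset.measurable_sum _ fun o _ => hlm (z, o)
  have hg1 : ∀ z s, g z s ≤ 1 := by
    intro z s
    rw [← hls s, Fintype.sum_prod_type, hg]
    exact Finset.single_le_sum
      (f := fun z => ∑ o : Option (Fin (T + 1)), law (KK L T) (pp L T) T s (z, o))
      (fun _ _ => by simp) (Finset.mem_univ z)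
  have hsum : L.success T ε = ∑ z, ∫⁻ s : Sph d, g z s.1 *
      L.out 0 z {v | Real.arccos ⟪v.1, s.1⟫ ≤ ε} ∂(unifSphere d) := by
    rw [success_eq, ← lintegral_finsetSum]
    · refine lintegral_congr fun s => ?_
      rw [Fintype.sum_prod_type]
      refine Finset.sum_congr rfl fun z _ => ?_
      rw [hg]
      simp only
      rw [Finset.sum_mul]
      refine Finset.sum_congr rfl fun o _ => ?_
      congr 1
      cases o with
      | none => rw [OO_none, hL T 0]
      | some i => rw [OO_some, hL i.val 0]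
    · intro z _
      have := L.out_prob 0 z
      exact ((hgm z).comp measurable_subtype_coe).mul (meas_cap (L.out 0 z) ε)
  have hw : ∀ z : Fin N, ∫⁻ s : Sph d, g z s.1 *
      L.out 0 z {v | Real.arccos ⟪v.1, s.1⟫ ≤ ε} ∂(unifSphere d) ≤
      ENNReal.ofReal ((16 : ℝ) ^ d * ε ^ (d - 1)) := by
    intro z
    have := L.out_prob 0 z
    obtain ⟨v, hv⟩ := centre_lemma (g z) (hgm z) (hg1 z) (L.out 0 z) ε
    refine hv.trans ?_
    calc ∫⁻ s in Metric.closedBall v.1 ε, g z s ∂(sph d)
        ≤ ∫⁻ s in Metric.closedBall v.1 ε, 1 ∂(sph d) := lintegral_mono fun s => hg1 z s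
      _ = sph d (Metric.closedBall v.1 ε) := by simp
      _ ≤ _ := hprior.ball v.1 ε hε
  have h1 : L.success T ε ≤ (N : ℕ) * ENNReal.ofReal ((16 : ℝ) ^ d * ε ^ (d - 1)) := by
    rw [hsum]
    refine (Finset.sum_le_sum fun z _ => hw z).trans ?_
    rw [Finset.sum_const, Finset.card_univ, Fintype.card_fin, nsmul_eq_mul]
  have h2 : ENNReal.ofReal (2 / 3)
      ≤ ENNReal.ofReal ((N : ℕ) * ((16 : ℝ) ^ d * ε ^ (d - 1))) := by
    rw [ENNReal.ofReal_mul (Nat.cast_nonneg _), ENNReal.ofReal_natCast]
    exact hsucc.trans h1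
  rw [ENNReal.ofReal_le_ofReal_iff (by positivity)] at h2
  have h3 := Real.log_le_log (by norm_num) h2
  have hNT : (0 : ℝ) < (N : ℝ) := by exact_mod_cast hN
  rw [Real.log_mul hNT.ne' (by positivity), Real.log_mul (by positivity) (by positivity),
    Real.log_pow, Real.log_pow] at h3
  have h4 : Real.log 16 ≤ 3 := by
    have h41 : Real.log 16 = 4 * Real.log 2 := by
      rw [show (16 : ℝ) = 2 ^ 4 by norm_num, Real.log_pow]; norm_num
    have := Real.log_two_lt_d9
    rw [h41]; linarith
  have h5 : -1 ≤ Real.log (2 / 3) := by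
    have h51 : Real.log (2 / 3) = - Real.log (3 / 2) := by
      rw [← Real.log_inv]; norm_num
    have := Real.log_le_sub_one_of_pos (by norm_num : (0 : ℝ) < 3 / 2)
    rw [h51]; linarith
  have h6 : Real.log (1 / ε) = - Real.log ε := by rw [one_div, Real.log_inv]
  have h7 : ((d - 1 : ℕ) : ℝ) = (d : ℝ) - 1 := by
    rw [Nat.cast_sub (by omega)]; simp
  have hd1 : (1 : ℝ) ≤ d := by exact_mod_cast (by omega : 1 ≤ d)
  rw [h7] at h3
  rw [h6]
  have h8 : (d : ℝ) * Real.log 16 ≤ d * 3 := by gcongr
  nlinarith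

end P309
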