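import Vale.Agent.H20.P309.Final
import Vale.Agent.H20.P309.U1
import Vale.Agent.H20.P309.U2
import Vale.Agent.H20.P309.U3
import Vale.Agent.H20.P309.U4s
import Vale.Agent.H20.P309.V

open MeasureTheory ProbabilityTheory
open scoped RealInnerProductSpace ENNReal

namespace P309

open MemLearner

theorem upper_bound : ∃ C : ℝ, 0 < C ∧ ∀ (d : ℕ), 2 ≤ d → ∀ ε : ℝ, 0 < ε → ε ≤ 1 / 2 →
    ∀ M : ℝ, d * Real.logb 2 (1 / ε) + C * d * Real.log d ≤ M → ∃ N T : ℕ, (N : ℝ) ≤ 2 ^ M ∧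
      (T : ℝ) ≤ C * d * Real.log (1 / ε) ∧
      ∃ L : Learner d N, (∀ t t', L.out t = L.out t') ∧
        ENNReal.ofReal (2 / 3) ≤ L.success T ε := by
  obtain ⟨c, hc, hc1, hk⟩ := kaczmarz_step
  obtain ⟨C, hC, h⟩ := kaczmarz_params_sharp c hc hc1
  refine ⟨C, hC, ?_⟩
  intro d hd ε hε hε1 M hM
  obtain ⟨T, δ, hδ, hT, hTδ, hN⟩ := h d hd ε hε hε1 M hM
  obtain ⟨N, enc, dec, hN', henc, hround⟩ := grid d (by omega) δ hδ
  obtain ⟨L, hL, hs⟩ := kaczmarz_learner d N hd enc henc dec c δ hc hc1 hδ hround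
    (hk d (by omega)) T ε hε hTδ
  exact ⟨N, T, hN'.trans hN, hT, L, hL, hs⟩

theorem memory_needed (d N T : ℕ) (hd : 2 ≤ d) (M : ℝ) (hN : (N : ℝ) ≤ 2 ^ M) (L : Learner d N)
    (hL : ∀ t t', L.out t = L.out t') (ε : ℝ) (hε : 0 < ε)
    (hs : ENNReal.ofReal (2 / 3) ≤ L.success T ε) :
    (d - 1) * Real.logb 2 (1 / ε) - 6 * d ≤ M := by
  have h1 := counting_free hd L hL ε hε hs
  have hNpos : (0 : ℝ) < N := by exact_mod_cast pos_of_learner L
  have h2 : Real.log N ≤ Real.log ((2 : ℝ) ^ M) := Real.log_le_log hNpos hN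
  rw [Real.log_rpow (by norm_num)] at h2
  have hl2 := Real.log_two_gt_d9
  have hl : 0 < Real.log 2 := by linarith
  have h3 : (d - 1) * Real.log (1 / ε) ≤ M * Real.log 2 + 4 * d := by linarith
  rw [Real.logb, sub_le_iff_le_add]
  have h4 : ((d : ℝ) - 1) * (Real.log (1 / ε) / Real.log 2)
      = ((d - 1) * Real.log (1 / ε)) / Real.log 2 := by ring
  rw [h4, div_le_iff₀ hl]
  have h5 : (0 : ℝ) ≤ d := Nat.cast_nonneg d
  nlinarith

end P309
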